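import Vale.Agent.P196.QLBasic

/-! P196 task J: a compatible quantum tiling is a finitely additive function on clopen sets. -/

namespace Vale.Agent.P196

variable {W : Wang} {Ω : Type} [QL Ω]

/-- `g` lies below the pattern `u` on the window `F` -/
def alphaAux_Bel (R : Rep W Ω) (g : Ω) (F : Finset Z2) (u : Z2 → W.A) : Prop :=
  ∀ z ∈ F, Le g ((R.q z).p (u z))

/-- `f` is covered by pieces lying below patterns whose cylinders are contained in `U` -/
def alphaAux_Fo (R : Rep W Ω) (f : Ω) (U : Set W.X) : Prop :=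
  Cov f fun g => ∃ F u, alphaAux_Bel R g F u ∧ ∀ x : W.X, (∀ z ∈ F, x.1 z = u z) → x ∈ U

theorem alphaAux_step {A : Type} [Fintype A] (P : PVM A Ω) {g : Ω} (h : ∀ a, Compat (P.p a) g) :
    ∃ x1 x2 : A → Ω, IsPart g Finset.univ x1 ∧
      ∀ a, IsSum g (x1 a) (x2 a) ∧ Le (x1 a) (P.p a) ∧ perp (x2 a) (P.p a) := by
  choose x1 x2 hx using fun a => (h a).symm
  have ho : ∀ i ∈ (Finset.univ : Finset A), ∀ j ∈ (Finset.univ : Finset A), i ≠ j →
      perp (x1 i) (x1 j) := fun i _ j _ hij => perp_of_le (P.orth hij) (hx i).2.1 (hx j).2.1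
  refine ⟨x1, x2, ⟨ho, fun c => ⟨fun hc a _ => (hx a).1.left c hc, fun hc => ?_⟩⟩, hx⟩
  obtain ⟨s, hs⟩ := exists_isPart ho
  obtain ⟨d, hd⟩ := QL.diff (hs.le_of fun a _ => (hx a).1.left)
  have h1 : perp d (Orth.top : Ω) := P.cover d fun a =>
    perp_of_le (hx a).2.2 ((hx a).1.symm.cancel hd.right
      (hs.le (Finset.mem_univ a) d (perp_symm hd.1))) (Le.refl _)
  exact (hd.2 c).2 ⟨(hs.2 c).2 hc, QL.null c (QL.top_perp d h1)⟩

theorem alphaAux_res (R : Rep W Ω) (hR : ∀ z a z' a', Compat ((R.q z).p a) ((R.q z').p a'))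
    (F : Finset Z2) : Cov (Orth.top : Ω) fun g =>
      (∃ u, alphaAux_Bel R g F u) ∧ ∀ z a, Compat ((R.q z).p a) g := by
  induction F using Finset.induction_on with
  | empty =>
    refine ⟨W.A, Finset.univ, (R.q 0).p, (R.q 0).isPart, fun a _ => ⟨⟨fun _ => a, ?_⟩, ?_⟩⟩
    · intro z hz
      exact absurd hz (Finset.notMem_empty z)
    · exact fun z' a' => hR z' a' 0 a
  | insert z0 F hz0 ih =>
    refine ih.trans fun g _ hg => ?_
    obtain ⟨⟨u, hu⟩, hc⟩ := hg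
    obtain ⟨x1, x2, hp, hx⟩ := alphaAux_step (R.q z0) (hc z0)
    refine ⟨W.A, Finset.univ, x1, hp, fun a _ => ⟨⟨Function.update u z0 a, fun z hz => ?_⟩, ?_⟩⟩
    · rcases Finset.mem_insert.1 hz with h | h
      · rw [h, Function.update_self]
        exact (hx a).2.1
      · rw [Function.update_of_ne fun e : z = z0 => hz0 (e ▸ h)]
        exact (hx a).1.left.trans (hu z h)
    · intro z' a'
      obtain ⟨q', hq'⟩ := QL.diff (hx a).2.1
      exact QL.reg (hc z' a') (hR z' a' z0 a) (hx a).1 hq' (hx a).2.2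

theorem alphaAux_compact (F F' : Finset Z2) (u v : Z2 → W.A)
    (h : ∀ x : W.X, (∀ z ∈ F, x.1 z = u z) → (∀ z ∈ F', x.1 z = v z) → False) :
    ∃ G : Finset Z2, ∀ w : Z2 → W.A, (∀ z ∈ F, w z = u z) → (∀ z ∈ F', w z = v z) →
      ∃ z d, z ∈ G ∧ z + ev d ∈ G ∧ W.out d (w z) ≠ W.inn d (w (z + ev d)) := by
  have hc : ∀ (H : Finset Z2) (t : Z2 → W.A), IsClosed {w : Z2 → W.A | ∀ z ∈ H, w z = t z} := by
    intro H t
    simp only [Set.ofPred_forall]
    refine isClosed_iInter fun z => isClosed_iInter fun _ => ?_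
    have h1 : Continuous fun x : Z2 → W.A => x z := continuous_apply z
    exact (isClosed_discrete {t z}).preimage h1
  have hK := ((hc F u).inter (hc F' v)).isCompact
  obtain ⟨t, ht⟩ := hK.elim_finite_subcover
    (fun e : Z2 × Bool => {w : Z2 → W.A | W.out e.2 (w e.1) ≠ W.inn e.2 (w (e.1 + ev e.2))})
    (fun e => by
      have h1 : Continuous fun x : Z2 → W.A => (x e.1, x (e.1 + ev e.2)) :=
        (continuous_apply e.1).prodMk (continuous_apply (e.1 + ev e.2))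
      exact (isOpen_discrete {p : W.A × W.A | W.out e.2 p.1 ≠ W.inn e.2 p.2}).preimage h1)
    (fun w hw => by
      by_contra hn
      refine h ⟨w, fun z d => ?_⟩ hw.1 hw.2
      by_contra hne
      exact hn (Set.mem_iUnion.2 ⟨(z, d), hne⟩))
  refine ⟨t.image Prod.fst ∪ t.image fun e => e.1 + ev e.2, fun w h1 h2 => ?_⟩
  obtain ⟨e, he, h3⟩ := Set.mem_iUnion₂.1 (ht ⟨h1, h2⟩)
  exact ⟨e.1, e.2, Finset.mem_union_left _ (Finset.mem_image_of_mem _ he),
    Finset.mem_union_right _ (Finset.mem_image_of_mem _ he), h3⟩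

theorem alphaAux_orth (R : Rep W Ω) (hR : ∀ z a z' a', Compat ((R.q z).p a) ((R.q z').p a'))
    {f g : Ω} {U V : Set W.X} (hf : alphaAux_Fo R f U) (hg : alphaAux_Fo R g V)
    (hd : Disjoint U V) : perp f g := by
  refine Cov.perp_left (Cov.imp hf fun g1 _ h1 => perp_symm ?_)
  refine Cov.perp_left (Cov.imp hg fun g2 _ h2 => perp_symm ?_)
  obtain ⟨F, u, hu, hU⟩ := h1
  obtain ⟨F', v, hv, hV⟩ := h2
  obtain ⟨G, hG⟩ := alphaAux_compact F F' u v fun x h3 h4 =>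
    Set.disjoint_left.1 hd (hU x h3) (hV x h4)
  have hc : Cov (Orth.top : Ω) fun g => perp g g1 ∨ perp g g2 := by
    refine Cov.imp (alphaAux_res R hR (G ∪ (F ∪ F'))) fun g _ h3 => ?_
    obtain ⟨⟨w, hw⟩, -⟩ := h3
    by_cases h4 : ∀ z ∈ F, w z = u z
    · by_cases h5 : ∀ z ∈ F', w z = v z
      · obtain ⟨z, d, h6, h7, h8⟩ := hG w h4 h5
        exact Or.inl (null_perp (perp_of_le (R.edge z d _ _ h8)
          (hw z (Finset.mem_union_left _ h6)) (hw _ (Finset.mem_union_left _ h7))) _)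
      · obtain ⟨z, h6⟩ := not_forall.1 h5
        obtain ⟨h7, h8⟩ := Classical.not_imp.1 h6
        exact Or.inr (perp_of_le ((R.q z).orth h8)
          (hw z (Finset.mem_union_right _ (Finset.mem_union_right _ h7))) (hv z h7))
    · obtain ⟨z, h6⟩ := not_forall.1 h4
      obtain ⟨h7, h8⟩ := Classical.not_imp.1 h6
      exact Or.inl (perp_of_le ((R.q z).orth h8)
        (hw z (Finset.mem_union_right _ (Finset.mem_union_left _ h7))) (hu z h7))
  obtain ⟨f1, f2, hs, h3, h4⟩ := hc.split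
  exact perp_of_le h4.perp_left (hs.symm.cancel (le_top' _) (perp_symm h3.perp_left)) (Le.refl _)

theorem alphaAux_cyl {U : Set W.X} {r : ℕ} (hr : ∀ x y, Agree x y r → (x ∈ U ↔ y ∈ U))
    (u : Z2 → W.A) : (∀ x : W.X, (∀ z ∈ basicAux_box r, x.1 z = u z) → x ∈ U) ∨
      ∀ x : W.X, (∀ z ∈ basicAux_box r, x.1 z = u z) → x ∉ U := by
  by_cases h : ∃ y : W.X, (∀ z ∈ basicAux_box r, y.1 z = u z) ∧ y ∈ U
  · obtain ⟨y, h1, h2⟩ := h
    exact Or.inl fun x hx => (hr x y fun w h3 h4 =>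
      (hx w (basicAux_mem_box.2 ⟨h3, h4⟩)).trans (h1 w (basicAux_mem_box.2 ⟨h3, h4⟩)).symm).2 h2
  · exact Or.inr fun x hx hU => h ⟨x, hx, hU⟩

theorem alphaAux_ex (R : Rep W Ω) (hR : ∀ z a z' a', Compat ((R.q z).p a) ((R.q z').p a'))
    {U : Set W.X} (hU : IsClopen U) :
    ∃ f f', IsSum (Orth.top : Ω) f f' ∧ alphaAux_Fo R f U ∧ alphaAux_Fo R f' Uᶜ := by
  obtain ⟨r, hr⟩ := isClopen_iff.1 hU
  refine Cov.split (Cov.imp (alphaAux_res R hR (basicAux_box r)) fun g _ h3 => ?_)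
  obtain ⟨⟨w, hw⟩, -⟩ := h3
  exact (alphaAux_cyl hr w).imp (fun h => ⟨_, w, hw, h⟩) fun h => ⟨_, w, hw, h⟩

theorem exists_alpha (R : Rep W Ω) (hR : ∀ z a z' a', Compat ((R.q z).p a) ((R.q z').p a')) :
    ∃ α : Set W.X → Ω,
      (∀ U V, IsClopen U → IsClopen V → Disjoint U V → IsSum (α (U ∪ V)) (α U) (α V)) ∧
      Le Orth.top (α Set.univ) ∧
      ∀ z a, Le (α {x | x.1 z = a}) ((R.q z).p a) ∧ Le ((R.q z).p a) (α {x | x.1 z = a}) := by
  have h0 : ∀ U : Set W.X, ∃ f f', IsClopen U →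
      IsSum (Orth.top : Ω) f f' ∧ alphaAux_Fo R f U ∧ alphaAux_Fo R f' Uᶜ := by
    intro U
    by_cases hU : IsClopen U
    · obtain ⟨f, f', h⟩ := alphaAux_ex R hR hU
      exact ⟨f, f', fun _ => h⟩
    · exact ⟨Orth.top, Orth.top, fun h => absurd h hU⟩
  choose α β h using h0
  have hmax : ∀ U, IsClopen U → ∀ f, alphaAux_Fo R f U → Le f (α U) := fun U hU f hf =>
    (h U hU).1.cancel (le_top' _) (alphaAux_orth R hR hf (h U hU).2.2 disjoint_compl_right)
  have hmono : ∀ {f : Ω} {U V : Set W.X}, U ⊆ V → alphaAux_Fo R f U → alphaAux_Fo R f V :=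
    fun hUV hf => Cov.imp hf fun g _ ⟨F, u, h1, h2⟩ => ⟨F, u, h1, fun x hx => hUV (h2 x hx)⟩
  have hsite : ∀ z a, alphaAux_Fo R ((R.q z).p a) {x | x.1 z = a} := fun z a =>
    Cov.refl ⟨{z}, fun _ => a, fun z' hz' => by
      rw [Finset.mem_singleton.1 hz']
      exact Le.refl _, fun x hx => hx z (Finset.mem_singleton_self z)⟩
  refine ⟨α, fun U V hU hV hd => ?_, ?_, fun z a => ⟨?_, hmax _ (isClopen_site z a) _ (hsite z a)⟩⟩
  · have hp := alphaAux_orth R hR (h U hU).2.1 (h V hV).2.1 hd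
    have l1 := hmax _ (hU.union hV) _ (hmono Set.subset_union_left (h U hU).2.1)
    have l2 := hmax _ (hU.union hV) _ (hmono Set.subset_union_right (h V hV).2.1)
    refine ⟨hp, fun c => ⟨fun hc => ⟨l1 c hc, l2 c hc⟩, fun hc => ?_⟩⟩
    obtain ⟨r, hr⟩ := isClopen_iff.1 hU
    obtain ⟨r', hr'⟩ := isClopen_iff.1 hV
    have hc' : Cov (Orth.top : Ω) fun g => perp g c ∨ ∃ F u, alphaAux_Bel R g F u ∧
        ∀ x : W.X, (∀ z ∈ F, x.1 z = u z) → x ∈ (U ∪ V)ᶜ := by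
      refine Cov.imp (alphaAux_res R hR (basicAux_box (max r r'))) fun g _ h3 => ?_
      obtain ⟨⟨w, hw⟩, -⟩ := h3
      rcases alphaAux_cyl (fun x y hxy => hr x y (hxy.mono (le_max_left r r'))) w with h4 | h4
      · exact Or.inl (perp_symm (hmax U hU g (Cov.refl ⟨_, w, hw, h4⟩) c hc.1))
      · rcases alphaAux_cyl (fun x y hxy => hr' x y (hxy.mono (le_max_right r r'))) w with h5 | h5
        · exact Or.inl (perp_symm (hmax V hV g (Cov.refl ⟨_, w, hw, h5⟩) c hc.2))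
        · exact Or.inr ⟨_, w, hw, fun x hx hx' => hx'.elim (h4 x hx) (h5 x hx)⟩
    obtain ⟨f1, f2, hs, h3, h4⟩ := hc'.split
    exact hs.cancel (le_top' _)
      (alphaAux_orth R hR (h _ (hU.union hV)).2.1 h4 disjoint_compl_right) c
      (perp_symm h3.perp_left)
  · exact hmax _ isClopen_univ _ (Cov.imp (alphaAux_res R hR ∅) fun g _ ⟨⟨u, hu⟩, _⟩ =>
      ⟨∅, u, hu, fun _ _ => Set.mem_univ _⟩)
  · refine (R.q z).isPart.cancel (le_top' _) fun a' _ ha' => ?_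
    refine alphaAux_orth R hR (h _ (isClopen_site z a)).2.1 (hsite z a') ?_
    exact Set.disjoint_left.2 fun x h1 h2 => ha' (Eq.trans (Eq.symm h2) h1)

end Vale.Agent.P196
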