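import Vale.Agent.P196.HierBasic

/-! P196: amenability in dual Reiter form, product measures, cuts. -/

namespace Vale.Agent.P196

open Pointwise

/-- The elements of `H` almost fix finitely supported probability measures on `C`. -/
def AmOn {G Y : Type} [Group G] [MulAction G Y] (H : Subgroup G) (C : Set Y) : Prop :=
  ∀ Kf : Finset G, (∀ g ∈ Kf, g ∈ H) → ∀ ε : ℝ, 0 < ε →
    ∃ (Ξ : Type) (s : Finset Ξ) (w : Ξ → ℝ) (S : Ξ → Y), (∀ ξ ∈ s, 0 ≤ w ξ) ∧
      ∑ ξ ∈ s, w ξ = 1 ∧ (∀ ξ ∈ s, S ξ ∈ C) ∧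
      ∀ g ∈ Kf, ∀ F : Y → ℝ, (∀ y, |F y| ≤ 1) →
        |∑ ξ ∈ s, w ξ * F (g • S ξ) - ∑ ξ ∈ s, w ξ * F (S ξ)| ≤ ε

/-- amenability of a subgroup -/
def Am {G : Type} [Group G] (H : Subgroup G) : Prop := AmOn H (H : Set G)

section Bern
variable {A : Type}

open Classical in
/-- product weight: the atom `a` is chosen with probability `sin (θ a) ^ 2` -/
noncomputable def bw (θ : A → ℝ) (A0 T : Finset A) : ℝ :=
  ∏ a ∈ A0, if a ∈ T then Real.sin (θ a) ^ 2 else Real.cos (θ a) ^ 2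

/-- the chosen atoms together with the sure atoms -/
def full (θ : A → ℝ) (A0 T : Finset A) : Set A := {a | a ∈ T ∨ (a ∉ A0 ∧ θ a = Real.pi / 2)}

/-- expectation over the random set of atoms -/
noncomputable def Ex (θ : A → ℝ) (A0 : Finset A) (Φ : Set A → ℝ) : ℝ :=
  ∑ T ∈ A0.powerset, bw θ A0 T * Φ (full θ A0 T)

end Bern

variable {W : Wang} {K : ℕ}

/-- cuts of parity `e`: half spaces up to a bounded, locally determined change -/
def Hier.Cut (h : Hier W K) (e : ℕ) : Set (Set W.Pt) :=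
  {S | ∃ (N : ℤ) (ρ : ℕ), (∀ p ∈ S, ∃ t, h.Ht e p.1 t ∧ -N ≤ t) ∧
    (∀ (p : W.Pt) t, h.Ht e p.1 t → N ≤ t → p ∈ S) ∧
    ∀ x y (i : I) t, h.Ht e x t → h.Ht e y t → Agree x y ρ → ((x, i) ∈ S ↔ (y, i) ∈ S)}

/-- bounded locally constant functions on the points -/
def Mk (m : W.Pt → ℤ) : Prop :=
  ∃ (N : ℤ) (ρ : ℕ), (∀ p, |m p| ≤ N) ∧ ∀ x y (i : I), Agree x y ρ → m (x, i) = m (y, i)

/-- the number of the strip of level `k`, corrected by `m`, that contains `pt b x` -/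
noncomputable def Hier.idx (h : Hier W K) (k : ℕ) (m : W.Pt → ℤ) (x : W.X) (b : B) : ℤ :=
  (h.res x k + co k b.1 + m (pt b x) - oo K 1 k) / ss K k

/-- `g` preserves the corrected strips of all deep levels of parity `e` -/
def Hier.Pres (h : Hier W K) (e : ℕ) (m : W.Pt → ℤ) (g : Equiv.Perm W.Pt) : Prop :=
  ∃ k0, ∀ k ≥ k0, k % 2 = e % 2 → ∀ x b, h.idx k m x (crd x g b) = h.idx k m x b

end Vale.Agent.P196
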