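import Vale.Agent.P196.AmDefs

/-! P196 task D: general facts on amenability. -/

namespace Vale.Agent.P196

open Pointwise

variable {G Y : Type} [Group G] [MulAction G Y]

/-- locally finite groups are amenable -/
theorem am_of_locfin {H : Subgroup G}
    (h : ∀ Kf : Finset G, (∀ g ∈ Kf, g ∈ H) →
      ((Subgroup.closure (Kf : Set G) : Subgroup G) : Set G).Finite) : Am H := by
  intro Kf hK ε hε
  classical
  have hL : ∀ x, x ∈ (h Kf hK).toFinset ↔ x ∈ Subgroup.closure (Kf : Set G) := fun x => by simp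
  have hc : (0 : ℝ) < (h Kf hK).toFinset.card := by
    exact_mod_cast Finset.card_pos.2 ⟨1, (hL 1).2 (one_mem _)⟩
  refine ⟨G, (h Kf hK).toFinset, fun _ => ((h Kf hK).toFinset.card : ℝ)⁻¹, id,
    fun _ _ => by positivity, by rw [Finset.sum_const, nsmul_eq_mul, mul_inv_cancel₀ hc.ne'],
    fun x hx => (Subgroup.closure_le H).2 (fun g hg => hK g hg) ((hL x).1 hx), fun g hg F _ => ?_⟩
  have hg' : g ∈ Subgroup.closure (Kf : Set G) := Subgroup.subset_closure hg
  have e : ∑ x ∈ (h Kf hK).toFinset, ((h Kf hK).toFinset.card : ℝ)⁻¹ * F (g • id x) =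
      ∑ x ∈ (h Kf hK).toFinset, ((h Kf hK).toFinset.card : ℝ)⁻¹ * F (id x) :=
    Finset.sum_bijective (fun x => g * x) (Group.mulLeft_bijective g)
      (fun x => by rw [hL, hL, Subgroup.mul_mem_cancel_left _ hg']) fun _ _ => rfl
  beta_reduce
  rw [e, sub_self, abs_zero]
  exact hε.le

/-- an amenable action with amenable stabilisers -/
theorem am_ext {H : Subgroup G} {C : Set Y} (h : AmOn H C)
    (hs : ∀ y ∈ C, Am (H ⊓ MulAction.stabilizer G y)) : Am H := by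
  intro Kf hK ε hε
  classical
  obtain ⟨Ξ, s, w, S, hw0, hw1, hSC, hinv⟩ := h Kf hK (ε / 2) (by positivity)
  have hbt : ∃ (b : Y → Y) (t : Y → G), (∀ y, t y ∈ H ∧ t y • b y = y) ∧
      ∀ y ∈ C, b y ∈ C ∧ ∀ g ∈ H, b (g • y) = b y := by
    let O : Y → Set Y := fun y => {o | o ∈ C ∧ ∃ t ∈ H, t • o = y}
    let b : Y → Y := fun y => if h : (O y).Nonempty then h.some else y
    have hb : ∀ y, ∃ t ∈ H, t • b y = y := by
      intro y
      by_cases h : (O y).Nonempty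
      · simp only [b, dif_pos h]; exact h.some_mem.2
      · simp only [b, dif_neg h]; exact ⟨1, one_mem _, one_smul _ _⟩
    choose t ht using hb
    refine ⟨b, t, ht, fun y hy => ?_⟩
    have h1 : (O y).Nonempty := ⟨y, hy, 1, one_mem _, one_smul _ _⟩
    refine ⟨by simp only [b, dif_pos h1]; exact h1.some_mem.1, fun g hg => ?_⟩
    have h2 : O (g • y) = O y := by
      ext o
      refine and_congr_right fun _ => ⟨?_, ?_⟩
      · rintro ⟨t, ht, e⟩
        exact ⟨g⁻¹ * t, mul_mem (inv_mem hg) ht, by rw [mul_smul, e, inv_smul_smul]⟩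
      · rintro ⟨t, ht, e⟩
        exact ⟨g * t, mul_mem hg ht, by rw [mul_smul, e]⟩
    have h3 : ∀ A B : Set Y, A = B → ∀ (hA : A.Nonempty) (hB : B.Nonempty), hA.some = hB.some := by
      rintro A B rfl _ _; rfl
    simp only [b, dif_pos h1, dif_pos (h2 ▸ h1 : (O (g • y)).Nonempty)]
    exact h3 _ _ h2 _ _
  obtain ⟨b, t, ht, hb⟩ := hbt
  let c : G → Y → G := fun g y => (t (g • y))⁻¹ * g * t y
  have hν : ∀ o : Y, ∃ (Ξ' : Type) (s' : Finset Ξ') (w' : Ξ' → ℝ) (S' : Ξ' → G),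
      (∀ η ∈ s', 0 ≤ w' η) ∧ ∑ η ∈ s', w' η = 1 ∧ (∀ η ∈ s', S' η ∈ H) ∧
      ∀ g ∈ Kf, ∀ ξ ∈ s, b (S ξ) = o → ∀ F : G → ℝ, (∀ y, |F y| ≤ 1) →
        |∑ η ∈ s', w' η * F (c g (S ξ) * S' η) - ∑ η ∈ s', w' η * F (S' η)| ≤ ε / 2 := by
    intro o
    by_cases ho : o ∈ C
    · obtain ⟨Ξ', s', w', S', h1, h2, h3, h4⟩ := hs o ho
        (((Kf ×ˢ s).filter fun p => b (S p.2) = o).image fun p => c p.1 (S p.2)) (by
          intro g hg
          obtain ⟨p, hp, rfl⟩ := Finset.mem_image.1 hg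
          obtain ⟨hp1, rfl⟩ := Finset.mem_filter.1 hp
          obtain ⟨hp2, hp3⟩ := Finset.mem_product.1 hp1
          refine ⟨H.mul_mem (H.mul_mem (H.inv_mem (ht _).1) (hK _ hp2)) (ht _).1, ?_⟩
          show c p.1 (S p.2) • b (S p.2) = b (S p.2)
          simp only [c]
          rw [mul_smul, mul_smul, (ht _).2, inv_smul_eq_iff, ← (hb _ (hSC _ hp3)).2 _ (hK _ hp2),
            (ht _).2]) (ε / 2) (by positivity)
      exact ⟨Ξ', s', w', S', h1, h2, fun η hη => (h3 η hη).1, fun g hg ξ hξ e F hF =>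
        h4 _ (Finset.mem_image.2 ⟨(g, ξ), Finset.mem_filter.2
          ⟨Finset.mem_product.2 ⟨hg, hξ⟩, e⟩, rfl⟩) F hF⟩
    · exact ⟨Unit, {()}, fun _ => 1, fun _ => 1, by simp, by simp, fun _ _ => one_mem _,
        fun g _ ξ hξ e => absurd (e ▸ (hb _ (hSC _ hξ)).1) ho⟩
  choose Ξ' s' w' S' h1 h2 h3 h4 using hν
  refine ⟨(ξ : Ξ) × Ξ' (b (S ξ)), s.sigma fun ξ => s' (b (S ξ)),
    fun p => w p.1 * w' _ p.2, fun p => t (S p.1) * S' _ p.2, fun p hp => ?_, ?_, fun p hp => ?_,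
    fun g hg F hF => ?_⟩
  · obtain ⟨h5, h6⟩ := Finset.mem_sigma.1 hp
    exact mul_nonneg (hw0 _ h5) (h1 _ _ h6)
  · rw [Finset.sum_sigma, ← hw1]
    exact Finset.sum_congr rfl fun ξ _ => by
      show ∑ η ∈ s' (b (S ξ)), w ξ * w' _ η = w ξ
      rw [← Finset.mul_sum, h2, mul_one]
  · exact mul_mem (ht _).1 (h3 _ _ (Finset.mem_sigma.1 hp).2)
  let Ψ : Y → G → ℝ := fun o u => ∑ η ∈ s' o, w' o η * F (u * S' o η)
  have hΨ : ∀ o u, |Ψ o u| ≤ 1 := fun o u => by
    refine (Finset.abs_sum_le_sum_abs _ _).trans ?_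
    rw [← h2 o]
    refine Finset.sum_le_sum fun η hη => ?_
    rw [abs_mul, abs_of_nonneg (h1 o η hη)]
    exact mul_le_of_le_one_right (h1 o η hη) (hF _)
  have e1 : ∀ u : G, ∑ p ∈ s.sigma fun ξ => s' (b (S ξ)),
      w p.1 * w' _ p.2 * F (u * (t (S p.1) * S' _ p.2)) =
      ∑ ξ ∈ s, w ξ * Ψ (b (S ξ)) (u * t (S ξ)) := fun u => by
    rw [Finset.sum_sigma]
    refine Finset.sum_congr rfl fun ξ _ => ?_
    simp only [Ψ, Finset.mul_sum, mul_assoc]
  have e2 := e1 1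
  simp only [one_mul] at e2
  simp only [smul_eq_mul]
  rw [e1 g, e2]
  have h5 := hinv g hg (fun y => Ψ (b y) (t y)) fun y => hΨ _ _
  have h6 : |∑ ξ ∈ s, w ξ * Ψ (b (S ξ)) (g * t (S ξ)) -
      ∑ ξ ∈ s, w ξ * Ψ (b (g • S ξ)) (t (g • S ξ))| ≤ ε / 2 := by
    rw [← Finset.sum_sub_distrib]
    refine (Finset.abs_sum_le_sum_abs _ _).trans ?_
    rw [← one_mul (ε / 2), ← hw1, Finset.sum_mul]
    refine Finset.sum_le_sum fun ξ hξ => ?_
    rw [← mul_sub, abs_mul, abs_of_nonneg (hw0 ξ hξ), (hb _ (hSC _ hξ)).2 g (hK g hg)]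
    refine mul_le_mul_of_nonneg_left ?_ (hw0 ξ hξ)
    have h7 := h4 _ g hg ξ hξ rfl (fun u => F (t (g • S ξ) * u)) fun _ => hF _
    simpa only [Ψ, c, mul_assoc, mul_inv_cancel_left] using h7
  rw [abs_le] at h5 h6 ⊢
  constructor <;> linarith [h5.1, h5.2, h6.1, h6.2]

theorem amGenAux_layer {Γ : Type} [Group Γ] [DecidableEq Γ] (Kf A B : Finset Γ) (ε : ℝ)
    (h : ∀ D ⊆ A, D.Nonempty → ε * D.card ≤ ∑ g ∈ Kf, ∑ x ∈ B,
      |(if g⁻¹ * x ∈ D then (1 : ℝ) else 0) - if x ∈ D then 1 else 0|) (D : Finset Γ) :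
    D ⊆ A → ∀ μ : Γ → ℝ, (∀ x, 0 ≤ μ x) → (∀ x, x ∉ D → μ x = 0) →
      ε * ∑ x ∈ D, μ x ≤ ∑ g ∈ Kf, ∑ x ∈ B, |μ (g⁻¹ * x) - μ x| := by
  induction D using Finset.strongInduction with
  | H D ih =>
    intro hD μ h0 hs
    rcases D.eq_empty_or_nonempty with rfl | hne
    · simpa using Finset.sum_nonneg fun _ _ => Finset.sum_nonneg fun _ _ => abs_nonneg _
    obtain ⟨x0, hx0, hmin⟩ := D.exists_min_image μ hne
    have hν0 : ∀ x, 0 ≤ μ x - μ x0 * if x ∈ D then 1 else 0 := fun x => by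
      split_ifs with hx
      · linarith [hmin x hx]
      · linarith [h0 x]
    have h1 := ih (D.erase x0) (Finset.erase_ssubset hx0) ((Finset.erase_subset _ _).trans hD)
      (fun x => μ x - μ x0 * if x ∈ D then 1 else 0) hν0 fun x hx => by
        by_cases h2 : x ∈ D
        · have : x = x0 := by
            by_contra h3
            exact hx (Finset.mem_erase.2 ⟨h3, h2⟩)
          simp [this, hx0]
        · simp [h2, hs x h2]
    have e : ∑ x ∈ D, μ x0 * (if x ∈ D then 1 else 0) = D.card * μ x0 := by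
      rw [← nsmul_eq_mul, ← Finset.sum_const]
      exact Finset.sum_congr rfl fun x hx => by rw [if_pos hx, mul_one]
    rw [Finset.sum_erase _ (by simp [hx0]), Finset.sum_sub_distrib, e] at h1
    have h2 := mul_le_mul_of_nonneg_left (h D hD hne) (h0 x0)
    have h3 : ∀ a b : Γ, |μ a - μ b| = |(μ a - μ x0 * if a ∈ D then 1 else 0) -
        (μ b - μ x0 * if b ∈ D then 1 else 0)| +
        μ x0 * |(if a ∈ D then (1 : ℝ) else 0) - if b ∈ D then 1 else 0| := by
      intro a b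
      have ha := hν0 a
      have hb := hν0 b
      have := h0 x0
      by_cases h4 : a ∈ D <;> by_cases h5 : b ∈ D <;>
        simp only [h4, h5, if_true, if_false] at ha hb ⊢
      · simp
      · rw [hs b h5, abs_of_nonneg (by linarith), abs_of_nonneg (by linarith)]; simp
      · rw [hs a h4, abs_of_nonpos (by linarith), abs_of_nonpos (by linarith)]; simp
      · simp
    simp only [h3, Finset.sum_add_distrib, ← Finset.mul_sum]
    linarith

/-- Følner sets -/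
theorem folner {H : Subgroup G} (h : Am H) (Kf : Finset H) (ε : ℝ) (hε : 0 < ε) :
    ∃ D : Set H, D.Finite ∧ D.Nonempty ∧
      ∀ g ∈ Kf, ((symmDiff ((fun d => g * d) '' D) D).ncard : ℝ) < ε * D.ncard := by
  classical
  by_contra hc
  push Not at hc
  have hn : (0 : ℝ) < Kf.card + 1 := by positivity
  obtain ⟨Ξ, s, w, S, hw0, hw1, hS, hinv⟩ := h (Kf.image fun g => g.1) (fun g hg => by
    obtain ⟨g', -, rfl⟩ := Finset.mem_image.1 hg; exact g'.2) (ε / (Kf.card + 1)) (by positivity)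
  let S' : Ξ → H := fun ξ => if h : S ξ ∈ H then ⟨S ξ, h⟩ else 1
  have hinv' : ∀ g ∈ Kf, ∀ F : H → ℝ, (∀ y, |F y| ≤ 1) →
      ∑ ξ ∈ s, w ξ * F (g * S' ξ) - ∑ ξ ∈ s, w ξ * F (S' ξ) ≤ ε / (Kf.card + 1) := by
    intro g hg F hF
    refine le_trans (le_of_eq ?_) (le_of_abs_le (hinv g.1 (Finset.mem_image_of_mem _ hg)
      (fun y => if h : y ∈ H then F ⟨y, h⟩ else 0) fun y => ?_))
    · congr 1 <;> refine Finset.sum_congr rfl fun ξ hξ => ?_
      · have h1 : S ξ ∈ H := hS ξ hξ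
        simp only [S', smul_eq_mul, dif_pos h1, dif_pos (mul_mem g.2 h1)]
        rfl
      · have h1 : S ξ ∈ H := hS ξ hξ
        simp only [S', dif_pos h1]
    · split_ifs
      · exact hF _
      · simp
  let A : Finset H := s.image S'
  let B : Finset H := A ∪ Finset.image₂ (· * ·) Kf A
  let μ : H → ℝ := fun x => ∑ ξ ∈ s, if S' ξ = x then w ξ else 0
  have hμ : ∀ (F : H → ℝ) (g : H), (∀ a ∈ A, g * a ∈ B) →
      ∑ x ∈ B, F x * μ (g⁻¹ * x) = ∑ ξ ∈ s, w ξ * F (g * S' ξ) := by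
    intro F g hg
    simp only [μ, Finset.mul_sum]
    rw [Finset.sum_comm]
    refine Finset.sum_congr rfl fun ξ hξ => ?_
    simp only [eq_inv_mul_iff_mul_eq, mul_ite, mul_zero]
    rw [Finset.sum_ite_eq, if_pos (hg _ (Finset.mem_image_of_mem _ hξ)), mul_comm]
  have hAB : ∀ g ∈ Kf, ∀ a ∈ A, g * a ∈ B := fun g hg a ha =>
    Finset.mem_union_right _ (Finset.mem_image₂_of_mem hg ha)
  have h1 := amGenAux_layer Kf A B ε (fun D hD hne => by
    obtain ⟨g, hg, h1⟩ := hc D D.finite_toSet (by exact_mod_cast hne)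
    rw [Set.ncard_coe_finset] at h1
    refine h1.trans (le_trans (le_of_eq ?_) (Finset.single_le_sum (f := fun g => ∑ x ∈ B,
      |(if g⁻¹ * x ∈ D then (1 : ℝ) else 0) - if x ∈ D then 1 else 0|)
      (fun _ _ => Finset.sum_nonneg fun _ _ => abs_nonneg _) hg))
    have e : symmDiff ((fun d => g * d) '' (D : Set H)) D =
        (B.filter fun x => ¬ (g⁻¹ * x ∈ D ↔ x ∈ D) : Finset H) := by
      ext x
      have h2 : x ∈ D → x ∈ B := fun h => Finset.mem_union_left _ (hD h)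
      have h3 : g⁻¹ * x ∈ D → x ∈ B := fun h => by simpa using hAB g hg _ (hD h)
      simp only [Set.mem_symmDiff, Set.image_mul_left, Set.mem_preimage, Finset.mem_coe,
        Finset.coe_filter, Set.mem_ofPred_eq]
      tauto
    rw [e, Set.ncard_coe_finset, ← Finset.sum_boole]
    refine Finset.sum_congr rfl fun x _ => ?_
    by_cases h2 : g⁻¹ * x ∈ D <;> by_cases h3 : x ∈ D <;> simp [h2, h3]) A le_rfl μ
    (fun x => Finset.sum_nonneg fun ξ hξ => by
      split_ifs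
      · exact hw0 ξ hξ
      · exact le_rfl)
    (fun x hx => Finset.sum_eq_zero fun ξ hξ =>
      if_neg fun e : S' ξ = x => hx (e ▸ Finset.mem_image_of_mem _ hξ))
  have h2 : ∑ x ∈ A, μ x = 1 := by
    simp only [μ]
    rw [Finset.sum_comm, ← hw1]
    refine Finset.sum_congr rfl fun ξ hξ => ?_
    rw [Finset.sum_ite_eq, if_pos (Finset.mem_image_of_mem _ hξ)]
  have h3 : ∑ g ∈ Kf, ∑ x ∈ B, |μ (g⁻¹ * x) - μ x| ≤ Kf.card * (ε / (Kf.card + 1)) := by
    rw [← nsmul_eq_mul]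
    refine Finset.sum_le_card_nsmul _ _ _ fun g hg => ?_
    let F : H → ℝ := fun x => if 0 ≤ μ (g⁻¹ * x) - μ x then 1 else -1
    have h4 := hinv' g hg F fun y => by simp only [F]; split_ifs <;> simp
    have h5 := hμ F 1 fun a ha => by rw [one_mul]; exact Finset.mem_union_left _ ha
    simp only [inv_one, one_mul] at h5
    rw [← hμ F g (hAB g hg), ← h5, ← Finset.sum_sub_distrib] at h4
    refine le_trans (le_of_eq (Finset.sum_congr rfl fun x _ => ?_)) h4
    simp only [F]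
    split_ifs with h6
    · rw [abs_of_nonneg h6]; ring
    · rw [abs_of_neg (not_le.1 h6)]; ring
  rw [h2, mul_one] at h1
  have h4 : (Kf.card : ℝ) * (ε / (Kf.card + 1)) < ε := by
    rw [← mul_div_assoc, div_lt_iff₀ hn]; linarith
  linarith

end Vale.Agent.P196
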