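import Vale.Agent.P196.Stage1Aux

/-! P196 task F: the full group acts amenably on the horizontal cuts. -/

namespace Vale.Agent.P196

open Pointwise

variable {W : Wang} {K : ℕ}

/-- residues -/
abbrev s1_R (n : ℤ) : Type := ↥(Finset.Ico (0 : ℤ) n)

/-- the residue of index `k` -/
def s1_r (h : Hier W K) (k : ℕ) (x : W.X) : s1_R (ss K k) :=
  ⟨h.res x k, Finset.mem_Ico.2 ⟨h.res_nonneg x k, h.res_lt x k⟩⟩

/-- cells of the first layer -/
abbrev s1_Cell (h : Hier W K) (i : ℕ) : Type := s1_R (ss K i) × s1_R (ss K (i + 1)) × h.Sg × I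

/-- the cell of a point -/
def s1_cell (h : Hier W K) (i : ℕ) (p : W.Pt) : s1_Cell h i :=
  (s1_r h i p.1, s1_r h (i + 1) p.1, h.sig i p.1, p.2)

/-- the finite part of an atom -/
abbrev s1_Tail (h : Hier W K) (i : ℕ) : Type := s1_R (ss K (i + 1)) × I × (W.A ⊕ h.Sg)

open Classical in
/-- the atom of a point -/
noncomputable def s1_al (h : Hier W K) (i : ℕ) (τ : Prop) (p : W.Pt) :
    Option (ℤ × s1_Tail h i) :=
  if s1_H h p.1 then some (s1_s h i p.1, s1_r h (i + 1) p.1, p.2,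
    if τ then Sum.inl (p.1.1 (s1_z h i p.1)) else Sum.inr (h.sig i p.1)) else none

/-- the atom of a point given the knowledge `R` -/
noncomputable def s1_at (h : Hier W K) (i : ℕ) (R : Set (s1_Cell h i)) (p : W.Pt) :
    Option (ℤ × s1_Tail h i) := s1_al h i (s1_cell h i p ∈ R) p

/-- distance of a cell to the nearest high column -/
def s1_dd {h : Hier W K} {i : ℕ} (a : s1_Cell h i) : ℤ := min a.2.1.1 (ss K (i + 1) - a.2.1.1)

/-- angles of the first layer -/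
noncomputable def s1_t1 (h : Hier W K) (i : ℕ) (T0 T1 : ℤ) (a : s1_Cell h i) : ℝ :=
  s1_ramp (-T1) (T1 - T0) (-s1_dd a)

/-- active cells -/
noncomputable def s1_A1 (h : Hier W K) (i : ℕ) (T0 T1 : ℤ) : Finset (s1_Cell h i) :=
  Finset.univ.filter fun a => T0 < s1_dd a ∧ s1_dd a < T1

/-- angles of the second layer -/
noncomputable def s1_t2 {β : Type} (a L : ℤ) (o : Option (ℤ × β)) : ℝ :=
  o.elim 0 fun q => s1_ramp a L q.1

/-- active atoms -/
noncomputable def s1_A2 (β : Type) [Fintype β] (a L : ℤ) : Finset (Option (ℤ × β)) :=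
  (Finset.Ioo a (a + L) ×ˢ Finset.univ).map Function.Embedding.some

theorem s1_mem_A2 {β : Type} [Fintype β] {a L : ℤ} {o : Option (ℤ × β)} :
    o ∈ s1_A2 β a L ↔ ∃ q, o = some q ∧ a < q.1 ∧ q.1 < a + L := by
  simp only [s1_A2, Finset.mem_map, Finset.mem_product, Finset.mem_Ioo, Finset.mem_univ, and_true,
    Function.Embedding.some_apply]
  exact ⟨fun ⟨q, h1, h2⟩ => ⟨q, h2.symm, h1⟩, fun ⟨q, h1, h2⟩ => ⟨q, h2, h1.symm⟩⟩

theorem s1_h2 {β : Type} [Fintype β] {a L : ℤ} (hL : 0 < L) (o : Option (ℤ × β))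
    (ho : o ∉ s1_A2 β a L) : s1_t2 a L o = 0 ∨ s1_t2 a L o = Real.pi / 2 := by
  rcases o with _ | q
  · exact Or.inl rfl
  · by_cases h1 : q.1 ≤ a
    · exact Or.inl (s1_ramp_lo hL h1)
    · exact Or.inr (s1_ramp_hi hL (not_lt.1 fun h2 => ho (s1_mem_A2.2 ⟨q, rfl, not_le.1 h1, h2⟩)))

variable {h : Hier W K} {i r : ℕ}

theorem s1_mem_A1 {T0 T1 : ℤ} {a : s1_Cell h i} :
    a ∈ s1_A1 h i T0 T1 ↔ T0 < s1_dd a ∧ s1_dd a < T1 := by
  simp [s1_A1]

theorem s1_h1 {T0 T1 : ℤ} (hT : T0 < T1) (a : s1_Cell h i) (ha : a ∉ s1_A1 h i T0 T1) :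
    s1_t1 h i T0 T1 a = 0 ∨ s1_t1 h i T0 T1 a = Real.pi / 2 := by
  rw [s1_mem_A1] at ha
  by_cases h1 : T1 ≤ s1_dd a
  · exact Or.inl (s1_ramp_lo (by omega) (by omega))
  · exact Or.inr (s1_ramp_hi (by omega) (by omega))

theorem s1_full1 {T0 T1 : ℤ} (hT : T0 < T1) {T : Finset (s1_Cell h i)}
    (hs : T ⊆ s1_A1 h i T0 T1) (a : s1_Cell h i) :
    (a ∈ full (s1_t1 h i T0 T1) (s1_A1 h i T0 T1) T → s1_dd a < T1) ∧
      (a ∉ full (s1_t1 h i T0 T1) (s1_A1 h i T0 T1) T → T0 < s1_dd a) := by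
  refine ⟨fun ha => ?_, fun ha => ?_⟩
  · rcases ha with ha | ha
    · exact (s1_mem_A1.1 (hs ha)).2
    · have := s1_ramp_gt (by omega) ha.2
      omega
  · by_contra h1
    exact ha (Or.inr ⟨fun h2 => h1 (s1_mem_A1.1 h2).1, s1_ramp_hi (by omega) (by omega)⟩)

theorem s1_cell_half (hi : K + 1 ≤ i) (he : i % 2 = 0) {g : Equiv.Perm W.Pt} (hg : Rad g r)
    {p q : W.Pt} (hp : s1_In h i r p.1) (hq : s1_In h i r q.1)
    (e : s1_cell h i p = s1_cell h i q) (hd : (r : ℤ) < s1_d h i p.1)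
    (hd2 : 3 * (s1_d h i p.1 + r) < ss K (i + 1)) : s1_cell h i (g p) = s1_cell h i (g q) := by
  simp only [s1_cell, s1_r, Prod.mk.injEq, Subtype.mk.injEq] at e ⊢
  obtain ⟨e1, e2, e3, e4⟩ := e
  obtain ⟨z, z1, z2, k1, k2⟩ := s1_mv hg p
  obtain ⟨k3, k4⟩ := k2 q e4.symm (s1_agree_cell hi he hp hq e1 e2 hd hd2 e3)
  have hd' : (r : ℤ) < s1_d h i q.1 := by rwa [s1_d, ← e2]
  have k0 := abs_co_le (i + 1) z1 z2
  rw [k1, k3, k4, (s1_far hd k0).2.1, (s1_far hd' k0).2.1, h.res_vadd, h.res_vadd, h.res_vadd,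
    h.res_vadd, e1, e2]
  exact ⟨rfl, rfl, e3, rfl⟩

theorem s1_al_eq {τ σ : Prop} {p q : W.Pt} (hp : s1_H h p.1) :
    s1_al h i τ p = s1_al h i σ q ↔ s1_H h q.1 ∧ s1_s h i p.1 = s1_s h i q.1 ∧
      h.res p.1 (i + 1) = h.res q.1 (i + 1) ∧ p.2 = q.2 ∧ (τ ↔ σ) ∧
      (τ → p.1.1 (s1_z h i p.1) = q.1.1 (s1_z h i q.1)) ∧ (¬τ → h.sig i p.1 = h.sig i q.1) := by
  rw [s1_al, s1_al, if_pos hp]
  by_cases hq : s1_H h q.1
  · rw [if_pos hq]
    by_cases h1 : τ <;> by_cases h2 : σ <;> simp [h1, h2, hq, s1_r]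
  · simp [hq]

theorem s1_al_half (hi : K + 1 ≤ i) (he : i % 2 = 0) (hr : 2 * (r : ℤ) < ss K (i + 1))
    {g : Equiv.Perm W.Pt} (hg : Rad g r) {p q : W.Pt} {τ σ τ' σ' : Prop}
    (hp : s1_In h i r p.1) (e : s1_al h i τ p = s1_al h i σ q) (h1 : τ ↔ τ') (h2 : σ ↔ σ')
    (h3 : τ → 2 * (s1_d h i p.1 + r) < ss K (i + 1)) (h4 : ¬τ → (r : ℤ) < s1_d h i p.1) :
    s1_al h i τ' (g p) = s1_al h i σ' (g q) := by
  obtain ⟨hq, e1, e2, e3, e4, e5, e6⟩ := (s1_al_eq hp.1).1 e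
  have ed : s1_d h i q.1 = s1_d h i p.1 := by rw [s1_d, s1_d, e2]
  have ha : Agree p.1 q.1 r := by
    by_cases hτ : τ
    · exact s1_agree_ref hi he hr hp hq e1 e2 (e5 hτ)
    · exact s1_agree_sig hi he hp hq e1 e2 (h4 hτ) (e6 hτ)
  obtain ⟨z, z1, z2, k1, k2⟩ := s1_mv hg p
  obtain ⟨k3, k4⟩ := k2 q e3.symm ha
  have k0 := abs_co_le (i + 1) z1 z2
  refine (s1_al_eq (k1 ▸ (s1_H_vadd z).2 hp.1)).2 ?_
  rw [k1, k3, k4, s1_s_vadd he hp.1, s1_s_vadd he hq, h.res_vadd, h.res_vadd, e1, e2]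
  refine ⟨(s1_H_vadd z).2 hq, rfl, rfl, rfl, h1.symm.trans (e4.trans h2), fun hτ => ?_,
    fun hτ => ?_⟩
  · have hτ' := h1.2 hτ
    rw [s1_b_vadd he hp.1 (h3 hτ') k0, s1_b_vadd he hq (ed ▸ h3 hτ') k0, e5 hτ']
  · have hτ' : ¬τ := fun k => hτ (h1.1 k)
    rw [(s1_far (h4 hτ') k0).2.1, (s1_far (ed ▸ h4 hτ') k0).2.1, e6 hτ']

theorem s1_near (he : i % 2 = 0) (hr : (r : ℤ) < ss K (i + 1)) {g : Equiv.Perm W.Pt}
    (hg : Rad g r) (p : W.Pt) : (s1_H h (g p).1 ↔ s1_H h p.1) ∧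
      (s1_H h p.1 → |s1_s h i p.1 - s1_s h i (g p).1| ≤ r) ∧
      |s1_d h i p.1 - s1_d h i (g p).1| ≤ r := by
  obtain ⟨z, z1, z2, k1, -⟩ := s1_mv hg p
  rw [k1]
  refine ⟨s1_H_vadd z, fun hp => ?_, s1_d_vadd hr (abs_co_le (i + 1) z1 z2)⟩
  rw [s1_s_vadd he hp, sub_add_cancel_left, abs_neg]
  exact abs_co_le i z1 z2

theorem s1_al_mem {τ : Prop} {p : W.Pt} {a L : ℤ} (hm : s1_al h i τ p ∈ s1_A2 _ a L) :
    s1_H h p.1 ∧ a < s1_s h i p.1 ∧ s1_s h i p.1 < a + L := by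
  obtain ⟨q, h1, h2⟩ := s1_mem_A2.1 hm
  rw [s1_al] at h1
  by_cases hp : s1_H h p.1
  · rw [if_pos hp] at h1
    obtain rfl := Option.some.inj h1
    exact ⟨hp, h2⟩
  · rw [if_neg hp] at h1
    exact absurd h1 (by simp)

theorem s1_t2_al {τ : Prop} {p : W.Pt} {a L : ℤ} (hp : s1_H h p.1) :
    s1_t2 a L (s1_al h i τ p) = s1_ramp a L (s1_s h i p.1) := by
  rw [s1_al, if_pos hp]; rfl

theorem s1_t2_al' {τ : Prop} {p : W.Pt} {a L : ℤ} (hp : ¬s1_H h p.1) :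
    s1_t2 a L (s1_al h i τ p) = 0 := by
  rw [s1_al, if_neg hp]; rfl

theorem s1_move (hi : K + 1 ≤ i) (he : i % 2 = 0) {g : Equiv.Perm W.Pt} (hg : Rad g r)
    (hg' : Rad g⁻¹ r) {T0 T1 a L : ℤ} (hT0 : T0 = 2 * r) (hT1 : 3 * (T1 + 2 * r) ≤ ss K (i + 1))
    (hT : (r : ℤ) < T1 - T0) (ha : a = 2 * ss K i + 4 * r) (hL : a + L = mm i * ss K i - 4 * r)
    (hrL : (r : ℤ) < L) (F : Set W.Pt → ℝ) (hF : ∀ S, |F S| ≤ 1) :
    |Ex (s1_t1 h i T0 T1) (s1_A1 h i T0 T1) (fun R => Ex (s1_t2 a L) (s1_A2 _ a L)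
        fun T => F (g '' (s1_at h i R ⁻¹' T))) -
      Ex (s1_t1 h i T0 T1) (s1_A1 h i T0 T1) (fun R => Ex (s1_t2 a L) (s1_A2 _ a L)
        fun T => F (s1_at h i R ⁻¹' T))| ≤
      2 * √(2 * (s1_A2 (s1_Tail h i) a L).card) * (Real.pi / 2 * (r / L)) +
        2 * √(2 * (s1_A1 h i T0 T1).card) * (Real.pi / 2 * (r / (T1 - T0 : ℤ))) := by
  have hr0 : (0 : ℤ) ≤ r := Int.natCast_nonneg r
  have hr : (r : ℤ) < ss K (i + 1) := by omega
  have hn := fun p => s1_near (h := h) he hr hg p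
  have hin : ∀ p : W.Pt, s1_In h i (2 * r) p.1 → s1_In h i r p.1 ∧ s1_In h i r (g p).1 := by
    intro p hp
    have k := abs_le.1 ((hn p).2.1 hp.1)
    exact ⟨⟨hp.1, by linarith [hp.2.1], by linarith [hp.2.2]⟩,
      (hn p).1.2 hp.1, by linarith [hp.2.1], by linarith [hp.2.2]⟩
  refine rel_move _ _ (s1_h1 (by omega))
    (fun c c' => ∃ p : W.Pt, s1_In h i (2 * r) p.1 ∧ s1_cell h i p = c ∧ s1_cell h i (g p) = c')
    (s1_delta hT).1 (s1_delta hT).2 ?_ ?_ _ _ (fun R => abs_Ex_le _ _ fun T => hF _) ?_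
  · rintro _ _ ⟨p, -, rfl, rfl⟩
    refine s1_ramp_lip (by omega) ?_
    rw [neg_sub_neg, abs_sub_comm]
    exact (hn p).2.2
  · rintro _ _ _ _ ⟨p, hp, rfl, rfl⟩ ⟨q, hq, rfl, rfl⟩ hA
    have k := abs_le.1 (hn p).2.2
    rw [s1_mem_A1, s1_mem_A1] at hA
    change (T0 < s1_d h i p.1 ∧ s1_d h i p.1 < T1) ∨
      (T0 < s1_d h i (g p).1 ∧ s1_d h i (g p).1 < T1) at hA
    refine ⟨fun e => s1_cell_half hi he hg (hin p hp).1 (hin q hq).1 e (by omega) (by omega),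
      fun e => ?_⟩
    have := s1_cell_half hi he hg' (hin p hp).2 (hin q hq).2 e (by omega) (by omega)
    simpa using this
  · intro T hs R' hc
    refine pull_move g _ _ _ _ (s1_h2 (by omega)) (s1_delta hrL).1 (s1_delta hrL).2 ?_ ?_ F hF
    · intro p
      by_cases hp : s1_H h p.1
      · rw [s1_at, s1_at, s1_t2_al hp, s1_t2_al ((hn p).1.2 hp)]
        exact s1_ramp_lip (by omega) ((hn p).2.1 hp)
      · rw [s1_at, s1_at, s1_t2_al' hp, s1_t2_al' fun k => hp ((hn p).1.1 k), sub_self, abs_zero]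
        exact (s1_delta hrL).1
    · intro p q hA
      have hp : s1_H h p.1 := hA.elim (fun k => (s1_al_mem k).1) fun k => (hn p).1.1 (s1_al_mem k).1
      have k1 := abs_le.1 ((hn p).2.1 hp)
      have k2 : (a < s1_s h i p.1 ∧ s1_s h i p.1 < a + L) ∨
          (a < s1_s h i (g p).1 ∧ s1_s h i (g p).1 < a + L) :=
        hA.imp (fun k => (s1_al_mem k).2) fun k => (s1_al_mem k).2
      have hp2 : s1_In h i (2 * r) p.1 := ⟨hp, by omega, by omega⟩
      have c1 := hc _ _ ⟨p, hp2, rfl, rfl⟩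
      have f1 := s1_full1 (by omega : T0 < T1) hs (s1_cell h i p)
      change (_ → s1_d h i p.1 < T1) ∧ (_ → T0 < s1_d h i p.1) at f1
      have k3 := abs_le.1 (hn p).2.2
      refine ⟨fun e => ?_, fun e => ?_⟩
      · obtain ⟨hq, e1, -⟩ := (s1_al_eq hp).1 e
        refine s1_al_half hi he (by omega) hg (hin p hp2).1 e c1
          (hc _ _ ⟨q, ⟨hq, by omega, by omega⟩, rfl, rfl⟩) (fun k => ?_) fun k => ?_
        · have := f1.1 k; omega
        · have := f1.2 k; omega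
      · obtain ⟨hq, e1, -⟩ := (s1_al_eq ((hn p).1.2 hp)).1 e
        have hq' := (hn q).1.1 hq
        have k4 := abs_le.1 ((hn q).2.1 hq')
        have := s1_al_half hi he (by omega) hg' (hin p hp2).2 e c1.symm
          (hc _ _ ⟨q, ⟨hq', by omega, by omega⟩, rfl, rfl⟩).symm
          (fun k => by have := f1.1 (c1.2 k); omega)
          (fun k => by have := f1.2 fun k' => k (c1.1 k'); omega)
        simpa [s1_at] using this

theorem s1_cut {a L : ℤ} (hL : 0 < L) (R : Set (s1_Cell h i))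
    {T : Finset (Option (ℤ × s1_Tail h i))} (hs : T ⊆ s1_A2 _ a L) :
    s1_at h i R ⁻¹' full (s1_t2 a L) (s1_A2 _ a L) T ∈ h.Cut 0 := by
  obtain ⟨r1, h1⟩ := h.res_loc i
  obtain ⟨r2, h2⟩ := h.res_loc (i + 1)
  obtain ⟨r3, h3⟩ := h.sig_loc i
  obtain ⟨r4, h4⟩ : ∃ r4 : ℕ, |2 * ss K i - a| + L + ss K (i + 1) ≤ r4 :=
    ⟨_, Int.self_le_toNat _⟩
  refine ⟨|a - oo K 1 (i + 2)| + L, r1 + r2 + r3 + r4, fun p hp => ?_, fun p t ht hN => ?_,
    fun x y c t hx hy hxy => ?_⟩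
  · have k : s1_H h p.1 ∧ a < s1_s h i p.1 := by
      rcases hp with hp | hp
      · exact ⟨(s1_al_mem (hs hp)).1, (s1_al_mem (hs hp)).2.1⟩
      · by_cases k : s1_H h p.1
        · exact ⟨k, s1_ramp_gt hL ((s1_t2_al k).symm.trans hp.2)⟩
        · have := (s1_t2_al' k).symm.trans hp.2
          linarith [Real.pi_pos]
    obtain ⟨⟨t, ht⟩, k2⟩ := k
    rw [s1_s_eq ht] at k2
    exact ⟨t, ht, by linarith [neg_abs_le (a - oo K 1 (i + 2))]⟩
  · have k : a + L ≤ s1_s h i p.1 := by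
      rw [s1_s_eq ht]
      linarith [le_abs_self (a - oo K 1 (i + 2))]
    exact Or.inr ⟨fun k2 => absurd (s1_al_mem k2).2.2 (not_lt.2 k),
      (s1_t2_al ⟨t, ht⟩).trans (s1_ramp_hi hL k)⟩
  · have e1 : s1_s h i x = s1_s h i y := by rw [s1_s_eq hx, s1_s_eq hy]
    by_cases hz : a < s1_s h i x ∧ s1_s h i x < a + L
    · have e2 := h1 x y (hxy.mono (by omega))
      have e3 := h2 x y (hxy.mono (by omega))
      have e4 := h3 x y (hxy.mono (by omega))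
      have e5 : s1_z h i y = s1_z h i x := by rw [s1_z, s1_z, s1_u, s1_u, e1, e3]
      have e6 : s1_cell h i (x, c) = s1_cell h i (y, c) := by
        simp only [s1_cell, s1_r, e2, e3, e4]
      have e7 : s1_at h i R (x, c) = s1_at h i R (y, c) := by
        refine (s1_al_eq ⟨t, hx⟩).2 ⟨⟨t, hy⟩, e1, e3, rfl, by rw [e6], fun _ => ?_, fun _ => e4⟩
        have k := abs_le_of_co (i := i) (z := s1_z h i x) (r := r4)
          (by
            rw [(s1_co_z h i x).1, abs_le]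
            have := ss_pos (K := K) (i + 1)
            have := neg_abs_le (2 * ss K i - a)
            have := le_abs_self (2 * ss K i - a)
            omega)
          (by
            rw [(s1_co_z h i x).2, abs_le]
            have := h.res_nonneg x (i + 1)
            have := h.res_lt x (i + 1)
            have := abs_nonneg (2 * ss K i - a)
            unfold s1_u
            split_ifs <;> omega)
        change x.1 (s1_z h i x) = y.1 (s1_z h i y)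
        rw [e5]
        exact (hxy.mono (by omega : r4 ≤ _)) _ k.1 k.2
      rw [Set.mem_preimage, Set.mem_preimage, e7]
    · have n1 : s1_at h i R (x, c) ∉ s1_A2 _ a L := fun k => hz (s1_al_mem k).2
      have n2 : s1_at h i R (y, c) ∉ s1_A2 _ a L := fun k => hz (e1 ▸ (s1_al_mem k).2)
      have e2 : s1_t2 a L (s1_at h i R (x, c)) = s1_t2 a L (s1_at h i R (y, c)) := by
        rw [s1_at, s1_at, s1_t2_al ⟨t, hx⟩, s1_t2_al ⟨t, hy⟩, e1]
      exact ⟨fun k => k.elim (fun k => absurd (hs k) n1) fun k => Or.inr ⟨n2, e2 ▸ k.2⟩,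
        fun k => k.elim (fun k => absurd (hs k) n2) fun k => Or.inr ⟨n1, e2 ▸ k.2⟩⟩

theorem s1_card_R (k : ℕ) : (Fintype.card (s1_R (ss K k)) : ℝ) = ss K k := by
  rw [Fintype.card_coe, Int.card_Ico, sub_zero]
  exact_mod_cast Int.toNat_of_nonneg (ss_pos k).le

theorem stage1 (h : Hier W K) {H : Subgroup (Equiv.Perm W.Pt)} (hH : H ≤ FG W) :
    AmOn H (h.Cut 0) := by
  intro Kf hK ε hε
  obtain ⟨r, hr⟩ := exists_rad Kf fun g hg => hH (hK g hg)
  obtain ⟨c, hc⟩ : ∃ c : ℝ, c = 30 * (Fintype.card W.A + Fintype.card h.Sg) := ⟨_, rfl⟩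
  have hc0 : 0 ≤ c := by rw [hc]; positivity
  obtain ⟨i1, h1⟩ := ss_growth (K := K) ⌈1152 * r ^ 2 * c / (ε / 2) ^ 2⌉
  obtain ⟨i2, h2⟩ := ss_large (K := K) (200 * r + 200)
  obtain ⟨i, hi, he, hi1, hi2⟩ : ∃ i, K + 1 ≤ i ∧ i % 2 = 0 ∧ i1 ≤ i ∧ i2 ≤ i :=
    ⟨2 * (K + 1 + i1 + i2), by omega, by omega, by omega, by omega⟩
  have g1 : ∀ j ≥ i1, 1152 * r ^ 2 * c * ss K j ≤ (ε / 2) ^ 2 * ss K (j + 1) := fun j hj => by
    have k1 : ((⌈1152 * r ^ 2 * c / (ε / 2) ^ 2⌉ : ℤ) : ℝ) * ss K j ≤ ss K (j + 1) := by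
      exact_mod_cast h1 j hj
    have k2 : (0 : ℝ) < ss K j := by exact_mod_cast ss_pos j
    have k3 := (mul_le_mul_of_nonneg_right (Int.le_ceil _) k2.le).trans k1
    rwa [div_mul_eq_mul_div, div_le_iff₀ (by positivity), mul_comm (ss K (j + 1) : ℝ)] at k3
  have hW := h2 (i + 1) (by omega)
  have hQ := h2 (i + 2) (by omega)
  have hQ' := ss_add_two (K := K) (i := i) (by omega)
  have hm : 3 * ss K i ≤ mm i * ss K i :=
    mul_le_mul_of_nonneg_right (three_le_mm i) (ss_pos i).le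
  rw [mul_assoc] at hQ'
  have hr0 : (0 : ℤ) ≤ r := Int.natCast_nonneg r
  obtain ⟨T0, hT0⟩ : ∃ T0 : ℤ, T0 = 2 * r := ⟨_, rfl⟩
  obtain ⟨T1, hT1⟩ : ∃ T1 : ℤ, T1 = ss K (i + 1) / 3 - 2 * r := ⟨_, rfl⟩
  obtain ⟨a, ha⟩ : ∃ a : ℤ, a = 2 * ss K i + 4 * r := ⟨_, rfl⟩
  obtain ⟨L, hL⟩ : ∃ L : ℤ, a + L = mm i * ss K i - 4 * r := ⟨mm i * ss K i - 4 * r - a, by ring⟩
  have l1 : ss K (i + 1) ≤ 6 * (T1 - T0) := by omega
  have l2 : ss K (i + 2) ≤ 18 * L := by omega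
  refine ⟨_, (s1_A1 h i T0 T1).powerset ×ˢ (s1_A2 (s1_Tail h i) a L).powerset,
    fun ξ => bw (s1_t1 h i T0 T1) (s1_A1 h i T0 T1) ξ.1 * bw (s1_t2 a L) (s1_A2 _ a L) ξ.2,
    fun ξ => s1_at h i (full (s1_t1 h i T0 T1) (s1_A1 h i T0 T1) ξ.1) ⁻¹'
      full (s1_t2 a L) (s1_A2 _ a L) ξ.2,
    fun ξ _ => mul_nonneg (bw_nonneg _ _ _) (bw_nonneg _ _ _), ?_,
    fun ξ hξ => s1_cut (by omega) _ (Finset.mem_powerset.1 (Finset.mem_product.1 hξ).2),
    fun g hg F hF => ?_⟩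
  · rw [Finset.sum_product, ← Finset.sum_mul_sum, bw_sum, bw_sum, mul_one]
  · have k := s1_move (h := h) hi he (hr g hg).1 (hr g hg).2 hT0 (T1 := T1) (by omega) (by omega)
      ha hL (by omega) F hF
    simp only [Ex, Finset.mul_sum, ← mul_assoc] at k
    rw [Finset.sum_product, Finset.sum_product]
    refine le_trans k ?_
    have hP : (0 : ℝ) < ss K i := by exact_mod_cast ss_pos i
    have hW' : (0 : ℝ) < ss K (i + 1) := by exact_mod_cast ss_pos (i + 1)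
    have l1' : (ss K (i + 1) : ℝ) ≤ 6 * (T1 - T0 : ℤ) := by exact_mod_cast l1
    have l2' : (ss K (i + 2) : ℝ) ≤ 18 * L := by exact_mod_cast l2
    have b1 := s1_num (n := (s1_A1 h i T0 T1).card) (r := r) (L := T1 - T0)
      (M := 6 * ss K i * c) (e := ε / 2) (by omega) (by positivity)
      (by
        have k1 : ((s1_A1 h i T0 T1).card : ℝ) ≤ Fintype.card (s1_Cell h i) := by
          exact_mod_cast Finset.card_le_univ _
        have k2 : (Fintype.card (s1_Cell h i) : ℝ) ≤ ss K i * (ss K (i + 1) * c) := by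
          simp only [Fintype.card_prod, Nat.cast_mul, s1_card_R, Fintype.card_fin, hc]
          refine mul_le_mul_of_nonneg_left (mul_le_mul_of_nonneg_left ?_ hW'.le) hP.le
          push_cast
          linarith [Nat.cast_nonneg (α := ℝ) (Fintype.card W.A)]
        have k3 := mul_le_mul_of_nonneg_left l1' (by positivity : 0 ≤ ss K i * c)
        nlinarith)
      (by
        have k1 := g1 i hi1
        have k3 := mul_le_mul_of_nonneg_left l1' (by positivity : 0 ≤ (ε / 2) ^ 2)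
        nlinarith)
    have b2 := s1_num (n := (s1_A2 (s1_Tail h i) a L).card) (r := r) (L := L)
      (M := ss K (i + 1) * c) (e := ε / 2) (by omega) (by positivity)
      (by
        have k1 : (((a + L - a - 1).toNat : ℕ) : ℝ) ≤ L := by
          have : (((a + L - a - 1).toNat : ℕ) : ℤ) ≤ L := by omega
          exact_mod_cast this
        rw [s1_A2, Finset.card_map, Finset.card_product, Int.card_Ioo, Finset.card_univ]
        simp only [Fintype.card_prod, Nat.cast_mul, s1_card_R, Fintype.card_fin, Fintype.card_sum,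
          Nat.cast_add]
        rw [mul_comm, hc]
        push_cast
        gcongr)
      (by
        have k1 := g1 (i + 1) (by omega)
        have k3 := mul_le_mul_of_nonneg_left l2' (by positivity : 0 ≤ (ε / 2) ^ 2)
        have k4 : 0 ≤ (r : ℝ) ^ 2 * (ss K (i + 1) * c) := by positivity
        nlinarith)
    simp only [← mul_assoc] at b1 b2
    linarith

end Vale.Agent.P196
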