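import Vale.Agent.P196.Bern

/-! P196 task G: groups preserving horizontal strips act amenably on the vertical cuts. -/

namespace Vale.Agent.P196

open Pointwise

variable {W : Wang} {K : ℕ}

/-- the ramp from `0` to `π / 2` on the interval from `a` to `a + L` -/
noncomputable def stage2Aux_ramp (a L s : ℤ) : ℝ :=
  Real.pi / 2 * max (min (((s : ℝ) - a) / L) 1) 0

theorem stage2Aux_ramp_low {a L s : ℤ} (hL : 0 < L) (h : s ≤ a) : stage2Aux_ramp a L s = 0 := by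
  have h1 : ((s : ℝ) - a) / L ≤ 0 :=
    div_nonpos_of_nonpos_of_nonneg (sub_nonpos.2 (by exact_mod_cast h)) (by exact_mod_cast hL.le)
  rw [stage2Aux_ramp, max_eq_right ((min_le_left _ _).trans h1), mul_zero]

theorem stage2Aux_ramp_high {a L s : ℤ} (hL : 0 < L) (h : a + L ≤ s) :
    stage2Aux_ramp a L s = Real.pi / 2 := by
  have h1 : 1 ≤ ((s : ℝ) - a) / L := by
    rw [one_le_div (by exact_mod_cast hL), le_sub_iff_add_le']
    exact_mod_cast h
  rw [stage2Aux_ramp, min_eq_right h1, max_eq_left zero_le_one, mul_one]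

theorem stage2Aux_ramp_lip {a L s d : ℤ} {r : ℕ} (hL : 0 < L) (h : |d| ≤ r) :
    |stage2Aux_ramp a L s - stage2Aux_ramp a L (s + d)| ≤ Real.pi / 2 * (r / L) := by
  have hL' : (0 : ℝ) < L := by exact_mod_cast hL
  have hp : 0 ≤ Real.pi / 2 := by positivity
  rw [stage2Aux_ramp, stage2Aux_ramp, ← mul_sub, abs_mul, abs_of_nonneg hp]
  refine mul_le_mul_of_nonneg_left ((abs_max_sub_max_le_abs _ _ _).trans
    ((abs_min_sub_min_le_max _ _ _ _).trans (max_le ?_ ?_))) hp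
  · rw [← sub_div, abs_div, abs_of_pos hL']
    refine div_le_div_of_nonneg_right ?_ hL'.le
    rw [show (s : ℝ) - a - ((s + d : ℤ) - a) = -(d : ℝ) by push_cast; ring, abs_neg]
    exact_mod_cast h
  · rw [sub_self, abs_zero]
    positivity

/-- the offset from the next corrected line -/
noncomputable def stage2Aux_v (h : Hier W K) (m : W.Pt → ℤ) (k : ℕ) (p : W.Pt) : ℤ :=
  h.res p.1 k - (h.idx k m p.1 (0, p.2) + 1) * ss K k

theorem stage2Aux_v_bound (h : Hier W K) {m : W.Pt → ℤ} {k : ℕ} {N r : ℤ} (hN : ∀ p, |m p| ≤ N)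
    (ho : N + r < oo K 1 k) (p : W.Pt) : |stage2Aux_v h m k p| + r < ss K k := by
  have h1 := oo_bound (K := K) k
  have h2 := ss_pos (K := K) k
  have h3 := abs_le.1 (hN p)
  have h4 := Int.lt_ediv_add_one_mul_self (h.res p.1 k + m p - oo K 1 k) h2
  have h5 := Int.ediv_mul_le (h.res p.1 k + m p - oo K 1 k) h2.ne'
  have h6 : |stage2Aux_v h m k p| < ss K k - r := by
    simp only [stage2Aux_v, Hier.idx, pt_zero, co_zero, add_zero, abs_lt, Prod.mk.eta]
    rw [add_mul, one_mul] at h4 ⊢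
    constructor <;> omega
  omega

theorem stage2Aux_v_pt (h : Hier W K) {m : W.Pt → ℤ} {k : ℕ} {x : W.X} {c : I} {b : B}
    (e : h.idx k m x b = h.idx k m x (0, c)) :
    stage2Aux_v h m k (pt b x) = stage2Aux_v h m k (x, c) + co k b.1 := by
  obtain ⟨q, hq⟩ := h.dvd_res_vadd x b.1 k
  have h1 : h.idx k m x b = h.idx k m (b.1 +ᵥ x) (0, b.2) + q := by
    simp only [Hier.idx, pt_zero, co_zero, add_zero]
    rw [← Int.add_mul_ediv_left _ _ (ss_pos k).ne', ← hq]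
    exact congrArg (· / ss K k) (by simp only [pt]; ring)
  simp only [stage2Aux_v, pt]
  rw [← e, h1]
  linear_combination -hq

theorem stage2Aux_v_loc (h : Hier W K) {m : W.Pt → ℤ} {k : ℕ} {x y : W.X} {c : I}
    (h1 : h.res x k = h.res y k) (h2 : m (x, c) = m (y, c)) :
    stage2Aux_v h m k (x, c) = stage2Aux_v h m k (y, c) := by
  simp only [stage2Aux_v, Hier.idx, pt_zero, h1, h2]

/-- the arrow to the reference point -/
def stage2Aux_z (K i : ℕ) (s v : ℤ) : Z2 := (2 * ss K i - s) • ac i - v • ac (i + 1)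

theorem stage2Aux_z_co (i : ℕ) (s v : ℤ) : co i (stage2Aux_z K i s v) = 2 * ss K i - s ∧
    co (i + 1) (stage2Aux_z K i s v) = -v := by
  constructor
  · rw [stage2Aux_z, co_sub, co_smul, co_smul, co_ac rfl, co_ac_ne (by omega)]; ring
  · rw [stage2Aux_z, co_sub, co_smul, co_smul, co_ac rfl, co_ac_ne (by omega)]; ring

theorem stage2Aux_z_add (i : ℕ) (s v : ℤ) (w : Z2) :
    stage2Aux_z K i (s + co i w) (v + co (i + 1) w) + w = stage2Aux_z K i s v := by
  refine co_ext (i := i) ?_ ?_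
  · rw [co_add, (stage2Aux_z_co _ _ _).1, (stage2Aux_z_co _ _ _).1]; ring
  · rw [co_add, (stage2Aux_z_co _ _ _).2, (stage2Aux_z_co _ _ _).2]; ring

theorem stage2Aux_agree (h : Hier W K) {m : W.Pt → ℤ} {i r : ℕ} (hi : K + 1 ≤ i) (hp : i % 2 = 1)
    {x y : W.X} {c c' : I} {t v : ℤ} (hx : h.Ht 1 x t) (hy : h.Ht 1 y t)
    (vx : stage2Aux_v h m (i + 1) (x, c) = v) (vy : stage2Aux_v h m (i + 1) (y, c') = v)
    (e : x.1 (stage2Aux_z K i (oo K 1 (i + 2) + t) v) = y.1 (stage2Aux_z K i (oo K 1 (i + 2) + t) v))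
    (h1 : 2 * ss K i + r ≤ oo K 1 (i + 2) + t) (h2 : oo K 1 (i + 2) + t + r < mm i * ss K i)
    (h3 : |v| + r < ss K (i + 1)) : Agree x y r := by
  have hs := ss_pos (K := K) i
  have hm := three_le_mm i
  obtain ⟨e1, e2⟩ := stage2Aux_z_co (K := K) i (oo K 1 (i + 2) + t) v
  generalize stage2Aux_z K i (oo K 1 (i + 2) + t) v = z at e e1 e2
  have r2 : ∀ x : W.X, h.Ht 1 x t → h.res (z +ᵥ x) (i + 2) = 2 * ss K i := fun x hx => by
    obtain ⟨q, hq⟩ := hx (i + 2) (by omega)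
    rw [h.res_vadd, co_congr (i := i + 2) (j := i) (by omega), e1,
      show h.res x (i + 2) + (2 * ss K i - (oo K 1 (i + 2) + t)) = 2 * ss K i + ss K (i + 2) * q by
        linear_combination hq, Int.add_mul_emod_self_left, ss_add_two (by omega)]
    exact Int.emod_eq_of_lt (by omega) (by nlinarith)
  have r1 : ∀ (x : W.X) (c : I), stage2Aux_v h m (i + 1) (x, c) = v →
      h.res (z +ᵥ x) (i + 1) = 0 := fun x c hx => by
    rw [h.res_vadd, e2, ← hx, stage2Aux_v]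
    simp
  intro w h4 h5
  have h6 := abs_le.1 (abs_co_le i h4 h5)
  have h7 := abs_le.1 (abs_co_le (i + 1) h4 h5)
  have h8 := (h.zd hi (r2 x hx) (r2 y hy) (r1 x c vx) (r1 y c' vy)
    (by rw [vadd_val, vadd_val, zero_add, e]) (w - z)
    (by rw [co_sub, e1]; constructor <;> omega)
    (by rw [co_sub, e2, abs_lt]; have := le_abs_self v; have := neg_abs_le v; omega)).1
  rwa [vadd_val, vadd_val, sub_add_cancel] at h8

/-- the data of a point of height `t` -/
noncomputable def stage2Aux_at (h : Hier W K) (m : W.Pt → ℤ) (i : ℕ) (p : W.Pt) (t : ℤ) :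
    ℤ × ℤ × I × W.A :=
  (oo K 1 (i + 2) + t, stage2Aux_v h m (i + 1) p, p.2,
    p.1.1 (stage2Aux_z K i (oo K 1 (i + 2) + t) (stage2Aux_v h m (i + 1) p)))

open Classical in
/-- the atom of a point -/
noncomputable def stage2Aux_al (h : Hier W K) (m : W.Pt → ℤ) (i : ℕ) (p : W.Pt) :
    Option (ℤ × ℤ × I × W.A) :=
  if hx : ∃ t, h.Ht 1 p.1 t then some (stage2Aux_at h m i p hx.choose) else none

theorem stage2Aux_al_some (h : Hier W K) (m : W.Pt → ℤ) (i : ℕ) {p : W.Pt} {t : ℤ}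
    (ht : h.Ht 1 p.1 t) : stage2Aux_al h m i p = some (stage2Aux_at h m i p t) := by
  have hx : ∃ t, h.Ht 1 p.1 t := ⟨t, ht⟩
  rw [stage2Aux_al, dif_pos hx, Hier.Ht.unique h hx.choose_spec ht]

theorem stage2Aux_al_cases (h : Hier W K) (m : W.Pt → ℤ) (i : ℕ) (p : W.Pt) :
    (stage2Aux_al h m i p = none ∧ ∀ t, ¬ h.Ht 1 p.1 t) ∨
      ∃ t, h.Ht 1 p.1 t ∧ stage2Aux_al h m i p = some (stage2Aux_at h m i p t) := by
  by_cases hx : ∃ t, h.Ht 1 p.1 t
  · exact Or.inr (hx.imp fun t ht => ⟨ht, stage2Aux_al_some h m i ht⟩)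
  · exact Or.inl ⟨dif_neg hx, not_exists.1 hx⟩

/-- the properties of a group element used below -/
structure stage2Aux_Good (h : Hier W K) (m : W.Pt → ℤ) (i r : ℕ) (g : Equiv.Perm W.Pt) :
    Prop where
  mem : g ∈ FG W
  rad : Rad g r
  idx : ∀ x b, h.idx (i + 1) m x (crd x g b) = h.idx (i + 1) m x b

theorem stage2Aux_move {h : Hier W K} {m : W.Pt → ℤ} {i r : ℕ} (hp : i % 2 = 1)
    {g : Equiv.Perm W.Pt} (hg : stage2Aux_Good h m i r g) {x : W.X} {c : I} {t : ℤ}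
    (ht : h.Ht 1 x t) {b : B} (hb : crd x g (0, c) = b) :
    |co i b.1| ≤ r ∧ h.Ht 1 (g (x, c)).1 (t + co i b.1) ∧
      stage2Aux_at h m i (g (x, c)) (t + co i b.1) =
        (oo K 1 (i + 2) + t + co i b.1, stage2Aux_v h m (i + 1) (x, c) + co (i + 1) b.1, b.2,
          x.1 (stage2Aux_z K i (oo K 1 (i + 2) + t) (stage2Aux_v h m (i + 1) (x, c)))) := by
  have h1 : g (x, c) = pt b x := by rw [← pt_zero, crd_spec h.free hg.mem, hb]
  have h2 := crd_disp h.free hg.mem hg.rad x (0, c)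
  have h3 := hg.idx x (0, c)
  rw [hb] at h2 h3
  refine ⟨abs_co_le i (by simpa using h2.1) (by simpa using h2.2), ?_, ?_⟩
  · rw [h1, co_congr (i := i) (j := 1) (by omega)]
    exact Hier.Ht.vadd h ht b.1
  · rw [h1, stage2Aux_at, stage2Aux_v_pt h h3, ← add_assoc]
    simp only [pt, vadd_val, stage2Aux_z_add]

theorem stage2Aux_key {h : Hier W K} {m : W.Pt → ℤ} {i r : ℕ} (hi : K + 1 ≤ i) (hp : i % 2 = 1)
    (hv : ∀ p, |stage2Aux_v h m (i + 1) p| + r < ss K (i + 1))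
    {g : Equiv.Perm W.Pt} (hg : stage2Aux_Good h m i r g) {p p' : W.Pt} {t : ℤ}
    (ht : h.Ht 1 p.1 t) (h1 : 2 * ss K i + r ≤ oo K 1 (i + 2) + t)
    (h2 : oo K 1 (i + 2) + t + r < mm i * ss K i)
    (e : stage2Aux_al h m i p = stage2Aux_al h m i p') :
    stage2Aux_al h m i (g p) = stage2Aux_al h m i (g p') := by
  obtain ⟨x, c⟩ := p
  obtain ⟨y, c'⟩ := p'
  rw [stage2Aux_al_some h m i ht] at e
  rcases stage2Aux_al_cases h m i (y, c') with ⟨h3, -⟩ | ⟨t', ht', h3⟩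
  · rw [h3] at e
    cases e
  rw [h3, Option.some_inj] at e
  simp only [stage2Aux_at, Prod.mk.injEq, add_right_inj] at e
  obtain ⟨rfl, e1, rfl, e2⟩ := e
  rw [← e1] at e2
  have h4 := stage2Aux_agree h hi hp ht ht' rfl e1.symm e2 h1 h2 (hv _)
  have h5 : crd y g (0, c) = crd x g (0, c) :=
    (crd_congr h.free hg.mem hg.rad (by simpa using h4)).symm
  obtain ⟨-, h6, h7⟩ := stage2Aux_move hp hg ht rfl
  obtain ⟨-, h8, h9⟩ := stage2Aux_move hp hg ht' h5
  rw [stage2Aux_al_some h m i h6, stage2Aux_al_some h m i h8, h7, h9, ← e1, e2]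

/-- the angles -/
noncomputable def stage2Aux_th {A : Type} (a L Q : ℤ) : Option (ℤ × ℤ × I × A) → ℝ
  | none => 0
  | some q => if |q.2.1| < Q then stage2Aux_ramp a L q.1 else 0

/-- the active atoms -/
noncomputable def stage2Aux_act (A : Type) [Fintype A] (a L Q : ℤ) :
    Finset (Option (ℤ × ℤ × I × A)) :=
  (Finset.Ioo a (a + L) ×ˢ Finset.Ioo (-Q) Q ×ˢ Finset.univ).map Function.Embedding.some

theorem stage2Aux_act_none {A : Type} [Fintype A] (a L Q : ℤ) : none ∉ stage2Aux_act A a L Q := by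
  simp [stage2Aux_act]

theorem stage2Aux_act_some {A : Type} [Fintype A] {a L Q : ℤ} {q : ℤ × ℤ × I × A} :
    some q ∈ stage2Aux_act A a L Q ↔ (a < q.1 ∧ q.1 < a + L) ∧ |q.2.1| < Q := by
  rw [stage2Aux_act, ← Function.Embedding.some_apply, Finset.mem_map']
  simp [abs_lt]

theorem stage2Aux_act_card (A : Type) [Fintype A] {a L Q : ℤ} (hL : 0 < L) (hQ : 0 < Q) :
    ((stage2Aux_act A a L Q).card : ℝ) ≤ L * (2 * Q * (30 * Fintype.card A)) := by
  have h1 : ((Finset.Ioo a (a + L)).card : ℤ) ≤ L := by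
    rw [Int.card_Ioo]
    omega
  have h2 : ((Finset.Ioo (-Q) Q).card : ℤ) ≤ 2 * Q := by
    rw [Int.card_Ioo]
    omega
  have h3 : ((Finset.Ioo a (a + L)).card : ℝ) ≤ L := by exact_mod_cast h1
  have h4 : ((Finset.Ioo (-Q) Q).card : ℝ) ≤ 2 * Q := by exact_mod_cast h2
  have h5 : (0 : ℝ) ≤ L := by exact_mod_cast hL.le
  rw [stage2Aux_act, Finset.card_map, Finset.card_product, Finset.card_product, Finset.card_univ,
    Fintype.card_prod, Fintype.card_fin]
  push_cast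
  gcongr

theorem stage2Aux_th_out {A : Type} [Fintype A] {a L Q : ℤ} (hL : 0 < L)
    (q : Option (ℤ × ℤ × I × A)) (hq : q ∉ stage2Aux_act A a L Q) :
    stage2Aux_th a L Q q = 0 ∨ stage2Aux_th a L Q q = Real.pi / 2 := by
  rcases q with _ | q
  · exact Or.inl rfl
  rw [stage2Aux_act_some] at hq
  simp only [stage2Aux_th]
  split_ifs with h1
  · rcases le_or_gt q.1 a with h2 | h2
    · exact Or.inl (stage2Aux_ramp_low hL h2)
    · exact Or.inr (stage2Aux_ramp_high hL (not_lt.1 fun h3 => hq ⟨⟨h2, h3⟩, h1⟩))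
  · exact Or.inl rfl

theorem stage2Aux_num (r n : ℕ) {ε : ℝ} (hε : 0 < ε) : ∃ C : ℤ, r < C ∧
    ∀ (L Q : ℤ) (c : ℕ), 0 < L → 0 < Q → C * Q ≤ L → (c : ℝ) ≤ L * (2 * Q * (30 * n)) →
      2 * √(2 * c) * (Real.pi / 2 * (r / L)) ≤ ε := by
  obtain ⟨C, hC⟩ := exists_int_gt (max (r : ℝ) (120 * n * Real.pi ^ 2 * r ^ 2 / ε ^ 2))
  refine ⟨C, by exact_mod_cast (le_max_left _ _).trans_lt hC, fun L Q c hL hQ h1 h2 => ?_⟩
  have h3 := ((le_max_right _ _).trans hC.le)
  rw [div_le_iff₀ (by positivity)] at h3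
  have hL' : (0 : ℝ) < L := by exact_mod_cast hL
  have hQ' : (0 : ℝ) < Q := by exact_mod_cast hQ
  have h4 : (C : ℝ) * Q ≤ L := by exact_mod_cast h1
  rw [show 2 * √(2 * c) * (Real.pi / 2 * (r / L)) = √(2 * c) * (Real.pi * r) / L by ring,
    div_le_iff₀ hL', ← pow_le_pow_iff_left₀ (by positivity) (by positivity) two_ne_zero, mul_pow,
    Real.sq_sqrt (by positivity)]
  calc 2 * (c : ℝ) * (Real.pi * r) ^ 2 ≤ 2 * (L * (2 * Q * (30 * n))) * (Real.pi * r) ^ 2 := by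
        gcongr
    _ = L * Q * (120 * n * Real.pi ^ 2 * r ^ 2) := by ring
    _ ≤ L * Q * (C * ε ^ 2) := by gcongr
    _ = L * ε ^ 2 * (C * Q) := by ring
    _ ≤ L * ε ^ 2 * L := by gcongr
    _ = (ε * L) ^ 2 := by ring

theorem stage2Aux_cut (h : Hier W K) {m : W.Pt → ℤ} (hm : Mk m) {i : ℕ} {a L : ℤ} (hL : 0 < L)
    (hv : ∀ p, |stage2Aux_v h m (i + 1) p| < ss K (i + 1)) {T : Finset (Option (ℤ × ℤ × I × W.A))}
    (hT : T ⊆ stage2Aux_act W.A a L (ss K (i + 1))) :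
    stage2Aux_al h m i ⁻¹' full (stage2Aux_th a L (ss K (i + 1)))
      (stage2Aux_act W.A a L (ss K (i + 1))) T ∈ h.Cut 1 := by
  obtain ⟨-, ρ, -, hρ⟩ := hm
  obtain ⟨ρ', hρ'⟩ := h.res_loc (i + 1)
  have hpi : (0 : ℝ) ≠ Real.pi / 2 := by positivity
  have hth : ∀ p t, stage2Aux_th a L (ss K (i + 1)) (some (stage2Aux_at h m i p t)) =
      stage2Aux_ramp a L (oo K 1 (i + 2) + t) := fun p t => if_pos (hv p)
  have hact : ∀ p t, some (stage2Aux_at h m i p t) ∈ stage2Aux_act W.A a L (ss K (i + 1)) ↔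
      a < oo K 1 (i + 2) + t ∧ oo K 1 (i + 2) + t < a + L := fun p t =>
    stage2Aux_act_some.trans (and_iff_left (hv p))
  have h1 := le_abs_self (a - oo K 1 (i + 2))
  have h2 := neg_abs_le (a - oo K 1 (i + 2))
  have h3 := le_abs_self (a - 2 * ss K i)
  have h4 := neg_abs_le (a - 2 * ss K i)
  have hQ := ss_pos (K := K) (i + 1)
  refine ⟨|a - oo K 1 (i + 2)| + L, ρ + ρ' + (|a - 2 * ss K i| + L + ss K (i + 1)).toNat,
    fun p hp => ?_, fun p t ht hN => ?_, fun x y c t hx hy hxy => ?_⟩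
  · rcases stage2Aux_al_cases h m i p with ⟨e, -⟩ | ⟨t, ht, e⟩
    · rw [Set.mem_preimage, e] at hp
      exact (hp.elim (fun h5 => stage2Aux_act_none _ _ _ (hT h5)) fun h5 => hpi h5.2).elim
    · rw [Set.mem_preimage, e] at hp
      refine ⟨t, ht, ?_⟩
      by_contra h5
      rcases hp with hp | ⟨-, hp⟩
      · have := ((hact p t).1 (hT hp)).1
        omega
      · rw [hth, stage2Aux_ramp_low hL (by omega)] at hp
        exact hpi hp
  · rw [Set.mem_preimage, stage2Aux_al_some h m i ht]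
    refine Or.inr ⟨fun h5 => ?_, by rw [hth, stage2Aux_ramp_high hL (by omega)]⟩
    have := ((hact p t).1 h5).2
    omega
  · rw [Set.mem_preimage, Set.mem_preimage, stage2Aux_al_some h m i (p := (x, c)) hx,
      stage2Aux_al_some h m i (p := (y, c)) hy]
    by_cases h5 : a < oo K 1 (i + 2) + t ∧ oo K 1 (i + 2) + t < a + L
    · have h6 := stage2Aux_v_loc h (hρ' x y (hxy.mono (by omega))) (hρ x y c (hxy.mono (by omega)))
      have h7 := hv (y, c)
      obtain ⟨e1, e2⟩ := stage2Aux_z_co (K := K) i (oo K 1 (i + 2) + t)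
        (stage2Aux_v h m (i + 1) (y, c))
      have h8 := abs_le_of_co (i := i) (z := stage2Aux_z K i (oo K 1 (i + 2) + t)
        (stage2Aux_v h m (i + 1) (y, c)))
        (r := ((ρ + ρ' + (|a - 2 * ss K i| + L + ss K (i + 1)).toNat : ℕ) : ℤ))
        (by rw [e1, abs_le]; omega) (by rw [e2, abs_neg]; omega)
      simp only [stage2Aux_at, h6, hxy _ h8.1 h8.2]
    · have h6 : ∀ p, some (stage2Aux_at h m i p t) ∉ stage2Aux_act W.A a L (ss K (i + 1)) :=
        fun p h7 => h5 ((hact p t).1 h7)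
      have h7 : ∀ p, some (stage2Aux_at h m i p t) ∉ T := fun p h7 => h6 p (hT h7)
      simp only [full, Set.mem_ofPred_eq, hth, h6, h7]

theorem stage2Aux_pull {h : Hier W K} {m : W.Pt → ℤ} {i r : ℕ} (hi : K + 1 ≤ i) (hp : i % 2 = 1)
    (hv : ∀ p, |stage2Aux_v h m (i + 1) p| + r < ss K (i + 1)) {a L : ℤ} (hL : r < L)
    (h1 : 2 * ss K i + 2 * r ≤ a) (h2 : a + L + 2 * r ≤ mm i * ss K i)
    {g : Equiv.Perm W.Pt} (hg : stage2Aux_Good h m i r g) (hg' : stage2Aux_Good h m i r g⁻¹)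
    (F : Set W.Pt → ℝ) (hF : ∀ S, |F S| ≤ 1) :
    |Ex (stage2Aux_th a L (ss K (i + 1))) (stage2Aux_act W.A a L (ss K (i + 1)))
        (fun T => F (g '' (stage2Aux_al h m i ⁻¹' T))) -
      Ex (stage2Aux_th a L (ss K (i + 1))) (stage2Aux_act W.A a L (ss K (i + 1)))
        (fun T => F (stage2Aux_al h m i ⁻¹' T))| ≤
      2 * √(2 * (stage2Aux_act W.A a L (ss K (i + 1))).card) * (Real.pi / 2 * (r / L)) := by
  have hL0 : 0 < L := by omega
  have hL' : (0 : ℝ) < L := by exact_mod_cast hL0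
  have hinv : ∀ p, g⁻¹ (g p) = p := g.symm_apply_apply
  have hv' : ∀ p, |stage2Aux_v h m (i + 1) p| < ss K (i + 1) := fun p => by
    have := hv p
    omega
  have hth : ∀ p t, stage2Aux_th a L (ss K (i + 1)) (some (stage2Aux_at h m i p t)) =
      stage2Aux_ramp a L (oo K 1 (i + 2) + t) := fun p t => if_pos (hv' p)
  have hc : ∀ p : W.Pt, (stage2Aux_al h m i p = none ∧ stage2Aux_al h m i (g p) = none) ∨
      ∃ t d : ℤ, |d| ≤ r ∧ h.Ht 1 p.1 t ∧ h.Ht 1 (g p).1 (t + d) := fun p => by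
    rcases stage2Aux_al_cases h m i p with ⟨e, h3⟩ | ⟨t, ht, -⟩
    · rcases stage2Aux_al_cases h m i (g p) with ⟨e', -⟩ | ⟨t, ht, -⟩
      · exact Or.inl ⟨e, e'⟩
      · have h4 := (stage2Aux_move (c := (g p).2) hp hg' ht rfl).2.1
        rw [Prod.mk.eta, hinv] at h4
        exact (h3 _ h4).elim
    · obtain ⟨h3, h4, -⟩ := stage2Aux_move (c := p.2) hp hg ht rfl
      exact Or.inr ⟨t, _, h3, ht, h4⟩
  refine pull_move g _ _ _ _ (stage2Aux_th_out hL0) (by positivity) ?_ (fun p => ?_)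
    (fun p p' h3 => ?_) F hF
  · refine mul_lt_of_lt_one_right (by positivity) ((div_lt_one hL').2 ?_)
    exact_mod_cast hL
  · rcases hc p with ⟨e, e'⟩ | ⟨t, d, hd, ht, ht'⟩
    · rw [e, e', sub_self, abs_zero]
      positivity
    · rw [stage2Aux_al_some h m i ht, stage2Aux_al_some h m i ht', hth, hth, ← add_assoc]
      exact stage2Aux_ramp_lip hL0 hd
  · rcases hc p with ⟨e, e'⟩ | ⟨t, d, hd, ht, ht'⟩
    · rw [e, e', or_self] at h3
      exact (stage2Aux_act_none _ _ _ h3).elim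
    rw [stage2Aux_al_some h m i ht, stage2Aux_al_some h m i ht', stage2Aux_act_some,
      stage2Aux_act_some] at h3
    simp only [stage2Aux_at] at h3
    rw [abs_le] at hd
    refine ⟨stage2Aux_key hi hp hv hg ht (by omega) (by omega), fun e => ?_⟩
    simpa only [hinv] using
      stage2Aux_key hi hp hv hg' ht' (by omega) (by omega) e

theorem stage2 (h : Hier W K) {H : Subgroup (Equiv.Perm W.Pt)} {m : W.Pt → ℤ} (hm : Mk m)
    (hH : ∀ g ∈ H, g ∈ FG W ∧ h.Pres 0 m g) : AmOn H (h.Cut 1) := by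
  intro Kf hK ε hε
  obtain ⟨r, hr⟩ := exists_rad Kf fun g hg => (hH g (hK g hg)).1
  obtain ⟨N, -, hN, -⟩ := id hm
  obtain ⟨C, hC, hnum⟩ := stage2Aux_num r (Fintype.card W.A) hε
  choose! k hk using fun g hg => (hH g hg).2
  obtain ⟨i1, h1⟩ := oo_large (K := K) (N + r + 1)
  obtain ⟨i2, h2⟩ := ss_growth (K := K) (9 * (C + 4 * r))
  obtain ⟨i, hp, hi, hi1, hi2, hi3, hi4⟩ : ∃ i, i % 2 = 1 ∧ K + 1 ≤ i ∧ i1 ≤ i ∧ i2 ≤ i ∧
      Kf.sup k ≤ i ∧ Kf.sup (fun g => k g⁻¹) ≤ i :=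
    ⟨2 * (K + i1 + i2 + Kf.sup k + Kf.sup fun g => k g⁻¹) + 1, by omega⟩
  have hv := stage2Aux_v_bound h (k := i + 1) (r := r) hN (by have := h1 (i + 1) (by omega); omega)
  have hP := ss_pos (K := K) i
  have hQ := ss_pos (K := K) (i + 1)
  have hM := three_le_mm i
  have h3 := h2 (i + 1) (by omega)
  rw [ss_add_two (by omega)] at h3
  obtain ⟨L, hL⟩ : ∃ L, L = mm i * ss K i - 2 * ss K i - 4 * r := ⟨_, rfl⟩
  have h4 : C * ss K (i + 1) ≤ L := by nlinarith
  have h5 : r < L := by nlinarith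
  refine ⟨_, (stage2Aux_act W.A (2 * ss K i + 2 * r) L (ss K (i + 1))).powerset,
    bw (stage2Aux_th (2 * ss K i + 2 * r) L (ss K (i + 1))) _, _, fun T _ => bw_nonneg _ _ _,
    bw_sum _ _, fun T hT => stage2Aux_cut h hm (by omega) (fun p => by have := hv p; omega)
      (Finset.mem_powerset.1 hT), fun g hg F hF => ?_⟩
  have g1 : k g ≤ i := (Finset.le_sup hg).trans hi3
  have g2 : k g⁻¹ ≤ i := (Finset.le_sup (f := fun g => k g⁻¹) hg).trans hi4
  have g3 := H.inv_mem (hK g hg)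
  exact (stage2Aux_pull hi hp hv h5 le_rfl (by omega)
    ⟨(hH g (hK g hg)).1, (hr g hg).1, hk g (hK g hg) _ (by omega) (by omega)⟩
    ⟨(hH _ g3).1, (hr g hg).2, hk _ g3 _ (by omega) (by omega)⟩ F hF).trans
    (hnum L _ _ (by omega) hQ h4 (stage2Aux_act_card _ (by omega) hQ))

end Vale.Agent.P196
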