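import Vale.Agent.P196.AmDefs

/-! P196 task H: stabilisers of cuts preserve strips; preserving both kinds of strips is locally
finite. -/

namespace Vale.Agent.P196

open Pointwise

variable {W : Wang} {K : ℕ}

theorem stage3Aux_idx_sh (h : Hier W K) (k : ℕ) (m : W.Pt → ℤ) (x : W.X) (w : Z2) :
    ∃ c : ℤ, ∀ b, h.idx k m x (sh w b) = h.idx k m (w +ᵥ x) b + c := by
  obtain ⟨c, hc⟩ := h.dvd_res_vadd x w k
  refine ⟨c, fun b => ?_⟩
  unfold Hier.idx
  rw [pt_vadd, ← Int.add_mul_ediv_right _ _ (ss_pos (K := K) k).ne']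
  congr 1
  simp only [sh, co_add]
  linarith

theorem stage3Aux_div {s q u : ℤ} (h0 : 0 ≤ u) (h1 : u < s) : (u + q * s) / s = q := by
  rw [Int.add_mul_ediv_right _ _ (by omega), Int.ediv_eq_zero_of_lt h0 h1, zero_add]

open Classical in
/-- the correction attached to a cut -/
noncomputable def stage3Aux_m (h : Hier W K) (e : ℕ) (S : Set W.Pt) (N : ℤ) (ρ : ℕ)
    (p : W.Pt) : ℤ :=
  if ∃ y t, h.Ht e y t ∧ |t| ≤ N ∧ Agree p.1 y ρ then
    (if ∃ y t, h.Ht e y t ∧ |t| ≤ N ∧ Agree p.1 y ρ ∧ (y, p.2) ∈ S then N else -(N + 1)) else 0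

theorem stage3Aux_m_abs (h : Hier W K) (e : ℕ) (S : Set W.Pt) {N : ℤ} (hN : 0 ≤ N) (ρ : ℕ)
    (p : W.Pt) : |stage3Aux_m h e S N ρ p| ≤ N + 1 := by
  unfold stage3Aux_m
  split_ifs <;> rw [abs_le] <;> constructor <;> omega

theorem stage3Aux_mk (h : Hier W K) (e : ℕ) (S : Set W.Pt) {N : ℤ} (hN : 0 ≤ N) (ρ : ℕ) :
    Mk (stage3Aux_m h e S N ρ) := by
  refine ⟨N + 1, ρ, stage3Aux_m_abs h e S hN ρ, fun x y i hxy => ?_⟩
  classical
  have e2 : ∀ w, Agree x w ρ ↔ Agree y w ρ := fun w =>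
    ⟨fun h1 => hxy.symm.trans h1, fun h1 => hxy.trans h1⟩
  unfold stage3Aux_m
  exact if_congr (exists₂_congr fun w t => and_congr_right fun _ => and_congr_right fun _ => e2 w)
    (if_congr (exists₂_congr fun w t => and_congr_right fun _ => and_congr_right fun _ =>
      and_congr_left fun _ => e2 w) rfl rfl) rfl

/-- the sign of the corrected height is given by membership in the cut -/
theorem stage3Aux_sign (h : Hier W K) {e : ℕ} {S : Set W.Pt} {N : ℤ} (hN : 0 ≤ N) {ρ : ℕ}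
    (h1 : ∀ p ∈ S, ∃ t, h.Ht e p.1 t ∧ -N ≤ t)
    (h2 : ∀ (p : W.Pt) t, h.Ht e p.1 t → N ≤ t → p ∈ S)
    (h3 : ∀ x y (i : I) t, h.Ht e x t → h.Ht e y t → Agree x y ρ → ((x, i) ∈ S ↔ (y, i) ∈ S))
    (h4 : ∀ x y t t', h.Ht e x t → h.Ht e y t' → Agree x y ρ → t = t' ∨ 2 * N + 2 ≤ |t - t'|)
    {w y : W.X} {t : ℤ} (hy : h.Ht e y t) (hw : Agree w y ρ) (j : I) :
    ((y, j) ∈ S → 0 ≤ t + stage3Aux_m h e S N ρ (w, j)) ∧
      ((y, j) ∉ S → t + stage3Aux_m h e S N ρ (w, j) < 0) := by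
  have hlo : (y, j) ∈ S → -N ≤ t := fun hm => by
    obtain ⟨t', h5, h6⟩ := h1 _ hm
    rwa [Hier.Ht.unique h hy h5]
  have hhi : (y, j) ∉ S → t < N := fun hm => not_le.1 fun h5 => hm (h2 (y, j) t hy h5)
  unfold stage3Aux_m
  dsimp only
  split_ifs with c1 c2
  · refine ⟨fun hm => by have := hlo hm; omega, fun hm => ?_⟩
    obtain ⟨y', t', a1, a2, a3, a4⟩ := c2
    have := hhi hm
    rcases h4 y y' t t' hy a1 (hw.symm.trans a3) with rfl | h5
    · exact absurd ((h3 y y' j t hy a1 (hw.symm.trans a3)).2 a4) hm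
    · rw [abs_le] at a2
      rcases abs_cases (t - t') with h6 | h6 <;> omega
  · refine ⟨fun hm => ?_, fun hm => by have := hhi hm; omega⟩
    obtain ⟨y', t', a1, a2, a3⟩ := c1
    have := hlo hm
    rcases h4 y y' t t' hy a1 (hw.symm.trans a3) with rfl | h5
    · exact absurd ⟨y, t, hy, a2, hw, hm⟩ c2
    · rw [abs_le] at a2
      rcases abs_cases (t - t') with h6 | h6 <;> omega
  · have h5 : ¬ |t| ≤ N := fun h5 => c1 ⟨y, t, hy, h5, hw⟩
    rw [abs_le] at h5
    exact ⟨fun hm => by have := hlo hm; omega, fun hm => by have := hhi hm; omega⟩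

theorem stab_pres (h : Hier W K) {e : ℕ} {S : Set W.Pt} (hS : S ∈ h.Cut e) :
    ∃ m, Mk m ∧ ∀ g ∈ FG W, g • S = S → h.Pres e m g := by
  obtain ⟨N0, ρ0, s1, s2, s3⟩ := hS
  obtain ⟨n, hn⟩ : ∃ n : ℕ, N0 ≤ n := ⟨N0.toNat, Int.self_le_toNat _⟩
  have hN : (0 : ℤ) ≤ n := Int.natCast_nonneg n
  obtain ⟨i0, hi0⟩ := ss_large (K := K) (2 * n + 2)
  obtain ⟨r1, hr1⟩ := h.res_loc (2 * i0 + e)
  have h1 : ∀ p ∈ S, ∃ t, h.Ht e p.1 t ∧ -(n : ℤ) ≤ t := fun p hp => by
    obtain ⟨t, a1, a2⟩ := s1 p hp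
    exact ⟨t, a1, by omega⟩
  have h2 : ∀ (p : W.Pt) t, h.Ht e p.1 t → (n : ℤ) ≤ t → p ∈ S := fun p t a1 a2 =>
    s2 p t a1 (by omega)
  have h3 : ∀ x y (i : I) t, h.Ht e x t → h.Ht e y t → Agree x y (ρ0 + r1) →
      ((x, i) ∈ S ↔ (y, i) ∈ S) := fun x y i t a1 a2 a3 => s3 x y i t a1 a2 (a3.mono (by omega))
  have h4 : ∀ x y t t', h.Ht e x t → h.Ht e y t' → Agree x y (ρ0 + r1) →
      t = t' ∨ 2 * (n : ℤ) + 2 ≤ |t - t'| := by
    intro x y t t' a1 a2 a3
    have b1 := a1 (2 * i0 + e) (by omega)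
    have b2 := a2 (2 * i0 + e) (by omega)
    rw [hr1 x y (a3.mono (by omega))] at b1
    have b3 : ss K (2 * i0 + e) ∣ t - t' := by
      have := b2.sub b1
      rwa [show h.res y (2 * i0 + e) - oo K 1 (2 * i0 + e) - t'
        - (h.res y (2 * i0 + e) - oo K 1 (2 * i0 + e) - t) = t - t' by ring] at this
    by_cases b4 : t - t' = 0
    · left; omega
    · right
      exact (hi0 _ (by omega)).trans (Int.le_of_dvd (abs_pos.2 b4) ((dvd_abs _ _).2 b3))
  refine ⟨stage3Aux_m h e S n (ρ0 + r1), stage3Aux_mk h e S hN _, fun g hg hgS => ?_⟩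
  have hm := stage3Aux_m_abs h e S hN (ρ0 + r1)
  have hs := fun w y t hy hw j => stage3Aux_sign h hN h1 h2 h3 h4 (w := w) (y := y) (t := t) hy hw j
  generalize stage3Aux_m h e S n (ρ0 + r1) = m at hm hs
  obtain ⟨r, hr, -⟩ := id hg
  obtain ⟨k0, hk0⟩ := h.exists_near e (ρ0 + r1 + r + (r + n + 2))
  obtain ⟨k1, hk1⟩ := ss_large (K := K) (2 * r + 2 * n + 4)
  refine ⟨max k0 k1, fun k hk hke => ?_⟩
  have hss := hk1 k (le_trans (le_max_right _ _) hk)
  have hco : co e = co k := co_congr hke.symm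
  have key : ∀ x i, h.idx k m x (crd x g (0, i)) = h.idx k m x (0, i) := by
    intro x i
    have hd := crd_disp h.free hg hr x (0, i)
    simp only [Prod.fst_zero, Prod.snd_zero, sub_zero] at hd
    obtain ⟨q, u, hv, hu0, hu1⟩ : ∃ q u : ℤ, h.res x k - oo K 1 k = u + q * ss K k ∧ 0 ≤ u ∧
        u < ss K k := ⟨(h.res x k - oo K 1 k) / ss K k, (h.res x k - oo K 1 k) % ss K k,
      (Int.emod_add_ediv_mul _ _).symm, Int.emod_nonneg _ (ss_pos k).ne',
      Int.emod_lt_of_pos _ (ss_pos k)⟩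
    by_cases hfar : r + n + 1 ≤ u ∧ u + r + n + 1 < ss K k
    · have far : ∀ b : B, |b.1.1| ≤ r → |b.1.2| ≤ r → h.idx k m x b = q := by
        intro b b1 b2
        have b3 := abs_le.1 (abs_co_le k b1 b2)
        have b4 := abs_le.1 (hm (pt b x))
        unfold Hier.idx
        rw [show h.res x k + co k b.1 + m (pt b x) - oo K 1 k
          = (u + co k b.1 + m (pt b x)) + q * ss K k by linarith]
        exact stage3Aux_div (by omega) (by omega)
      rw [far _ hd.1 hd.2, far (0, i) (by simp) (by simp)]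
    obtain ⟨q, t, hv, ht⟩ : ∃ q t : ℤ, h.res x k - oo K 1 k = t + q * ss K k ∧
        |t| ≤ r + n + 2 := by
      by_cases c : r + n + 1 ≤ u
      · exact ⟨q + 1, u - ss K k, by linarith, abs_le.2 ⟨by omega, by omega⟩⟩
      · exact ⟨q, u, hv, abs_le.2 ⟨by omega, by omega⟩⟩
    have ho := oo_bound (K := K) k
    have hx0 : h.res ((-t) • ac k +ᵥ x) k = oo K 1 k := by
      rw [h.res_vadd, co_smul, co_ac rfl,
        show h.res x k + -t * 1 = oo K 1 k + ss K k * q by linarith, Int.add_mul_emod_self_left,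
        Int.emod_eq_of_lt ho.1 (by omega)]
    obtain ⟨y0, y1, y2⟩ := hk0 k (le_trans (le_max_left _ _) hk) hke _ hx0
    have hac : |(t • ac k).1| ≤ ((r + n + 2 : ℕ) : ℤ) ∧ |(t • ac k).2| ≤ ((r + n + 2 : ℕ) : ℤ) := by
      refine abs_le_of_co (i := k) ?_ ?_
      · rw [co_smul, co_ac rfl, mul_one]; exact_mod_cast ht
      · rw [co_smul, co_ac_ne (by omega), mul_zero, abs_zero]; positivity
    have y3 := y2.vadd hac.1 hac.2
    rw [← add_vadd, ← add_smul, add_neg_cancel, zero_smul, zero_vadd] at y3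
    have y4 := Hier.Ht.vadd h y1 (t • ac k)
    rw [hco, co_smul, co_ac rfl, mul_one, zero_add] at y4
    generalize t • ac k +ᵥ y0 = y at y3 y4
    have near : ∀ b : B, |b.1.1| ≤ r → |b.1.2| ≤ r →
        (pt b y ∈ S → h.idx k m x b = q) ∧ (pt b y ∉ S → h.idx k m x b = q - 1) := by
      intro b b1 b2
      have b3 := abs_le.1 (abs_co_le k b1 b2)
      have b4 := abs_le.1 (hm (pt b x))
      have b5 := Hier.Ht.vadd h y4 b.1
      rw [hco] at b5
      have b6 := hs _ _ _ b5 (y3.vadd b1 b2) b.2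
      have b7 := abs_le.1 ht
      unfold Hier.idx
      constructor
      · intro hb
        have b8 : 0 ≤ t + co k b.1 + m (pt b x) := b6.1 hb
        rw [show h.res x k + co k b.1 + m (pt b x) - oo K 1 k
          = (t + co k b.1 + m (pt b x)) + q * ss K k by linarith]
        exact stage3Aux_div b8 (by omega)
      · intro hb
        have b8 : t + co k b.1 + m (pt b x) < 0 := b6.2 hb
        rw [show h.res x k + co k b.1 + m (pt b x) - oo K 1 k
          = (t + co k b.1 + m (pt b x) + ss K k) + (q - 1) * ss K k by linarith]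
        exact stage3Aux_div (by omega) (by omega)
    have hc : crd x g (0, i) = crd y g (0, i) :=
      crd_congr h.free hg hr (by simpa using y3.mono (by omega))
    have hmem : pt (crd x g (0, i)) y ∈ S ↔ pt (0, i) y ∈ S := by
      rw [hc, ← crd_spec h.free hg]
      conv_lhs => rw [← hgS]
      exact Set.smul_mem_smul_set_iff
    have n1 := near _ hd.1 hd.2
    have n2 := near (0, i) (by simp) (by simp)
    by_cases c : pt (0, i) y ∈ S
    · rw [n1.1 (hmem.2 c), n2.1 c]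
    · rw [n1.2 (fun c' => c (hmem.1 c')), n2.2 c]
  intro x b
  obtain ⟨c, hc⟩ := stage3Aux_idx_sh h k m x b.1
  have e1 : b = sh b.1 (0, b.2) := by simp [sh]
  rw [e1, ← crd_vadd h.free hg, hc, hc, key]

theorem stage3Aux_close (h : Hier W K) {k : ℕ} {m : W.Pt → ℤ} {N : ℤ} (hm : ∀ p, |m p| ≤ N)
    {x : W.X} {b : B} {i : I} (e : h.idx k m x b = h.idx k m x (0, i)) :
    |co k b.1| ≤ ss K k + 2 * N := by
  unfold Hier.idx at e
  have hs := ss_pos (K := K) k
  have a1 := Int.emod_add_ediv_mul (h.res x k + co k b.1 + m (pt b x) - oo K 1 k) (ss K k)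
  have a2 := Int.emod_add_ediv_mul
    (h.res x k + co k ((0, i) : B).1 + m (pt (0, i) x) - oo K 1 k) (ss K k)
  have a3 := Int.emod_nonneg (h.res x k + co k b.1 + m (pt b x) - oo K 1 k) hs.ne'
  have a4 := Int.emod_lt_of_pos (h.res x k + co k b.1 + m (pt b x) - oo K 1 k) hs
  have a5 := Int.emod_nonneg
    (h.res x k + co k ((0, i) : B).1 + m (pt (0, i) x) - oo K 1 k) hs.ne'
  have a6 := Int.emod_lt_of_pos
    (h.res x k + co k ((0, i) : B).1 + m (pt (0, i) x) - oo K 1 k) hs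
  have a7 := abs_le.1 (hm (pt b x))
  have a8 := abs_le.1 (hm (pt (0, i) x))
  have a9 : co k ((0, i) : B).1 = 0 := co_zero k
  rw [e] at a1
  rw [abs_le]
  constructor <;> linarith

theorem stage3 (h : Hier W K) {m m' : W.Pt → ℤ} (hm : Mk m) (hm' : Mk m')
    (Kf : Finset (Equiv.Perm W.Pt))
    (hK : ∀ g ∈ Kf, g ∈ FG W ∧ h.Pres 0 m g ∧ h.Pres 1 m' g) :
    ((Subgroup.closure (Kf : Set (Equiv.Perm W.Pt)) : Subgroup _) :
      Set (Equiv.Perm W.Pt)).Finite := by
  obtain ⟨N, -, hN, -⟩ := hm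
  obtain ⟨N', -, hN', -⟩ := hm'
  obtain ⟨r, hr⟩ := exists_rad Kf fun g hg => (hK g hg).1
  choose! k0 hk0 using fun g hg => (hK g hg).2.1
  choose! k1 hk1 using fun g hg => (hK g hg).2.2
  obtain ⟨k, hk⟩ : ∃ k, ∀ g ∈ Kf, ∀ x b, h.idx k m x (crd x g b) = h.idx k m x b ∧
      h.idx (k + 1) m' x (crd x g b) = h.idx (k + 1) m' x b := by
    refine ⟨2 * (Kf.sup k0 + Kf.sup k1), fun g hg x b => ⟨hk0 g hg _ ?_ (by omega) x b,
      hk1 g hg _ ?_ (by omega) x b⟩⟩
    · have := Finset.le_sup (f := k0) hg; omega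
    · have := Finset.le_sup (f := k1) hg; omega
  have hP : ∀ g ∈ Subgroup.closure (Kf : Set (Equiv.Perm W.Pt)), g ∈ FG W ∧ ∀ x b,
      h.idx k m x (crd x g b) = h.idx k m x b ∧
      h.idx (k + 1) m' x (crd x g b) = h.idx (k + 1) m' x b := by
    intro g hg
    induction hg using Subgroup.closure_induction with
    | mem g hg => exact ⟨(hK g hg).1, hk g hg⟩
    | one => exact ⟨(FG W).one_mem, fun x b => by rw [crd_one h.free]; exact ⟨rfl, rfl⟩⟩
    | mul g g' _ _ i1 i2 =>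
      refine ⟨(FG W).mul_mem i1.1 i2.1, fun x b => ?_⟩
      rw [crd_mul h.free i1.1 i2.1, Equiv.Perm.mul_apply, (i1.2 x _).1, (i1.2 x _).2]
      exact i2.2 x b
    | inv g _ i1 =>
      refine ⟨(FG W).inv_mem i1.1, fun x b => ?_⟩
      have := i1.2 x ((crd x g)⁻¹ b)
      rw [crd_inv h.free i1.1]
      simp only [Equiv.Perm.coe_inv, Equiv.apply_symm_apply] at this ⊢
      exact ⟨this.1.symm, this.2.symm⟩
  obtain ⟨D, hD1, hD2⟩ : ∃ D : ℕ, ss K k + 2 * N ≤ D ∧ ss K (k + 1) + 2 * N' ≤ D :=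
    ⟨(ss K k + 2 * N).toNat + (ss K (k + 1) + 2 * N').toNat, by omega, by omega⟩
  have hB : ∀ g ∈ Subgroup.closure (Kf : Set (Equiv.Perm W.Pt)), ∀ x i,
      |(crd x g (0, i)).1.1| ≤ D ∧ |(crd x g (0, i)).1.2| ≤ D := fun g hg x i =>
    abs_le_of_co (i := k) ((stage3Aux_close h hN ((hP g hg).2 x _).1).trans hD1)
      ((stage3Aux_close h hN' ((hP g hg).2 x _).2).trans hD2)
  have hL : ∀ x y, Agree x y (r + D) → ∀ g ∈ Subgroup.closure (Kf : Set (Equiv.Perm W.Pt)),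
      ∀ i, crd x g (0, i) = crd y g (0, i) := by
    intro x y hxy g hg
    have step : ∀ s g, s ∈ FG W → Rad s r → g ∈ Subgroup.closure (Kf : Set (Equiv.Perm W.Pt)) →
        (∀ i, crd x g (0, i) = crd y g (0, i)) →
        ∀ i, crd x (s * g) (0, i) = crd y (s * g) (0, i) := by
      intro s g hs hsr hg ih i
      rw [crd_mul h.free hs (hP g hg).1, crd_mul h.free hs (hP g hg).1, Equiv.Perm.mul_apply,
        Equiv.Perm.mul_apply, ← ih i]
      exact crd_congr h.free hs hsr (hxy.vadd (hB g hg x i).1 (hB g hg x i).2)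
    induction hg using Subgroup.closure_induction_left with
    | one => intro i; rw [crd_one h.free, crd_one h.free]
    | mul_left s hs g hg ih => exact step s g (hK s hs).1 (hr s hs).1 hg ih
    | inv_mul_cancel s hs g hg ih => exact step s⁻¹ g ((FG W).inv_mem (hK s hs).1) (hr s hs).2 hg ih
  obtain ⟨F, hF⟩ := exists_reps (W := W) (r + D)
  have hfin : (Set.univ.pi fun _ : F × I =>
      ((basicAux_box D : Set Z2) ×ˢ (Set.univ : Set I) : Set B)).Finite :=
    Set.Finite.pi fun _ => (basicAux_box D).finite_toSet.prod Set.finite_univ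
  refine Set.Finite.of_injOn (f := fun g (p : F × I) => crd p.1.1 g (0, p.2)) ?_
    (fun g hg g' hg' e => ?_) hfin
  · exact fun g hg p _ => ⟨Finset.mem_coe.2 (basicAux_mem_box.2 (hB g hg _ _)), trivial⟩
  refine Equiv.ext fun ⟨x, i⟩ => ?_
  obtain ⟨y, hy, hxy⟩ := hF x
  have e1 : crd y g (0, i) = crd y g' (0, i) := congrFun e (⟨y, hy⟩, i)
  rw [← pt_zero, crd_spec h.free (hP g hg).1, crd_spec h.free (hP g' hg').1, hL x y hxy g hg,
    hL x y hxy g' hg', e1]

end Vale.Agent.P196
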