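import Vale.Agent.P196.AmGen
import Vale.Agent.P196.Stage1
import Vale.Agent.P196.Stage2
import Vale.Agent.P196.Stage3

/-! P196: subgroups of the full group are amenable. -/

namespace Vale.Agent.P196

open Pointwise

variable {W : Wang} {K : ℕ}

theorem am_of_le (h : Hier W K) {H : Subgroup (Equiv.Perm W.Pt)} (hH : H ≤ FG W) : Am H := by
  refine am_ext (stage1 h hH) fun S hS => ?_
  obtain ⟨m, hm, hp⟩ := stab_pres h hS
  refine am_ext (stage2 h hm fun g hg => ⟨hH hg.1, hp g (hH hg.1) hg.2⟩) fun S' hS' => ?_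
  obtain ⟨m', hm', hp'⟩ := stab_pres h hS'
  exact am_of_locfin fun Kf hK => stage3 h hm hm' Kf fun g hg =>
    ⟨hH (hK g hg).1.1, hp g (hH (hK g hg).1.1) (hK g hg).1.2, hp' g (hH (hK g hg).1.1) (hK g hg).2⟩

end Vale.Agent.P196
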