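import Vale.Agent.P196.Defs

/-! P196 task A: basic facts on tiling spaces, three-cycles and orbit coordinates. -/

namespace Vale.Agent.P196

open Pointwise

section c3
variable {β : Type} [DecidableEq β] {a b c : β}

theorem c3_a (h : D3 a b c) : c3 a b c a = b := by
  rw [c3, Equiv.Perm.mul_apply, Equiv.swap_apply_left,
    Equiv.swap_apply_of_ne_of_ne h.1.symm h.2.2]

theorem c3_b (h : D3 a b c) : c3 a b c b = c := by
  have _ := h
  rw [c3, Equiv.Perm.mul_apply, Equiv.swap_apply_right, Equiv.swap_apply_left]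

theorem c3_c (h : D3 a b c) : c3 a b c c = a := by
  rw [c3, Equiv.Perm.mul_apply, Equiv.swap_apply_of_ne_of_ne h.2.1.symm h.2.2.symm,
    Equiv.swap_apply_right]

theorem c3_of_ne {x : β} (ha : x ≠ a) (hb : x ≠ b) (hc : x ≠ c) : c3 a b c x = x := by
  rw [c3, Equiv.Perm.mul_apply, Equiv.swap_apply_of_ne_of_ne ha hb,
    Equiv.swap_apply_of_ne_of_ne ha hc]

theorem D3.map {γ : Type} {f : β → γ} (hf : Function.Injective f) (h : D3 a b c) :
    D3 (f a) (f b) (f c) := by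
  exact ⟨hf.ne h.1, hf.ne h.2.1, hf.ne h.2.2⟩

theorem c3_conj (σ : Equiv.Perm β) (a b c : β) : σ * c3 a b c * σ⁻¹ = c3 (σ a) (σ b) (σ c) := by
  rw [c3, c3, Equiv.swap_apply_apply, Equiv.swap_apply_apply]
  group

omit [DecidableEq β] in
theorem basicAux_rot (h : D3 a b c) : D3 b c a := ⟨h.2.2, h.1.symm, h.2.1.symm⟩

omit [DecidableEq β] in
theorem basicAux_flip (h : D3 a b c) : D3 a c b := ⟨h.2.1, h.1, h.2.2.symm⟩

theorem basicAux_c3_eq (h : D3 a b c) {g : Equiv.Perm β} (ha : g a = b) (hb : g b = c)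
    (hc : g c = a) (hx : ∀ x, x ≠ a → x ≠ b → x ≠ c → g x = x) : g = c3 a b c := by
  ext x
  by_cases h1 : x = a
  · rw [h1, ha, c3_a h]
  by_cases h2 : x = b
  · rw [h2, hb, c3_b h]
  by_cases h3 : x = c
  · rw [h3, hc, c3_c h]
  rw [hx x h1 h2 h3, c3_of_ne h1 h2 h3]

theorem c3_cyc (h : D3 a b c) : c3 a b c = c3 b c a := by
  exact (basicAux_c3_eq h (c3_c (basicAux_rot h)) (c3_a (basicAux_rot h)) (c3_b (basicAux_rot h))
    fun x h1 h2 h3 => c3_of_ne h2 h3 h1).symm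

theorem c3_inv (h : D3 a b c) : c3 a c b = (c3 a b c)⁻¹ := by
  refine (basicAux_c3_eq (basicAux_flip h) ?_ ?_ ?_ fun x h1 h2 h3 => ?_).symm
  · exact Equiv.Perm.inv_eq_iff_eq.2 (c3_c h).symm
  · exact Equiv.Perm.inv_eq_iff_eq.2 (c3_b h).symm
  · exact Equiv.Perm.inv_eq_iff_eq.2 (c3_a h).symm
  · exact Equiv.Perm.inv_eq_iff_eq.2 (c3_of_ne h1 h3 h2).symm

theorem c3_cf {x e : β} (h : D3 x a c) (h1 : x ≠ e) (h2 : a ≠ e) (h3 : c ≠ e) :
    c3 x a c = c3 a c e * c3 x e c := by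
  have d1 : D3 a c e := ⟨h.2.2, h2, h3⟩
  have d2 : D3 x e c := ⟨h1, h.2.1, h3.symm⟩
  refine (basicAux_c3_eq h ?_ ?_ ?_ fun y h4 h5 h6 => ?_).symm
  · rw [Equiv.Perm.mul_apply, c3_a d2, c3_c d1]
  · rw [Equiv.Perm.mul_apply, c3_of_ne h.1.symm h2 h.2.2, c3_a d1]
  · rw [Equiv.Perm.mul_apply, c3_c d2, c3_of_ne h.1 h.2.1 h1]
  · by_cases h7 : y = e
    · rw [h7, Equiv.Perm.mul_apply, c3_b d2, c3_b d1]
    · rw [Equiv.Perm.mul_apply, c3_of_ne h4 h7 h6, c3_of_ne h5 h6 h7]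

theorem c3_pow_three (h : D3 a b c) : c3 a b c ^ 3 = 1 := by
  ext x
  rw [pow_succ, pow_two, Equiv.Perm.mul_apply, Equiv.Perm.mul_apply, Equiv.Perm.one_apply]
  by_cases h1 : x = a
  · rw [h1, c3_a h, c3_b h, c3_c h]
  by_cases h2 : x = b
  · rw [h2, c3_b h, c3_c h, c3_a h]
  by_cases h3 : x = c
  · rw [h3, c3_c h, c3_a h, c3_b h]
  rw [c3_of_ne h1 h2 h3, c3_of_ne h1 h2 h3, c3_of_ne h1 h2 h3]

end c3

variable {W : Wang}

instance : CompactSpace W.X := by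
  refine isCompact_iff_compactSpace.1 (IsClosed.isCompact (s := {x : Z2 → W.A |
    ∀ z d, W.out d (x z) = W.inn d (x (z + ev d))}) ?_)
  simp only [Set.ofPred_forall]
  refine isClosed_iInter fun z => isClosed_iInter fun d => ?_
  have h : Continuous fun x : Z2 → W.A => (x z, x (z + ev d)) :=
    (continuous_apply z).prodMk (continuous_apply (z + ev d))
  exact (isClosed_discrete {p : W.A × W.A | W.out d p.1 = W.inn d p.2}).preimage h

instance : T2Space W.X := by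
  exact inferInstanceAs
    (T2Space {x : Z2 → W.A // ∀ z d, W.out d (x z) = W.inn d (x (z + ev d))})

theorem Agree.refl (x : W.X) (r : ℕ) : Agree x x r := fun _ _ _ => rfl

theorem Agree.symm {x y : W.X} {r : ℕ} (h : Agree x y r) : Agree y x r :=
  fun w h1 h2 => (h w h1 h2).symm

theorem Agree.trans {x y z : W.X} {r : ℕ} (h : Agree x y r) (h' : Agree y z r) : Agree x z r :=
  fun w h1 h2 => (h w h1 h2).trans (h' w h1 h2)

theorem Agree.mono {x y : W.X} {r r' : ℕ} (h : Agree x y r') (hr : r ≤ r') : Agree x y r := by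
  have : (r : ℤ) ≤ r' := by exact_mod_cast hr
  exact fun w h1 h2 => h w (h1.trans this) (h2.trans this)

theorem Agree.vadd {x y : W.X} {r r' : ℕ} (h : Agree x y (r + r')) {z : Z2} (h1 : |z.1| ≤ r')
    (h2 : |z.2| ≤ r') : Agree (z +ᵥ x) (z +ᵥ y) r := by
  intro w h3 h4
  simp only [vadd_val]
  refine h _ ?_ ?_
  · simp only [Prod.fst_add]
    push_cast
    exact (abs_add_le _ _).trans (add_le_add h3 h1)
  · simp only [Prod.snd_add]
    push_cast
    exact (abs_add_le _ _).trans (add_le_add h4 h2)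

theorem basicAux_cont (w : Z2) : Continuous fun x : W.X => x.1 w :=
  (continuous_apply w).comp continuous_subtype_val

theorem basicAux_site (z : Z2) (a : W.A) : IsClopen {x : W.X | x.1 z = a} :=
  (isClopen_discrete {a}).preimage (basicAux_cont z)

/-- the square of radius `r` -/
noncomputable def basicAux_box (r : ℕ) : Finset Z2 := Finset.Icc (-(r : ℤ)) r ×ˢ Finset.Icc (-(r : ℤ)) r

theorem basicAux_mem_box {r : ℕ} {w : Z2} : w ∈ basicAux_box r ↔ |w.1| ≤ r ∧ |w.2| ≤ r := by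
  simp [basicAux_box, abs_le]

theorem basicAux_agree (x : W.X) (r : ℕ) : IsClopen {y | Agree x y r} := by
  have e : {y | Agree x y r} = ⋂ w ∈ basicAux_box r, {y : W.X | y.1 w = x.1 w} := by
    ext y
    simp only [Set.mem_ofPred_eq, Set.mem_iInter, basicAux_mem_box]
    exact ⟨fun h w hw => (h w hw.1 hw.2).symm, fun h w h1 h2 => (h w ⟨h1, h2⟩).symm⟩
  rw [e]
  exact isClopen_biInter_finset fun w _ => basicAux_site w _

theorem basicAux_bound (s : Finset Z2) : ∃ r : ℕ, ∀ w ∈ s, |w.1| ≤ r ∧ |w.2| ≤ r := by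
  refine ⟨s.sup fun w => w.1.natAbs + w.2.natAbs, fun w hw => ?_⟩
  have h := Finset.le_sup (f := fun w : Z2 => w.1.natAbs + w.2.natAbs) hw
  simp only [← Int.natCast_natAbs, Nat.cast_le]
  constructor <;> omega

theorem basicAux_nhds {x : W.X} {U : Set W.X} (hU : U ∈ nhds x) :
    ∃ r, ∀ y, Agree x y r → y ∈ U := by
  obtain ⟨t, ht, h1⟩ := (mem_nhds_subtype _ x U).1 hU
  rw [nhds_pi, Filter.mem_pi'] at ht
  obtain ⟨s, t', h2, h3⟩ := ht
  obtain ⟨r, hr⟩ := basicAux_bound s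
  refine ⟨r, fun y hy => h1 (h3 fun w hw => ?_)⟩
  rw [← hy w (hr w hw).1 (hr w hw).2]
  exact mem_of_mem_nhds (h2 w)

/-- Lebesgue number -/
theorem basicAux_leb (r : W.X → ℕ) : ∃ R, ∀ x, ∃ x0, r x0 ≤ R ∧ Agree x0 x (r x0) := by
  obtain ⟨F, hF⟩ := CompactSpace.elim_nhds_subcover (fun x : W.X => {y | Agree x y (r x)})
    fun x => (basicAux_agree x _).isOpen.mem_nhds (Agree.refl x _)
  refine ⟨F.sup r, fun x => ?_⟩
  have h : x ∈ ⋃ y ∈ F, {z | Agree y z (r y)} := hF ▸ Set.mem_univ x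
  obtain ⟨y, hy, h1⟩ := Set.mem_iUnion₂.1 h
  exact ⟨y, Finset.le_sup hy, h1⟩

theorem continuous_vadd_X (z : Z2) : Continuous fun x : W.X => z +ᵥ x := by
  exact Continuous.subtype_mk (continuous_pi fun w => basicAux_cont (w + z)) _

theorem isClopen_iff {U : Set W.X} :
    IsClopen U ↔ ∃ r, ∀ x y, Agree x y r → (x ∈ U ↔ y ∈ U) := by
  constructor
  · intro hU
    have h1 : ∀ x : W.X, ∃ r, ∀ y, Agree x y r → (x ∈ U ↔ y ∈ U) := by
      intro x
      by_cases hx : x ∈ U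
      · obtain ⟨r, hr⟩ := basicAux_nhds (hU.isOpen.mem_nhds hx)
        exact ⟨r, fun y hy => iff_of_true hx (hr y hy)⟩
      · obtain ⟨r, hr⟩ := basicAux_nhds (hU.compl.isOpen.mem_nhds hx)
        exact ⟨r, fun y hy => iff_of_false hx (hr y hy)⟩
    choose r hr using h1
    obtain ⟨R, hR⟩ := basicAux_leb r
    refine ⟨R, fun x y h => ?_⟩
    obtain ⟨x0, h2, h3⟩ := hR x
    exact (hr x0 x h3).symm.trans (hr x0 y (h3.trans (h.mono h2)))
  · rintro ⟨r, hr⟩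
    constructor
    · refine isOpen_compl_iff.1 (isOpen_iff_mem_nhds.2 fun x hx => ?_)
      exact Filter.mem_of_superset
        ((basicAux_agree x r).isOpen.mem_nhds (Agree.refl x r)) fun y hy h => hx ((hr x y hy).2 h)
    · refine isOpen_iff_mem_nhds.2 fun x hx => ?_
      exact Filter.mem_of_superset
        ((basicAux_agree x r).isOpen.mem_nhds (Agree.refl x r)) fun y hy => (hr x y hy).1 hx

theorem isClopen_agree (x : W.X) (r : ℕ) : IsClopen {y | Agree x y r} := by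
  exact basicAux_agree x r

theorem isClopen_site (z : Z2) (a : W.A) : IsClopen {x : W.X | x.1 z = a} := by
  exact basicAux_site z a

theorem IsClopen.vadd_X {U : Set W.X} (h : IsClopen U) (z : Z2) : IsClopen (z +ᵥ U) := by
  have e : z +ᵥ U = (fun x : W.X => -z +ᵥ x) ⁻¹' U :=
    Set.ext fun x => Set.mem_vadd_set_iff_neg_vadd_mem
  rw [e]
  exact h.preimage (continuous_vadd_X (-z))

/-- there are finitely many patterns of a given radius -/
theorem exists_reps (r : ℕ) : ∃ F : Finset W.X, ∀ x, ∃ y ∈ F, Agree x y r := by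
  obtain ⟨F, hF⟩ := CompactSpace.elim_nhds_subcover (fun x : W.X => {y | Agree x y r})
    fun x => (basicAux_agree x r).isOpen.mem_nhds (Agree.refl x r)
  refine ⟨F, fun x => ?_⟩
  have h : x ∈ ⋃ y ∈ F, {z | Agree y z r} := hF ▸ Set.mem_univ x
  obtain ⟨y, hy, h1⟩ := Set.mem_iUnion₂.1 h
  exact ⟨y, hy, Agree.symm h1⟩

/-- compactness in sequential form -/
theorem exists_limit (x : ℕ → W.X) : ∃ y : W.X, ∀ r n, ∃ m ≥ n, Agree (x m) y r := by
  obtain ⟨y, hy⟩ := exists_clusterPt_of_compactSpace (Filter.map x Filter.atTop)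
  refine ⟨y, fun r n => ?_⟩
  have h1 := (mapClusterPt_iff_frequently (F := Filter.atTop) (u := x)).1 hy _
    ((basicAux_agree y r).isOpen.mem_nhds (Agree.refl y r))
  obtain ⟨m, hm, h2⟩ := Filter.frequently_atTop.1 h1 n
  exact ⟨m, hm, Agree.symm h2⟩

theorem basicAux_pieces {Q : Set W.X → Prop} {U : Set W.X} (hU : IsClopen U) (h0 : Q ∅)
    (hu : ∀ V V', IsClopen V → IsClopen V' → V ⊆ U → V' ⊆ U → Disjoint V V' → Q V → Q V' →
      Q (V ∪ V')) (R : ℕ) (hl : ∀ x ∈ U, Q (U ∩ {y | Agree x y R})) : Q U := by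
  classical
  have key : ∀ F : Finset W.X, IsClopen (U ∩ ⋃ x ∈ F, {y | Agree x y R}) ∧
      Q (U ∩ ⋃ x ∈ F, {y | Agree x y R}) := by
    intro F
    refine ⟨hU.inter (isClopen_biUnion_finset fun x _ => isClopen_agree x R), ?_⟩
    induction F using Finset.induction_on with
    | empty => simpa using h0
    | insert x F _ ih =>
      rw [Finset.set_biUnion_insert, Set.inter_union_distrib_left]
      by_cases h1 : Disjoint (U ∩ {y | Agree x y R}) (U ∩ ⋃ x ∈ F, {y | Agree x y R})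
      · refine hu _ _ (hU.inter (isClopen_agree x R))
          (hU.inter (isClopen_biUnion_finset fun x _ => isClopen_agree x R))
          Set.inter_subset_left Set.inter_subset_left h1 ?_ ih
        rcases (U ∩ {y | Agree x y R}).eq_empty_or_nonempty with h2 | ⟨z, h2, h3⟩
        · rw [h2]; exact h0
        · have e : {y | Agree x y R} = {y | Agree z y R} :=
            Set.ext fun y => ⟨fun h => (Agree.symm h3).trans h, fun h => Agree.trans h3 h⟩
          rw [e]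
          exact hl z h2
      · obtain ⟨z, ⟨-, h2⟩, -, h3⟩ := Set.not_disjoint_iff.1 h1
        obtain ⟨x', hx', h4⟩ := Set.mem_iUnion₂.1 h3
        rw [Set.union_eq_self_of_subset_left]
        · exact ih
        · exact fun y hy => ⟨hy.1, Set.mem_iUnion₂.2
            ⟨x', hx', (Agree.trans h4 (Agree.symm h2)).trans hy.2⟩⟩
  obtain ⟨F, hF⟩ := exists_reps (W := W) R
  have h := (key F).2
  rwa [Set.inter_eq_self_of_subset_left] at h
  intro x _
  obtain ⟨y, hy, h1⟩ := hF x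
  exact Set.mem_iUnion₂.2 ⟨y, hy, h1.symm⟩

/-- induction over clopen sets -/
theorem clopen_ind {Q : Set W.X → Prop} (h0 : Q ∅) (h1 : Q Set.univ)
    (hs : ∀ z a, Q {x | x.1 z = a})
    (hi : ∀ U V, IsClopen U → IsClopen V → Q U → Q V → Q (U ∩ V))
    (hu : ∀ U V, IsClopen U → IsClopen V → Disjoint U V → Q U → Q V → Q (U ∪ V))
    {U : Set W.X} (hU : IsClopen U) : Q U := by
  obtain ⟨r, hr⟩ := isClopen_iff.1 hU
  have h2 : ∀ (x : W.X) (s : Finset Z2), IsClopen {y : W.X | ∀ w ∈ s, y.1 w = x.1 w} ∧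
      Q {y : W.X | ∀ w ∈ s, y.1 w = x.1 w} := by
    intro x s
    induction s using Finset.induction_on with
    | empty => simpa using ⟨isClopen_univ, h1⟩
    | insert w s _ ih =>
      have e : {y : W.X | ∀ v ∈ insert w s, y.1 v = x.1 v} =
          {y : W.X | y.1 w = x.1 w} ∩ {y : W.X | ∀ v ∈ s, y.1 v = x.1 v} := by
        ext y; simp
      rw [e]
      exact ⟨(isClopen_site _ _).inter ih.1, hi _ _ (isClopen_site _ _) ih.1 (hs _ _) ih.2⟩
  refine basicAux_pieces hU h0 (fun V V' h3 h4 _ _ => hu V V' h3 h4) r fun x hx => ?_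
  have e : U ∩ {y | Agree x y r} = {y : W.X | ∀ w ∈ basicAux_box r, y.1 w = x.1 w} := by
    ext y
    simp only [Set.mem_inter_iff, Set.mem_ofPred_eq, basicAux_mem_box]
    exact ⟨fun h w hw => (h.2 w hw.1 hw.2).symm, fun h =>
      have h5 : Agree x y r := fun w h3 h4 => (h w ⟨h3, h4⟩).symm
      ⟨(hr x y h5).1 hx, h5⟩⟩
  rw [e]
  exact (h2 x _).2

/-- local to global principle for clopen sets -/
theorem clopen_loc {Q : Set W.X → Prop} {U : Set W.X} (hU : IsClopen U) (h0 : Q ∅)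
    (hu : ∀ V V', IsClopen V → IsClopen V' → V ⊆ U → V' ⊆ U → Disjoint V V' → Q V → Q V' →
      Q (V ∪ V'))
    (hl : ∀ x ∈ U, ∃ r, ∀ V, IsClopen V → V ⊆ U → (∀ y ∈ V, Agree x y r) → Q V) : Q U := by
  have h1 : ∀ x : W.X, ∃ r, x ∈ U → ∀ V, IsClopen V → V ⊆ U → (∀ y ∈ V, Agree x y r) → Q V := by
    intro x
    by_cases hx : x ∈ U
    · obtain ⟨r, hr⟩ := hl x hx
      exact ⟨r, fun _ => hr⟩
    · exact ⟨0, fun h => absurd h hx⟩
  choose r hr using h1
  obtain ⟨s, hs⟩ := isClopen_iff.1 hU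
  obtain ⟨R, hR⟩ := basicAux_leb fun x => max (r x) s
  refine basicAux_pieces hU h0 hu R fun x hx => ?_
  obtain ⟨x0, h2, h3⟩ := hR x
  refine hr x0 ((hs x0 x (h3.mono (le_max_right _ _))).2 hx) _ (hU.inter (isClopen_agree x R))
    Set.inter_subset_left fun y hy => ?_
  exact (h3.trans (Agree.mono hy.2 h2)).mono (le_max_left _ _)

theorem pt_vadd (b : B) (z : Z2) (x : W.X) : pt b (z +ᵥ x) = pt (sh z b) x := by
  simp only [pt, sh, add_vadd]

theorem pt_zero (x : W.X) (i : I) : pt (0, i) x = (x, i) := by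
  simp [pt]

theorem pt_inj_right {b : B} {x y : W.X} (h : pt b x = pt b y) : x = y := by
  exact vadd_left_cancel b.1 (congrArg Prod.fst h)

theorem pt_inj (hF : W.Free) {b b' : B} {x : W.X} (h : pt b x = pt b' x) : b = b' := by
  have h1 : b.1 +ᵥ x = b'.1 +ᵥ x := congrArg Prod.fst h
  have h2 : (-b'.1 + b.1) +ᵥ x = x := by rw [add_vadd, h1, neg_vadd_vadd]
  exact Prod.ext (neg_add_eq_zero.1 (hF x _ h2)).symm (congrArg Prod.snd h :)

theorem MS.mono {U U' : Set W.X} {S S' : Set B} (h : MS U S) (hU : U' ⊆ U) (hS : S' ⊆ S) :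
    MS U' S' := by
  exact fun b hb b' hb' x hx x' hx' => h b (hS hb) b' (hS hb') x (hU hx) x' (hU hx')

theorem basicAux_sh_inj (z : Z2) : Function.Injective (sh z) := fun _ _ h =>
  Prod.ext (add_right_cancel (congrArg Prod.fst h)) (congrArg Prod.snd h :)

theorem MS.vadd {U : Set W.X} {S : Set B} {z : Z2} : MS (z +ᵥ U) S ↔ MS U (sh z '' S) := by
  constructor
  · rintro h _ ⟨b, hb, rfl⟩ _ ⟨b', hb', rfl⟩ x hx x' hx' e
    rw [← pt_vadd, ← pt_vadd] at e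
    rw [h b hb b' hb' _ (Set.vadd_mem_vadd_set hx) _ (Set.vadd_mem_vadd_set hx') e]
  · rintro h b hb b' hb' _ ⟨x, hx, rfl⟩ _ ⟨x', hx', rfl⟩ e
    dsimp only at e
    rw [pt_vadd, pt_vadd] at e
    exact basicAux_sh_inj z (h _ ⟨b, hb, rfl⟩ _ ⟨b', hb', rfl⟩ x hx x' hx' e)

/-- arrows to pairwise distinct copies always form a multisection -/
theorem MS.of_injOn {U : Set W.X} {S : Set B} (h : Set.InjOn Prod.snd S) : MS U S := by
  exact fun b hb b' hb' x _ x' _ e => h hb hb' (congrArg Prod.snd e :)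

theorem basicAux_sep (hF : W.Free) {z : Z2} (hz : z ≠ 0) :
    ∃ r, ∀ x : W.X, ¬ Agree x (z +ᵥ x) r := by
  by_contra h
  push Not at h
  choose x hx using h
  obtain ⟨y, hy⟩ := exists_limit x
  refine hz (hF y z (Subtype.ext (funext fun w => ?_)))
  obtain ⟨r, hr⟩ := basicAux_bound {w, w + z}
  obtain ⟨m, hm, h1⟩ := hy r r
  have h2 := hr w (by simp)
  have h3 := hr (w + z) (by simp)
  rw [vadd_val, ← h1 _ h3.1 h3.2, ← h1 _ h2.1 h2.2, (hx m).mono hm w h2.1 h2.2, vadd_val]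

/-- every finite set of arrows is locally a multisection -/
theorem exists_MS (hF : W.Free) {S : Set B} (hS : S.Finite) :
    ∃ r, ∀ x : W.X, MS {y | Agree x y r} S := by
  have h1 : ∀ p : B × B, ∃ r, p.1.1 ≠ p.2.1 → ∀ x : W.X, ¬ Agree x ((-p.2.1 + p.1.1) +ᵥ x) r := by
    intro p
    by_cases h : p.1.1 = p.2.1
    · exact ⟨0, fun h' => absurd h h'⟩
    · obtain ⟨r, hr⟩ := basicAux_sep hF (z := -p.2.1 + p.1.1)
        fun e => h (neg_add_eq_zero.1 e).symm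
      exact ⟨r, fun _ => hr⟩
  choose r hr using h1
  refine ⟨(hS.toFinset ×ˢ hS.toFinset).sup r, fun x0 b hb b' hb' x hx x' hx' e => ?_⟩
  refine Prod.ext ?_ (congrArg Prod.snd e :)
  by_contra hne
  have h2 : b.1 +ᵥ x = b'.1 +ᵥ x' := congrArg Prod.fst e
  refine hr (b, b') hne x ?_
  rw [add_vadd, h2, neg_vadd_vadd]
  refine ((Agree.symm hx).trans hx').mono (Finset.le_sup ?_)
  exact Finset.mem_product.2 ⟨hS.mem_toFinset.2 hb, hS.mem_toFinset.2 hb'⟩

theorem Ok.mono {U V : Set W.X} {a b c : B} (h : Ok U a b c) (hV : IsClopen V) (hVU : V ⊆ U) :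
    Ok V a b c := ⟨hV, h.2.1, h.2.2.mono hVU le_rfl⟩

theorem basicAux_ia {α : Type} (g : Equiv.Perm α) (x : α) : g⁻¹ (g x) = x := g.symm_apply_apply x

theorem basicAux_cases (U : Set W.X) (a b c : B) (p : W.Pt) :
    (∃ x ∈ U, p = pt a x) ∨ (∃ x ∈ U, p = pt b x) ∨ (∃ x ∈ U, p = pt c x) ∨
      ∀ x ∈ U, p ≠ pt a x ∧ p ≠ pt b x ∧ p ≠ pt c x := by
  by_contra h
  push Not at h
  obtain ⟨h1, h2, h3, x, hx, h4⟩ := h
  exact h3 x hx (h4 (h1 x hx) (h2 x hx))

theorem IsCyc.unique {g g' : Equiv.Perm W.Pt} {U : Set W.X} {a b c : B} (h : IsCyc g U a b c)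
    (h' : IsCyc g' U a b c) : g = g' := by
  ext1 p
  rcases basicAux_cases U a b c p with ⟨x, hx, rfl⟩ | ⟨x, hx, rfl⟩ | ⟨x, hx, rfl⟩ | hp
  · rw [(h.1 x hx).1, (h'.1 x hx).1]
  · rw [(h.1 x hx).2.1, (h'.1 x hx).2.1]
  · rw [(h.1 x hx).2.2, (h'.1 x hx).2.2]
  · rw [h.2 p hp, h'.2 p hp]

open Classical in
/-- the map underlying a three-cycle -/
noncomputable def basicAux_f (U : Set W.X) (a b c : B) (p : W.Pt) : W.Pt :=
  if h : ∃ x ∈ U, p = pt a x then pt b h.choose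
  else if h : ∃ x ∈ U, p = pt b x then pt c h.choose
  else if h : ∃ x ∈ U, p = pt c x then pt a h.choose else p

theorem basicAux_ne {U : Set W.X} {S : Set B} (h : MS U S) {a b : B} (ha : a ∈ S) (hb : b ∈ S)
    (hab : a ≠ b) {x : W.X} (hx : x ∈ U) : ¬ ∃ y ∈ U, pt a x = pt b y :=
  fun ⟨y, hy, e⟩ => hab (h a ha b hb x hx y hy e)

theorem basicAux_f_spec {U : Set W.X} {a b c : B} (h : D3 a b c) (h' : MS U {a, b, c}) :
    (∀ x ∈ U, basicAux_f U a b c (pt a x) = pt b x ∧ basicAux_f U a b c (pt b x) = pt c x ∧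
      basicAux_f U a b c (pt c x) = pt a x) ∧
    ∀ p, (∀ x ∈ U, p ≠ pt a x ∧ p ≠ pt b x ∧ p ≠ pt c x) → basicAux_f U a b c p = p := by
  refine ⟨fun x hx => ⟨?_, ?_, ?_⟩, fun p hp => ?_⟩
  · have h1 : ∃ y ∈ U, pt a x = pt a y := ⟨x, hx, rfl⟩
    rw [basicAux_f, dif_pos h1, ← pt_inj_right h1.choose_spec.2]
  · have h1 : ∃ y ∈ U, pt b x = pt b y := ⟨x, hx, rfl⟩
    rw [basicAux_f, dif_neg (basicAux_ne h' (by simp) (by simp) h.1.symm hx), dif_pos h1,
      ← pt_inj_right h1.choose_spec.2]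
  · have h1 : ∃ y ∈ U, pt c x = pt c y := ⟨x, hx, rfl⟩
    rw [basicAux_f, dif_neg (basicAux_ne h' (by simp) (by simp) h.2.1.symm hx),
      dif_neg (basicAux_ne h' (by simp) (by simp) h.2.2.symm hx), dif_pos h1,
      ← pt_inj_right h1.choose_spec.2]
  · rw [basicAux_f, dif_neg fun ⟨x, hx, e⟩ => (hp x hx).1 e,
      dif_neg fun ⟨x, hx, e⟩ => (hp x hx).2.1 e, dif_neg fun ⟨x, hx, e⟩ => (hp x hx).2.2 e]

theorem basicAux_f_inv {U : Set W.X} {a b c : B} (h : D3 a b c) (h' : MS U {a, b, c})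
    (p : W.Pt) : basicAux_f U a c b (basicAux_f U a b c p) = p := by
  have h1 := basicAux_f_spec h h'
  have h2 := basicAux_f_spec (basicAux_flip h) (h'.mono le_rfl (by rw [Set.pair_comm c b]))
  rcases basicAux_cases U a b c p with ⟨x, hx, rfl⟩ | ⟨x, hx, rfl⟩ | ⟨x, hx, rfl⟩ | hp
  · rw [(h1.1 x hx).1, (h2.1 x hx).2.2]
  · rw [(h1.1 x hx).2.1, (h2.1 x hx).2.1]
  · rw [(h1.1 x hx).2.2, (h2.1 x hx).1]
  · rw [h1.2 p hp, h2.2 p fun x hx => ⟨(hp x hx).1, (hp x hx).2.2, (hp x hx).2.1⟩]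

theorem isCyc_cyc {U : Set W.X} {a b c : B} (h : D3 a b c) (h' : MS U {a, b, c}) :
    IsCyc (cyc U a b c) U a b c := by
  have h1 : ∃ g, IsCyc g U a b c :=
    ⟨⟨basicAux_f U a b c, basicAux_f U a c b, basicAux_f_inv h h',
      basicAux_f_inv (basicAux_flip h) (h'.mono le_rfl (by rw [Set.pair_comm c b]))⟩,
      basicAux_f_spec h h'⟩
  rw [cyc, dif_pos h1]
  exact h1.choose_spec

/-- on a multisection containing it, a three-cycle acts as `c3` -/
theorem cyc_pt {U : Set W.X} {a b c e : B} (h : D3 a b c) (h' : MS U {a, b, c, e}) {x : W.X}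
    (hx : x ∈ U) : cyc U a b c (pt e x) = pt (c3 a b c e) x := by
  have h1 := isCyc_cyc h (h'.mono le_rfl (show ({a, b, c} : Set B) ⊆ {a, b, c, e} by
    intro y; simp only [Set.mem_insert_iff, Set.mem_singleton_iff]; tauto))
  by_cases e1 : e = a
  · rw [e1, c3_a h, (h1.1 x hx).1]
  by_cases e2 : e = b
  · rw [e2, c3_b h, (h1.1 x hx).2.1]
  by_cases e3 : e = c
  · rw [e3, c3_c h, (h1.1 x hx).2.2]
  rw [c3_of_ne e1 e2 e3]
  exact h1.2 _ fun y hy => ⟨fun e => e1 (h' _ (by simp) _ (by simp) x hx y hy e),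
    fun e => e2 (h' _ (by simp) _ (by simp) x hx y hy e),
    fun e => e3 (h' _ (by simp) _ (by simp) x hx y hy e)⟩

/-- conjugation of a three-cycle -/
theorem cyc_conj' {U : Set W.X} {a b c a' b' c' : B} (h : D3 a b c) (h' : MS U {a, b, c})
    (h2 : D3 a' b' c') (g : Equiv.Perm W.Pt)
    (hg : ∀ x ∈ U, g (pt a x) = pt a' x ∧ g (pt b x) = pt b' x ∧ g (pt c x) = pt c' x) :
    MS U {a', b', c'} ∧ g * cyc U a b c * g⁻¹ = cyc U a' b' c' := by
  have h1 : ∀ q ∈ ({a', b', c'} : Set B), ∃ p ∈ ({a, b, c} : Set B), (∀ x ∈ U, g (pt p x) = pt q x)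
      ∧ (p = a → q = a') ∧ (p = b → q = b') ∧ (p = c → q = c') := by
    rintro q (rfl | rfl | rfl)
    · exact ⟨a, by simp, fun x hx => (hg x hx).1, fun _ => rfl, fun e => absurd e h.1,
        fun e => absurd e h.2.1⟩
    · exact ⟨b, by simp, fun x hx => (hg x hx).2.1, fun e => absurd e.symm h.1, fun _ => rfl,
        fun e => absurd e h.2.2⟩
    · exact ⟨c, by simp, fun x hx => (hg x hx).2.2, fun e => absurd e.symm h.2.1,
        fun e => absurd e.symm h.2.2, fun _ => rfl⟩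
  have h3 : MS U {a', b', c'} := by
    intro q hq q' hq' x hx x' hx' e
    obtain ⟨p, hp, e1, e2⟩ := h1 q hq
    obtain ⟨p', hp', e3, e4⟩ := h1 q' hq'
    rw [← e1 x hx, ← e3 x' hx'] at e
    obtain rfl := h' p hp p' hp' x hx x' hx' (g.injective e)
    rcases hp with rfl | rfl | rfl
    · rw [e2.1 rfl, e4.1 rfl]
    · rw [e2.2.1 rfl, e4.2.1 rfl]
    · rw [e2.2.2 rfl, e4.2.2 rfl]
  have h4 := isCyc_cyc h h'
  refine ⟨h3, IsCyc.unique ⟨fun x hx => ?_, fun p hp => ?_⟩ (isCyc_cyc h2 h3)⟩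
  · obtain ⟨e1, e2, e3⟩ := hg x hx
    obtain ⟨e4, e5, e6⟩ := h4.1 x hx
    rw [← e1, ← e2, ← e3]
    simp only [Equiv.Perm.mul_apply, basicAux_ia, e4, e5, e6, and_self]
  · obtain ⟨p, rfl⟩ := g.surjective p
    rw [Equiv.Perm.mul_apply, Equiv.Perm.mul_apply, basicAux_ia, h4.2 p]
    intro x hx
    obtain ⟨e1, e2, e3⟩ := hg x hx
    obtain ⟨e4, e5, e6⟩ := hp x hx
    exact ⟨fun e => e4 (e ▸ e1), fun e => e5 (e ▸ e2), fun e => e6 (e ▸ e3)⟩

theorem basicAux_ok_flip {U : Set W.X} {a b c : B} (h : Ok U a b c) : Ok U a c b :=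
  ⟨h.1, basicAux_flip h.2.1, h.2.2.mono le_rfl (by rw [Set.pair_comm c b])⟩

theorem basicAux_ok_rot {U : Set W.X} {a b c : B} (h : Ok U a b c) : Ok U b c a :=
  ⟨h.1, basicAux_rot h.2.1, h.2.2.mono le_rfl (by
    intro y; simp only [Set.mem_insert_iff, Set.mem_singleton_iff]; tauto)⟩

theorem basicAux_cyc_inv {U : Set W.X} {a b c : B} (h : Ok U a b c) :
    cyc U a c b = (cyc U a b c)⁻¹ := by
  have h1 := isCyc_cyc h.2.1 h.2.2
  refine (isCyc_cyc (basicAux_ok_flip h).2.1 (basicAux_ok_flip h).2.2).unique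
    ⟨fun x hx => ⟨?_, ?_, ?_⟩, fun p hp => ?_⟩
  · exact Equiv.Perm.inv_eq_iff_eq.2 (h1.1 x hx).2.2.symm
  · exact Equiv.Perm.inv_eq_iff_eq.2 (h1.1 x hx).2.1.symm
  · exact Equiv.Perm.inv_eq_iff_eq.2 (h1.1 x hx).1.symm
  · exact Equiv.Perm.inv_eq_iff_eq.2
      (h1.2 p fun x hx => ⟨(hp x hx).1, (hp x hx).2.2, (hp x hx).2.1⟩).symm

theorem basicAux_move {U : Set W.X} {s m : ℕ} (hs : ∀ x y, Agree x y s → (x ∈ U ↔ y ∈ U)) {a : B}
    (ha : |a.1.1| ≤ m ∧ |a.1.2| ≤ m) {x y : W.X} (h : Agree x y (s + m)) {i : I} {x0 : W.X}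
    (h0 : x0 ∈ U) (e : (x, i) = pt a x0) : -a.1 +ᵥ y ∈ U ∧ (y, i) = pt a (-a.1 +ᵥ y) := by
  have e1 : x = a.1 +ᵥ x0 := congrArg Prod.fst e
  have e2 : i = a.2 := congrArg Prod.snd e
  refine ⟨(hs (-a.1 +ᵥ x) _ (h.vadd (by simpa using ha.1) (by simpa using ha.2))).1 ?_, ?_⟩
  · rwa [e1, neg_vadd_vadd]
  · rw [pt, vadd_neg_vadd, e2]

theorem basicAux_rad {U : Set W.X} {a b c : B} (h : Ok U a b c) : ∃ r, Rad (cyc U a b c) r := by
  obtain ⟨s, hs⟩ := isClopen_iff.1 h.1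
  obtain ⟨m, hm⟩ := basicAux_bound {a.1, b.1, c.1}
  have ha := hm a.1 (by simp)
  have hb := hm b.1 (by simp)
  have hc := hm c.1 (by simp)
  have h1 := isCyc_cyc h.2.1 h.2.2
  have key : ∀ {p q : B}, |p.1.1| ≤ m ∧ |p.1.2| ≤ m → |q.1.1| ≤ m ∧ |q.1.2| ≤ m →
      (∀ x ∈ U, cyc U a b c (pt p x) = pt q x) → ∀ {x i x0}, x0 ∈ U → (x, i) = pt p x0 →
      ∃ e : B, |e.1.1| ≤ (s + m + m : ℕ) ∧ |e.1.2| ≤ (s + m + m : ℕ) ∧
        ∀ y, Agree x y (s + m + m) → cyc U a b c (y, i) = pt e y := by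
    intro p q hp hq hpq x i x0 h0 e
    refine ⟨sh (-p.1) q, ?_, ?_, fun y hy => ?_⟩
    · have := abs_sub q.1.1 p.1.1
      simp only [sh, Prod.fst_sub, ← sub_eq_add_neg]
      push_cast
      omega
    · have := abs_sub q.1.2 p.1.2
      simp only [sh, Prod.snd_sub, ← sub_eq_add_neg]
      push_cast
      omega
    · obtain ⟨h2, h3⟩ := basicAux_move hs hp (hy.mono (Nat.le_add_right _ _)) h0 e
      rw [h3, hpq _ h2, pt_vadd]
  refine ⟨s + m + m, fun x i => ?_⟩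
  rcases basicAux_cases U a b c (x, i) with ⟨x0, h0, e⟩ | ⟨x0, h0, e⟩ | ⟨x0, h0, e⟩ | hp
  · exact key ha hb (fun x hx => (h1.1 x hx).1) h0 e
  · exact key hb hc (fun x hx => (h1.1 x hx).2.1) h0 e
  · exact key hc ha (fun x hx => (h1.1 x hx).2.2) h0 e
  · refine ⟨(0, i), by simp only [Prod.fst_zero, abs_zero]; positivity,
      by simp only [Prod.snd_zero, abs_zero]; positivity, fun y hy => ?_⟩
    have hy' : Agree y x (s + m) := (hy.mono (Nat.le_add_right _ _)).symm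
    rw [pt_zero]
    refine h1.2 _ fun y0 h0 => ⟨fun e => ?_, fun e => ?_, fun e => ?_⟩
    · exact (hp _ (basicAux_move hs ha hy' h0 e).1).1 (basicAux_move hs ha hy' h0 e).2
    · exact (hp _ (basicAux_move hs hb hy' h0 e).1).2.1 (basicAux_move hs hb hy' h0 e).2
    · exact (hp _ (basicAux_move hs hc hy' h0 e).1).2.2 (basicAux_move hs hc hy' h0 e).2

theorem cyc_mem_FG {U : Set W.X} {a b c : B} (h : Ok U a b c) : cyc U a b c ∈ FG W := by
  obtain ⟨r, hr⟩ := basicAux_rad h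
  obtain ⟨r', hr'⟩ := basicAux_rad (basicAux_ok_flip h)
  rw [basicAux_cyc_inv h] at hr'
  exact ⟨max r r', hr.mono (le_max_left _ _), hr'.mono (le_max_right _ _)⟩

theorem DD_le_FG : DD W ≤ FG W := by
  rw [DD, Subgroup.closure_le]
  rintro _ ⟨U, a, b, c, h, rfl⟩
  exact cyc_mem_FG h

theorem basicAux_c3_mem {S : Set B} {a b c e : B} (h : D3 a b c) (ha : a ∈ S) (hb : b ∈ S)
    (hc : c ∈ S) (he : e ∈ S) : c3 a b c e ∈ S := by
  by_cases e1 : e = a
  · rwa [e1, c3_a h]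
  by_cases e2 : e = b
  · rwa [e2, c3_b h]
  by_cases e3 : e = c
  · rwa [e3, c3_c h]
  rwa [c3_of_ne e1 e2 e3]

theorem basicAux_sub3 {S : Set B} {a b c : B} (ha : a ∈ S) (hb : b ∈ S) (hc : c ∈ S) :
    {a, b, c} ⊆ S := Set.insert_subset ha (Set.insert_subset hb (Set.singleton_subset_iff.2 hc))

theorem basicAux_pt {U : Set W.X} {S : Set B} (hS : MS U S) {a b c e : B} (h : D3 a b c)
    (ha : a ∈ S) (hb : b ∈ S) (hc : c ∈ S) (he : e ∈ S) {x : W.X} (hx : x ∈ U) :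
    cyc U a b c (pt e x) = pt (c3 a b c e) x :=
  cyc_pt h (hS.mono le_rfl (Set.insert_subset ha (basicAux_sub3 hb hc he))) hx

theorem basicAux_fix {U : Set W.X} {S : Set B} (hS : MS U S) {a b c : B} (h : D3 a b c)
    (ha : a ∈ S) (hb : b ∈ S) (hc : c ∈ S) {p : W.Pt} (hp : ∀ e ∈ S, ∀ x ∈ U, p ≠ pt e x) :
    cyc U a b c p = p :=
  (isCyc_cyc h (hS.mono le_rfl (basicAux_sub3 ha hb hc))).2 p
    fun x hx => ⟨hp a ha x hx, hp b hb x hx, hp c hc x hx⟩

theorem basicAux_cyc_empty {a b c : B} (h : D3 a b c) : cyc (∅ : Set W.X) a b c = 1 :=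
  Equiv.ext fun p => (isCyc_cyc h fun _ _ _ _ _ hx => hx.elim).2 p fun _ hx => hx.elim

theorem basicAux_cyc_union {U V : Set W.X} {a b c : B} (hd : Disjoint U V) (h : D3 a b c)
    (hS : MS (U ∪ V) {a, b, c}) : cyc (U ∪ V) a b c = cyc U a b c * cyc V a b c := by
  have hU : MS U {a, b, c} := hS.mono Set.subset_union_left le_rfl
  have hV : MS V {a, b, c} := hS.mono Set.subset_union_right le_rfl
  have ha : a ∈ ({a, b, c} : Set B) := by simp
  have hb : b ∈ ({a, b, c} : Set B) := by simp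
  have hc : c ∈ ({a, b, c} : Set B) := by simp
  have h1 : ∀ e ∈ ({a, b, c} : Set B), ∀ x ∈ U, ∀ e' ∈ ({a, b, c} : Set B), ∀ y ∈ V,
      pt e x ≠ pt e' y := by
    intro e he x hx e' he' y hy h2
    obtain rfl := hS e he e' he' x (Or.inl hx) y (Or.inr hy) h2
    obtain rfl := pt_inj_right h2
    exact Set.disjoint_left.1 hd hx hy
  ext1 p
  rw [Equiv.Perm.mul_apply]
  by_cases hp : ∃ e ∈ ({a, b, c} : Set B), ∃ x ∈ U ∪ V, p = pt e x
  · obtain ⟨e, he, x, hx, rfl⟩ := hp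
    rw [basicAux_pt hS h ha hb hc he hx]
    rcases hx with hx | hx
    · rw [basicAux_fix hV h ha hb hc (h1 e he x hx), basicAux_pt hU h ha hb hc he hx]
    · rw [basicAux_pt hV h ha hb hc he hx, basicAux_fix hU h ha hb hc fun e' he' y hy =>
        (h1 e' he' y hy _ (basicAux_c3_mem h ha hb hc he) x hx).symm]
  · push Not at hp
    rw [basicAux_fix hS h ha hb hc hp,
      basicAux_fix hV h ha hb hc fun e he x hx => hp e he x (Or.inr hx),
      basicAux_fix hU h ha hb hc fun e he x hx => hp e he x (Or.inl hx)]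

theorem basicAux_ok_shift {U : Set W.X} {a b c : B} {z : Z2} (h : Ok (z +ᵥ U) a b c) :
    Ok U (sh z a) (sh z b) (sh z c) := by
  refine ⟨?_, h.2.1.map (basicAux_sh_inj z), ?_⟩
  · have := IsClopen.vadd_X h.1 (-z)
    rwa [neg_vadd_vadd] at this
  · have := MS.vadd.1 h.2.2
    rwa [Set.image_insert_eq, Set.image_pair] at this

theorem basicAux_cyc_shift {U : Set W.X} {a b c : B} {z : Z2} (h : Ok (z +ᵥ U) a b c) :
    cyc U (sh z a) (sh z b) (sh z c) = cyc (z +ᵥ U) a b c := by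
  have h1 := isCyc_cyc h.2.1 h.2.2
  refine (isCyc_cyc (basicAux_ok_shift h).2.1 (basicAux_ok_shift h).2.2).unique
    ⟨fun x hx => ?_, fun p hp => h1.2 p ?_⟩
  · simpa only [← pt_vadd] using h1.1 _ (Set.vadd_mem_vadd_set hx)
  · rintro _ ⟨x, hx, rfl⟩
    simpa only [← pt_vadd] using hp x hx

theorem basicAux_cyc_rot {U : Set W.X} {a b c : B} (h : Ok U a b c) :
    cyc U a b c = cyc U b c a := by
  have h1 := isCyc_cyc (basicAux_ok_rot h).2.1 (basicAux_ok_rot h).2.2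
  exact (isCyc_cyc h.2.1 h.2.2).unique
    ⟨fun x hx => ⟨(h1.1 x hx).2.2, (h1.1 x hx).1, (h1.1 x hx).2.1⟩,
      fun p hp => h1.2 p fun x hx => ⟨(hp x hx).2.1, (hp x hx).2.2, (hp x hx).1⟩⟩

theorem basicAux_cyc_cf {U : Set W.X} {x a c e : B} (hS : MS U {x, a, c, e}) (h : D3 x a c)
    (h1 : x ≠ e) (h2 : a ≠ e) (h3 : c ≠ e) : cyc U x a c = cyc U a c e * cyc U x e c := by
  have d1 : D3 a c e := ⟨h.2.2, h2, h3⟩
  have d2 : D3 x e c := ⟨h1, h.2.1, h3.symm⟩
  have hx : x ∈ ({x, a, c, e} : Set B) := by simp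
  have ha : a ∈ ({x, a, c, e} : Set B) := by simp
  have hc : c ∈ ({x, a, c, e} : Set B) := by simp
  have he : e ∈ ({x, a, c, e} : Set B) := by simp
  ext1 p
  rw [Equiv.Perm.mul_apply]
  by_cases hp : ∃ f ∈ ({x, a, c, e} : Set B), ∃ y ∈ U, p = pt f y
  · obtain ⟨f, hf, y, hy, rfl⟩ := hp
    rw [basicAux_pt hS h hx ha hc hf hy, basicAux_pt hS d2 hx he hc hf hy,
      basicAux_pt hS d1 ha hc he (basicAux_c3_mem d2 hx he hc hf) hy, c3_cf h h1 h2 h3,
      Equiv.Perm.mul_apply]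
  · push Not at hp
    rw [basicAux_fix hS h hx ha hc hp, basicAux_fix hS d2 hx he hc hp,
      basicAux_fix hS d1 ha hc he hp]

theorem basicAux_cyc_conj {U : Set W.X} {a b c a' b' c' : B} (hS : MS U {a, b, c, a', b', c'})
    (h : D3 a b c) (h' : D3 a' b' c') :
    MS U {c3 a b c a', c3 a b c b', c3 a b c c'} ∧ cyc U a b c * cyc U a' b' c' * (cyc U a b c)⁻¹ =
      cyc U (c3 a b c a') (c3 a b c b') (c3 a b c c') :=
  cyc_conj' h' (hS.mono le_rfl (basicAux_sub3 (by simp) (by simp) (by simp)))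
    (h'.map (c3 a b c).injective) _ fun _ hx =>
    ⟨basicAux_pt hS h (by simp) (by simp) (by simp) (by simp) hx,
      basicAux_pt hS h (by simp) (by simp) (by simp) (by simp) hx,
      basicAux_pt hS h (by simp) (by simp) (by simp) (by simp) hx⟩

theorem basicAux_cyc_comm {U V : Set W.X} {a b c a' b' c' : B} (h : Ok U a b c)
    (h' : Ok V a' b' c') (hd : ∀ p ∈ ({a, b, c} : Set B), ∀ q ∈ ({a', b', c'} : Set B), ∀ x ∈ U,
      ∀ y ∈ V, pt p x ≠ pt q y) :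
    cyc U a b c * cyc V a' b' c' = cyc V a' b' c' * cyc U a b c := by
  have ha : a ∈ ({a, b, c} : Set B) := by simp
  have hb : b ∈ ({a, b, c} : Set B) := by simp
  have hc : c ∈ ({a, b, c} : Set B) := by simp
  have ha' : a' ∈ ({a', b', c'} : Set B) := by simp
  have hb' : b' ∈ ({a', b', c'} : Set B) := by simp
  have hc' : c' ∈ ({a', b', c'} : Set B) := by simp
  ext1 p
  rw [Equiv.Perm.mul_apply, Equiv.Perm.mul_apply]
  by_cases hp : ∃ e ∈ ({a, b, c} : Set B), ∃ x ∈ U, p = pt e x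
  · obtain ⟨e, he, x, hx, rfl⟩ := hp
    rw [basicAux_fix h'.2.2 h'.2.1 ha' hb' hc' fun q hq => hd e he q hq x hx,
      basicAux_pt h.2.2 h.2.1 ha hb hc he hx, basicAux_fix h'.2.2 h'.2.1 ha' hb' hc'
        fun q hq => hd _ (basicAux_c3_mem h.2.1 ha hb hc he) q hq x hx]
  · push Not at hp
    rw [basicAux_fix h.2.2 h.2.1 ha hb hc hp]
    by_cases hq : ∃ e ∈ ({a', b', c'} : Set B), ∃ x ∈ V, p = pt e x
    · obtain ⟨e, he, x, hx, rfl⟩ := hq
      rw [basicAux_pt h'.2.2 h'.2.1 ha' hb' hc' he hx, basicAux_fix h.2.2 h.2.1 ha hb hc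
        fun q hq y hy => (hd q hq _ (basicAux_c3_mem h'.2.1 ha' hb' hc' he) y hy x hx).symm]
    · push Not at hq
      rw [basicAux_fix h'.2.2 h'.2.1 ha' hb' hc' hq, basicAux_fix h.2.2 h.2.1 ha hb hc hp]

open Classical in
/-- the three-cycles as elements of `DD` -/
noncomputable def basicAux_t (U : Set W.X) (a b c : B) : DD W :=
  if h : Ok U a b c then ⟨cyc U a b c, Subgroup.subset_closure ⟨U, a, b, c, h, rfl⟩⟩ else 1

theorem basicAux_t_val {U : Set W.X} {a b c : B} (h : Ok U a b c) :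
    (basicAux_t U a b c : Equiv.Perm W.Pt) = cyc U a b c := by
  rw [basicAux_t, dif_pos h]

/-- the group `DD` with its own three-cycles -/
theorem exists_sys3_DD : ∃ A : Sys3 W (DD W), A.π = (DD W).subtype := by
  refine ⟨⟨basicAux_t, (DD W).subtype, basicAux_t_val, ?_, ?_, ?_, ?_, ?_, ?_, ?_, ?_, ?_⟩, rfl⟩
  · refine top_le_iff.1 (Subgroup.closure_closure_coe_preimage.ge.trans
      (Subgroup.closure_mono ?_))
    rintro g ⟨U, a, b, c, h, e⟩
    exact ⟨U, a, b, c, h, Subtype.ext (e.trans (basicAux_t_val h).symm)⟩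
  · intro a b c h
    exact Subtype.ext ((basicAux_t_val ⟨isClopen_empty, h, fun _ _ _ _ _ hx => hx.elim⟩).trans
      (basicAux_cyc_empty h))
  · intro U V a b c hU hV hd h hS
    refine Subtype.ext ?_
    rw [Subgroup.coe_mul, basicAux_t_val ⟨hU.union hV, h, hS⟩,
      basicAux_t_val ⟨hU, h, hS.mono Set.subset_union_left le_rfl⟩,
      basicAux_t_val ⟨hV, h, hS.mono Set.subset_union_right le_rfl⟩, basicAux_cyc_union hd h hS]
  · intro U a b c z h
    refine Subtype.ext ?_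
    rw [basicAux_t_val h, basicAux_t_val (basicAux_ok_shift h), basicAux_cyc_shift h]
  · intro U a b c h
    refine Subtype.ext ?_
    rw [basicAux_t_val h, basicAux_t_val (basicAux_ok_rot h), basicAux_cyc_rot h]
  · intro U a b c h
    refine Subtype.ext ?_
    rw [Subgroup.coe_inv, basicAux_t_val h, basicAux_t_val (basicAux_ok_flip h),
      basicAux_cyc_inv h]
  · intro U x a c e hU hS h h1 h2 h3
    refine Subtype.ext ?_
    rw [Subgroup.coe_mul,
      basicAux_t_val ⟨hU, h, hS.mono le_rfl (basicAux_sub3 (by simp) (by simp) (by simp))⟩,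
      basicAux_t_val ⟨hU, ⟨h.2.2, h2, h3⟩,
        hS.mono le_rfl (basicAux_sub3 (by simp) (by simp) (by simp))⟩,
      basicAux_t_val ⟨hU, ⟨h1, h.2.1, h3.symm⟩,
        hS.mono le_rfl (basicAux_sub3 (by simp) (by simp) (by simp))⟩,
      basicAux_cyc_cf hS h h1 h2 h3]
  · intro U a b c a' b' c' hU hS h h'
    refine Subtype.ext ?_
    obtain ⟨h1, h2⟩ := basicAux_cyc_conj hS h h'
    rw [Subgroup.coe_mul, Subgroup.coe_mul, Subgroup.coe_inv,
      basicAux_t_val ⟨hU, h, hS.mono le_rfl (basicAux_sub3 (by simp) (by simp) (by simp))⟩,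
      basicAux_t_val ⟨hU, h', hS.mono le_rfl (basicAux_sub3 (by simp) (by simp) (by simp))⟩,
      basicAux_t_val ⟨hU, h'.map (c3 a b c).injective, h1⟩, h2]
  · intro U V a b c a' b' c' h h' hd
    refine Subtype.ext ?_
    rw [Subgroup.coe_mul, Subgroup.coe_mul, basicAux_t_val h, basicAux_t_val h',
      basicAux_cyc_comm h h' hd]

theorem Sys3.range_π {P : Type} [Group P] (A : Sys3 W P) : A.π.range = DD W := by
  rw [MonoidHom.range_eq_map, ← A.gen, MonoidHom.map_closure, DD]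
  refine congrArg _ (Set.ext fun g => ⟨?_, ?_⟩)
  · rintro ⟨_, ⟨U, a, b, c, h, rfl⟩, rfl⟩
    exact ⟨U, a, b, c, h, A.π_t h⟩
  · rintro ⟨U, a, b, c, h, rfl⟩
    exact ⟨_, ⟨U, a, b, c, h, rfl⟩, A.π_t h⟩

theorem Sys3.π_mem_FG {P : Type} [Group P] (A : Sys3 W P) (g : P) : A.π g ∈ FG W := by
  exact DD_le_FG (A.range_π ▸ ⟨g, rfl⟩)

theorem basicAux_orb {g : Equiv.Perm W.Pt} {r : ℕ} (hr : Rad g r) (x : W.X) (b : B) :
    ∃ e : B, |e.1.1| ≤ r ∧ |e.1.2| ≤ r ∧ ∀ y, Agree (b.1 +ᵥ x) (b.1 +ᵥ y) r →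
      g (pt b y) = pt (sh b.1 e) y := by
  obtain ⟨e, h1, h2, h3⟩ := hr (b.1 +ᵥ x) b.2
  exact ⟨e, h1, h2, fun y hy => (h3 _ hy).trans (pt_vadd _ _ _)⟩

theorem crd_spec (hF : W.Free) {g : Equiv.Perm W.Pt} (hg : g ∈ FG W) (x : W.X) (b : B) :
    g (pt b x) = pt (crd x g b) x := by
  obtain ⟨r, h1, h2⟩ := hg
  have h3 : ∀ {g : Equiv.Perm W.Pt}, Rad g r → ∀ b, ∃ b', g (pt b x) = pt b' x := fun h b =>
    let ⟨_, _, _, h4⟩ := basicAux_orb h x b
    ⟨_, h4 x (Agree.refl _ _)⟩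
  choose f hf using h3 h1
  choose f' hf' using h3 h2
  have h4 : ∃ σ : Equiv.Perm B, ∀ b, g (pt b x) = pt (σ b) x :=
    ⟨⟨f, f', fun b => pt_inj hF (x := x) (by rw [← hf', ← hf, basicAux_ia]),
      fun b => pt_inj hF (x := x) (by rw [← hf, ← hf']; exact basicAux_ia g⁻¹ _)⟩, hf⟩
  rw [crd, dif_pos h4]
  exact h4.choose_spec b

theorem crd_eq (hF : W.Free) {g : Equiv.Perm W.Pt} (hg : g ∈ FG W) {x : W.X} {b b' : B}
    (h : g (pt b x) = pt b' x) : crd x g b = b' :=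
  pt_inj hF ((crd_spec hF hg x b).symm.trans h)

theorem crd_one (hF : W.Free) (x : W.X) : crd x (1 : Equiv.Perm W.Pt) = 1 := by
  exact Equiv.ext fun b => crd_eq hF (FG W).one_mem rfl

theorem crd_mul (hF : W.Free) {g h : Equiv.Perm W.Pt} (hg : g ∈ FG W) (hh : h ∈ FG W) (x : W.X) :
    crd x (g * h) = crd x g * crd x h := by
  refine Equiv.ext fun b => crd_eq hF ((FG W).mul_mem hg hh) ?_
  rw [Equiv.Perm.mul_apply, crd_spec hF hh, crd_spec hF hg, Equiv.Perm.mul_apply]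

theorem crd_inv (hF : W.Free) {g : Equiv.Perm W.Pt} (hg : g ∈ FG W) (x : W.X) :
    crd x g⁻¹ = (crd x g)⁻¹ := by
  refine eq_inv_of_mul_eq_one_left ?_
  rw [← crd_mul hF ((FG W).inv_mem hg) hg, inv_mul_cancel, crd_one hF]

theorem crd_vadd (hF : W.Free) {g : Equiv.Perm W.Pt} (hg : g ∈ FG W) (x : W.X) (z : Z2) (b : B) :
    sh z (crd (z +ᵥ x) g b) = crd x g (sh z b) := by
  refine (crd_eq hF hg ?_).symm
  rw [← pt_vadd, ← pt_vadd, crd_spec hF hg]

theorem crd_disp (hF : W.Free) {g : Equiv.Perm W.Pt} (hg : g ∈ FG W) {r : ℕ} (hr : Rad g r)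
    (x : W.X) (b : B) : |(crd x g b).1.1 - b.1.1| ≤ r ∧ |(crd x g b).1.2 - b.1.2| ≤ r := by
  obtain ⟨e, h1, h2, h3⟩ := basicAux_orb hr x b
  rw [crd_eq hF hg (h3 x (Agree.refl _ _))]
  simpa [sh] using ⟨h1, h2⟩

theorem crd_congr (hF : W.Free) {g : Equiv.Perm W.Pt} (hg : g ∈ FG W) {r : ℕ} (hr : Rad g r)
    {x y : W.X} {b : B} (h : Agree (b.1 +ᵥ x) (b.1 +ᵥ y) r) : crd x g b = crd y g b := by
  obtain ⟨e, -, -, h3⟩ := basicAux_orb hr x b
  rw [crd_eq hF hg (h3 x (Agree.refl _ _)), crd_eq hF hg (h3 y h)]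

/-- a finite subset of the full group has a common radius -/
theorem exists_rad (K : Finset (Equiv.Perm W.Pt)) (hK : ∀ g ∈ K, g ∈ FG W) :
    ∃ r, ∀ g ∈ K, Rad g r ∧ Rad g⁻¹ r := by
  choose! r hr using hK
  exact ⟨K.sup r, fun g hg => ⟨(hr g hg).1.mono (Finset.le_sup hg),
    (hr g hg).2.mono (Finset.le_sup hg)⟩⟩

end Vale.Agent.P196
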