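import Vale.Agent.P196.AmDefs

/-! P196 task E: moving a product of Bernoulli laws along a relation. -/

namespace Vale.Agent.P196

open Finset

variable {A : Type}

open Classical in
lemma bernAux_sum_prod (S : Finset A) (f g : A → ℝ) :
    ∑ T ∈ S.powerset, ∏ a ∈ S, (if a ∈ T then f a else g a) = ∏ a ∈ S, (f a + g a) := by
  rw [prod_add]
  refine sum_congr rfl fun T hT => ?_
  rw [prod_ite, filter_mem_eq_inter, inter_eq_right.2 (mem_powerset.1 hT), filter_notMem_eq_sdiff]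

theorem bw_nonneg (θ : A → ℝ) (A0 T : Finset A) : 0 ≤ bw θ A0 T :=
  prod_nonneg fun a _ => by split_ifs <;> positivity

theorem bw_sum (θ : A → ℝ) (A0 : Finset A) : ∑ T ∈ A0.powerset, bw θ A0 T = 1 := by
  unfold bw
  rw [bernAux_sum_prod]
  exact prod_eq_one fun a _ => Real.sin_sq_add_cos_sq _

lemma bernAux_abs_sub_le (θ : A → ℝ) (A0 : Finset A) {Φ Ψ : Set A → ℝ} {η : ℝ}
    (h : ∀ T ⊆ A0, |Φ (full θ A0 T) - Ψ (full θ A0 T)| ≤ η) : |Ex θ A0 Φ - Ex θ A0 Ψ| ≤ η := by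
  unfold Ex
  rw [← sum_sub_distrib]
  refine (abs_sum_le_sum_abs _ _).trans ?_
  rw [← one_mul η, ← bw_sum θ A0, sum_mul]
  refine sum_le_sum fun T hT => ?_
  rw [← mul_sub, abs_mul, abs_of_nonneg (bw_nonneg _ _ _)]
  exact mul_le_mul_of_nonneg_left (h T (mem_powerset.1 hT)) (bw_nonneg _ _ _)

theorem abs_Ex_le (θ : A → ℝ) (A0 : Finset A) {Φ : Set A → ℝ} (h : ∀ T, |Φ T| ≤ 1) :
    |Ex θ A0 Φ| ≤ 1 := by
  have := bernAux_abs_sub_le θ A0 (Φ := Φ) (Ψ := fun _ => 0) (η := 1) fun T _ => by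
    rw [sub_zero]; exact h _
  simpa [Ex] using this

lemma bernAux_congr (θ : A → ℝ) (A0 : Finset A) {Φ Ψ : Set A → ℝ}
    (h : ∀ T ⊆ A0, Φ (full θ A0 T) = Ψ (full θ A0 T)) : Ex θ A0 Φ = Ex θ A0 Ψ :=
  sum_congr rfl fun T hT => by rw [h T (mem_powerset.1 hT)]

lemma bernAux_insert [DecidableEq A] (θ : A → ℝ) {S : Finset A} {a : A} (ha : a ∉ S)
    (Φ : Set A → ℝ) :
    Ex θ (insert a S) Φ = Real.sin (θ a) ^ 2 * Ex θ S (fun U => Φ (insert a U)) +
      Real.cos (θ a) ^ 2 * Ex θ S (fun U => Φ (U \ {a})) := by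
  unfold Ex
  rw [sum_powerset_insert ha, add_comm, mul_sum, mul_sum]
  congr 1
  · refine sum_congr rfl fun T hT => ?_
    have h1 : bw θ (insert a S) (insert a T) = Real.sin (θ a) ^ 2 * bw θ S T := by
      unfold bw
      rw [prod_insert ha, if_pos (mem_insert_self _ _)]
      congr 1
      refine prod_congr rfl fun b hb => ?_
      have : b ≠ a := fun h => ha (h ▸ hb)
      simp [this]
    have h2 : full θ (insert a S) (insert a T) = insert a (full θ S T) := by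
      ext b
      simp only [full, mem_insert, Set.mem_ofPred_eq, Set.mem_insert_iff]
      tauto
    rw [h1, h2, mul_assoc]
  · refine sum_congr rfl fun T hT => ?_
    have haT : a ∉ T := fun h => ha (mem_powerset.1 hT h)
    have h1 : bw θ (insert a S) T = Real.cos (θ a) ^ 2 * bw θ S T := by
      unfold bw
      rw [prod_insert ha, if_neg haT]
    have h2 : full θ (insert a S) T = full θ S T \ {a} := by
      ext b
      simp only [full, mem_insert, Set.mem_ofPred_eq, Set.mem_sdiff, Set.mem_singleton_iff]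
      by_cases hb : b = a
      · subst hb; tauto
      · tauto
    rw [h1, h2, mul_assoc]

/-- Deterministic atoms can be added to the random part. -/
lemma bernAux_ext (θ : A → ℝ) (A0 : Finset A) (h0 : ∀ a, a ∉ A0 → θ a = 0 ∨ θ a = Real.pi / 2)
    (Φ : Set A → ℝ) {A1 : Finset A} (h : A0 ⊆ A1) : Ex θ A1 Φ = Ex θ A0 Φ := by
  classical
  rw [← sdiff_union_of_subset h]
  induction A1 \ A0 using Finset.induction_on with
  | empty => rw [empty_union]
  | insert a S _ ih =>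
    rw [insert_union]
    by_cases ha : a ∈ S ∪ A0
    · rw [insert_eq_of_mem ha, ih]
    · rw [bernAux_insert θ ha, ← ih]
      rcases h0 a fun h' => ha (mem_union_right _ h') with h1 | h1
      · rw [h1, Real.sin_zero, Real.cos_zero, one_pow, one_mul, zero_pow two_ne_zero, zero_mul,
          zero_add]
        refine bernAux_congr _ _ fun T hT => congrArg Φ (Set.sdiff_singleton_eq_self ?_)
        rintro (h2 | ⟨-, h2⟩)
        · exact ha (hT h2)
        · rw [h1] at h2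
          linarith [Real.pi_pos]
      · rw [h1, Real.sin_pi_div_two, Real.cos_pi_div_two, one_pow, one_mul, zero_pow two_ne_zero,
          zero_mul, add_zero]
        exact bernAux_congr _ _ fun T _ => congrArg Φ (Set.insert_eq_of_mem (Or.inr ⟨ha, h1⟩))

/-- Pull back along an injective map. -/
lemma bernAux_pull {B : Type} {f : A → B} (hf : Function.Injective f) (θ : B → ℝ) (B0 : Finset B) :
    ∀ (A0 : Finset A) (Φ : Set A → ℝ), (∀ a, a ∈ A0 ↔ f a ∈ B0) →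
      Ex θ B0 (fun U => Φ (f ⁻¹' U)) = Ex (fun a => θ (f a)) A0 Φ := by
  classical
  induction B0 using Finset.induction_on with
  | empty =>
    intro A0 Φ h
    obtain rfl : A0 = ∅ := eq_empty_of_forall_notMem fun a ha => by simpa using (h a).1 ha
    have : f ⁻¹' full θ ∅ ∅ = full (fun a => θ (f a)) ∅ ∅ := by
      ext a; simp [full]
    simp [Ex, bw, this]
  | insert b S hb ih =>
    intro A0 Φ h
    rw [bernAux_insert θ hb]
    by_cases hr : ∃ a, f a = b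
    · obtain ⟨a, rfl⟩ := hr
      have ha : a ∈ A0 := (h a).2 (mem_insert_self _ _)
      have h1 : ∀ x, x ∈ A0.erase a ↔ f x ∈ S := by
        intro x
        rw [mem_erase, h, mem_insert, hf.eq_iff]
        refine ⟨fun h' => h'.2.resolve_left h'.1, fun h' => ⟨fun h'' => hb (h'' ▸ h'), Or.inr h'⟩⟩
      have h2 : ∀ U : Set B, f ⁻¹' (insert (f a) U) = insert a (f ⁻¹' U) := fun U => by
        ext x; simp [hf.eq_iff]
      have h3 : ∀ U : Set B, f ⁻¹' (U \ {f a}) = f ⁻¹' U \ {a} := fun U => by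
        ext x; simp [hf.eq_iff]
      simp only [h2, h3]
      rw [ih _ (fun U => Φ (insert a U)) h1, ih _ (fun U => Φ (U \ {a})) h1,
        ← bernAux_insert (fun a => θ (f a)) (notMem_erase a A0), insert_erase ha]
    · have hr' : ∀ x, f x ≠ b := fun x hx => hr ⟨x, hx⟩
      have h1 : ∀ x, x ∈ A0 ↔ f x ∈ S := fun x => by
        rw [h, mem_insert, or_iff_right (hr' x)]
      have h2 : ∀ U : Set B, f ⁻¹' (insert b U) = f ⁻¹' U := fun U => by
        ext x; simp [hr' x]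
      have h3 : ∀ U : Set B, f ⁻¹' (U \ {b}) = f ⁻¹' U := fun U => by
        ext x; simp [hr' x]
      simp only [h2, h3]
      rw [← add_mul, Real.sin_sq_add_cos_sq, one_mul, ih A0 Φ h1]

lemma bernAux_one_sub_prod (S : Finset A) (x : A → ℝ) :
    1 - ∏ a ∈ S, Real.cos (x a) ^ 2 ≤ ∑ a ∈ S, x a ^ 2 := by
  classical
  induction S using Finset.induction_on with
  | empty => simp
  | insert a S ha ih =>
    rw [prod_insert ha, sum_insert ha]
    have h1 : ∏ a ∈ S, Real.cos (x a) ^ 2 ≤ 1 :=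
      prod_le_one (fun _ _ => sq_nonneg _) fun _ _ => Real.cos_sq_le_one _
    have h2 := Real.sin_sq_le_sq (x := x a)
    have h3 := Real.sin_sq_add_cos_sq (x a)
    nlinarith [sq_nonneg (Real.sin (x a))]

/-- Hellinger bound for the total variation distance. -/
lemma bernAux_hell (θ θ' : A → ℝ) (S : Finset A) :
    ∑ T ∈ S.powerset, |bw θ S T - bw θ' S T| ≤ 2 * √(∑ a ∈ S, (θ a - θ' a) ^ 2) := by
  classical
  set u : Finset A → ℝ := fun T => ∏ a ∈ S, if a ∈ T then Real.sin (θ a) else Real.cos (θ a)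
    with hu
  set v : Finset A → ℝ := fun T => ∏ a ∈ S, if a ∈ T then Real.sin (θ' a) else Real.cos (θ' a)
    with hv
  have h1 : ∀ T, bw θ S T = u T ^ 2 := fun T => by
    rw [hu, ← prod_pow]
    exact prod_congr rfl fun a _ => by split_ifs <;> rfl
  have h2 : ∀ T, bw θ' S T = v T ^ 2 := fun T => by
    rw [hv, ← prod_pow]
    exact prod_congr rfl fun a _ => by split_ifs <;> rfl
  have h3 : ∑ T ∈ S.powerset, u T ^ 2 = 1 := by simp only [← h1]; exact bw_sum θ S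
  have h4 : ∑ T ∈ S.powerset, v T ^ 2 = 1 := by simp only [← h2]; exact bw_sum θ' S
  have h5 : ∑ T ∈ S.powerset, u T * v T = ∏ a ∈ S, Real.cos (θ a - θ' a) := by
    have := bernAux_sum_prod S (fun a => Real.sin (θ a) * Real.sin (θ' a))
      (fun a => Real.cos (θ a) * Real.cos (θ' a))
    simp only [Real.cos_sub]
    rw [prod_congr rfl fun a _ => add_comm _ _, ← this]
    refine sum_congr rfl fun T _ => ?_
    rw [hu, hv, ← prod_mul_distrib]
    exact prod_congr rfl fun a _ => by split_ifs <;> rfl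
  have h6 : ∑ T ∈ S.powerset, |u T - v T| ^ 2 = 2 - 2 * ∏ a ∈ S, Real.cos (θ a - θ' a) := by
    rw [sum_congr rfl (g := fun T => u T ^ 2 + v T ^ 2 - 2 * (u T * v T))
      fun T _ => by rw [sq_abs]; ring, sum_sub_distrib, sum_add_distrib, ← mul_sum, h3, h4, h5]
    ring
  have h7 : ∑ T ∈ S.powerset, |u T + v T| ^ 2 = 2 + 2 * ∏ a ∈ S, Real.cos (θ a - θ' a) := by
    rw [sum_congr rfl (g := fun T => u T ^ 2 + v T ^ 2 + 2 * (u T * v T))
      fun T _ => by rw [sq_abs]; ring, sum_add_distrib, sum_add_distrib, ← mul_sum, h3, h4, h5]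
    ring
  have h8 := sum_mul_sq_le_sq_mul_sq S.powerset (fun T => |u T - v T|) fun T => |u T + v T|
  have h9 := bernAux_one_sub_prod S fun a => θ a - θ' a
  rw [prod_pow] at h9
  rw [h6, h7] at h8
  have h10 : ∑ T ∈ S.powerset, |bw θ S T - bw θ' S T| =
      ∑ T ∈ S.powerset, |u T - v T| * |u T + v T| :=
    sum_congr rfl fun T _ => by rw [h1, h2, ← abs_mul]; congr 1; ring
  rw [h10]
  refine abs_le_of_sq_le_sq' ?_ (by positivity) |>.2
  rw [mul_pow, Real.sq_sqrt (sum_nonneg fun _ _ => sq_nonneg _)]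
  nlinarith

lemma bernAux_change (θ θ' : A → ℝ) (S : Finset A) (h : ∀ a, a ∉ S → θ a = θ' a) {δ : ℝ}
    (hδ0 : 0 ≤ δ) (hD : ∀ a ∈ S, |θ a - θ' a| ≤ δ) {Φ : Set A → ℝ} (hΦ : ∀ T, |Φ T| ≤ 1) :
    |Ex θ S Φ - Ex θ' S Φ| ≤ 2 * √S.card * δ := by
  have h1 : ∀ T, full θ' S T = full θ S T := fun T => by
    ext a
    simp only [full, Set.mem_ofPred_eq]
    exact or_congr Iff.rfl (and_congr_right fun ha => by rw [h a ha])
  have h2 : |Ex θ S Φ - Ex θ' S Φ| ≤ ∑ T ∈ S.powerset, |bw θ S T - bw θ' S T| := by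
    unfold Ex
    rw [← sum_sub_distrib]
    refine (abs_sum_le_sum_abs _ _).trans (sum_le_sum fun T _ => ?_)
    rw [h1, ← sub_mul, abs_mul]
    exact mul_le_of_le_one_right (abs_nonneg _) (hΦ _)
  refine h2.trans ((bernAux_hell θ θ' S).trans ?_)
  rw [mul_assoc, ← Real.sqrt_sq hδ0, ← Real.sqrt_mul (Nat.cast_nonneg _)]
  refine mul_le_mul_of_nonneg_left (Real.sqrt_le_sqrt ?_) (by norm_num)
  rw [← nsmul_eq_mul]
  exact sum_le_card_nsmul _ _ _ fun a ha => sq_le_sq' (abs_le.1 (hD a ha)).1 (abs_le.1 (hD a ha)).2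

theorem rel_move (θ : A → ℝ) (A0 : Finset A)
    (h0 : ∀ a, a ∉ A0 → θ a = 0 ∨ θ a = Real.pi / 2) (ρ : A → A → Prop) {δ η : ℝ}
    (hδ0 : 0 ≤ δ) (hδ : δ < Real.pi / 2) (hD : ∀ a a', ρ a a' → |θ a - θ a'| ≤ δ)
    (hC : ∀ a a' b b', ρ a a' → ρ b b' → (a ∈ A0 ∨ a' ∈ A0) → (a = b ↔ a' = b'))
    (Φ Φ' : Set A → ℝ) (hΦ : ∀ T, |Φ' T| ≤ 1)
    (hc : ∀ T ⊆ A0, ∀ T' : Set A, (∀ a a', ρ a a' → (a ∈ full θ A0 T ↔ a' ∈ T')) →
      |Φ (full θ A0 T) - Φ' T'| ≤ η) :
    |Ex θ A0 Φ - Ex θ A0 Φ'| ≤ η + 2 * √(2 * A0.card) * δ := by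
  classical
  have hφ : ∀ a' : A, ∃ y : A ⊕ A, (∃ a, y = Sum.inl a ∧ ρ a a' ∧ (a ∈ A0 ∨ a' ∈ A0)) ∨
      (y = Sum.inr a' ∧ ∀ a, ρ a a' → a ∉ A0 ∧ a' ∉ A0) := by
    intro a'
    by_cases h : ∃ a, ρ a a' ∧ (a ∈ A0 ∨ a' ∈ A0)
    · obtain ⟨a, h⟩ := h
      exact ⟨Sum.inl a, Or.inl ⟨a, rfl, h⟩⟩
    · exact ⟨Sum.inr a', Or.inr ⟨rfl, fun a ha => not_or.1 fun h' => h ⟨a, ha, h'⟩⟩⟩
  choose φ hφ using hφ
  have hσ : ∀ a : A, ∃ a', a ∈ A0 → ∀ b', ρ a b' → b' = a' := by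
    intro a
    by_cases h : ∃ a', ρ a a'
    · obtain ⟨a', h⟩ := h
      exact ⟨a', fun ha b' hb => (hC a b' a a' hb h (Or.inl ha)).1 rfl⟩
    · exact ⟨a, fun _ b' hb => absurd ⟨b', hb⟩ h⟩
  choose σ hσ using hσ
  have hinj : Function.Injective φ := by
    intro a' b' h
    rcases hφ a' with ⟨a, h1, h2, h3⟩ | ⟨h1, -⟩ <;> rcases hφ b' with ⟨b, h4, h5, -⟩ | ⟨h4, -⟩ <;>
      rw [h1, h4] at h
    · exact (hC a a' b b' h2 h5 h3).1 (Sum.inl_injective h)
    · exact absurd h Sum.inl_ne_inr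
    · exact absurd h Sum.inr_ne_inl
    · exact Sum.inr_injective h
  set θ2 : A ⊕ A → ℝ := Sum.elim θ θ with hθ2
  set B0 : Finset (A ⊕ A) := A0.disjSum A0 with hB0
  set A1 : Finset A := A0 ∪ A0.image σ with hA1
  have hout : ∀ a', a' ∉ A1 → φ a' = Sum.inr a' := by
    intro a' ha'
    rcases hφ a' with ⟨a, -, h2, h3 | h3⟩ | ⟨h1, -⟩
    · exact absurd (mem_union_right _ (mem_image.2 ⟨a, h3, (hσ a h3 a' h2).symm⟩)) ha'
    · exact absurd (mem_union_left _ h3) ha'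
    · exact h1
  have h1 : Ex θ2 B0 (fun U => Φ (Sum.inl ⁻¹' U)) = Ex θ A0 Φ :=
    bernAux_pull Sum.inl_injective θ2 B0 A0 Φ fun a => by simp [hB0]
  have h2 : Ex θ2 B0 (fun U => Φ' (φ ⁻¹' U)) = Ex (fun a => θ2 (φ a)) A1 Φ' := by
    rw [bernAux_pull hinj θ2 B0 (B0.preimage φ hinj.injOn) Φ' fun a => mem_preimage]
    refine (bernAux_ext _ _ (fun a ha => ?_) Φ' fun a ha => ?_).symm
    · rw [mem_preimage] at ha
      cases h : φ a with
      | inl b => exact h0 b fun hb => ha (by simp [h, hB0, hb])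
      | inr b => exact h0 b fun hb => ha (by simp [h, hB0, hb])
    · rw [mem_preimage] at ha
      by_contra h
      rw [hout a h] at ha
      exact h (mem_union_left _ (by simpa [hB0] using ha))
  have h3 : |Ex θ2 B0 (fun U => Φ (Sum.inl ⁻¹' U)) - Ex θ2 B0 (fun U => Φ' (φ ⁻¹' U))| ≤ η := by
    refine bernAux_abs_sub_le θ2 B0 fun T hT => ?_
    have h4 : Sum.inl ⁻¹' full θ2 B0 T = full θ A0 T.toLeft := by
      ext a; simp [full, hB0, hθ2]
    rw [h4]
    refine hc _ (fun a ha => by simpa [hB0] using hT (mem_toLeft.1 ha)) _ fun a a' h5 => ?_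
    rw [← h4, Set.mem_preimage, Set.mem_preimage]
    rcases hφ a' with ⟨b, h6, h7, h8⟩ | ⟨h6, h7⟩
    · rw [h6, (hC b a' a a' h7 h5 h8).2 rfl]
    · obtain ⟨h8, h9⟩ := h7 a h5
      have h10 : Sum.inl a ∉ B0 := by simpa [hB0] using h8
      have h11 : Sum.inr a' ∉ B0 := by simpa [hB0] using h9
      have h12 : θ a = θ a' := by
        have h13 := abs_le.1 (hD a a' h5)
        rcases h0 a h8 with h | h <;> rcases h0 a' h9 with h' | h' <;> rw [h, h'] at h13 ⊢ <;>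
          linarith [h13.1, h13.2]
      rw [h6]
      simp only [full, Set.mem_ofPred_eq, hθ2, Sum.elim_inl, Sum.elim_inr, h12]
      exact or_congr (iff_of_false (fun h => h10 (hT h)) fun h => h11 (hT h))
        (and_congr_left fun _ => iff_of_true h10 h11)
  have h4 : |Ex (fun a => θ2 (φ a)) A1 Φ' - Ex θ A1 Φ'| ≤ 2 * √A1.card * δ := by
    refine bernAux_change _ _ A1 (fun a ha => by rw [hout a ha]; rfl) hδ0 (fun a' _ => ?_) hΦ
    rcases hφ a' with ⟨a, h5, h6, -⟩ | ⟨h5, -⟩ <;> rw [h5]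
    · exact hD a a' h6
    · simpa [hθ2] using hδ0
  have h5 : Ex θ A1 Φ' = Ex θ A0 Φ' := bernAux_ext θ A0 h0 Φ' subset_union_left
  have h6 : (A1.card : ℝ) ≤ 2 * A0.card := by
    have := (card_union_le A0 (A0.image σ)).trans (Nat.add_le_add_left card_image_le _)
    rw [← two_mul] at this
    exact_mod_cast this
  have h7 : 2 * √A1.card * δ ≤ 2 * √(2 * A0.card) * δ := by gcongr
  rw [h1, h2] at h3
  rw [h5] at h4
  exact (abs_sub_le _ _ _).trans (add_le_add h3 (h4.trans h7))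

theorem pull_move {P P' : Type} (g : P ≃ P') (α : P → A) (α' : P' → A) (θ : A → ℝ)
    (A0 : Finset A) (h0 : ∀ a, a ∉ A0 → θ a = 0 ∨ θ a = Real.pi / 2) {δ : ℝ}
    (hδ0 : 0 ≤ δ) (hδ : δ < Real.pi / 2) (hD : ∀ p, |θ (α p) - θ (α' (g p))| ≤ δ)
    (hC : ∀ p p', (α p ∈ A0 ∨ α' (g p) ∈ A0) → (α p = α p' ↔ α' (g p) = α' (g p')))
    (F : Set P' → ℝ) (hF : ∀ S, |F S| ≤ 1) :
    |Ex θ A0 (fun T => F (g '' (α ⁻¹' T))) - Ex θ A0 (fun T => F (α' ⁻¹' T))| ≤
      2 * √(2 * A0.card) * δ := by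
  rw [← zero_add (2 * √(2 * A0.card) * δ)]
  refine rel_move θ A0 h0 (fun a a' => ∃ p, α p = a ∧ α' (g p) = a') hδ0 hδ ?_ ?_ _ _
    (fun _ => hF _) fun T _ T' h => ?_
  · rintro _ _ ⟨p, rfl, rfl⟩
    exact hD p
  · rintro _ _ _ _ ⟨p, rfl, rfl⟩ ⟨p', rfl, rfl⟩ h
    exact hC p p' h
  · have : g '' (α ⁻¹' full θ A0 T) = α' ⁻¹' T' := by
      ext q
      obtain ⟨p, rfl⟩ := g.surjective q
      rw [g.injective.mem_set_image, Set.mem_preimage, Set.mem_preimage]
      exact h _ _ ⟨p, rfl, rfl⟩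
    rw [this, sub_self, abs_zero]

end Vale.Agent.P196
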