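import Vale.Agent.P196.ParBasic

/-! P196 task R, auxiliary file: commuting families of subgroups and canonical base points. -/

namespace Vale.Agent.P196

open Pointwise

section groups
variable {P α ι : Type} [Group P]

theorem cellAux_comm {s t : Set P} (h : ∀ a ∈ s, ∀ b ∈ t, Commute a b) {g g' : P}
    (hg : g ∈ Subgroup.closure s) (hg' : g' ∈ Subgroup.closure t) : Commute g g' := by
  induction hg using Subgroup.closure_induction with
  | mem a ha =>
    induction hg' using Subgroup.closure_induction with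
    | mem b hb => exact h a ha b hb
    | one => exact Commute.one_right _
    | mul b c _ _ h1 h2 => exact h1.mul_right h2
    | inv b _ h1 => exact h1.inv_right
  | one => exact Commute.one_left _
  | mul b c _ _ h1 h2 => exact h1.mul_left h2
  | inv b _ h1 => exact h1.inv_left

theorem cellAux_sup {H K : Subgroup P} (h : ∀ a ∈ H, ∀ b ∈ K, Commute a b) {g : P}
    (hg : g ∈ H ⊔ K) : ∃ a ∈ H, ∃ b ∈ K, g = a * b := by
  let M : Subgroup P :=
    { carrier := {g | ∃ a ∈ H, ∃ b ∈ K, g = a * b}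
      one_mem' := ⟨1, H.one_mem, 1, K.one_mem, (one_mul 1).symm⟩
      mul_mem' := by
        rintro _ _ ⟨a, ha, b, hb, rfl⟩ ⟨a', ha', b', hb', rfl⟩
        exact ⟨a * a', H.mul_mem ha ha', b * b', K.mul_mem hb hb',
          (h a' ha' b hb).symm.mul_mul_mul_comm a b'⟩
      inv_mem' := by
        rintro _ ⟨a, ha, b, hb, rfl⟩
        exact ⟨a⁻¹, H.inv_mem ha, b⁻¹, K.inv_mem hb, (h a ha b hb).mul_inv⟩ }
  have h1 : H ⊔ K ≤ M := sup_le (fun a ha => ⟨a, ha, 1, K.one_mem, (mul_one a).symm⟩)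
    (fun b hb => ⟨1, H.one_mem, b, hb, (one_mul b).symm⟩)
  exact h1 hg

theorem cellAux_fix (π : P →* Equiv.Perm α) {s : Set P} {p : α} (h : ∀ a ∈ s, π a p = p) {g : P}
    (hg : g ∈ Subgroup.closure s) : π g p = p := by
  induction hg using Subgroup.closure_induction with
  | mem a ha => exact h a ha
  | one => simp
  | mul b c _ _ h1 h2 => rw [map_mul, Equiv.Perm.mul_apply, h2, h1]
  | inv b _ h1 => rw [map_inv, Equiv.Perm.inv_eq_iff_eq, h1]

theorem cellAux_pres {σ : Equiv.Perm α} {A : Set α} (h : ∀ p, p ∉ A → σ p = p) {p : α}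
    (hp : p ∈ A) : σ p ∈ A := by
  by_contra hc
  exact hc ((σ.injective (h _ hc)).symm ▸ hp)

theorem cellAux_fam (π : P →* Equiv.Perm α) (G : ι → Set P) (A : ι → Set α) {J : Set ι}
    (hJ : J.Finite) (hfix : ∀ j ∈ J, ∀ a ∈ G j, ∀ p, p ∉ A j → π a p = p)
    (hdis : ∀ j ∈ J, ∀ j' ∈ J, ∀ p, p ∈ A j → p ∈ A j' → j = j')
    (hcom : ∀ j ∈ J, ∀ j' ∈ J, j ≠ j' → ∀ a ∈ G j, ∀ b ∈ G j', Commute a b)
    (hinj : ∀ j ∈ J, ∀ g ∈ Subgroup.closure (G j), π g = 1 → g = 1) :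
    ∀ g ∈ Subgroup.closure (⋃ j ∈ J, G j), π g = 1 → g = 1 := by
  induction J, hJ using Set.Finite.induction_on with
  | empty => intro g hg _; simpa using hg
  | @insert j J hj _ ih =>
    intro g hg h1
    rw [Set.biUnion_insert, Subgroup.closure_union] at hg
    obtain ⟨a, ha, b, hb, rfl⟩ := cellAux_sup (fun a ha b hb => cellAux_comm (fun a ha b hb => by
      obtain ⟨j', hj', hb⟩ := Set.mem_iUnion₂.1 hb
      exact hcom j (Set.mem_insert _ _) j' (Set.mem_insert_of_mem _ hj')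
        (fun e => hj (e ▸ hj')) a ha b hb) ha hb) hg
    have h2 : π a = 1 := by
      ext1 p
      by_cases hp : p ∈ A j
      · have h3 : π b p = p := cellAux_fix π (fun c hc => by
          obtain ⟨j', hj', hc⟩ := Set.mem_iUnion₂.1 hc
          refine hfix j' (Set.mem_insert_of_mem _ hj') c hc p (fun hp' => hj ?_)
          rw [hdis j (Set.mem_insert _ _) j' (Set.mem_insert_of_mem _ hj') p hp hp']
          exact hj') hb
        have h4 := congrArg (fun σ : Equiv.Perm α => σ p) h1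
        simpa only [map_mul, Equiv.Perm.mul_apply, h3] using h4
      · exact cellAux_fix π (fun c hc => hfix j (Set.mem_insert _ _) c hc p hp) ha
    have h3 := hinj j (Set.mem_insert _ _) a ha h2
    rw [h3, one_mul] at h1 ⊢
    exact ih (fun j hj => hfix j (Set.mem_insert_of_mem _ hj))
      (fun j hj j' hj' => hdis j (Set.mem_insert_of_mem _ hj) j' (Set.mem_insert_of_mem _ hj'))
      (fun j hj j' hj' => hcom j (Set.mem_insert_of_mem _ hj) j' (Set.mem_insert_of_mem _ hj'))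
      (fun j hj => hinj j (Set.mem_insert_of_mem _ hj)) b hb h1

theorem cellAux_glue (π : P →* Equiv.Perm α) (R : Subgroup P) (σ : Equiv.Perm α) (A : ι → Set α)
    {J : Set ι} (hJ : J.Finite) (hdis : ∀ j ∈ J, ∀ j' ∈ J, ∀ p, p ∈ A j → p ∈ A j' → j = j')
    (h : ∀ j ∈ J, ∃ g ∈ R, (∀ p ∈ A j, π g p = σ p) ∧ ∀ p, p ∉ A j → π g p = p) :
    ∃ g ∈ R, (∀ p ∈ ⋃ j ∈ J, A j, π g p = σ p) ∧ ∀ p, p ∉ ⋃ j ∈ J, A j → π g p = p := by
  induction J, hJ using Set.Finite.induction_on with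
  | empty => exact ⟨1, R.one_mem, by simp, by simp⟩
  | @insert j J hj _ ih =>
    obtain ⟨g, hg, h1, h2⟩ := h j (Set.mem_insert _ _)
    obtain ⟨g', hg', h3, h4⟩ := ih
      (fun j hj j' hj' => hdis j (Set.mem_insert_of_mem _ hj) j' (Set.mem_insert_of_mem _ hj'))
      (fun j hj => h j (Set.mem_insert_of_mem _ hj))
    have hd : ∀ p, p ∈ ⋃ j ∈ J, A j → p ∉ A j := fun p hp hp' => by
      obtain ⟨j', hj', hp⟩ := Set.mem_iUnion₂.1 hp
      exact hj (hdis j (Set.mem_insert _ _) j' (Set.mem_insert_of_mem _ hj') p hp' hp ▸ hj')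
    rw [Set.biUnion_insert]
    refine ⟨g * g', R.mul_mem hg hg', fun p hp => ?_, fun p hp => ?_⟩
    · rw [map_mul, Equiv.Perm.mul_apply]
      by_cases hp' : p ∈ ⋃ j ∈ J, A j
      · rw [h2 _ (hd _ (cellAux_pres h4 hp')), h3 p hp']
      · rw [h4 p hp', h1 p (hp.resolve_right hp')]
    · rw [Set.mem_union, not_or] at hp
      rw [map_mul, Equiv.Perm.mul_apply, h4 p hp.2, h2 p hp.1]

end groups

variable {W : Wang} {E : W.X → B → B → Prop}

/-- a shift invariant linear order on the arrows -/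
def cellAux_key (b : B) : ℤ ×ₗ (ℤ ×ₗ I) := toLex (b.1.1, toLex (b.1.2, b.2))

theorem cellAux_key_sh (z : Z2) (b b' : B) :
    cellAux_key (sh z b) ≤ cellAux_key (sh z b') ↔ cellAux_key b ≤ cellAux_key b' := by
  simp [cellAux_key, sh, Prod.Lex.toLex_le_toLex]

theorem cellAux_key_inj {b b' : B} (h : cellAux_key b = cellAux_key b') : b = b' := by
  simp only [cellAux_key, toLex_inj, Prod.mk.injEq] at h
  exact Prod.ext (Prod.ext h.1 h.2.1) h.2.2

theorem cellAux_sh_neg (z : Z2) (b : B) : sh z (sh (-z) b) = b := by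
  simp [sh]

/-- base points of parcels -/
def cellAux_base (E : W.X → B → B → Prop) (x : W.X) (i : I) : Prop :=
  E x (0, i) (0, i) ∧ ∀ b, E x (0, i) b → cellAux_key (0, i) ≤ cellAux_key b

/-- a box of arrows -/
def cellAux_box (D : ℕ) (a : B) : Set B := {b | |a.1.1 - b.1.1| ≤ D ∧ |a.1.2 - b.1.2| ≤ D}

theorem cellAux_box_fin (D : ℕ) (a : B) : (cellAux_box D a).Finite := by
  refine (((Set.finite_Icc (a.1.1 - D) (a.1.1 + D)).prod
    (Set.finite_Icc (a.1.2 - D) (a.1.2 + D))).prod (Set.finite_univ (α := I))).subset ?_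
  rintro b ⟨h1, h2⟩
  rw [abs_le] at h1 h2
  refine ⟨⟨⟨?_, ?_⟩, ?_, ?_⟩, trivial⟩ <;> linarith [h1.1, h1.2, h2.1, h2.2]

theorem cellAux_bdd (hB : Bdd E) : ∃ D : ℕ, ∀ x b b', E x b b' → b' ∈ cellAux_box D b := by
  obtain ⟨D, hD⟩ := hB
  exact ⟨D.toNat, fun x b b' h =>
    ⟨(hD x b b' h).1.trans (Int.self_le_toNat D), (hD x b b' h).2.trans (Int.self_le_toNat D)⟩⟩

theorem cellAux_exists_base (hE : IsPar E) (hB : Bdd E) {x : W.X} {b : B} (h : E x b b) :
    ∃ (z : Z2) (i : I), cellAux_base E (z +ᵥ x) i ∧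
      ∀ b', E x b b' → E (z +ᵥ x) (0, i) (sh (-z) b') := by
  obtain ⟨D, hD⟩ := cellAux_bdd hB
  obtain ⟨m, hm, hmin⟩ := Set.exists_min_image {b' | E x b b'} cellAux_key
    ((cellAux_box_fin D b).subset fun b' hb' => hD x b b' hb') ⟨b, h⟩
  have e : sh m.1 (0, m.2) = m := by simp [sh]
  refine ⟨m.1, m.2, ⟨?_, fun b' hb' => ?_⟩, fun b' hb' => ?_⟩
  · rw [hE.shift, e]
    exact hE.trans (hE.symm hm) hm
  · rw [hE.shift, e] at hb'
    rw [← cellAux_key_sh m.1, e]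
    exact hmin _ (hE.trans hm hb')
  · rw [hE.shift, e, cellAux_sh_neg]
    exact hE.trans (hE.symm hm) hb'

theorem cellAux_le (hE : IsPar E) {y y' : W.X} {i i' : I} {b b' : B} (h : cellAux_base E y i)
    (hb : E y (0, i) b) (hb' : E y' (0, i') b') (e : pt b y = pt b' y') :
    y' = (b.1 - b'.1) +ᵥ y ∧ cellAux_key (0, i) ≤ cellAux_key (b.1 - b'.1, i') := by
  have e1 : b.1 +ᵥ y = b'.1 +ᵥ y' := congrArg Prod.fst e
  have e2 : b.2 = b'.2 := (congrArg Prod.snd e :)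
  have e3 : y' = (b.1 - b'.1) +ᵥ y := by
    rw [sub_eq_neg_add, add_vadd, e1, neg_vadd_vadd]
  refine ⟨e3, h.2 _ ?_⟩
  rw [e3, hE.shift] at hb'
  have e4 : sh (b.1 - b'.1) b' = b := by
    rw [sh, ← e2]; simp
  have e5 : sh (b.1 - b'.1) (0, i') = (b.1 - b'.1, i') := by simp [sh]
  rw [e4, e5] at hb'
  exact hE.trans hb (hE.symm hb')

theorem cellAux_unique (hE : IsPar E) {y y' : W.X} {i i' : I} {b b' : B}
    (h : cellAux_base E y i) (h' : cellAux_base E y' i') (hb : E y (0, i) b)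
    (hb' : E y' (0, i') b') (e : pt b y = pt b' y') : y = y' ∧ i = i' := by
  obtain ⟨e1, l1⟩ := cellAux_le hE h hb hb' e
  obtain ⟨_, l2⟩ := cellAux_le hE h' hb' hb e.symm
  rw [← cellAux_key_sh (b.1 - b'.1)] at l2
  have e2 : sh (b.1 - b'.1) (0, i') = (b.1 - b'.1, i') := by simp [sh]
  have e3 : sh (b.1 - b'.1) (b'.1 - b.1, i) = (0, i) := by simp [sh]
  rw [e2, e3] at l2
  have e4 := cellAux_key_inj (le_antisymm l1 l2)
  rw [Prod.mk.injEq] at e4
  rw [e1, ← e4.1, zero_vadd]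
  exact ⟨rfl, e4.2⟩

theorem cellAux_unif {τ : Type} {T : Set τ} (hT : T.Finite) (U : τ → Set W.X)
    (hU : ∀ t, IsClopen (U t)) :
    ∃ r, ∀ t ∈ T, ∀ x y, Agree x y r → (x ∈ U t ↔ y ∈ U t) := by
  choose r hr using fun t => isClopen_iff.1 (hU t)
  obtain ⟨m, hm⟩ := (hT.image r).bddAbove
  exact ⟨m, fun t ht x y h => hr t x y (h.mono (hm (Set.mem_image_of_mem r ht)))⟩

/-- radii at which the parcels are decided -/
def cellAux_Rad (E : W.X → B → B → Prop) (D r : ℕ) : Prop :=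
  (∀ x i b, E x (0, i) b → |b.1.1| ≤ D ∧ |b.1.2| ≤ D) ∧
  (∀ x y, Agree x y r → ∀ i b, E x (0, i) b ↔ E y (0, i) b) ∧
  ∀ x : W.X, MS {y | Agree x y r} {b | |b.1.1| ≤ D ∧ |b.1.2| ≤ D}

theorem cellAux_Rad.mono {D r r' : ℕ} (h : cellAux_Rad E D r) (hr : r ≤ r') :
    cellAux_Rad E D r' :=
  ⟨h.1, fun x y hxy => h.2.1 x y (hxy.mono hr),
    fun x => (h.2.2 x).mono (fun _ hy => Agree.mono hy hr) le_rfl⟩

theorem cellAux_fin (D : ℕ) : {b : B | |b.1.1| ≤ D ∧ |b.1.2| ≤ D}.Finite :=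
  (cellAux_box_fin D (0, 0)).subset fun b hb => by simpa [cellAux_box] using hb

theorem cellAux_exists_rad (hF : W.Free) (hE : IsPar E) (hB : Bdd E) :
    ∃ D r, cellAux_Rad E D r := by
  obtain ⟨D, hD⟩ := cellAux_bdd hB
  have h1 : ∀ x i b, E x (0, i) b → |b.1.1| ≤ D ∧ |b.1.2| ≤ D := fun x i b h => by
    simpa [cellAux_box] using hD x _ b h
  obtain ⟨r1, hr1⟩ := cellAux_unif ((Set.finite_univ (α := I)).prod (cellAux_fin D))
    (fun t => {x | E x (0, t.1) t.2}) (fun t => hE.clopen _ _)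
  obtain ⟨r2, hr2⟩ := exists_MS hF (cellAux_fin D)
  refine ⟨D, max r1 r2, h1, fun x y hxy i b => ?_,
    fun x => (hr2 x).mono (fun _ hy => Agree.mono hy (le_max_right _ _)) le_rfl⟩
  by_cases hb : |b.1.1| ≤ D ∧ |b.1.2| ≤ D
  · exact hr1 (i, b) ⟨trivial, hb⟩ x y (hxy.mono (le_max_left _ _))
  · exact ⟨fun h => absurd (h1 x i b h) hb, fun h => absurd (h1 y i b h) hb⟩

theorem cellAux_Rad.base {D r : ℕ} (h : cellAux_Rad E D r) {x y : W.X} (hxy : Agree x y r) {i : I}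
    (hx : cellAux_base E x i) : cellAux_base E y i :=
  ⟨(h.2.1 x y hxy i _).1 hx.1, fun b hb => hx.2 b ((h.2.1 x y hxy i b).2 hb)⟩

/-- the cells of radius `r` -/
def cellAux_J (E : W.X → B → B → Prop) (r : ℕ) : Set (Set W.X × I) :=
  {j | ∃ x, j.1 = {y | Agree x y r} ∧ cellAux_base E x j.2}

/-- the parcel of a cell -/
def cellAux_S (E : W.X → B → B → Prop) (j : Set W.X × I) : Set B :=
  {b | ∀ y ∈ j.1, E y (0, j.2) b}

/-- the support of a cell -/
def cellAux_A (E : W.X → B → B → Prop) (j : Set W.X × I) : Set W.Pt :=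
  {p | ∃ y ∈ j.1, ∃ b ∈ cellAux_S E j, p = pt b y}

theorem cellAux_cls {x x' : W.X} {r : ℕ} (h : Agree x x' r) :
    {y | Agree x y r} = {y | Agree x' y r} :=
  Set.ext fun _ => ⟨fun hy => h.symm.trans hy, fun hy => h.trans hy⟩

theorem cellAux_J_fin (E : W.X → B → B → Prop) (r : ℕ) : (cellAux_J E r).Finite := by
  obtain ⟨F, hF⟩ := exists_reps (W := W) r
  refine ((F.finite_toSet.image fun x => {y | Agree x y r}).prod
    (Set.finite_univ (α := I))).subset ?_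
  rintro j ⟨x, h1, _⟩
  obtain ⟨x', hx', h2⟩ := hF x
  exact ⟨⟨x', hx', (h1.trans (cellAux_cls h2)).symm⟩, trivial⟩

theorem cellAux_Rad.mem_S {D r : ℕ} (h : cellAux_Rad E D r) (x : W.X) (i : I) (b : B) :
    b ∈ cellAux_S E ({y | Agree x y r}, i) ↔ E x (0, i) b :=
  ⟨fun hb => hb x (Agree.refl x r), fun hb y hy => (h.2.1 x y hy i b).1 hb⟩

theorem cellAux_Rad.cell {D r : ℕ} (h : cellAux_Rad E D r) {j : Set W.X × I}
    (hj : j ∈ cellAux_J E r) : IsClopen j.1 ∧ (cellAux_S E j).Finite ∧ MS j.1 (cellAux_S E j) := by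
  obtain ⟨V, i⟩ := j
  obtain ⟨x, rfl, _⟩ := hj
  have h1 : cellAux_S E ({y | Agree x y r}, i) ⊆ {b | |b.1.1| ≤ D ∧ |b.1.2| ≤ D} :=
    fun b hb => h.1 x i b ((h.mem_S x i b).1 hb)
  exact ⟨isClopen_agree x r, (cellAux_fin D).subset h1, (h.2.2 x).mono le_rfl h1⟩

theorem cellAux_Rad.dis (hE : IsPar E) {D r : ℕ} (h : cellAux_Rad E D r) :
    ∀ j ∈ cellAux_J E r, ∀ j' ∈ cellAux_J E r, ∀ p, p ∈ cellAux_A E j → p ∈ cellAux_A E j' →
      j = j' := by
  rintro ⟨V, i⟩ ⟨x, rfl, hx⟩ ⟨V', i'⟩ ⟨x', rfl, hx'⟩ p ⟨y, hy, b, hb, rfl⟩ ⟨y', hy', b', hb', e⟩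
  obtain ⟨rfl, rfl⟩ := cellAux_unique hE (h.base hy hx) (h.base hy' hx') (hb y hy) (hb' y' hy') e
  rw [cellAux_cls hy, cellAux_cls hy']

end Vale.Agent.P196
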