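import Vale.Agent.P196.ParBasic
import Vale.Agent.P196.CellAux

/-! P196 task R: groups of bounded parcels embed in the full group. -/

namespace Vale.Agent.P196

open Pointwise

variable {W : Wang} {P : Type} [Group P] {E : W.X → B → B → Prop}

namespace Sys3
variable (A : Sys3 W P)

/-- the lifts over a multisection -/
def cellAux_G (U : Set W.X) (S : Set B) : Set P :=
  {g | ∃ a ∈ S, ∃ b ∈ S, ∃ c ∈ S, D3 a b c ∧ g = A.t U a b c}

/-- the lifts over a cell -/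
def cellAux_H (E : W.X → B → B → Prop) (j : Set W.X × I) : Set P :=
  A.cellAux_G j.1 (cellAux_S E j)

theorem cellAux_ok {U : Set W.X} (hU : IsClopen U) {S : Set B} (hM : MS U S) {a b c : B}
    (ha : a ∈ S) (hb : b ∈ S) (hc : c ∈ S) (h : D3 a b c) : Ok U a b c :=
  ⟨hU, h, hM.mono le_rfl (basicAux_sub3 ha hb hc)⟩

theorem cellAux_conj {U : Set W.X} (hU : IsClopen U) {S : Set B} (hM : MS U S)
    {a b c a' b' c' : B} (ha : a ∈ S) (hb : b ∈ S) (hc : c ∈ S) (ha' : a' ∈ S) (hb' : b' ∈ S)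
    (hc' : c' ∈ S) (h : D3 a b c) (h' : D3 a' b' c') :
    A.t U a b c * A.t U a' b' c' * (A.t U a b c)⁻¹ =
      A.t U (c3 a b c a') (c3 a b c b') (c3 a b c c') :=
  A.t_conj hU (hM.mono le_rfl (Set.insert_subset ha (Set.insert_subset hb
    (Set.insert_subset hc (basicAux_sub3 ha' hb' hc'))))) h h'

theorem cellAux_step (h3 : A.Cube) {U : Set W.X} (hU : IsClopen U) {S : Set B} {e : B}
    (he : e ∉ S) (hM : MS U (insert e S)) {g : P}
    (hg : g ∈ Subgroup.closure (A.cellAux_G U (insert e S))) :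
    g ∈ Subgroup.closure (A.cellAux_G U S) ∨ ∃ a ∈ S, ∃ f ∈ S, a ≠ f ∧
      ∃ g' ∈ Subgroup.closure (A.cellAux_G U S), g = A.t U e a f * g' := by
  set G' := Subgroup.closure (A.cellAux_G U S) with hG'
  have me : e ∈ insert e S := Set.mem_insert _ _
  have ms : ∀ {a}, a ∈ S → a ∈ insert e S := fun h => Set.mem_insert_of_mem _ h
  have ne : ∀ {a}, a ∈ S → e ≠ a := fun h e' => he (e' ▸ h)
  have gen : ∀ {a b c}, a ∈ S → b ∈ S → c ∈ S → D3 a b c → A.t U a b c ∈ G' :=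
    fun ha hb hc h => Subgroup.subset_closure ⟨_, ha, _, hb, _, hc, h, rfl⟩
  have ind : ∀ {a f f'}, a ∈ S → f ∈ S → f' ∈ S → a ≠ f → a ≠ f' →
      ∃ h ∈ G', A.t U e a f = A.t U e a f' * h := by
    intro a f f' ha hf hf' h1 h2
    by_cases hff : f = f'
    · exact ⟨1, G'.one_mem, by rw [hff, mul_one]⟩
    refine ⟨A.t U f f' a, gen hf hf' ha ⟨hff, h1.symm, h2.symm⟩, ?_⟩
    have d1 : D3 f e a := ⟨(ne hf).symm, h1.symm, ne ha⟩
    rw [← A.t_cyc (cellAux_ok hU hM (ms hf) me (ms ha) d1)]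
    exact A.t_cf hU (hM.mono le_rfl (Set.insert_subset (ms hf)
      (basicAux_sub3 me (ms ha) (ms hf')))) d1 hff (ne hf') h2
  have key0 : ∀ {b c}, b ∈ S → c ∈ S → b ≠ c → ∀ g, (g ∈ G' ∨ ∃ a ∈ S, ∃ f ∈ S, a ≠ f ∧
      ∃ g' ∈ G', g = A.t U e a f * g') → (A.t U e b c * g ∈ G' ∨ ∃ a ∈ S, ∃ f ∈ S, a ≠ f ∧
      ∃ g' ∈ G', A.t U e b c * g = A.t U e a f * g') := by
    intro b c hb hc hbc g hg
    have d1 : D3 e b c := ⟨ne hb, ne hc, hbc⟩
    have o1 := cellAux_ok hU hM me (ms hb) (ms hc) d1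
    rcases hg with hg | ⟨a, ha, f, hf, haf, g', hg', rfl⟩
    · exact Or.inr ⟨b, hb, c, hc, hbc, g, hg, rfl⟩
    by_cases hac : a = c
    · subst hac
      obtain ⟨h, hh, e1⟩ := ind ha hf hb haf hbc.symm
      left
      rw [e1, A.t_inv o1, mul_assoc, mul_inv_cancel_left]
      exact G'.mul_mem hh hg'
    by_cases hab : a = b
    · subst hab
      obtain ⟨h, hh, e1⟩ := ind ha hf hc haf hbc
      refine Or.inr ⟨c, hc, a, ha, hbc.symm, h * g', G'.mul_mem hh hg', ?_⟩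
      have e2 : A.t U e a c * A.t U e a c = (A.t U e a c)⁻¹ := by
        rw [eq_inv_iff_mul_eq_one, ← h3 U e a c o1, pow_three, mul_assoc]
      rw [e1, A.t_inv o1, ← e2]
      simp only [mul_assoc]
    · have d2 : D3 e a f := ⟨ne ha, ne hf, haf⟩
      have d3 : D3 e f a := basicAux_flip d2
      have e1 := A.cellAux_conj hU hM me (ms hf) (ms ha) me (ms hb) (ms hc) d3 d1
      have m1 : ∀ {y}, y ∈ insert e S → y ≠ a → c3 e f a y ∈ S := fun hy hya => by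
        refine (Set.mem_insert_iff.1
          (basicAux_c3_mem d3 me (ms hf) (ms ha) hy)).resolve_left fun e2 => hya ?_
        exact (c3 e f a).injective (e2.trans (c3_c d3).symm)
      have m2 := gen (m1 me (ne ha)) (m1 (ms hb) (Ne.symm hab)) (m1 (ms hc) (Ne.symm hac))
        (d1.map (c3 e f a).injective)
      rw [← e1, A.t_inv (cellAux_ok hU hM me (ms ha) (ms hf) d2)] at m2
      refine Or.inr ⟨a, ha, f, hf, haf, _, G'.mul_mem m2 hg', ?_⟩
      group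
  have key : ∀ s ∈ A.cellAux_G U (insert e S), ∀ g, (g ∈ G' ∨ ∃ a ∈ S, ∃ f ∈ S, a ≠ f ∧
      ∃ g' ∈ G', g = A.t U e a f * g') → (s * g ∈ G' ∨ ∃ a ∈ S, ∃ f ∈ S, a ≠ f ∧
      ∃ g' ∈ G', s * g = A.t U e a f * g') := by
    rintro _ ⟨b, hb, c, hc, d, hd, hD, rfl⟩ g hg
    have o1 := cellAux_ok hU hM hb hc hd hD
    rcases Set.mem_insert_iff.1 hb with rfl | hb'
    · exact key0 (hc.resolve_left hD.1.symm) (hd.resolve_left hD.2.1.symm) hD.2.2 g hg
    rcases Set.mem_insert_iff.1 hc with rfl | hc'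
    · rw [A.t_cyc o1]
      exact key0 (hd.resolve_left hD.2.2.symm) hb' hD.2.1.symm g hg
    rcases Set.mem_insert_iff.1 hd with rfl | hd'
    · rw [A.t_cyc o1, A.t_cyc (basicAux_ok_rot o1)]
      exact key0 hb' hc' hD.1 g hg
    have m0 := gen hb' hc' hd' hD
    rcases hg with hg | ⟨a, ha, f, hf, haf, g', hg', rfl⟩
    · exact Or.inl (G'.mul_mem m0 hg)
    have e1 := A.cellAux_conj hU hM hb hc hd me (ms ha) (ms hf) hD ⟨ne ha, ne hf, haf⟩
    rw [c3_of_ne (ne hb') (ne hc') (ne hd')] at e1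
    refine Or.inr ⟨_, basicAux_c3_mem hD hb' hc' hd' ha, _, basicAux_c3_mem hD hb' hc' hd' hf,
      (c3 b c d).injective.ne haf, _, G'.mul_mem m0 hg', ?_⟩
    rw [← e1]
    group
  induction hg using Subgroup.closure_induction_left with
  | one => exact Or.inl G'.one_mem
  | mul_left s hs g _ ih => exact key s hs g ih
  | inv_mul_cancel s hs g _ ih =>
    refine key s⁻¹ ?_ g ih
    obtain ⟨a, ha, b, hb, c, hc, hD, rfl⟩ := hs
    exact ⟨a, ha, c, hc, b, hb, basicAux_flip hD, (A.t_inv (cellAux_ok hU hM ha hb hc hD)).symm⟩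

/-- the lifts over one multisection generate an alternating group -/
theorem d1 (h3 : A.Cube) {U : Set W.X} (hU : IsClopen U) {S : Set B} (hS : S.Finite)
    (hM : MS U S) {g : P}
    (hg : g ∈ Subgroup.closure {g | ∃ a ∈ S, ∃ b ∈ S, ∃ c ∈ S, D3 a b c ∧ g = A.t U a b c})
    (h1 : A.π g = 1) : g = 1 := by
  change g ∈ Subgroup.closure (A.cellAux_G U S) at hg
  rcases U.eq_empty_or_nonempty with rfl | ⟨x, hx⟩
  · have h2 : Subgroup.closure (A.cellAux_G ∅ S) ≤ ⊥ := by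
      rw [Subgroup.closure_le]
      rintro _ ⟨a, _, b, _, c, _, hD, rfl⟩
      exact A.t_empty hD
    exact h2 hg
  induction S, hS using Set.Finite.induction_on generalizing g with
  | empty => simpa [cellAux_G] using hg
  | @insert e S he _ ih =>
    have ms : ∀ {a}, a ∈ S → a ∈ insert e S := fun h => Set.mem_insert_of_mem _ h
    have ne : ∀ {a}, a ∈ S → e ≠ a := fun h e' => he (e' ▸ h)
    have me : e ∈ insert e S := Set.mem_insert _ _
    rcases A.cellAux_step h3 hU he hM hg with h | ⟨a, ha, f, hf, haf, g', hg', rfl⟩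
    · exact ih (hM.mono le_rfl (Set.subset_insert _ _)) h1 h
    · exfalso
      have h2 : A.π g' (pt e x) = pt e x := cellAux_fix A.π (by
        rintro _ ⟨b, hb, c, hc, d, hd, hD, rfl⟩
        rw [A.π_t (cellAux_ok hU hM (ms hb) (ms hc) (ms hd) hD),
          basicAux_pt hM hD (ms hb) (ms hc) (ms hd) me hx,
          c3_of_ne (ne hb) (ne hc) (ne hd)]) hg'
      have d2 : D3 e a f := ⟨ne ha, ne hf, haf⟩
      have h4 := congrArg (fun σ : Equiv.Perm W.Pt => σ (pt e x)) h1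
      simp only [map_mul, Equiv.Perm.mul_apply, h2, Equiv.Perm.one_apply] at h4
      rw [A.π_t (cellAux_ok hU hM me (ms ha) (ms hf) d2),
        basicAux_pt hM d2 me (ms ha) (ms hf) me hx, c3_a d2] at h4
      exact ne ha (hM _ (ms ha) _ me x hx x hx h4).symm

theorem cellAux_gen (hE : IsPar E) (hB : Bdd E) {D r : ℕ} (hr : cellAux_Rad E D r)
    {U : Set W.X} {a b c : B} (hO : Ok U a b c) (hU : ∀ x ∈ U, E x a b ∧ E x a c) :
    ∃ R0, ∀ R ≥ R0, A.t U a b c ∈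
      Subgroup.closure (⋃ j ∈ cellAux_J E R, A.cellAux_H E j) := by
  refine clopen_loc (Q := fun V => ∃ R0, ∀ R ≥ R0, A.t V a b c ∈
    Subgroup.closure (⋃ j ∈ cellAux_J E R, A.cellAux_H E j)) hO.1
    ⟨0, fun R _ => by rw [A.t_empty hO.2.1]; exact Subgroup.one_mem _⟩ ?_ ?_
  · rintro V V' hV hV' hVU hVU' hd ⟨R1, h1⟩ ⟨R2, h2⟩
    refine ⟨max R1 R2, fun R hR => ?_⟩
    rw [A.t_union hV hV' hd hO.2.1 (hO.2.2.mono (Set.union_subset hVU hVU') le_rfl)]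
    exact Subgroup.mul_mem _ (h1 R (le_of_max_le_left hR)) (h2 R (le_of_max_le_right hR))
  · intro x hx
    have haa : E x a a := hE.trans (hU x hx).1 (hE.symm (hU x hx).1)
    obtain ⟨z, i, hbase, hz⟩ := cellAux_exists_base hE hB haa
    obtain ⟨r', hr'⟩ := basicAux_bound {z}
    obtain ⟨z1, z2⟩ := hr' z (Finset.mem_singleton_self z)
    refine ⟨r + r', fun V hV hVU hVx => ?_⟩
    have hV' := IsClopen.vadd_X hV z
    have hD : D3 (sh (-z) a) (sh (-z) b) (sh (-z) c) := hO.2.1.map (basicAux_sh_inj _)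
    have hM : MS (z +ᵥ V) {sh (-z) a, sh (-z) b, sh (-z) c} := by
      rw [MS.vadd]
      simp only [Set.image_insert_eq, Set.image_singleton, cellAux_sh_neg]
      exact hO.2.2.mono hVU le_rfl
    have e1 := A.t_shift z ⟨hV', hD, hM⟩
    simp only [cellAux_sh_neg] at e1
    obtain ⟨r2, hr2⟩ := isClopen_iff.1 hV'
    refine ⟨max r r2, fun R hR => ?_⟩
    rw [e1]
    have hrR := hr.mono (le_of_max_le_left hR)
    refine basicAux_pieces (Q := fun V' => A.t V' (sh (-z) a) (sh (-z) b) (sh (-z) c) ∈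
      Subgroup.closure (⋃ j ∈ cellAux_J E R, A.cellAux_H E j)) hV'
      (by rw [A.t_empty hD]; exact Subgroup.one_mem _) ?_ R ?_
    · intro V1 V2 k1 k2 k3 k4 k5 k6 k7
      rw [A.t_union k1 k2 k5 hD (hM.mono (Set.union_subset k3 k4) le_rfl)]
      exact Subgroup.mul_mem _ k6 k7
    · intro y hy
      have e2 : (z +ᵥ V) ∩ {y' | Agree y y' R} = {y' | Agree y y' R} :=
        Set.inter_eq_right.2 fun y' hy' =>
          (hr2 y y' (Agree.mono hy' (le_of_max_le_right hR))).1 hy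
      rw [e2]
      obtain ⟨y0, hy0, rfl⟩ := hy
      have hag : Agree (z +ᵥ x) (z +ᵥ y0) r := (hVx y0 hy0).vadd z1 z2
      have hm : ∀ b', E x a b' → sh (-z) b' ∈ cellAux_S E ({y' | Agree (z +ᵥ y0) y' R}, i) :=
        fun b' hb' => (hrR.mem_S _ i _).2 ((hr.2.1 _ _ hag i _).1 (hz b' hb'))
      refine Subgroup.subset_closure (Set.mem_iUnion₂.2
        ⟨({y' | Agree (z +ᵥ y0) y' R}, i), ⟨_, rfl, hr.base hag hbase⟩, ?_⟩)
      exact ⟨_, hm a haa, _, hm b (hU x hx).1, _, hm c (hU x hx).2, hD, rfl⟩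

theorem cellAux_mem (hE : IsPar E) (hB : Bdd E) {D r : ℕ} (hr : cellAux_Rad E D r) {g : P}
    (hg : g ∈ A.R E) : ∃ R0, ∀ R ≥ R0,
      g ∈ Subgroup.closure (⋃ j ∈ cellAux_J E R, A.cellAux_H E j) := by
  induction hg using Subgroup.closure_induction with
  | mem g hg =>
    obtain ⟨U, a, b, c, hO, hU, rfl⟩ := hg
    exact A.cellAux_gen hE hB hr hO hU
  | one => exact ⟨0, fun _ _ => Subgroup.one_mem _⟩
  | mul g g' _ _ h1 h2 =>
    obtain ⟨R1, h1⟩ := h1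
    obtain ⟨R2, h2⟩ := h2
    exact ⟨max R1 R2, fun R hR =>
      Subgroup.mul_mem _ (h1 R (le_of_max_le_left hR)) (h2 R (le_of_max_le_right hR))⟩
  | inv g _ h1 =>
    obtain ⟨R1, h1⟩ := h1
    exact ⟨R1, fun R hR => Subgroup.inv_mem _ (h1 R hR)⟩

theorem cellAux_f1 {U : Set W.X} (hU : IsClopen U) {S : Set B} (hM : MS U S) {g : P}
    (hg : g ∈ A.cellAux_G U S) {p : W.Pt} (hp : ¬ ∃ y ∈ U, ∃ b ∈ S, p = pt b y) :
    A.π g p = p := by
  obtain ⟨a, ha, b, hb, c, hc, hD, rfl⟩ := hg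
  rw [A.π_t (cellAux_ok hU hM ha hb hc hD)]
  exact basicAux_fix hM hD ha hb hc fun e he x hx e' => hp ⟨x, hx, e, he, e'⟩

theorem cellAux_f2 {U U' : Set W.X} (hU : IsClopen U) (hU' : IsClopen U') {S S' : Set B}
    (hM : MS U S) (hM' : MS U' S') {g g' : P} (hg : g ∈ A.cellAux_G U S)
    (hg' : g' ∈ A.cellAux_G U' S')
    (hd : ∀ p, (∃ y ∈ U, ∃ b ∈ S, p = pt b y) → ¬ ∃ y ∈ U', ∃ b ∈ S', p = pt b y) :
    Commute g g' := by
  obtain ⟨a, ha, b, hb, c, hc, hD, rfl⟩ := hg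
  obtain ⟨a', ha', b', hb', c', hc', hD', rfl⟩ := hg'
  exact A.t_comm (cellAux_ok hU hM ha hb hc hD) (cellAux_ok hU' hM' ha' hb' hc' hD')
    fun p hp q hq x hx y hy e => hd (pt p x) ⟨x, hx, p, basicAux_sub3 ha hb hc hp, rfl⟩
      ⟨y, hy, q, basicAux_sub3 ha' hb' hc' hq, e⟩

theorem inj (hF : W.Free) (h3 : A.Cube) (hE : IsPar E) (hB : Bdd E) {g : P} (hg : g ∈ A.R E)
    (h1 : A.π g = 1) : g = 1 := by
  obtain ⟨D, r, hr⟩ := cellAux_exists_rad hF hE hB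
  obtain ⟨R0, hR0⟩ := A.cellAux_mem hE hB hr hg
  have hR := hr.mono (le_max_left r R0)
  have hg' := hR0 _ (le_max_right r R0)
  generalize max r R0 = R at hR hg'
  have k1 : ∀ j ∈ cellAux_J E R, ∀ a ∈ A.cellAux_H E j, ∀ p,
      p ∉ cellAux_A E j → A.π a p = p := fun j hj a ha p hp =>
    A.cellAux_f1 (hR.cell hj).1 (hR.cell hj).2.2 ha hp
  have k2 : ∀ j ∈ cellAux_J E R, ∀ j' ∈ cellAux_J E R, j ≠ j' →
      ∀ a ∈ A.cellAux_H E j, ∀ b ∈ A.cellAux_H E j',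
      Commute a b := fun j hj j' hj' hne a ha b hb =>
    A.cellAux_f2 (hR.cell hj).1 (hR.cell hj').1 (hR.cell hj).2.2 (hR.cell hj').2.2 ha hb
      fun p k1 k2 => hne (hR.dis hE j hj j' hj' p k1 k2)
  have k3 : ∀ j ∈ cellAux_J E R, ∀ g ∈ Subgroup.closure (A.cellAux_H E j),
      A.π g = 1 → g = 1 := fun j hj g hg h1 =>
    A.d1 h3 (hR.cell hj).1 (hR.cell hj).2.1 (hR.cell hj).2.2 hg h1
  have k4 := cellAux_fam A.π (A.cellAux_H E) (cellAux_A E)
    (cellAux_J_fin E R) k1 (hR.dis hE) k2 k3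
  exact k4 g hg' h1

theorem cellAux_alt {S : Set B} {τ : Equiv.Perm B} (hτ : τ ∈ Alt S) {b : B} (hb : b ∈ S) :
    τ b ∈ S := by
  refine cellAux_pres (fun p hp => cellAux_fix (MonoidHom.id _) ?_ hτ) hb
  rintro _ ⟨a, ha, b, hb, c, hc, _, rfl⟩
  exact c3_of_ne (fun e => hp (e ▸ ha)) (fun e => hp (e ▸ hb)) (fun e => hp (e ▸ hc))

theorem cellAux_real {U : Set W.X} (hU : IsClopen U) {S : Set B} (hM : MS U S)
    (hE : ∀ x ∈ U, ∀ b ∈ S, ∀ b' ∈ S, E x b b') {τ : Equiv.Perm B} (hτ : τ ∈ Alt S) :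
    ∃ g ∈ A.R E, (∀ x ∈ U, ∀ b ∈ S, A.π g (pt b x) = pt (τ b) x) ∧
      ∀ p, (∀ x ∈ U, ∀ b ∈ S, p ≠ pt b x) → A.π g p = p := by
  induction hτ using Subgroup.closure_induction with
  | mem τ hτ =>
    obtain ⟨a, ha, b, hb, c, hc, hD, rfl⟩ := hτ
    have o1 := cellAux_ok hU hM ha hb hc hD
    refine ⟨A.t U a b c, Subgroup.subset_closure
      ⟨U, a, b, c, o1, fun x hx => ⟨hE x hx a ha b hb, hE x hx a ha c hc⟩, rfl⟩, ?_, ?_⟩
    · intro x hx e he
      rw [A.π_t o1, basicAux_pt hM hD ha hb hc he hx]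
    · intro p hp
      rw [A.π_t o1]
      exact basicAux_fix hM hD ha hb hc fun e he x hx => hp x hx e he
  | one => exact ⟨1, Subgroup.one_mem _, by simp, by simp⟩
  | mul τ τ' _ hτ' h1 h2 =>
    obtain ⟨g, hg, k1, k2⟩ := h1
    obtain ⟨g', hg', k3, k4⟩ := h2
    refine ⟨g * g', Subgroup.mul_mem _ hg hg', fun x hx b hb => ?_, fun p hp => ?_⟩
    · rw [map_mul, Equiv.Perm.mul_apply, k3 x hx b hb, k1 x hx _ (cellAux_alt hτ' hb),
        Equiv.Perm.mul_apply]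
    · rw [map_mul, Equiv.Perm.mul_apply, k4 p hp, k2 p hp]
  | inv τ hτ h1 =>
    obtain ⟨g, hg, k1, k2⟩ := h1
    refine ⟨g⁻¹, Subgroup.inv_mem _ hg, fun x hx b hb => ?_, fun p hp => ?_⟩
    · rw [map_inv, Equiv.Perm.inv_eq_iff_eq,
        k1 x hx _ (cellAux_alt (Subgroup.inv_mem _ hτ) hb)]
      simp
    · rw [map_inv, Equiv.Perm.inv_eq_iff_eq, k2 p hp]

/-- a fixed even permutation over a multisection -/
theorem real_fix (hF : W.Free) {U : Set W.X} (hU : IsClopen U) {S : Set B} (hM : MS U S)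
    (hE : ∀ x ∈ U, ∀ b ∈ S, ∀ b' ∈ S, E x b b') {τ : Equiv.Perm B} (hτ : τ ∈ Alt S) :
    ∃ g ∈ A.R E, (∀ x ∈ U, ∀ b ∈ S, crd x (A.π g) b = τ b) ∧
      ∀ p, (∀ x ∈ U, ∀ b ∈ S, p ≠ pt b x) → A.π g p = p := by
  obtain ⟨g, hg, h1, h2⟩ := A.cellAux_real hU hM hE hτ
  exact ⟨g, hg, fun x hx b hb => crd_eq hF (A.π_mem_FG g) (h1 x hx b hb), h2⟩

theorem real (hF : W.Free) (hE : IsPar E) (hB : Bdd E) {σ : Equiv.Perm W.Pt} (hσ : σ ∈ FG W)
    (h2 : ∀ x b, ¬ E x b b → crd x σ b = b)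
    (h3 : ∀ x b, E x b b → EvenOn (crd x σ) {b' | E x b b'}) : ∃ g ∈ A.R E, A.π g = σ := by
  obtain ⟨D, r, hr⟩ := cellAux_exists_rad hF hE hB
  obtain ⟨r', hr', _⟩ := id hσ
  have hR := hr.mono (le_max_left r (r' + D))
  obtain ⟨g, hg, k1, k2⟩ := cellAux_glue A.π (A.R E) σ (cellAux_A E)
    (cellAux_J_fin E (max r (r' + D))) (hR.dis hE) (by
      intro j hj
      obtain ⟨c1, _, c3⟩ := hR.cell hj
      obtain ⟨V, i⟩ := j
      obtain ⟨x, rfl, hx⟩ := hj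
      obtain ⟨τ, hτ, hτ'⟩ := h3 x (0, i) hx.1
      have e : {b' | E x (0, i) b'} = cellAux_S E ({y | Agree x y (max r (r' + D))}, i) :=
        Set.ext fun b => (hR.mem_S x i b).symm
      rw [e] at hτ hτ'
      obtain ⟨g, hg, k1, k2⟩ := A.cellAux_real (E := E) c1 c3
        (fun y hy b hb b' hb' => hE.trans (hE.symm (hb y hy)) (hb' y hy)) hτ
      refine ⟨g, hg, ?_, fun p hp => k2 p fun y hy b hb e' => hp ⟨y, hy, b, hb, e'⟩⟩
      rintro _ ⟨y, hy, b, hb, rfl⟩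
      obtain ⟨b1, b2⟩ := hR.1 x i b ((hR.mem_S x i b).1 hb)
      rw [k1 y hy b hb, crd_spec hF hσ, ← hτ' b hb,
        crd_congr hF hσ hr' ((Agree.mono hy (le_max_right _ _)).vadd b1 b2)])
  refine ⟨g, hg, Equiv.ext fun p => ?_⟩
  by_cases hp : p ∈ ⋃ j ∈ cellAux_J E (max r (r' + D)), cellAux_A E j
  · exact k1 p hp
  · rw [k2 p hp]
    obtain ⟨x, i⟩ := p
    have hn : ¬ E x (0, i) (0, i) := fun h => by
      obtain ⟨z, i', hb, hz⟩ := cellAux_exists_base hE hB h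
      refine hp (Set.mem_iUnion₂.2 ⟨({y | Agree (z +ᵥ x) y (max r (r' + D))}, i'),
        ⟨_, rfl, hb⟩, z +ᵥ x, Agree.refl _ _, _, (hR.mem_S _ _ _).2 (hz _ h), ?_⟩)
      rw [pt_vadd, cellAux_sh_neg, pt_zero]
    rw [← pt_zero, crd_spec hF hσ, h2 x _ hn]

end Sys3

end Vale.Agent.P196
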