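import Vale.Agent.P196.Inv

/-! P196 task X6: the residues of a tiling. -/

namespace Vale.Agent.P196

variable {K : ℕ} {x y : (Wst K).X}

theorem exists_At (hK : Stab K) (x : (Wst K).X) {k : ℕ} (hk : K ≤ k) : ∃ Z, At x k Z := by
  obtain ⟨g, hg, Z, hZ⟩ := (inv_all (Rep.ofX x) hK hk).exists_prop trivial
  exact ⟨Z, fun z => frc_ofX hg (hZ.1 z)⟩

theorem At.vadd {k : ℕ} {Z : Z2} (h : At x k Z) (z : Z2) : At (z +ᵥ x) k (Z + z) := by
  intro w
  have h1 := h (w + z)
  rw [add_comm w z, ← add_assoc] at h1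
  rw [vadd_val, add_comm w z]
  exact h1

theorem At.mono {k k' : ℕ} {Z : Z2} (h : At x k' Z) (hk : k ≤ k') : At x k Z :=
  fun z => (h z).mono hk

theorem classicAux_not_dvd {k : ℕ} (hk : K ≤ k) : ¬ ss K (k + 2) ∣ ss K k := by
  intro h
  have h1 := Int.le_of_dvd (ss_pos k) h
  rw [ss_add_two hk] at h1
  have h2 := three_le_mm k
  have h3 := ss_pos (K := K) k
  nlinarith

theorem classicAux_co2 (k : ℕ) : co (k + 2) = co k := co_congr (by omega)

theorem At.unique (hK : Stab K) {k : ℕ} (hk : K ≤ k) {Z Z' : Z2} (h : At x k Z) (h' : At x k Z')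
    {i : ℕ} (hi : i ≤ k + 2) : ss K i ∣ co i Z - co i Z' := by
  have _ := hK
  induction k, hk using Nat.le_induction generalizing i with
  | base =>
    by_cases h1 : i ≤ K + 1
    · rw [ss_of_le h1]; exact one_dvd _
    · obtain rfl : i = K + 2 := by omega
      have h2 := (h 0).cnt
      have h3 := (h' 0).cnt
      rw [h2, add_zero, add_zero] at h3
      unfold dg at h3
      rw [ss_of_le (by omega : K ≤ K + 1), Int.ediv_one, Int.ediv_one] at h3
      rw [classicAux_co2]
      exact Int.dvd_iff_emod_eq_zero.2 (Int.emod_eq_emod_iff_emod_sub_eq_zero.1 h3)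
  | succ k hk ih =>
    have ih' : ∀ {i : ℕ}, i ≤ k + 2 → ss K i ∣ co i Z - co i Z' := fun hi =>
      ih (h.mono (Nat.le_succ k)) (h'.mono (Nat.le_succ k)) hi
    by_cases h1 : i ≤ k + 2
    · exact ih' h1
    · obtain rfl : i = k + 3 := by omega
      have e1 : co k (ac k) = 1 := co_ac rfl
      have e2 : co k (ac (k + 1)) = 0 := co_ac_ne (by omega)
      have e3 : co (k + 1) (ac k) = 0 := co_ac_ne (by omega)
      have e4 : co (k + 1) (ac (k + 1)) = 1 := co_ac rfl
      obtain ⟨z, hz1, hz2⟩ : ∃ z : Z2, co k z = ss K k - co k Z ∧ co (k + 1) z = - co (k + 1) Z :=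
        ⟨(ss K k - co k Z) • ac k + (- co (k + 1) Z) • ac (k + 1),
          by rw [co_add, co_smul, co_smul, e1, e2]; ring,
          by rw [co_add, co_smul, co_smul, e3, e4]; ring⟩
      have f1 : co k (Z + z) = ss K k := by rw [co_add, hz1]; ring
      have f2 : co (k + 1) (Z + z) = 0 := by rw [co_add, hz2]; ring
      have i1 : IsIdx K k (Z + z) := ⟨by rw [f1], by rw [f1]; exact classicAux_not_dvd hk⟩
      have i2 : IsIdx K k (Z' + z) := i1.congr (by
        have h2 := ih' (le_refl (k + 2))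
        rw [classicAux_co2] at h2
        rw [co_add, co_add, add_sub_add_right_eq_sub]
        exact h2)
      have f3 : co (k + 1) (Z' + z) = -(co (k + 1) Z - co (k + 1) Z') := by
        rw [co_add, hz2]; ring
      have a1 := (h z).adj k (Nat.lt_succ_self k) i1 (by rw [f2]; exact dvd_zero _)
      have a2 := (h' z).adj k (Nat.lt_succ_self k) i2 (by
        rw [f3]; exact (ih' (by omega : k + 1 ≤ k + 2)).neg_right)
      rw [f2] at a1
      rw [f3, a1] at a2
      have a3 : ss K (k + 3) ∣ -(co (k + 1) Z - co (k + 1) Z') :=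
        not_not.1 fun h2 => a2.2 h2 (dvd_zero _)
      rw [show k + 3 = k + 1 + 2 from rfl, classicAux_co2]
      exact (dvd_neg).1 a3

theorem At.res (hK : Stab K) {k : ℕ} (hk : K ≤ k) {Z : Z2} (h : At x k Z) {i : ℕ}
    (hi : i ≤ k + 2) : resW x i = co i Z % ss K i := by
  have h1 : ∃ Z, At x (max K i) Z := exists_At hK x (le_max_left K i)
  rw [resW, dif_pos h1]
  have h2 := At.unique hK (k := min k (max K i)) (by omega)
    (h1.choose_spec.mono (min_le_right _ _)) (h.mono (min_le_left _ _)) (i := i) (by omega)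
  exact Int.emod_eq_emod_iff_emod_sub_eq_zero.2 (Int.emod_eq_zero_of_dvd h2)

theorem classicAux_dvd {s a b r : ℤ} (h : r = a % s) (h' : s ∣ b - r) : s ∣ a - b := by
  have h1 : a - b = s * (a / s) - (b - r) := by
    have := Int.mul_ediv_add_emod a s
    rw [h]; linarith
  rw [h1]
  exact (Dvd.intro _ rfl).sub h'

theorem at_of_res (hK : Stab K) {k : ℕ} (hk : K ≤ k) {Z : Z2}
    (h1 : ss K (k + 1) ∣ co (k + 1) Z - resW x (k + 1))
    (h2 : ss K (k + 2) ∣ co k Z - resW x (k + 2)) : At x k Z := by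
  obtain ⟨Z0, h0⟩ := exists_At hK x hk
  have h3 := h0.res hK hk (i := k + 1) (by omega)
  have h4 := h0.res hK hk (i := k + 2) le_rfl
  rw [classicAux_co2] at h4
  intro z
  refine (h0 z).congr hK hk ?_ ?_
  · rw [co_add, co_add, add_sub_add_right_eq_sub]
    exact classicAux_dvd h3 h1
  · rw [co_add, co_add, add_sub_add_right_eq_sub]
    exact classicAux_dvd h4 h2

theorem classicAux_exists (k : ℕ) (a b : ℤ) : ∃ Z : Z2, co (k + 1) Z = a ∧ co k Z = b :=
  ⟨a • ac (k + 1) + b • ac k,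
    by rw [co_add, co_smul, co_smul, co_ac rfl, co_ac_ne (by omega)]; ring,
    by rw [co_add, co_smul, co_smul, co_ac rfl, co_ac_ne (by omega)]; ring⟩

/-- two tilings with the same residues sit at the same absolute position -/
theorem exists_At_pair (hK : Stab K) {k : ℕ} (hk : K ≤ k) (h1 : resW x (k + 1) = resW y (k + 1))
    (h2 : resW x (k + 2) = resW y (k + 2)) : ∃ Z, At x k Z ∧ At y k Z ∧
      co (k + 1) Z = resW x (k + 1) ∧ co k Z = resW x (k + 2) := by
  obtain ⟨Z, h3, h4⟩ := classicAux_exists k (resW x (k + 1)) (resW x (k + 2))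
  refine ⟨Z, at_of_res hK hk ?_ ?_, at_of_res hK hk ?_ ?_, h3, h4⟩
  · rw [h3, sub_self]; exact dvd_zero _
  · rw [h4, sub_self]; exact dvd_zero _
  · rw [h3, h1, sub_self]; exact dvd_zero _
  · rw [h4, h2, sub_self]; exact dvd_zero _

theorem resW_nonneg (x : (Wst K).X) (i : ℕ) : 0 ≤ resW x i := by
  unfold resW
  split_ifs
  · exact Int.emod_nonneg _ (ss_pos i).ne'
  · exact le_rfl

theorem resW_lt (x : (Wst K).X) (i : ℕ) : resW x i < ss K i := by
  unfold resW
  split_ifs
  · exact Int.emod_lt_of_pos _ (ss_pos i)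
  · exact ss_pos i

theorem resW_mod (hK : Stab K) (x : (Wst K).X) (i : ℕ) : resW x (i + 2) % ss K i = resW x i := by
  obtain ⟨Z, hZ⟩ := exists_At hK x (le_max_left K i)
  rw [hZ.res hK (le_max_left K i) (i := i + 2) (by omega),
    hZ.res hK (le_max_left K i) (i := i) (by omega), classicAux_co2,
    Int.emod_emod_of_dvd _ (ss_dvd_add_two i)]

theorem resW_vadd (hK : Stab K) (x : (Wst K).X) (z : Z2) (i : ℕ) :
    resW (z +ᵥ x) i = (resW x i + co i z) % ss K i := by
  obtain ⟨Z, hZ⟩ := exists_At hK x (le_max_left K i)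
  rw [(hZ.vadd z).res hK (le_max_left K i) (i := i) (by omega),
    hZ.res hK (le_max_left K i) (i := i) (by omega), co_add, Int.emod_add_emod]

theorem classicAux_closed (k : ℕ) (Z : Z2) : IsClosed {x : (Wst K).X | At x k Z} := by
  have e : {x : (Wst K).X | At x k Z} =
      ⋂ z, (fun x : (Wst K).X => x.1 z) ⁻¹' {a | Known K k (Z + z) (tl a)} := by
    ext x
    simp only [Set.mem_iInter]
    rfl
  rw [e]
  exact isClosed_iInter fun z => (isClosed_discrete _).preimage (basicAux_cont z)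

theorem classicAux_pre (hK : Stab K) (i : ℕ) (s : Set ℤ) :
    IsClosed {x : (Wst K).X | resW x i ∈ s} := by
  obtain ⟨k, hk, hi⟩ : ∃ k, K ≤ k ∧ i ≤ k + 2 := ⟨max K i, le_max_left K i, by omega⟩
  choose ζ h1 h2 using classicAux_exists k
  have e : {x : (Wst K).X | resW x i ∈ s} =
      ⋃ p ∈ {p ∈ Set.Ico 0 (ss K (k + 1)) ×ˢ Set.Ico 0 (ss K (k + 2)) |
        co i (ζ p.1 p.2) % ss K i ∈ s}, {x : (Wst K).X | At x k (ζ p.1 p.2)} := by
    ext x
    simp only [Set.mem_iUnion]
    constructor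
    · intro hx
      have h3 : At x k (ζ (resW x (k + 1)) (resW x (k + 2))) := at_of_res hK hk
        (by rw [h1, sub_self]; exact dvd_zero _) (by rw [h2, sub_self]; exact dvd_zero _)
      refine ⟨(resW x (k + 1), resW x (k + 2)), ⟨⟨⟨resW_nonneg x _, resW_lt x _⟩,
        ⟨resW_nonneg x _, resW_lt x _⟩⟩, ?_⟩, h3⟩
      rw [← h3.res hK hk hi]
      exact hx
    · rintro ⟨p, hp, hx⟩
      have h3 : At x k (ζ p.1 p.2) := hx
      have h4 := hp.2
      rw [← h3.res hK hk hi] at h4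
      exact h4
  rw [e]
  exact (((Set.finite_Ico _ _).prod (Set.finite_Ico _ _)).subset fun p hp => hp.1).isClosed_biUnion
    fun p _ => classicAux_closed k _

theorem resW_loc (hK : Stab K) (i : ℕ) :
    ∃ r, ∀ x y : (Wst K).X, Agree x y r → resW x i = resW y i := by
  have h1 : ∀ α : ℤ, IsClopen {x : (Wst K).X | resW x i ∈ ({α} : Set ℤ)} := fun α =>
    ⟨classicAux_pre hK i _, isClosed_compl_iff.1 (classicAux_pre hK i {α}ᶜ)⟩
  choose r hr using fun α => isClopen_iff.1 (h1 α)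
  refine ⟨(Finset.Ico 0 (ss K i)).sup r, fun x y hxy => ?_⟩
  have h2 : resW x i ∈ Finset.Ico 0 (ss K i) := Finset.mem_Ico.2 ⟨resW_nonneg x i, resW_lt x i⟩
  exact ((hr (resW x i) x y (hxy.mono (Finset.le_sup h2))).1 rfl).symm

theorem classicAux_div {s S R c : ℤ} (hs : 0 < s) (hd : s ∣ S) (h0 : 0 ≤ R) (h1 : R < S)
    (h2 : 0 ≤ R % s + c) (h3 : R % s + c < s) : (R + c) % S / s = R / s := by
  obtain ⟨t, rfl⟩ := hd
  have e1 := Int.mul_ediv_add_emod R s
  have e2 : 0 ≤ R / s := Int.ediv_nonneg h0 hs.le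
  have e3 : R / s < t := Int.ediv_lt_of_lt_mul hs (by linarith)
  have e4 : R + c = (R % s + c) + s * (R / s) := by linarith
  have e5 : 0 ≤ s * (R / s) := mul_nonneg hs.le e2
  have e6 : s * (R / s + 1) ≤ s * t := mul_le_mul_of_nonneg_left (by omega) hs.le
  rw [Int.emod_eq_of_lt (by linarith) (by linarith), e4, Int.add_mul_ediv_left _ _ hs.ne',
    Int.ediv_eq_zero_of_lt h2 h3, zero_add]

theorem sigW_vadd (hK : Stab K) (i : ℕ) (x : (Wst K).X) (z : Z2)
    (h1 : 0 ≤ resW x (i + 1) + co (i + 1) z) (h2 : resW x (i + 1) + co (i + 1) z < ss K (i + 1)) :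
    sigW i (z +ᵥ x) = sigW i x := by
  have h3 : resW x (i + 3) % ss K (i + 1) = resW x (i + 1) := resW_mod hK x (i + 1)
  rw [← h3] at h1 h2
  have h4 : co (i + 3) = co (i + 1) := classicAux_co2 (i + 1)
  rw [sigW, sigW, resW_vadd hK, h4, classicAux_div (ss_pos _) (ss_dvd_add_two (i + 1))
    (resW_nonneg x _) (resW_lt x _) h1 h2]

theorem sigW_loc (hK : Stab K) (i : ℕ) :
    ∃ r, ∀ x y : (Wst K).X, Agree x y r → sigW i x = sigW i y := by
  obtain ⟨r, hr⟩ := resW_loc hK (i + 3)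
  exact ⟨r, fun x y hxy => by rw [sigW, sigW, hr x y hxy]⟩

/-- the label of a high line is constant between its crossings with high lines -/
theorem At.run {k i : ℕ} {Z : Z2} (h : At x k Z) (z : Z2) (n : ℕ)
    (hh : ∀ t : ℕ, 1 ≤ t → t ≤ n → ∃ j, j < k ∧ j % 2 ≠ i % 2 ∧
      IsIdx K j (Z + (z + (t : ℤ) • ac (i + 1))) ∧ ss K (j + 3) ∣ co i (Z + z)) :
    (vw i (cr (x.1 (z + (n : ℤ) • ac (i + 1))))).R = (vw i (cr (x.1 z))).R := by
  induction n with
  | zero => simp
  | succ n ih =>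
    rw [← ih fun t h1 h2 => hh t h1 (by omega), X_edge x i (z + (n : ℤ) • ac (i + 1))]
    have e : z + (n : ℤ) • ac (i + 1) + ac (i + 1) = z + ((n + 1 : ℕ) : ℤ) • ac (i + 1) := by
      rw [Nat.cast_succ, add_smul, one_smul, add_assoc]
    rw [e]
    obtain ⟨j, h1, h2, h3, h4⟩ := hh (n + 1) (by omega) le_rfl
    have h5 := (h (z + ((n + 1 : ℕ) : ℤ) • ac (i + 1))).high (rule_cr _) h3 h1 (by
      rw [co_congr (show (j + 1) % 2 = i % 2 by omega), ← add_assoc, co_add, co_smul,
        co_ac_ne (by omega), mul_zero, add_zero]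
      exact h4)
    have h6 := congrArg Core.Bl h5
    rw [vw_ne h2.symm]
    exact h6.symm

end Vale.Agent.P196
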