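import Vale.Agent.P196.Basic

/-! P196 task P: conjugation formula; the kernel is central. -/

namespace Vale.Agent.P196

open Pointwise

variable {W : Wang} {P : Type} [Group P]

/-- the local conjugation formula -/
def conjAux_LF (A : Sys3 W P) (g : P) (x : W.X) (a b c : B) : Prop :=
  ∃ r a' b' c', D3 a' b' c' ∧ A.π g (pt a x) = pt a' x ∧ A.π g (pt b x) = pt b' x ∧
    A.π g (pt c x) = pt c' x ∧ ∀ V, IsClopen V → (∀ y ∈ V, Agree x y r) →
      g * A.t V a b c * g⁻¹ = A.t V a' b' c'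

theorem conjAux_mul (A : Sys3 W P) {g h : P} {x : W.X} {a b c a' b' c' : B} {r : ℕ}
    (h1 : A.π h (pt a x) = pt a' x) (h2 : A.π h (pt b x) = pt b' x)
    (h3 : A.π h (pt c x) = pt c' x) (h4 : ∀ V, IsClopen V → (∀ y ∈ V, Agree x y r) →
      h * A.t V a b c * h⁻¹ = A.t V a' b' c') (hg : conjAux_LF A g x a' b' c') :
    conjAux_LF A (g * h) x a b c := by
  obtain ⟨r', a2, b2, c2, d, k1, k2, k3, k4⟩ := hg
  refine ⟨r + r', a2, b2, c2, d, ?_, ?_, ?_, fun V hV hx => ?_⟩
  · rw [map_mul, Equiv.Perm.mul_apply, h1, k1]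
  · rw [map_mul, Equiv.Perm.mul_apply, h2, k2]
  · rw [map_mul, Equiv.Perm.mul_apply, h3, k3]
  · rw [← k4 V hV fun y hy => (hx y hy).mono (by omega),
      ← h4 V hV fun y hy => (hx y hy).mono (by omega)]
    group

theorem conjAux_basic (A : Sys3 W P) {N V : Set W.X} {d e f a b c : B} (hN : IsClopen N)
    (hS : MS N {d, e, f, a, b, c}) (h : D3 d e f) (h' : D3 a b c) (hV : IsClopen V)
    (hVN : V ⊆ N) : A.t N d e f * A.t V a b c * (A.t N d e f)⁻¹ =
      A.t V (c3 d e f a) (c3 d e f b) (c3 d e f c) := by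
  have s1 : ({d, e, f} : Set B) ⊆ {d, e, f, a, b, c} :=
    basicAux_sub3 (by simp) (by simp) (by simp)
  have s2 : ({a, b, c} : Set B) ⊆ {d, e, f, a, b, c} :=
    basicAux_sub3 (by simp) (by simp) (by simp)
  have e1 : A.t N d e f = A.t V d e f * A.t (N \ V) d e f := by
    rw [← A.t_union hV (hN.diff hV) Set.disjoint_sdiff_right h
      (by rw [Set.union_sdiff_cancel hVN]; exact hS.mono le_rfl s1), Set.union_sdiff_cancel hVN]
  have e2 : Commute (A.t (N \ V) d e f) (A.t V a b c) := by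
    refine A.t_comm ⟨hN.diff hV, h, hS.mono Set.sdiff_subset s1⟩ ⟨hV, h', hS.mono hVN s2⟩ ?_
    intro p hp q hq y hy y' hy' e
    obtain rfl := hS p (s1 hp) q (s2 hq) y hy.1 y' (hVN hy') e
    exact hy.2 (pt_inj_right e ▸ hy')
  rw [← A.t_conj hV (hS.mono hVN le_rfl) h h', e1, mul_assoc (A.t V d e f), e2.eq]
  group

theorem conjAux_gen (A : Sys3 W P) (hF : W.Free) {d e f : B} (x : W.X) (T : Finset Z2) :
    ∀ (U : Set W.X) (a b c : B), Ok U d e f → D3 a b c →
      (∀ z, z +ᵥ x ∈ U → (∃ p ∈ ({d, e, f} : Set B), sh z p ∈ ({a, b, c} : Set B)) → z ∈ T) →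
      conjAux_LF A (A.t U d e f) x a b c := by
  induction T using Finset.induction_on with
  | empty =>
    intro U a b c hU h hT
    obtain ⟨s, hs⟩ := isClopen_iff.1 hU.1
    obtain ⟨m, hm⟩ := basicAux_bound
      ((({d, e, f} : Finset B) ×ˢ ({a, b, c} : Finset B)).image fun pq => pq.2.1 - pq.1.1)
    obtain ⟨r, hr⟩ := exists_MS hF (S := {a, b, c}) (Set.toFinite _)
    have key : ∀ p ∈ ({d, e, f} : Set B), ∀ q ∈ ({a, b, c} : Set B), ∀ y ∈ U, ∀ y',
        Agree x y' (s + m) → pt p y ≠ pt q y' := by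
      intro p hp q hq y hy y' hy' e
      have e1 : sh (q.1 - p.1) p = q := Prod.ext (by simp [sh]) (congrArg Prod.snd e :)
      rw [← e1, ← pt_vadd] at e
      have hb := hm (q.1 - p.1) (Finset.mem_image.2 ⟨(p, q), by
        rw [Finset.mem_product]; constructor <;> simpa using by assumption, rfl⟩)
      have : (q.1 - p.1) +ᵥ x ∈ U := (hs _ _ (hy'.vadd hb.1 hb.2)).2 (pt_inj_right e ▸ hy)
      simpa using hT _ this ⟨p, hp, by rw [e1]; exact hq⟩
    have hfix : ∀ q ∈ ({a, b, c} : Set B), A.π (A.t U d e f) (pt q x) = pt q x := by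
      intro q hq
      rw [A.π_t hU]
      exact basicAux_fix hU.2.2 hU.2.1 (by simp) (by simp) (by simp)
        fun p hp y hy => (key p hp q hq y hy x (Agree.refl _ _)).symm
    refine ⟨r + (s + m), a, b, c, h, hfix a (by simp), hfix b (by simp), hfix c (by simp),
      fun V hV hx => ?_⟩
    have := A.t_comm hU (⟨hV, h, (hr x).mono (fun y hy => (hx y hy).mono (by omega)) le_rfl⟩ :
      Ok V a b c) fun p hp q hq y hy y' hy' => key p hp q hq y hy y' ((hx y' hy').mono (by omega))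
    rw [this.eq, mul_inv_cancel_right]
  | insert z T _ ih =>
    intro U a b c hU h hT
    by_cases hz : z +ᵥ x ∈ U
    swap
    · refine ih U a b c hU h fun z' h1 h2 => ?_
      rcases Finset.mem_insert.1 (hT z' h1 h2) with rfl | h3
      · exact absurd h1 hz
      · exact h3
    obtain ⟨s, hs⟩ := isClopen_iff.1 hU.1
    obtain ⟨m, hm⟩ := basicAux_bound {z}
    have hb := hm z (by simp)
    obtain ⟨r, hr⟩ := exists_MS hF (S := {sh z d, sh z e, sh z f, a, b, c}) (Set.toFinite _)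
    set N : Set W.X := {y | Agree x y (r + (s + m))} with hN
    have hNc : IsClopen N := isClopen_agree _ _
    have hxN : x ∈ N := Agree.refl _ _
    have hNS : MS N {sh z d, sh z e, sh z f, a, b, c} :=
      (hr x).mono (fun y hy => Agree.mono hy (by omega)) le_rfl
    have hNU : z +ᵥ N ⊆ U := by
      rintro _ ⟨y, hy, rfl⟩
      exact (hs _ _ ((Agree.mono hy (by omega) : Agree x y (s + m)).vadd hb.1 hb.2)).1 hz
    have hzN : IsClopen (z +ᵥ N) := IsClopen.vadd_X hNc z
    have ok1 : Ok (z +ᵥ N) d e f := hU.mono hzN hNU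
    have ok2 : Ok (U \ (z +ᵥ N)) d e f := hU.mono (hU.1.diff hzN) Set.sdiff_subset
    have ok3 := basicAux_ok_shift ok1
    have e1 : A.t U d e f = A.t (U \ (z +ᵥ N)) d e f * A.t N (sh z d) (sh z e) (sh z f) := by
      rw [A.t_shift z ok1, ← A.t_union ok2.1 hzN Set.disjoint_sdiff_left hU.2.1
        (by rw [Set.sdiff_union_of_subset hNU]; exact hU.2.2), Set.sdiff_union_of_subset hNU]
    have hπ : ∀ q ∈ ({sh z d, sh z e, sh z f, a, b, c} : Set B),
        A.π (A.t N (sh z d) (sh z e) (sh z f)) (pt q x)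
          = pt (c3 (sh z d) (sh z e) (sh z f) q) x := by
      intro q hq
      rw [A.π_t ok3]
      exact basicAux_pt hNS ok3.2.1 (by simp) (by simp) (by simp) hq hxN
    rw [e1]
    refine conjAux_mul A (r := r + (s + m)) (hπ a (by simp)) (hπ b (by simp)) (hπ c (by simp))
      (fun V hV hx => conjAux_basic A hNc hNS ok3.2.1 h hV hx)
      (ih _ _ _ _ ok2 (h.map (c3 (sh z d) (sh z e) (sh z f)).injective) ?_)
    rintro z' h1 ⟨p, hp, h2⟩
    have hne : z' ≠ z := by
      rintro rfl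
      exact h1.2 ⟨x, hxN, rfl⟩
    obtain ⟨q, hq, e2⟩ : ∃ q ∈ ({a, b, c} : Set B), sh z' p = c3 (sh z d) (sh z e) (sh z f) q := by
      rcases h2 with h2 | h2 | h2
      · exact ⟨a, by simp, h2⟩
      · exact ⟨b, by simp, h2⟩
      · exact ⟨c, by simp, h2⟩
    have hno : ∀ p' ∈ ({d, e, f} : Set B), sh z' p ≠ sh z p' := by
      intro p' hp' e3
      have e4 : pt p (z' +ᵥ x) = pt p' (z +ᵥ x) := by rw [pt_vadd, pt_vadd, e3]
      obtain rfl := hU.2.2 p hp p' hp' _ h1.1 _ hz e4
      exact hne (add_left_cancel (congrArg Prod.fst e3 :))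
    have e5 : c3 (sh z d) (sh z e) (sh z f) q = q := by
      refine c3_of_ne ?_ ?_ ?_
      · rintro rfl
        exact hno e (by simp) (e2.trans (c3_a ok3.2.1))
      · rintro rfl
        exact hno f (by simp) (e2.trans (c3_b ok3.2.1))
      · rintro rfl
        exact hno d (by simp) (e2.trans (c3_c ok3.2.1))
    rcases Finset.mem_insert.1 (hT z' h1.1 ⟨p, hp, by rw [e2, e5]; exact hq⟩) with h3 | h3
    · exact absurd h3 hne
    · exact h3

theorem conjAux_gen' (A : Sys3 W P) (hF : W.Free) {U : Set W.X} {d e f : B} (hU : Ok U d e f)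
    (x : W.X) {a b c : B} (h : D3 a b c) : conjAux_LF A (A.t U d e f) x a b c := by
  refine conjAux_gen A hF x
    ((({d, e, f} : Finset B) ×ˢ ({a, b, c} : Finset B)).image fun pq => pq.2.1 - pq.1.1)
    U a b c hU h ?_
  rintro z - ⟨p, hp, hq⟩
  refine Finset.mem_image.2 ⟨(p, sh z p), ?_, by simp [sh]⟩
  rw [Finset.mem_product]
  constructor
  · simpa using hp
  · simpa using hq

theorem conjAux_all (A : Sys3 W P) (hF : W.Free) (g : P) (x : W.X) :
    ∀ a b c, D3 a b c → conjAux_LF A g x a b c := by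
  have hg : g ∈ Subgroup.closure {g | ∃ U a b c, Ok U a b c ∧ g = A.t U a b c} := by
    rw [A.gen]; trivial
  induction hg using Subgroup.closure_induction'' with
  | mem g hg =>
    obtain ⟨U, d, e, f, hU, rfl⟩ := hg
    exact fun a b c h => conjAux_gen' A hF hU x h
  | inv_mem g hg =>
    obtain ⟨U, d, e, f, hU, rfl⟩ := hg
    rw [← A.t_inv hU]
    exact fun a b c h => conjAux_gen' A hF (basicAux_ok_flip hU) x h
  | one => exact fun a b c h => ⟨0, a, b, c, h, by simp, by simp, by simp, fun V _ _ => by simp⟩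
  | mul g h _ _ ihg ihh =>
    intro a b c d
    obtain ⟨r, a', b', c', d', k1, k2, k3, k4⟩ := ihh a b c d
    exact conjAux_mul A k1 k2 k3 k4 (ihg _ _ _ d')

theorem Sys3.conj (A : Sys3 W P) (hF : W.Free) (g : P) {U : Set W.X} {a b c a' b' c' : B}
    (h : Ok U a b c) (h' : D3 a' b' c')
    (hg : ∀ x ∈ U, A.π g (pt a x) = pt a' x ∧ A.π g (pt b x) = pt b' x ∧
      A.π g (pt c x) = pt c' x) :
    g * A.t U a b c * g⁻¹ = A.t U a' b' c' := by
  have hS := (cyc_conj' h.2.1 h.2.2 h' (A.π g) hg).1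
  refine clopen_loc (Q := fun V => g * A.t V a b c * g⁻¹ = A.t V a' b' c') h.1 ?_ ?_ ?_
  · simp [A.t_empty h.2.1, A.t_empty h']
  · intro V V' hV hV' s1 s2 hd q1 q2
    have s3 := Set.union_subset s1 s2
    rw [A.t_union hV hV' hd h.2.1 (h.2.2.mono s3 le_rfl), A.t_union hV hV' hd h' (hS.mono s3 le_rfl),
      ← q1, ← q2]
    group
  · intro x hx
    obtain ⟨r, a2, b2, c2, -, k1, k2, k3, k4⟩ := conjAux_all A hF g x a b c h.2.1
    obtain rfl := pt_inj hF (k1.symm.trans (hg x hx).1)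
    obtain rfl := pt_inj hF (k2.symm.trans (hg x hx).2.1)
    obtain rfl := pt_inj hF (k3.symm.trans (hg x hx).2.2)
    exact ⟨r, fun V hV _ hy => k4 V hV hy⟩

theorem Sys3.central (A : Sys3 W P) (hF : W.Free) {n : P} (hn : A.π n = 1) (g : P) :
    Commute n g := by
  have hg : g ∈ Subgroup.closure {g | ∃ U a b c, Ok U a b c ∧ g = A.t U a b c} := by
    rw [A.gen]; trivial
  induction hg using Subgroup.closure_induction with
  | mem g hg =>
    obtain ⟨U, a, b, c, hU, rfl⟩ := hg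
    have := A.conj hF n hU hU.2.1 (by simp [hn])
    exact mul_inv_eq_iff_eq_mul.1 this
  | one => exact Commute.one_right _
  | mul g h _ _ ihg ihh => exact ihg.mul_right ihh
  | inv g _ ih => exact ih.inv_right

end Vale.Agent.P196
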