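import Mathlib

/-! P196: Wang systems, their tiling spaces, three-cycles of multisections and the group `DD`. -/

namespace Vale.Agent.P196

open Pointwise

abbrev Z2 : Type := ℤ × ℤ

/-- unit vector of a direction: `false` is horizontal, `true` is vertical -/
def ev (d : Bool) : Z2 := if d then (0, 1) else (1, 0)

/-- A Wang system: a finite alphabet of tiles with outgoing and incoming edge labels. -/
structure Wang where
  A : Type
  fin : Fintype A
  L : Type
  out : Bool → A → L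
  inn : Bool → A → L

instance (W : Wang) : Fintype W.A := W.fin
instance (W : Wang) : TopologicalSpace W.A := ⊥
instance (W : Wang) : DiscreteTopology W.A := ⟨rfl⟩

/-- the tiling space -/
def Wang.X (W : Wang) : Type :=
  {x : Z2 → W.A // ∀ z d, W.out d (x z) = W.inn d (x (z + ev d))}

instance (W : Wang) : TopologicalSpace W.X :=
  inferInstanceAs (TopologicalSpace {x : Z2 → W.A // ∀ z d, W.out d (x z) = W.inn d (x (z + ev d))})

instance (W : Wang) : AddAction Z2 W.X where
  vadd z x := ⟨fun w => x.1 (w + z), fun w d => by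
    rw [x.2 (w + z) d, add_right_comm]⟩
  zero_vadd x := Subtype.ext (funext fun w => congrArg x.1 (add_zero w))
  add_vadd z z' x := Subtype.ext (funext fun w => congrArg x.1 (add_assoc w z z').symm)

@[simp] theorem vadd_val {W : Wang} (z : Z2) (x : W.X) (w : Z2) : (z +ᵥ x).1 w = x.1 (w + z) := rfl

/-- the copies -/
abbrev I : Type := Fin 30

/-- arrows from a base point: a displacement and a copy -/
abbrev B : Type := Z2 × I

/-- shift of an arrow -/
def sh (z : Z2) (b : B) : B := (b.1 + z, b.2)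

/-- three pairwise distinct elements -/
def D3 {β : Type} (a b c : β) : Prop := a ≠ b ∧ a ≠ c ∧ b ≠ c

/-- the three-cycle `a ↦ b ↦ c ↦ a` -/
def c3 {β : Type} [DecidableEq β] (a b c : β) : Equiv.Perm β := Equiv.swap a c * Equiv.swap a b

namespace Wang
variable (W : Wang)

abbrev Pt : Type := W.X × I

def Free : Prop := ∀ (x : W.X) (z : Z2), z +ᵥ x = x → z = 0

def Minimal : Prop := ∀ U : Set W.X, IsClopen U → U.Nonempty → ∀ y : W.X, ∃ z : Z2, z +ᵥ y ∈ U

end Wang

variable {W : Wang}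

def pt (b : B) (x : W.X) : W.Pt := (b.1 +ᵥ x, b.2)

/-- two tilings agree on the square of radius `r` -/
def Agree (x y : W.X) (r : ℕ) : Prop := ∀ w : Z2, |w.1| ≤ r → |w.2| ≤ r → x.1 w = y.1 w

/-- multisection: the translates of `U` by the arrows of `S` are pairwise disjoint -/
def MS (U : Set W.X) (S : Set B) : Prop :=
  ∀ b ∈ S, ∀ b' ∈ S, ∀ x ∈ U, ∀ x' ∈ U, pt b x = pt b' x' → b = b'

def Ok (U : Set W.X) (a b c : B) : Prop := IsClopen U ∧ D3 a b c ∧ MS U {a, b, c}

def IsCyc (g : Equiv.Perm W.Pt) (U : Set W.X) (a b c : B) : Prop :=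
  (∀ x ∈ U, g (pt a x) = pt b x ∧ g (pt b x) = pt c x ∧ g (pt c x) = pt a x) ∧
    ∀ p, (∀ x ∈ U, p ≠ pt a x ∧ p ≠ pt b x ∧ p ≠ pt c x) → g p = p

open Classical in
/-- the three-cycle of a multisection -/
noncomputable def cyc (U : Set W.X) (a b c : B) : Equiv.Perm W.Pt :=
  if h : ∃ g, IsCyc g U a b c then h.choose else 1

/-- the alternating full group -/
def DD (W : Wang) : Subgroup (Equiv.Perm W.Pt) :=
  Subgroup.closure {g | ∃ U a b c, Ok U a b c ∧ g = cyc U a b c}

/-- `g` is given by a local rule of radius `r` -/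
def Rad (g : Equiv.Perm W.Pt) (r : ℕ) : Prop :=
  ∀ (x : W.X) (i : I), ∃ b : B, |b.1.1| ≤ r ∧ |b.1.2| ≤ r ∧
    ∀ y, Agree x y r → g (y, i) = pt b y

theorem Rad.mono {g : Equiv.Perm W.Pt} {r r' : ℕ} (h : Rad g r) (hr : r ≤ r') : Rad g r' := by
  intro x i
  obtain ⟨b, h1, h2, h3⟩ := h x i
  have : (r : ℤ) ≤ r' := by exact_mod_cast hr
  exact ⟨b, h1.trans this, h2.trans this, fun y hy =>
    h3 y fun w h4 h5 => hy w (h4.trans this) (h5.trans this)⟩

theorem Rad.mul {g h : Equiv.Perm W.Pt} {r r' : ℕ} (hg : Rad g r) (hh : Rad h r') :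
    Rad (g * h) (r + r') := by
  intro x i
  obtain ⟨b, h1, h2, h3⟩ := hh x i
  obtain ⟨b', h4, h5, h6⟩ := hg (b.1 +ᵥ x) b.2
  refine ⟨sh b.1 b', ?_, ?_, fun y hy => ?_⟩
  · simp only [sh, Prod.fst_add]
    push_cast
    exact (abs_add_le _ _).trans (add_le_add h4 h1)
  · simp only [sh, Prod.snd_add]
    push_cast
    exact (abs_add_le _ _).trans (add_le_add h5 h2)
  · have h7 : Agree x y r' := fun w h8 h9 => hy w (by push_cast; omega) (by push_cast; omega)
    have h8 : Agree (b.1 +ᵥ x) (b.1 +ᵥ y) r := fun w h8 h9 => by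
      simp only [vadd_val]
      refine hy _ ?_ ?_
      · simp only [Prod.fst_add]
        push_cast
        exact (abs_add_le _ _).trans (add_le_add h8 h1)
      · simp only [Prod.snd_add]
        push_cast
        exact (abs_add_le _ _).trans (add_le_add h9 h2)
    rw [Equiv.Perm.mul_apply, h3 y h7, pt, h6 _ h8]
    simp only [pt, sh, add_vadd]

/-- the topological full group -/
def FG (W : Wang) : Subgroup (Equiv.Perm W.Pt) where
  carrier := {g | ∃ r, Rad g r ∧ Rad g⁻¹ r}
  one_mem' := ⟨0, fun x i => ⟨(0, i), by simp, by simp, fun y _ => by simp [pt]⟩,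
    fun x i => ⟨(0, i), by simp, by simp, fun y _ => by simp [pt]⟩⟩
  mul_mem' := by
    rintro g h ⟨r, h1, h2⟩ ⟨r', h3, h4⟩
    exact ⟨r + r', h1.mul h3, by rw [mul_inv_rev, add_comm]; exact h4.mul h2⟩
  inv_mem' := by
    rintro g ⟨r, h1, h2⟩
    exact ⟨r, h2, by simpa using h1⟩

open Classical in
/-- the action of `g` on the orbit of `x`, read in the coordinates `B` -/
noncomputable def crd (x : W.X) (g : Equiv.Perm W.Pt) : Equiv.Perm B :=
  if h : ∃ σ : Equiv.Perm B, ∀ b, g (pt b x) = pt (σ b) x then h.choose else 1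

/-- A group with lifts of all three-cycles satisfying the local relations. -/
structure Sys3 (W : Wang) (P : Type) [Group P] where
  t : Set W.X → B → B → B → P
  π : P →* Equiv.Perm W.Pt
  π_t : ∀ {U a b c}, Ok U a b c → π (t U a b c) = cyc U a b c
  gen : Subgroup.closure {g | ∃ U a b c, Ok U a b c ∧ g = t U a b c} = ⊤
  t_empty : ∀ {a b c}, D3 a b c → t ∅ a b c = 1
  t_union : ∀ {U V a b c}, IsClopen U → IsClopen V → Disjoint U V → D3 a b c →
    MS (U ∪ V) {a, b, c} → t (U ∪ V) a b c = t U a b c * t V a b c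
  t_shift : ∀ {U a b c} (z : Z2), Ok (z +ᵥ U) a b c →
    t U (sh z a) (sh z b) (sh z c) = t (z +ᵥ U) a b c
  t_cyc : ∀ {U a b c}, Ok U a b c → t U a b c = t U b c a
  t_inv : ∀ {U a b c}, Ok U a b c → t U a c b = (t U a b c)⁻¹
  t_cf : ∀ {U x a c e}, IsClopen U → MS U {x, a, c, e} → D3 x a c → x ≠ e → a ≠ e → c ≠ e →
    t U x a c = t U a c e * t U x e c
  t_conj : ∀ {U a b c a' b' c'}, IsClopen U → MS U {a, b, c, a', b', c'} → D3 a b c →
    D3 a' b' c' → t U a b c * t U a' b' c' * (t U a b c)⁻¹ =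
      t U (c3 a b c a') (c3 a b c b') (c3 a b c c')
  t_comm : ∀ {U V a b c a' b' c'}, Ok U a b c → Ok V a' b' c' →
    (∀ p ∈ ({a, b, c} : Set B), ∀ q ∈ ({a', b', c'} : Set B), ∀ x ∈ U, ∀ y ∈ V,
      pt p x ≠ pt q y) → Commute (t U a b c) (t V a' b' c')

/-- A group with a torus and lifts of the three-cycles between the copies. -/
structure Sys2 (W : Wang) (P : Type) [Group P] where
  θ : (I → Z2) → P
  al : Set W.X → I → I → I → P
  π : P →* Equiv.Perm W.Pt
  θ_add : ∀ {y y'}, ∑ i, y i = 0 → ∑ i, y' i = 0 → θ (y + y') = θ y * θ y'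
  π_θ : ∀ {y}, ∑ i, y i = 0 → ∀ x i, π (θ y) (x, i) = (y i +ᵥ x, i)
  π_al : ∀ {U i j k}, IsClopen U → D3 i j k → π (al U i j k) = cyc U (0, i) (0, j) (0, k)
  gen : Subgroup.closure {g | ∃ y U i j k, ∑ i, y i = 0 ∧ IsClopen U ∧ D3 i j k ∧
    g = θ y * al U i j k * (θ y)⁻¹} = ⊤
  θ_al : ∀ {y U i j k} (z : Z2), ∑ i, y i = 0 → IsClopen U → D3 i j k → y i = z → y j = z →
    y k = z → θ y * al U i j k * (θ y)⁻¹ = al (z +ᵥ U) i j k
  al_empty : ∀ {i j k}, D3 i j k → al ∅ i j k = 1
  al_union : ∀ {U V i j k}, IsClopen U → IsClopen V → Disjoint U V → D3 i j k →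
    al (U ∪ V) i j k = al U i j k * al V i j k
  al_perp : ∀ {U V i j k i' j' k'}, IsClopen U → IsClopen V → Disjoint U V → D3 i j k →
    D3 i' j' k' → Commute (al U i j k) (al V i' j' k')
  al_disj : ∀ {U V i j k i' j' k'}, IsClopen U → IsClopen V → D3 i j k → D3 i' j' k' →
    Disjoint ({i, j, k} : Set I) {i', j', k'} → Commute (al U i j k) (al V i' j' k')
  al_cyc : ∀ {U i j k}, IsClopen U → D3 i j k → al U i j k = al U j k i
  al_inv : ∀ {U i j k}, IsClopen U → D3 i j k → al U i k j = (al U i j k)⁻¹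
  al_cf : ∀ {U x a c e}, IsClopen U → D3 x a c → x ≠ e → a ≠ e → c ≠ e →
    al U x a c = al U a c e * al U x e c
  al_conj : ∀ {U i j k i' j' k'}, IsClopen U → D3 i j k → D3 i' j' k' →
    al U i j k * al U i' j' k' * (al U i j k)⁻¹ = al U (c3 i j k i') (c3 i j k j') (c3 i j k k')

end Vale.Agent.P196
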