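import Vale.Agent.P196.Classic

/-! P196 task X7: determinacy near cut lines and high lines. -/

namespace Vale.Agent.P196

variable {K : ℕ}

theorem detA_ext {x y : (Wst K).X} {n : ℕ} {Z : Z2} (hx : At x n Z) (hy : At y n Z) {z : Z2}
    (h : cr (x.1 z) = cr (y.1 z)) : x.1 z = y.1 z :=
  tile_ext (Prod.ext h ((hx z).cnt.trans (hy z).cnt.symm))

theorem detA_two {x y : (Wst K).X} {n a b : ℕ} {Z : Z2} (hx : At x n Z) (hy : At y n Z) {z : Z2}
    (hp : a % 2 ≠ b % 2) (ha : a ≤ n + 1) (hb : b ≤ n + 1) (h1 : ¬ ss K a ∣ co a Z + co a z)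
    (h2 : ¬ ss K b ∣ co b Z + co b z) : x.1 z = y.1 z := by
  rw [← co_add] at h1 h2
  obtain ⟨i, h3, h4, h5⟩ := exists_idx h1
  obtain ⟨j, h6, h7, h8⟩ := exists_idx h2
  refine detA_ext hx hy ?_
  rcases lt_or_gt_of_ne (show i ≠ j by omega) with h | h
  · exact ((hx z).eq_tileAt h5 h8 h (by omega) (by omega)).trans
      ((hy z).eq_tileAt h5 h8 h (by omega) (by omega)).symm
  · exact ((hx z).eq_tileAt h8 h5 h (by omega) (by omega)).trans
      ((hy z).eq_tileAt h8 h5 h (by omega) (by omega)).symm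

theorem detA_line {x y : (Wst K).X} {n a i : ℕ} {Z : Z2} (hx : At x n Z) (hy : At y n Z) {z : Z2}
    (hp : a % 2 ≠ i % 2) (ha : a ≤ n + 1) (hi : a + 1 ≤ i) (h0 : x.1 z = y.1 z)
    (hd : ss K i ∣ co i Z + co i z) (t : ℤ)
    (hn : ∀ s, s ≠ 0 → min t 0 ≤ s → s ≤ max t 0 → ¬ ss K a ∣ co a Z + co a z + s) :
    x.1 (z + t • ac (i + 1)) = y.1 (z + t • ac (i + 1)) := by
  have e1 : ∀ s : ℤ, co i (Z + (z + s • ac (i + 1))) = co i Z + co i z := fun s => by
    rw [co_add, co_add, co_smul, co_ac_ne (by omega), mul_zero, add_zero]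
  have key : ∀ s, s ≠ 0 → min t 0 ≤ s → s ≤ max t 0 → ∃ j, j < n ∧ j % 2 ≠ i % 2 ∧
      IsIdx K j (Z + (z + s • ac (i + 1))) ∧ ss K (j + 3) ∣ co i Z + co i z := fun s h1 h2 h3 => by
    obtain ⟨j, h4, h5, h6⟩ := exists_idx (K := K) (k := a) (Z := Z + (z + s • ac (i + 1))) (by
      rw [co_add, co_add, co_smul, co_ac (by omega), mul_one, ← add_assoc]
      exact hn s h1 h2 h3)
    exact ⟨j, by omega, by omega, h6, (ss_dvd (by omega) (by omega)).trans hd⟩
  rcases eq_or_ne t 0 with rfl | ht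
  · rwa [zero_smul, add_zero]
  have hR : (vw i (cr (x.1 (z + t • ac (i + 1))))).R = (vw i (cr (y.1 (z + t • ac (i + 1))))).R := by
    rcases ht.lt_or_gt with h | h
    · obtain ⟨m, hm⟩ : ∃ m : ℕ, t + m + 1 = 0 := ⟨(-t - 1).toNat, by omega⟩
      have h1 : ∀ {w : (Wst K).X}, At w n Z →
          (vw i (cr (w.1 (z + t • ac (i + 1))))).R = (vw i (cr (w.1 z))).L := fun hw => by
        rw [← hw.run (z + t • ac (i + 1)) m fun s h1 h2 => by
          rw [e1, add_assoc z, ← add_smul]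
          exact key _ (by omega) (by omega) (by omega), X_edge, add_assoc z, ← add_smul,
          add_assoc z, ← add_one_zsmul, hm, zero_smul, add_zero]
      rw [h1 hx, h1 hy, h0]
    · lift t to ℕ using h.le
      have h1 := fun {w : (Wst K).X} (hw : At w n Z) => hw.run (i := i) z t fun s h1 h2 => by
        rw [co_add]
        exact key _ (by omega) (by omega) (by omega)
      rw [h1 hx, h1 hy, h0]
  obtain ⟨j, h1, h2, h3, h4⟩ := key t ht (by omega) (by omega)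
  rw [← e1 t, co_congr (j := j + 1) (by omega)] at h4
  refine detA_ext hx hy (vw_inj (i := j) (((hx _).high (rule_cr _) h3 h1 h4).trans
    (Eq.trans ?_ ((hy _).high (rule_cr _) h3 h1 h4).symm)))
  rw [vw_ne h2, vw_ne h2]
  exact congrArg (fun L => Core.mk _ _ _ _ L L) hR

theorem detA_oo {n r : ℕ} {t : ℤ} (h : (r : ℤ) + 1 ≤ oo K 1 n) (ht : |t| ≤ r) :
    ¬ ss K n ∣ oo K 1 (n + 2) + t := fun hd => by
  have h1 := hd.sub (oo_dvd_sub (K := K) 1 (Nat.le_add_right n 2) (by omega))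
  have h2 := oo_bound (K := K) n
  have h3 := abs_le.1 ht
  have := Int.le_of_dvd (by omega) h1
  omega

theorem detW_low (hK : Stab K) (k : ℕ) (x y : (Wst K).X) (h1 : resW x (k + 2) = resW y (k + 2))
    (h2 : resW x (k + 3) = resW y (k + 3)) (h3 : resW x (k + 1) ≠ 0) (h4 : resW x (k + 2) ≠ 0) :
    x.1 0 = y.1 0 := by
  have hk : K ≤ k + 1 := by
    by_contra h
    have := resW_nonneg x (k + 1)
    have := resW_lt x (k + 1)
    rw [ss_of_le (by omega)] at this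
    omega
  obtain ⟨Z, hx, hy, h5, h6⟩ := exists_At_pair hK hk h1 h2
  refine detA_two hx hy (a := k + 1) (b := k + 2) (by omega) (by omega) le_rfl ?_ ?_
  · rw [co_zero, add_zero, h6]
    exact fun h => h3 ((resW_mod hK x (k + 1)).symm.trans (Int.emod_eq_zero_of_dvd h))
  · rw [co_zero, add_zero, h5]
    exact fun h => h4 (Int.eq_zero_of_dvd_of_nonneg_of_lt (resW_nonneg _ _) (resW_lt _ _) h)

theorem detW_edge (hK : Stab K) (r : ℕ) : ∃ i0, ∀ k ≥ i0, ∀ x y : (Wst K).X, resW x k = 0 →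
    resW x (k + 1) = 0 → resW y k = 0 → resW y (k + 1) = 0 → x.1 0 = y.1 0 →
    ∀ z : Z2, |co (k + 1) z| ≤ r → -(r : ℤ) ≤ co k z → co k z < ss K k → x.1 z = y.1 z := by
  obtain ⟨i0, h0⟩ := ss_large (K := K) (r + 1)
  refine ⟨i0 + K + 1, fun k hk x y h1 h2 h3 h4 h5 z h6 h7 h8 => ?_⟩
  obtain ⟨n, rfl⟩ : ∃ n, k = n + 1 := ⟨k - 1, by omega⟩
  obtain ⟨Z, hx, hy, e1, e2⟩ := exists_At_pair hK (k := n) (by omega) (h1.trans h3.symm)
    (h2.trans h4.symm)
  have a1 := h0 n (by omega)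
  have a2 := h0 (n + 1) (by omega)
  have e3 : co (n + 1 + 1) = co n := co_congr (by omega)
  have e4 := co_decomp (n + 1) z
  have a3 := abs_le.1 h6
  rw [h1] at e1
  rw [h2] at e2
  by_cases hu : co (n + 1) z = 0
  · rw [e4, hu, zero_smul]
    refine detA_line hx hy (a := n) (by omega) (by omega) le_rfl h5 (by simp [e1, co_zero]) _
      fun s b1 b2 b3 h => ?_
    rw [e2, co_zero, zero_add, zero_add] at h
    exact b1 (Int.eq_zero_of_abs_lt_dvd h (abs_lt.2 (by omega)))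
  by_cases hv : co (n + 1 + 1) z = 0
  · rw [e4, hv, zero_smul, add_comm, ac_congr (j := n + 2 + 1) (by omega)]
    refine detA_line hx hy (a := n + 1) (by omega) (by omega) le_rfl h5
      (by simp [e2, e3, co_zero]) _
      fun s b1 b2 b3 h => ?_
    rw [e1, co_zero, zero_add, zero_add] at h
    exact b1 (Int.eq_zero_of_abs_lt_dvd h (abs_lt.2 (by omega)))
  refine detA_two hx hy (a := n + 1) (b := n) (by omega) le_rfl (by omega) (fun h => hu ?_)
    fun h => hv ?_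
  · rw [e1, zero_add] at h
    exact Int.eq_zero_of_abs_lt_dvd h (abs_lt.2 (by omega))
  · rw [e2, zero_add, ← e3] at h
    exact Int.eq_zero_of_abs_lt_dvd h (by omega)

theorem detW_corner (hK : Stab K) (r : ℕ) : ∃ i0, ∀ k ≥ i0, ∀ x y : (Wst K).X,
    resW x k = oo K 1 k → resW x (k + 1) = oo K 1 (k + 1) → resW y k = oo K 1 k →
    resW y (k + 1) = oo K 1 (k + 1) → Agree x y r := by
  obtain ⟨i0, h0⟩ := oo_large (K := K) (r + 1)
  refine ⟨i0 + K + 1, fun k hk x y h1 h2 h3 h4 z h6 h7 => ?_⟩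
  obtain ⟨n, rfl⟩ : ∃ n, k = n + 1 := ⟨k - 1, by omega⟩
  obtain ⟨Z, hx, hy, e1, e2⟩ := exists_At_pair hK (k := n) (by omega) (h1.trans h3.symm)
    (h2.trans h4.symm)
  refine detA_two hx hy (a := n + 1) (b := n) (by omega) le_rfl (by omega) (fun h => ?_) ?_
  · have a1 := h0 (n + 1) (by omega)
    have a2 := oo_bound (K := K) (n + 1)
    have a3 := abs_le.1 (abs_co_le (n + 1) h6 h7)
    rw [e1, h1] at h
    have := Int.le_of_dvd (by omega) h
    omega
  · rw [e2, h2]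
    exact detA_oo (h0 n (by omega)) (abs_co_le n h6 h7)

theorem detW_strip (hK : Stab K) (δ : ℤ) (hδ : δ = 1 ∨ δ = 2) (r : ℕ) :
    ∃ i0, ∀ k ≥ i0, ∀ x y : (Wst K).X, resW x k = oo K δ k →
    resW x (k + 1) = oo K 1 (k + 1) → resW y k = oo K δ k → resW y (k + 1) = oo K 1 (k + 1) →
    x.1 ((ss K k - oo K δ k) • ac k) = y.1 ((ss K k - oo K δ k) • ac k) →
    ∀ z : Z2, |co (k + 1) z| ≤ r → -(r : ℤ) ≤ co k z → co k z < ss K k + r → x.1 z = y.1 z := by
  obtain ⟨i0, h0⟩ := oo_large (K := K) (r + 1)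
  refine ⟨i0 + K + 1, fun k hk x y h1 h2 h3 h4 h5 z h6 h7 h8 => ?_⟩
  obtain ⟨n, rfl⟩ : ∃ n, k = n + 1 := ⟨k - 1, by omega⟩
  obtain ⟨Z, hx, hy, e1, e2⟩ := exists_At_pair hK (k := n) (by omega) (h1.trans h3.symm)
    (h2.trans h4.symm)
  have a0 := h0 n (by omega)
  have e3 : co (n + 1 + 1) = co n := co_congr (by omega)
  rw [h1] at e1
  rw [h2] at e2
  by_cases hu : co (n + 1) z = ss K (n + 1) - oo K δ (n + 1)
  · have a3 := abs_le.1 h6
    rw [co_decomp (n + 1) z, hu]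
    refine detA_line hx hy (a := n) (by omega) (by omega) le_rfl h5 ?_ _ fun s b1 b2 b3 => ?_
    · rw [e1, co_smul, co_ac rfl, mul_one, add_sub_cancel]
    · rw [e2, co_smul, co_ac_ne (by omega), mul_zero, add_zero]
      exact detA_oo a0 (abs_le.2 (by omega))
  refine detA_two hx hy (a := n + 1) (b := n) (by omega) le_rfl (by omega) (fun h => ?_) ?_
  · have a1 := h0 (n + 1) (by omega)
    have a2 := oo_bound (K := K) (n + 1)
    have a3 := oo_eq (K := K) δ (n + 1)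
    rw [e1] at h
    have := Int.eq_zero_of_abs_lt_dvd ((dvd_sub_right h).2 dvd_rfl)
      (abs_lt.2 (by rcases hδ with rfl | rfl <;> omega))
    omega
  · rw [e2, ← e3]
    exact detA_oo a0 h6

end Vale.Agent.P196
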