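import Vale.Agent.P196.Scales

/-! P196: the hierarchical structure of a tiling space (interface) and its first consequences. -/

namespace Vale.Agent.P196

/-- the zone of index `i` -/
def Zn (K i : ℕ) (t : ℤ) : Prop := 2 * ss K i ≤ t ∧ t < mm i * ss K i

/-- A hierarchical structure. `res x i` is the position of the origin of `x` modulo `ss K i`
across the lines of index `i`. -/
structure Hier (W : Wang) (K : ℕ) where
  res : W.X → ℕ → ℤ
  res_nonneg : ∀ x i, 0 ≤ res x i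
  res_lt : ∀ x i, res x i < ss K i
  res_mod : ∀ x i, res x (i + 2) % ss K i = res x i
  res_vadd : ∀ x (z : Z2) i, res (z +ᵥ x) i = (res x i + co i z) % ss K i
  res_loc : ∀ i, ∃ r, ∀ x y, Agree x y r → res x i = res y i
  ne : Nonempty W.X
  min : W.Minimal
  Sg : Type
  fin : Fintype Sg
  sig : ℕ → W.X → Sg
  sig_vadd : ∀ i x (z : Z2), 0 ≤ res x (i + 1) + co (i + 1) z →
    res x (i + 1) + co (i + 1) z < ss K (i + 1) → sig i (z +ᵥ x) = sig i x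
  sig_loc : ∀ i, ∃ r, ∀ x y, Agree x y r → sig i x = sig i y
  det_low : ∀ k x y, res x (k + 2) = res y (k + 2) → res x (k + 3) = res y (k + 3) →
    res x (k + 1) ≠ 0 → res x (k + 2) ≠ 0 → x.1 0 = y.1 0
  det_edge : ∀ r : ℕ, ∃ i0, ∀ k ≥ i0, ∀ x y, res x k = 0 → res x (k + 1) = 0 → res y k = 0 →
    res y (k + 1) = 0 → x.1 0 = y.1 0 →
    ∀ z : Z2, |co (k + 1) z| ≤ r → -(r : ℤ) ≤ co k z → co k z < ss K k → x.1 z = y.1 z
  det_corner : ∀ r : ℕ, ∃ i0, ∀ k ≥ i0, ∀ x y, res x k = oo K 1 k →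
    res x (k + 1) = oo K 1 (k + 1) → res y k = oo K 1 k → res y (k + 1) = oo K 1 (k + 1) →
    Agree x y r
  det_strip : ∀ δ : ℤ, δ = 1 ∨ δ = 2 → ∀ r : ℕ, ∃ i0, ∀ k ≥ i0, ∀ x y, res x k = oo K δ k →
    res x (k + 1) = oo K 1 (k + 1) → res y k = oo K δ k → res y (k + 1) = oo K 1 (k + 1) →
    x.1 ((ss K k - oo K δ k) • ac k) = y.1 ((ss K k - oo K δ k) • ac k) →
    ∀ z : Z2, |co (k + 1) z| ≤ r → -(r : ℤ) ≤ co k z → co k z < ss K k + r → x.1 z = y.1 z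
  z1 : ∀ i, K + 1 ≤ i → ∀ x y, Zn K i (res x (i + 2)) → res x (i + 2) = res y (i + 2) →
    res x (i + 1) = res y (i + 1) → res x (i + 1) ≠ 0 → sig i x = sig i y → x.1 0 = y.1 0
  z2 : ∀ i, K + 1 ≤ i → ∀ x y, Zn K i (res x (i + 2)) → Zn K i (res y (i + 2)) →
    res x i = res y i → res x (i + 1) = res y (i + 1) → res x (i + 1) ≠ 0 →
    (3 * res x (i + 1) < ss K (i + 1) ∨ 2 * ss K (i + 1) < 3 * res x (i + 1)) →
    sig i x = sig i y → x.1 0 = y.1 0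
  z3 : ∀ i, K + 1 ≤ i → ∀ x y, Zn K i (res x (i + 2)) → res x (i + 2) = res y (i + 2) →
    res x (i + 1) = 0 → res y (i + 1) = 0 →
    x.1 ((2 * ss K i - res x (i + 2)) • ac i) = y.1 ((2 * ss K i - res x (i + 2)) • ac i) →
    x.1 0 = y.1 0
  z4 : ∀ i, K + 1 ≤ i → ∀ x y, res x (i + 2) = 2 * ss K i → res y (i + 2) = 2 * ss K i →
    res x (i + 1) = 0 → res y (i + 1) = 0 → x.1 0 = y.1 0 →
    sig i x = sig i y ∧ sig i (-ac (i + 1) +ᵥ x) = sig i (-ac (i + 1) +ᵥ y)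

instance {W : Wang} {K : ℕ} (h : Hier W K) : Fintype h.Sg := h.fin

end Vale.Agent.P196
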