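import Vale.Agent.P196.Classic
import Vale.Agent.P196.Hier

/-! P196 task X8: auxiliary lemmas on labels in the zones. -/

namespace Vale.Agent.P196

variable {K : ℕ}

theorem detBAux_ph {m z : ℤ} (h0 : 0 ≤ z) (h1 : z < 3 * (2 * m + 1)) :
    0 ≤ ph m z ∧ ph m z ≤ 2 * m := by
  unfold ph; split_ifs <;> omega

theorem detBAux_ty {m y : ℤ} (h1 : 2 ≤ y) (h2 : y < m) : ty m y = .a := by
  unfold ty; rw [if_neg (by omega), if_pos h2]

theorem detBAux_st {m z : ℤ} (h1 : 1 ≤ z) (h2 : z < m) : st m z = .a := by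
  unfold st; rw [if_neg (by omega), if_pos h2]

theorem detBAux_um {m r z : ℤ} (h0 : 0 ≤ z) (h1 : z < 3 * (2 * m + 1))
    (h : r < m ∨ 2 * m < r) : um m r z = .no := by
  have h2 := detBAux_ph h0 h1
  unfold um
  rw [if_neg]
  unfold hh
  split_ifs <;> omega

theorem detBAux_dmB {m r z : ℤ} (h0 : 0 ≤ z) (h1 : z < 3 * (2 * m + 1)) (h : r < m) :
    dm m r z = .B := by
  have h2 := detBAux_ph h0 h1
  unfold dm
  split_ifs <;> first | rfl | omega

theorem detBAux_dmA {m r z : ℤ} (h0 : 0 ≤ z) (h1 : z < 3 * (2 * m + 1)) (h : 2 * m ≤ r) :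
    dm m r z = .A := by
  have h2 := detBAux_ph h0 h1
  unfold dm
  split_ifs <;> first | rfl | omega

theorem detBAux_lt (j : ℕ) (Z : Z2) : dg K (j + 1) Z < 3 * (2 * mm j + 1) := by
  have h := dg_lt (K := K) (j + 1) Z
  rw [nn, mm_succ] at h
  exact h

/-- the label of the top line in the zone -/
theorem detBAux_labI {j : ℕ} {Z Z' : Z2} (z1 : 2 ≤ dg K (j + 1) Z)
    (z2 : dg K (j + 1) Z < mm (j + 1)) (z1' : 2 ≤ dg K (j + 1) Z')
    (z2' : dg K (j + 1) Z' < mm (j + 1))
    (hs : st (mm (j + 2)) (dg K (j + 2) Z) = st (mm (j + 2)) (dg K (j + 2) Z'))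
    (hd : dg K j Z = dg K j Z')
    (hc : dg K (j + 1) Z = dg K (j + 1) Z' ∨ dg K j Z < mm j ∨ 2 * mm j ≤ dg K j Z) :
    LabAt K (j + 1) Z = LabAt K (j + 1) Z' := by
  unfold LabAt lab
  simp only [Nat.add_sub_cancel]
  refine Lab.ext ?_ hs ?_ ?_
  · simp only []
    rw [detBAux_ty z1 z2, detBAux_ty z1' z2']
  · simp only []
    rw [detBAux_um (dg_nonneg _ _) (detBAux_lt _ _) (Or.inl z2),
      detBAux_um (dg_nonneg _ _) (detBAux_lt _ _) (Or.inl z2')]
  · simp only []
    rcases hc with hc | hc | hc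
    · rw [hc, hd]
    · rw [detBAux_dmB (dg_nonneg _ _) (detBAux_lt _ _) hc,
        detBAux_dmB (dg_nonneg _ _) (detBAux_lt _ _) (hd ▸ hc)]
    · rw [detBAux_dmA (dg_nonneg _ _) (detBAux_lt _ _) hc,
        detBAux_dmA (dg_nonneg _ _) (detBAux_lt _ _) (hd ▸ hc)]

/-- the label of the second line in the zone -/
theorem detBAux_labJ {j : ℕ} {Z Z' : Z2} (z1 : 1 ≤ dg K (j + 1) Z)
    (z2 : dg K (j + 1) Z < mm (j + 1)) (z1' : 1 ≤ dg K (j + 1) Z')
    (z2' : dg K (j + 1) Z' < mm (j + 1)) (hd : dg K j Z = dg K j Z')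
    (hd' : dg K (j - 1) Z = dg K (j - 1) Z') (hc : dg K j Z < mm j ∨ 2 * mm j < dg K j Z) :
    LabAt K j Z = LabAt K j Z' := by
  unfold LabAt lab
  refine Lab.ext ?_ ?_ ?_ ?_
  · simp only []
    rw [hd]
  · simp only []
    rw [detBAux_st z1 z2, detBAux_st z1' z2']
  · simp only []
    rw [detBAux_um (dg_nonneg _ _) (detBAux_lt _ _) hc,
      detBAux_um (dg_nonneg _ _) (detBAux_lt _ _) (hd ▸ hc)]
  · simp only []
    rw [hd, hd']

theorem detBAux_dvd {i j n l : ℕ} {Z Z' : Z2} (h : ss K i ∣ co n Z - co n Z') (hji : j ≤ i)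
    (hp : j % 2 = i % 2) (hl : l % 2 = n % 2) : ss K j ∣ co l Z - co l Z' := by
  rw [co_congr hl]
  exact (ss_dvd hji hp).trans h

theorem detBAux_sub {i : ℕ} {d : ℤ} {Z Z' : Z2} (h : d ∣ co i Z - co i Z') (w : Z2) :
    d ∣ co i (Z - w) - co i (Z' - w) := by
  rw [co_sub, co_sub, sub_sub_sub_cancel_right]
  exact h

theorem detBAux_add {i : ℕ} {d : ℤ} {Z Z' : Z2} (h : d ∣ co i Z - co i Z') (w : Z2) :
    d ∣ co i (Z + w) - co i (Z' + w) := by
  rw [co_add, co_add, add_sub_add_right_eq_sub]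
  exact h

/-- labels of low lines -/
theorem detBAux_low {i p : ℕ} {Z Z' : Z2} (ha : ss K i ∣ co i Z - co i Z')
    (hb : ss K (i + 1) ∣ co (i + 1) Z - co (i + 1) Z') (h1 : 1 ≤ p) (hp : p + 2 ≤ i) :
    LabAt K p Z = LabAt K p Z' := by
  by_cases h : p % 2 = i % 2
  · exact LabAt_congr h1 (detBAux_dvd ha hp (by omega) h)
      (detBAux_dvd hb (by omega) (by omega) (by omega))
  · exact LabAt_congr h1 (detBAux_dvd hb (by omega) (by omega) (by omega))
      (detBAux_dvd ha (by omega) (by omega) (by omega))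

theorem detBAux_cnt {i : ℕ} (hi : K + 1 ≤ i) {Z Z' : Z2} (ha : ss K i ∣ co i Z - co i Z')
    (hb : ss K (i + 1) ∣ co (i + 1) Z - co (i + 1) Z') : dg K K Z = dg K K Z' := by
  by_cases h : K % 2 = i % 2
  · exact dg_congr (detBAux_dvd ha (by omega) (by omega) h)
  · exact dg_congr (detBAux_dvd hb (by omega) (by omega) (by omega))

/-- a crossing of two low lines is fixed by its four labels -/
theorem detBAux_tile {k a b : ℕ} {Z Z' : Z2} {p p' : Core × ℤ} (h : Known K k Z p)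
    (h' : Known K k Z' p') (ia : IsIdx K a Z) (ia' : IsIdx K a Z') (ib : IsIdx K b Z)
    (ib' : IsIdx K b Z') (hak : a < k) (hbk : b < k) (hp : a % 2 ≠ b % 2)
    (e1 : LabAt K a Z = LabAt K a Z')
    (e2 : LabAt K a (Z - ac (a + 1)) = LabAt K a (Z' - ac (a + 1)))
    (e3 : LabAt K b Z = LabAt K b Z')
    (e4 : LabAt K b (Z - ac (b + 1)) = LabAt K b (Z' - ac (b + 1))) : p.1 = p'.1 := by
  have c1 : ac a = ac (b + 1) := ac_congr (by omega)
  have c2 : ac b = ac (a + 1) := ac_congr (by omega)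
  rcases Nat.lt_or_ge a b with hab | hab
  · rw [h.eq_tileAt ia ib hab hbk hp, h'.eq_tileAt ia' ib' hab hbk hp]
    unfold tileAt
    rw [e1, e2, e3, c1, e4]
  · have hba : b < a := by omega
    rw [h.eq_tileAt ib ia hba hak hp.symm, h'.eq_tileAt ib' ia' hba hak hp.symm]
    unfold tileAt
    rw [e1, e3, e4, c2, e2]

theorem detBAux_not_dvd {i : ℕ} {Z : Z2} (h : 1 ≤ dg K i Z) : ¬ ss K (i + 2) ∣ co i Z := by
  intro h1
  rw [dg_eq_zero h1] at h
  omega

/-- the digit just before a site in the zone -/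
theorem detBAux_prev {i l : ℕ} {Z : Z2} (hp : l % 2 = i % 2) (h : 1 ≤ dg K i Z) :
    dg K i Z - 1 ≤ dg K i (Z - ac l) ∧ dg K i (Z - ac l) ≤ dg K i Z := by
  by_cases h1 : ss K i ∣ co i Z
  · rw [IsIdx.dg_sub hp ⟨h1, detBAux_not_dvd h⟩]
    omega
  · rw [dg_sub_of_not_dvd hp h1]
    omega

/-- the index of the row through a site in the zone -/
theorem detBAux_row {i : ℕ} {Z Z' : Z2} (ha : ss K i ∣ co i Z - co i Z') (z1 : 1 ≤ dg K i Z)
    (z1' : 1 ≤ dg K i Z') :
    ∃ a, a ≤ i ∧ a % 2 = i % 2 ∧ IsIdx K a Z ∧ IsIdx K a Z' := by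
  have h1 : ¬ ss K (i + 2) ∣ co (i + 2) Z := by
    rw [co_congr (show (i + 2) % 2 = i % 2 by omega)]
    exact detBAux_not_dvd z1
  obtain ⟨a, h2, h3, h4⟩ := exists_idx h1
  refine ⟨a, by omega, by omega, h4, ?_⟩
  by_cases h5 : a = i
  · subst h5
    refine ⟨?_, detBAux_not_dvd z1'⟩
    have := h4.1.sub ha
    rwa [sub_sub_cancel] at this
  · exact h4.congr (detBAux_dvd ha (by omega) (by omega) (by omega))

/-- determinacy at a crossing of low lines in the zone -/
theorem detBAux_core (hK : Stab K) {j : ℕ} (hj : K ≤ j) {Z Z' : Z2} {p p' : Core × ℤ}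
    (h : Known K (j + 2) Z p) (h' : Known K (j + 2) Z' p')
    (ha : ss K (j + 1) ∣ co (j + 1) Z - co (j + 1) Z') (hb : ss K (j + 2) ∣ co j Z - co j Z')
    (z1 : 2 ≤ dg K (j + 1) Z) (z2 : dg K (j + 1) Z < mm (j + 1)) (z1' : 2 ≤ dg K (j + 1) Z')
    (z2' : dg K (j + 1) Z' < mm (j + 1)) (hn : ¬ ss K (j + 2) ∣ co j Z)
    (hs : st (mm (j + 2)) (dg K (j + 2) Z) = st (mm (j + 2)) (dg K (j + 2) Z'))
    (hc : ss K (j + 3) ∣ co (j + 1) Z - co (j + 1) Z' ∨ dg K j Z < mm j ∨
      (2 * mm j ≤ dg K j Z ∧ (ss K j ∣ co j Z → 2 * mm j < dg K j Z))) : p = p' := by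
  have hK2 := hK.2.1
  have hb2 : ss K (j + 1 + 1) ∣ co (j + 1 + 1) Z - co (j + 1 + 1) Z' :=
    detBAux_dvd hb le_rfl rfl (by omega)
  have hn2 : ¬ ss K (j + 2) ∣ co (j + 2) Z := by
    rw [co_congr (show (j + 2) % 2 = j % 2 by omega)]
    exact hn
  have hn' : ¬ ss K (j + 2) ∣ co (j + 2) Z' := by
    intro h1
    have h2 := hb2.add h1
    rw [sub_add_cancel] at h2
    exact hn2 h2
  refine Prod.ext ?_ (by rw [h.cnt, h'.cnt]; exact detBAux_cnt (by omega) ha hb2)
  obtain ⟨a, a1, a2, ia, ia'⟩ := detBAux_row ha (by omega) (by omega)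
  obtain ⟨b, b1, b2, ib⟩ := exists_idx hn2
  have ib' : IsIdx K b Z' := ib.congr (detBAux_dvd hb b1 (by omega) (by omega))
  have hKa := ia.le
  have hKb := ib.le
  have hd : dg K j Z = dg K j Z' := dg_congr hb
  refine detBAux_tile h h' ia ia' ib ib' (by omega) (by omega) (by omega) ?_ ?_ ?_ ?_
  · by_cases h1 : a = j + 1
    · subst h1
      refine detBAux_labI z1 z2 z1' z2' hs hd ?_
      rcases hc with hc | hc | hc
      · exact Or.inl (dg_congr hc)
      · exact Or.inr (Or.inl hc)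
      · exact Or.inr (Or.inr hc.1)
    · exact detBAux_low ha hb2 (by omega) (by omega)
  · by_cases h1 : a = j + 1
    · subst h1
      have e1 : ∀ W : Z2, dg K (j + 1) (W - ac (j + 1 + 1)) = dg K (j + 1) W :=
        fun W => dg_sub_ne (by omega) W
      refine detBAux_labI (by rw [e1]; exact z1) (by rw [e1]; exact z2) (by rw [e1]; exact z1')
        (by rw [e1]; exact z2') ?_ (dg_congr (detBAux_sub hb _)) ?_
      · rw [dg_sub_of_not_dvd rfl hn2, dg_sub_of_not_dvd rfl hn']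
        exact hs
      · rcases hc with hc | hc | hc
        · exact Or.inl (dg_congr (detBAux_sub hc _))
        · refine Or.inr (Or.inl ?_)
          by_cases h2 : ss K j ∣ co j Z
          · rw [IsIdx.dg_sub (by omega) ⟨h2, hn⟩]
            omega
          · rw [dg_sub_of_not_dvd (by omega) h2]
            exact hc
        · refine Or.inr (Or.inr ?_)
          by_cases h2 : ss K j ∣ co j Z
          · rw [IsIdx.dg_sub (by omega) ⟨h2, hn⟩]
            have := hc.2 h2
            omega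
          · rw [dg_sub_of_not_dvd (by omega) h2]
            exact hc.1
    · exact detBAux_low (detBAux_sub ha _) (detBAux_sub hb2 _) (by omega) (by omega)
  · by_cases h1 : b = j
    · subst h1
      rcases hc with hc | hc
      · exact LabAt_congr (by omega) hb hc
      · refine detBAux_labJ (by omega) z2 (by omega) z2' hd
          (dg_congr (detBAux_dvd ha (by omega) (by omega) (by omega))) ?_
        rcases hc with hc | hc
        · exact Or.inl hc
        · exact Or.inr (hc.2 ib.1)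
    · exact detBAux_low ha hb2 (by omega) (by omega)
  · by_cases h1 : b = j
    · subst h1
      rcases hc with hc | hc
      · exact LabAt_congr (by omega) (detBAux_sub hb _) (detBAux_sub hc _)
      · have e1 := detBAux_prev (K := K) (i := b + 1) (l := b + 1) (Z := Z) rfl (by omega)
        have e2 := detBAux_prev (K := K) (i := b + 1) (l := b + 1) (Z := Z') rfl (by omega)
        refine detBAux_labJ (by omega) (by omega) (by omega) (by omega)
          (dg_congr (detBAux_sub hb _))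
          (dg_congr (detBAux_dvd (detBAux_sub ha _) (by omega) (by omega) (by omega))) ?_
        rw [dg_sub_ne (by omega)]
        rcases hc with hc | hc
        · exact Or.inl hc
        · exact Or.inr (hc.2 ib.1)
    · exact detBAux_low (detBAux_sub ha _) (detBAux_sub hb2 _) (by omega) (by omega)

theorem detBAux_vw {i : ℕ} (c : Core) :
    (vw (i + 1) c).L = (vw i c).Bl ∧ (vw (i + 1) c).R = (vw i c).Ab := by
  rw [vw_ne (i := i + 1) (j := i) (by omega)]
  exact ⟨rfl, rfl⟩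

/-- a tile on a high column in the zone is fixed by its lower label -/
theorem detBAux_step (hK : Stab K) {j : ℕ} (hj : K ≤ j) {Z Z' : Z2} {p p' : Core × ℤ}
    (h : Known K (j + 2) Z p) (h' : Known K (j + 2) Z' p') (hr : Rule p.1) (hr' : Rule p'.1)
    (ha : ss K (j + 3) ∣ co (j + 1) Z - co (j + 1) Z') (hb : ss K (j + 2) ∣ co (j + 2) Z)
    (hb' : ss K (j + 2) ∣ co (j + 2) Z') (z1 : 2 ≤ dg K (j + 1) Z)
    (z2 : dg K (j + 1) Z < mm (j + 1))
    (hs : st (mm (j + 2)) (dg K (j + 2) Z) = st (mm (j + 2)) (dg K (j + 2) Z'))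
    (hs' : st (mm (j + 2)) (dg K (j + 2) (Z - ac (j + 2))) =
      st (mm (j + 2)) (dg K (j + 2) (Z' - ac (j + 2))))
    (hadj : ss K (j + 4) ∣ co (j + 2) Z ↔ ss K (j + 4) ∣ co (j + 2) Z')
    (hL : (vw (j + 2) p.1).L = (vw (j + 2) p'.1).L) : p = p' := by
  have hK2 := hK.2.1
  have hd : dg K (j + 1) Z = dg K (j + 1) Z' := dg_congr ha
  have ha1 : ss K (j + 1) ∣ co (j + 1) Z - co (j + 1) Z' := (ss_dvd_add_two _).trans ha
  have hb2 : ss K (j + 1 + 1) ∣ co (j + 1 + 1) Z - co (j + 1 + 1) Z' := hb.sub hb'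
  refine Prod.ext ?_ (by rw [h.cnt, h'.cnt]; exact detBAux_cnt (by omega) ha1 hb2)
  obtain ⟨a, a1, a2, ia, ia'⟩ := detBAux_row ha1 (by omega) (by omega)
  have hKa := ia.le
  have hv : vw (j + 2) = vw (a + 1) := vw_congr (by omega)
  rw [hv, (detBAux_vw _).1, (detBAux_vw _).1] at hL
  refine vw_inj (i := a) ?_
  by_cases h1 : a = j + 1
  · subst h1
    have f := h.full _ (by omega) ia
    have f' := h'.full _ (by omega) ia'
    have d := h.dom _ (by omega) ia hb
    have d' := h'.dom _ (by omega) ia' hb'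
    have g := h.adj _ (by omega) ia hb
    have g' := h'.adj _ (by omega) ia' hb'
    have e1 : ∀ W : Z2, dg K (j + 1) (W - ac (j + 1 + 1)) = dg K (j + 1) W :=
      fun W => dg_sub_ne (by omega) W
    have hb3 : ss K (j + 2) ∣ co j Z - co j Z' := detBAux_dvd hb2 le_rfl rfl (by omega)
    have eadj : p.1.adj = p'.1.adj := by
      rw [Bool.eq_iff_iff, g, g']
      exact not_congr hadj
    refine Core.ext (d.trans d'.symm) (by rw [vw_adj, vw_adj, eadj]) ?_ ?_ hL ?_
    · rw [f.2, f'.2]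
      exact detBAux_labI (by rw [e1]; exact z1) (by rw [e1]; exact z2)
        (by rw [e1, ← hd]; exact z1) (by rw [e1, ← hd]; exact z2) hs'
        (dg_congr (detBAux_sub hb3 _)) (Or.inl (by rw [e1, e1, hd]))
    · rw [f.1, f'.1]
      exact detBAux_labI z1 z2 (hd ▸ z1) (hd ▸ z2) hs (dg_congr hb3) (Or.inl hd)
    · by_cases h2 : ss K (j + 4) ∣ co (j + 2) Z
      · have h3 : p.1.adj = false := by
          rw [← Bool.not_eq_true, g]
          exact not_not.2 h2
        rw [← (rule_vw.2 hr).full_col d (by rw [vw_adj, h3]),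
          ← (rule_vw.2 hr').full_col d' (by rw [vw_adj, ← eadj, h3]), hL]
      · have u := (rule_vw.2 hr).up_col d
        have u' := (rule_vw.2 hr').up_col d'
        have q := (h.part ⟨hb, h2⟩).2.1
        have q' := (h'.part ⟨hb', fun h3 => h2 (hadj.2 h3)⟩).2.1
        rw [(detBAux_vw _).2] at q q'
        refine Lab.ext (by rw [← u.1, ← u'.1, hL]) (by rw [← u.2.1, ← u'.2.1, hL])
          (by rw [← u.2.2, ← u'.2.2, hL]) ?_
        rw [q, q']
        show dm (mm (j + 1)) (dg K (j + 1) Z) (dg K (j + 2) Z) =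
          dm (mm (j + 1)) (dg K (j + 1) Z') (dg K (j + 2) Z')
        rw [detBAux_dmB (dg_nonneg _ _) (detBAux_lt _ _) z2,
          detBAux_dmB (dg_nonneg _ _) (detBAux_lt _ _) (hd ▸ z2)]
  · have c1 : co (a + 1) = co (j + 2) := co_congr (by omega)
    have c2 : ss K (a + 3) ∣ ss K (j + 2) := ss_dvd (by omega) (by omega)
    have k1 := h.high hr ia (by omega) (by rw [c1]; exact c2.trans hb)
    have k2 := h'.high hr' ia' (by omega) (by rw [c1]; exact c2.trans hb')
    have k3 : (vw a p.1).Bl = (vw a p.1).Ab := by rw [k1]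
    have k4 : (vw a p'.1).Bl = (vw a p'.1).Ab := by rw [k2]
    rw [k1, k2, ← k3, ← k4, hL, detBAux_low ha1 hb2 (by omega) (show a + 2 ≤ j + 1 by omega),
      detBAux_low (detBAux_sub ha1 _) (detBAux_sub hb2 _) (by omega)
        (show a + 2 ≤ j + 1 by omega)]

end Vale.Agent.P196
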