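import Vale.Agent.P196.Classic
import Vale.Agent.P196.Hier
import Vale.Agent.P196.DetBAux

/-! P196 task X8: determinacy in the zones. -/

namespace Vale.Agent.P196

variable {K : ℕ}

theorem detBAux_known {x : (Wst K).X} {k : ℕ} {Z : Z2} (h : At x k Z) :
    Known K k Z (tl (x.1 0)) := by
  have h1 := h 0
  rwa [add_zero] at h1

theorem detBAux_res (hK : Stab K) {x : (Wst K).X} {k : ℕ} (hk : K ≤ k) {Z : Z2} (h : At x k Z)
    {i l : ℕ} (hi : i ≤ k + 2) (hl : l % 2 = i % 2) : resW x i = co l Z % ss K i := by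
  rw [h.res hK hk hi, co_congr hl]

theorem detBAux_eq (hK : Stab K) {x y : (Wst K).X} {k : ℕ} (hk : K ≤ k) {Z Z' : Z2}
    (h : At x k Z) (h' : At y k Z') {i l : ℕ} (hi : i ≤ k + 2) (hl : l % 2 = i % 2)
    (e : resW x i = resW y i) : ss K i ∣ co l Z - co l Z' := by
  rw [detBAux_res hK hk h hi hl, detBAux_res hK hk h' hi hl] at e
  exact Int.dvd_of_emod_eq_zero (Int.emod_eq_emod_iff_emod_sub_eq_zero.1 e)

theorem detBAux_zone {i : ℕ} {Z : Z2} (h : Zn K i (co i Z % ss K (i + 2))) :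
    2 ≤ dg K i Z ∧ dg K i Z < mm i :=
  ⟨Int.le_ediv_of_mul_le (ss_pos i) h.1, Int.ediv_lt_of_lt_mul (ss_pos i) h.2⟩

theorem detBAux_sig (hK : Stab K) {x : (Wst K).X} {i : ℕ} (hk : K ≤ i + 1) {Z : Z2}
    (h : At x (i + 1) Z) : sigW i x = st (mm (i + 1)) (dg K (i + 1) Z) := by
  unfold sigW dg
  rw [detBAux_res hK hk h (i := i + 3) (l := i + 1) le_rfl (by omega)]

theorem detBAux_ne (hK : Stab K) {x : (Wst K).X} {k : ℕ} (hk : K ≤ k) {Z : Z2} (h : At x k Z)
    {i l : ℕ} (hi : i ≤ k + 2) (hl : l % 2 = i % 2) (e : resW x i ≠ 0) : ¬ ss K i ∣ co l Z := by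
  rw [detBAux_res hK hk h hi hl] at e
  exact fun h1 => e (Int.emod_eq_zero_of_dvd h1)

theorem detBAux_zero (hK : Stab K) {x : (Wst K).X} {k : ℕ} (hk : K ≤ k) {Z : Z2} (h : At x k Z)
    {i l : ℕ} (hi : i ≤ k + 2) (hl : l % 2 = i % 2) (e : resW x i = 0) : ss K i ∣ co l Z := by
  rw [detBAux_res hK hk h hi hl] at e
  exact Int.dvd_of_emod_eq_zero e

/-- the second digit of the zone -/
theorem detBAux_two {i : ℕ} (hi : K ≤ i) {Z : Z2} (h : co i Z % ss K (i + 2) = 2 * ss K i) :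
    IsIdx K i Z := by
  have h1 := ss_pos (K := K) i
  refine ⟨?_, fun h2 => ?_⟩
  · refine Int.dvd_of_emod_eq_zero ?_
    rw [← Int.emod_emod_of_dvd _ (ss_dvd_add_two i), h]
    exact Int.mul_emod_left _ _
  · rw [Int.emod_eq_zero_of_dvd h2] at h
    omega

theorem detW_z1 (hK : Stab K) (i : ℕ) (hi : K + 1 ≤ i) (x y : (Wst K).X)
    (h1 : Zn K i (resW x (i + 2))) (h2 : resW x (i + 2) = resW y (i + 2))
    (h3 : resW x (i + 1) = resW y (i + 1)) (h4 : resW x (i + 1) ≠ 0) (h5 : sigW i x = sigW i y) :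
    x.1 0 = y.1 0 := by
  obtain ⟨j, rfl⟩ : ∃ j, i = j + 1 := ⟨i - 1, by omega⟩
  have hk : K ≤ j + 1 + 1 := by omega
  obtain ⟨Z, hx⟩ := exists_At hK x hk
  obtain ⟨Z', hy⟩ := exists_At hK y hk
  have e := detBAux_eq hK hk hx hy (l := j + 1) (by omega) (by omega) h2
  have h1' : Zn K (j + 1) (resW y (j + 1 + 2)) := h2 ▸ h1
  rw [detBAux_res hK hk hx (l := j + 1) (by omega) (by omega)] at h1
  rw [detBAux_res hK hk hy (l := j + 1) (by omega) (by omega)] at h1'
  rw [detBAux_sig hK hk hx, detBAux_sig hK hk hy] at h5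
  exact tile_ext (detBAux_core hK (by omega) (detBAux_known hx) (detBAux_known hy)
    ((ss_dvd_add_two _).trans e) (detBAux_eq hK hk hx hy (by omega) (by omega) h3)
    (detBAux_zone h1).1 (detBAux_zone h1).2 (detBAux_zone h1').1 (detBAux_zone h1').2
    (detBAux_ne hK hk hx (by omega) (by omega) h4) h5 (Or.inl e))

theorem detW_z2 (hK : Stab K) (i : ℕ) (hi : K + 1 ≤ i) (x y : (Wst K).X)
    (h1 : Zn K i (resW x (i + 2))) (h1' : Zn K i (resW y (i + 2))) (h2 : resW x i = resW y i)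
    (h3 : resW x (i + 1) = resW y (i + 1)) (h4 : resW x (i + 1) ≠ 0)
    (h6 : 3 * resW x (i + 1) < ss K (i + 1) ∨ 2 * ss K (i + 1) < 3 * resW x (i + 1))
    (h5 : sigW i x = sigW i y) : x.1 0 = y.1 0 := by
  obtain ⟨j, rfl⟩ : ∃ j, i = j + 1 := ⟨i - 1, by omega⟩
  have hk : K ≤ j + 1 + 1 := by omega
  obtain ⟨Z, hx⟩ := exists_At hK x hk
  obtain ⟨Z', hy⟩ := exists_At hK y hk
  rw [detBAux_res hK hk hx (l := j + 1) (by omega) (by omega)] at h1
  rw [detBAux_res hK hk hy (l := j + 1) (by omega) (by omega)] at h1'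
  rw [detBAux_sig hK hk hx, detBAux_sig hK hk hy] at h5
  refine tile_ext (detBAux_core hK (by omega) (detBAux_known hx) (detBAux_known hy)
    (detBAux_eq hK hk hx hy (by omega) rfl h2) (detBAux_eq hK hk hx hy (by omega) (by omega) h3)
    (detBAux_zone h1).1 (detBAux_zone h1).2 (detBAux_zone h1').1 (detBAux_zone h1').2
    (detBAux_ne hK hk hx (by omega) (by omega) h4) h5 (Or.inr ?_))
  rw [detBAux_res hK hk hx (l := j) (by omega) (by omega)] at h6
  have h7 : ss K (j + 2) = 3 * mm j * ss K j := ss_add_two (by omega)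
  have h8 := ss_pos (K := K) j
  change 3 * (co j Z % ss K (j + 2)) < ss K (j + 2) ∨
    2 * ss K (j + 2) < 3 * (co j Z % ss K (j + 2)) at h6
  unfold dg
  rcases h6 with h6 | h6
  · exact Or.inl (Int.ediv_lt_of_lt_mul h8 (by linarith))
  · refine Or.inr ⟨Int.le_ediv_of_mul_le h8 (by linarith), fun h9 => ?_⟩
    have h10 : ss K j ∣ co j Z % ss K (j + 2) := by
      refine Int.dvd_of_emod_eq_zero ?_
      rw [Int.emod_emod_of_dvd _ (ss_dvd_add_two j)]
      exact Int.emod_eq_zero_of_dvd h9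
    obtain ⟨c, hc⟩ := h10
    rw [hc, Int.mul_ediv_cancel_left _ h8.ne']
    rw [hc] at h6
    exact lt_of_mul_lt_mul_left (a := ss K j) (by linarith) h8.le

theorem detW_z3 (hK : Stab K) (i : ℕ) (hi : K + 1 ≤ i) (x y : (Wst K).X)
    (h1 : Zn K i (resW x (i + 2))) (h2 : resW x (i + 2) = resW y (i + 2))
    (h3 : resW x (i + 1) = 0) (h4 : resW y (i + 1) = 0)
    (h5 : x.1 ((2 * ss K i - resW x (i + 2)) • ac i) =
      y.1 ((2 * ss K i - resW x (i + 2)) • ac i)) : x.1 0 = y.1 0 := by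
  obtain ⟨j, rfl⟩ : ∃ j, i = j + 1 := ⟨i - 1, by omega⟩
  have hk : K ≤ j + 1 + 1 := by omega
  obtain ⟨Z, hx⟩ := exists_At hK x hk
  obtain ⟨Z', hy⟩ := exists_At hK y hk
  have e := detBAux_eq hK hk hx hy (l := j + 1) (by omega) (by omega) h2
  have b := detBAux_zero hK hk hx (l := j + 1 + 1) (by omega) rfl h3
  have b' := detBAux_zero hK hk hy (l := j + 1 + 1) (by omega) rfl h4
  have hlt := resW_lt x (j + 1 + 2)
  have hr := detBAux_res hK hk hx (i := j + 1 + 2) (l := j + 1) (by omega) (by omega)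
  have hs := ss_pos (K := K) (j + 1)
  generalize resW x (j + 1 + 2) = t at h1 h5 hlt hr
  have key : ∀ c : ℤ, 0 ≤ t + c → c ≤ 0 →
      co (j + 1) (Z + c • ac (j + 1)) % ss K (j + 1 + 2) = t + c := by
    intro c c1 c2
    rw [co_add, co_smul, co_ac rfl, mul_one, ← Int.emod_add_emod, ← hr]
    exact Int.emod_eq_of_lt c1 (by omega)
  have cc : ∀ (c : ℤ) (W : Z2), co (j + 2) (W + c • ac (j + 1)) = co (j + 2) W := by
    intro c W
    rw [co_add, co_smul, co_ac_ne (by omega), mul_zero, add_zero]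
  have dd : ∀ (c : ℤ) (W : Z2), dg K (j + 2) (W + c • ac (j + 1)) = dg K (j + 2) W := by
    intro c W
    unfold dg
    rw [cc]
  have dd' : ∀ (c : ℤ) (W : Z2),
      dg K (j + 2) (W + c • ac (j + 1) - ac (j + 2)) = dg K (j + 2) (W - ac (j + 2)) := by
    intro c W
    rw [add_sub_right_comm, dd]
  obtain ⟨z1, z2⟩ := h1
  have i0 : IsIdx K (j + 1) (Z + (2 * ss K (j + 1) - t) • ac (j + 1)) :=
    detBAux_two (by omega) (by rw [key _ (by omega) (by omega)]; ring)
  have i0' : IsIdx K (j + 1) (Z' + (2 * ss K (j + 1) - t) • ac (j + 1)) :=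
    i0.congr (detBAux_add e _)
  have k0 := hx ((2 * ss K (j + 1) - t) • ac (j + 1))
  have k0' := hy ((2 * ss K (j + 1) - t) • ac (j + 1))
  rw [← h5] at k0'
  have f := k0.full _ (by omega) i0
  have f' := k0'.full _ (by omega) i0'
  have s1 : st (mm (j + 2)) (dg K (j + 2) Z) = st (mm (j + 2)) (dg K (j + 2) Z') := by
    have := congrArg Lab.st (f.1.symm.trans f'.1)
    rw [← dd _ Z, ← dd _ Z']
    exact this
  have s2 : st (mm (j + 2)) (dg K (j + 2) (Z - ac (j + 2))) =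
      st (mm (j + 2)) (dg K (j + 2) (Z' - ac (j + 2))) := by
    have := congrArg Lab.st (f.2.symm.trans f'.2)
    rw [← dd' _ Z, ← dd' _ Z']
    exact this
  have s3 : ss K (j + 4) ∣ co (j + 2) Z ↔ ss K (j + 4) ∣ co (j + 2) Z' := by
    have g := k0.adj _ (by omega) i0 (by rw [cc]; exact b)
    have g' := k0'.adj _ (by omega) i0' (by rw [cc]; exact b')
    rw [cc] at g g'
    exact not_iff_not.1 (g.symm.trans g')
  have run : ∀ n : ℕ, 2 * ss K (j + 1) + n ≤ t →
      x.1 ((2 * ss K (j + 1) - t + n) • ac (j + 1)) =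
        y.1 ((2 * ss K (j + 1) - t + n) • ac (j + 1)) := by
    intro n
    induction n with
    | zero => intro _; simpa using h5
    | succ n ih =>
      intro hn
      push_cast at hn ⊢
      have ih := ih (by omega)
      have zn : Zn K (j + 1) (co (j + 1) (Z + (2 * ss K (j + 1) - t + (n + 1)) • ac (j + 1)) %
          ss K (j + 1 + 2)) := by
        rw [key _ (by omega) (by omega)]
        exact ⟨by omega, by omega⟩
      have ed : (2 * ss K (j + 1) - t + (n + 1)) • ac (j + 1) =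
          (2 * ss K (j + 1) - t + n) • ac (j + 1) + ac (j + 2 + 1) := by
        rw [← add_assoc, add_smul, one_smul, ac_congr (show (j + 2 + 1) % 2 = (j + 1) % 2 by omega)]
      refine tile_ext (detBAux_step hK (by omega) (hx _) (hy _) (rule_cr _) (rule_cr _)
        (detBAux_add e _) (by rw [cc]; exact b) (by rw [cc]; exact b') (detBAux_zone zn).1
        (detBAux_zone zn).2 (by rw [dd, dd]; exact s1) (by rw [dd', dd']; exact s2)
        (by rw [cc, cc]; exact s3) ?_)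
      have e1 := X_edge x (j + 2) ((2 * ss K (j + 1) - t + n) • ac (j + 1))
      have e2 := X_edge y (j + 2) ((2 * ss K (j + 1) - t + n) • ac (j + 1))
      rw [← ed] at e1 e2
      rw [ih] at e1
      exact e1.symm.trans e2
  have fin := run (t - 2 * ss K (j + 1)).toNat (by omega)
  rw [show 2 * ss K (j + 1) - t + ((t - 2 * ss K (j + 1)).toNat : ℤ) = 0 by omega,
    zero_smul] at fin
  exact fin

theorem detW_z4 (hK : Stab K) (i : ℕ) (hi : K + 1 ≤ i) (x y : (Wst K).X)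
    (h1 : resW x (i + 2) = 2 * ss K i) (h2 : resW y (i + 2) = 2 * ss K i)
    (h3 : resW x (i + 1) = 0) (h4 : resW y (i + 1) = 0) (h5 : x.1 0 = y.1 0) :
    sigW i x = sigW i y ∧ sigW i (-ac (i + 1) +ᵥ x) = sigW i (-ac (i + 1) +ᵥ y) := by
  have hk : K ≤ i + 1 := by omega
  obtain ⟨Z, hx⟩ := exists_At hK x hk
  obtain ⟨Z', hy⟩ := exists_At hK y hk
  rw [detBAux_res hK hk hx (l := i) (by omega) (by omega)] at h1
  rw [detBAux_res hK hk hy (l := i) (by omega) (by omega)] at h2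
  have k0 := detBAux_known hx
  have k0' := detBAux_known hy
  rw [← h5] at k0'
  have f := k0.full _ (by omega) (detBAux_two (by omega) h1)
  have f' := k0'.full _ (by omega) (detBAux_two (by omega) h2)
  rw [detBAux_sig hK hk hx, detBAux_sig hK hk hy, detBAux_sig hK hk (hx.vadd _),
    detBAux_sig hK hk (hy.vadd _), ← sub_eq_add_neg, ← sub_eq_add_neg]
  exact ⟨congrArg Lab.st (f.1.symm.trans f'.1), congrArg Lab.st (f.2.symm.trans f'.2)⟩

end Vale.Agent.P196
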