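import Vale.Agent.P196.TilesBasic

/-! P196 task X10: the tiling space is not empty. -/

namespace Vale.Agent.P196

variable {K : ℕ}

theorem existAux_idx (p : ℕ) {Z : Z2} (h : co p Z ≠ 0) : ∃ j, j % 2 = p % 2 ∧ IsIdx K j Z := by
  obtain ⟨i0, h0⟩ := ss_large (K := K) (|co p Z| + 1)
  have e : (2 * i0 + p) % 2 = p % 2 := by omega
  obtain ⟨j, -, h1, h2⟩ := exists_idx (K := K) (k := 2 * i0 + p) (Z := Z) fun hd => by
    rw [co_congr e] at hd
    have := Int.le_of_dvd (abs_pos.2 h) ((dvd_abs _ _).2 hd)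
    have := h0 (2 * i0 + p) (by omega)
    omega
  exact ⟨j, h1.trans e, h2⟩

open Classical in
/-- the index of the line of the parity of `p` at the coordinate `t` -/
noncomputable def existAux_ix (K p : ℕ) (t : ℤ) : ℕ :=
  if h : ∃ j, j % 2 = p % 2 ∧ IsIdx K j (t, t) then h.choose else 0

theorem existAux_ix_spec (p : ℕ) {Z : Z2} (h : co p Z ≠ 0) :
    existAux_ix K p (co p Z) % 2 = p % 2 ∧ IsIdx K (existAux_ix K p (co p Z)) Z := by
  have e : ∀ j (t : ℤ), co j (t, t) = t := fun j t => by unfold co; split_ifs <;> rfl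
  have h1 := existAux_idx (K := K) p (Z := (co p Z, co p Z)) (by rwa [e])
  rw [existAux_ix, dif_pos h1]
  exact ⟨h1.choose_spec.1, h1.choose_spec.2.congr (by rw [e, co_congr h1.choose_spec.1]; simp)⟩

/-- the tile at an absolute position -/
noncomputable def existAux_tile (K : ℕ) (Z : Z2) : Core × ℤ :=
  (⟨decide (existAux_ix K 0 Z.2 < existAux_ix K 1 Z.1),
    decide (existAux_ix K 1 Z.1 = existAux_ix K 0 Z.2 + 1 ∨
      existAux_ix K 0 Z.2 = existAux_ix K 1 Z.1 + 1),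
    LabAt K (existAux_ix K 0 Z.2) (Z - (1, 0)), LabAt K (existAux_ix K 0 Z.2) Z,
    LabAt K (existAux_ix K 1 Z.1) (Z - (0, 1)), LabAt K (existAux_ix K 1 Z.1) Z⟩, dg K K Z)

theorem existAux_TAt (hK : Stab K) {i j : ℕ} {Z : Z2} (hi : IsIdx K i Z) (hj : IsIdx K j Z)
    (hij : i < j) (hp : i % 2 ≠ j % 2) :
    TAt i (if i = K then 0 else nn (i - 1) - 1) (dg K i Z) (tileAt K i j Z) := by
  by_cases h : j = i + 1
  · subst h
    exact Or.inl ⟨_, _, hj.one_le, dg_lt _ _, dg_nonneg _ _, dg_lt _ _, tileAt_adj hK hi hj⟩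
  · exact Or.inr ⟨j, _, _, _, by omega, hp.symm, dg_nonneg _ _, dg_lt _ _, hj.one_le, dg_lt _ _,
      dg_nonneg _ _, dg_lt _ _, tileAt_gg hK hi hj (by omega) hp⟩

theorem existAux_allowed (hK : Stab K) {Z : Z2} (h1 : Z.1 ≠ 0) (h2 : Z.2 ≠ 0) :
    Allowed K (existAux_tile K Z) := by
  obtain ⟨a1, a2⟩ := existAux_ix_spec (K := K) 0 (Z := Z) h2
  obtain ⟨b1, b2⟩ := existAux_ix_spec (K := K) 1 (Z := Z) h1
  change existAux_ix K 0 Z.2 % 2 = 0 at a1
  change IsIdx K (existAux_ix K 0 Z.2) Z at a2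
  change existAux_ix K 1 Z.1 % 2 = 1 at b1
  change IsIdx K (existAux_ix K 1 Z.1) Z at b2
  unfold existAux_tile
  generalize existAux_ix K 0 Z.2 = i at *
  generalize existAux_ix K 1 Z.1 = j at *
  have hK0 := hK.1
  have hi := a2.le
  have hj := b2.le
  have e1 : (i + 1) % 2 = 1 := by omega
  have e2 : (j + 1) % 2 = 0 := by omega
  have c1 : i < j → tileAt K i j Z = ⟨decide (i < j), decide (j = i + 1 ∨ i = j + 1),
      LabAt K i (Z - (1, 0)), LabAt K i Z, LabAt K j (Z - (0, 1)), LabAt K j Z⟩ := fun h => by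
    simp [tileAt, vw, ac, a1, e1, h, show i ≠ j + 1 by omega]
  have c2 : j < i → tileAt K j i Z = ⟨decide (i < j), decide (j = i + 1 ∨ i = j + 1),
      LabAt K i (Z - (1, 0)), LabAt K i Z, LabAt K j (Z - (0, 1)), LabAt K j Z⟩ := fun h => by
    simp [tileAt, vw, Core.tr, ac, b1, e2, h.le, show j ≠ i + 1 by omega]
  refine ⟨dg_nonneg _ _, dg_lt _ _, fun h0 => ?_, fun h0 => ?_⟩
  · have hne : i ≠ K := fun e => by
      have := a2.one_le
      rw [e, show dg K K Z = 0 from h0] at this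
      omega
    rcases lt_or_gt_of_ne (show i ≠ j by omega) with h | h
    · have := existAux_TAt hK a2 b2 h (by omega)
      rw [if_neg hne, c1 h] at this
      exact ⟨i, _, by omega, a2.one_le, dg_lt _ _, this⟩
    · have := existAux_TAt hK b2 a2 h (by omega)
      rw [if_neg (by omega), c2 h] at this
      exact ⟨j, _, by omega, b2.one_le, dg_lt _ _, this⟩
  · have e : i = K := a2.unique ⟨by rw [ss_of_le (Nat.le_succ K)]; exact one_dvd _,
      fun h => h0 (dg_eq_zero h)⟩ (by omega)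
    subst e
    have := existAux_TAt hK a2 b2 (by omega) (by omega)
    rwa [if_pos rfl, c1 (by omega)] at this

theorem nonempty_W (hK : Stab K) : Nonempty (Wst K).X := by
  classical
  have hc : co K = Prod.snd := funext fun z => if_pos hK.1
  let F : Z2 → (Wst K).A := fun Z =>
    if h : Z.1 ≠ 0 ∧ Z.2 ≠ 0 then ⟨_, existAux_allowed hK h.1 h.2⟩
    else ⟨_, existAux_allowed hK (Z := (1, 1)) one_ne_zero one_ne_zero⟩
  have hF : ∀ (Z : Z2) (d : Bool), 0 < Z.1 → 0 < Z.2 →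
      (Wst K).out d (F Z) = (Wst K).inn d (F (Z + ev d)) := by
    intro Z d h1 h2
    have e1 : Z.1 ≠ 0 ∧ Z.2 ≠ 0 := ⟨h1.ne', h2.ne'⟩
    have e2 : (Z + ev d).1 ≠ 0 ∧ (Z + ev d).2 ≠ 0 := by
      cases d <;> simp [ev] <;> omega
    rw [show F Z = _ from dif_pos e1, show F (Z + ev d) = _ from dif_pos e2]
    cases d <;>
      simp [Wst, existAux_tile, ev, dg_eq (le_refl K), hc, ss_of_le (Nat.le_succ K), nn]
  have hl : ∀ z : Z2, ∃ a, ∀ᶠ n : ℕ in (Filter.hyperfilter ℕ : Filter ℕ),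
      F (z + ((n : ℤ), (n : ℤ))) = a := fun z => by
    obtain ⟨a, ha⟩ := Ultrafilter.eq_pure_of_finite
      ((Filter.hyperfilter ℕ).map fun n : ℕ => F (z + ((n : ℤ), (n : ℤ))))
    refine ⟨a, ?_⟩
    have : {a} ∈ (Filter.hyperfilter ℕ).map fun n : ℕ => F (z + ((n : ℤ), (n : ℤ))) := by
      rw [ha]; exact rfl
    exact this
  choose x hx using hl
  refine ⟨⟨x, fun z d => ?_⟩⟩
  have h3 : ∀ᶠ n : ℕ in (Filter.hyperfilter ℕ : Filter ℕ), z.1.natAbs + z.2.natAbs < n :=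
    Nat.hyperfilter_le_atTop (Filter.eventually_gt_atTop _)
  obtain ⟨n, h4, h5, h6⟩ := ((hx z).and ((hx (z + ev d)).and h3)).exists
  rw [← h4, ← h5, add_right_comm]
  exact hF _ d (by simp; omega) (by simp; omega)

end Vale.Agent.P196
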