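import Vale.Agent.P196.Par

/-! P196 task S: parity and flux of permutations of arrows. -/

namespace Vale.Agent.P196

variable {σ τ : Equiv.Perm B} {S : Set B}

theorem fluxAux_fix (hτ : τ ∈ Alt S) {b : B} (hb : b ∉ S) : τ b = b := by
  induction hτ using Subgroup.closure_induction with
  | mem g hg =>
    obtain ⟨a, ha, a', ha', a'', ha'', -, rfl⟩ := hg
    exact c3_of_ne (fun e => hb (e ▸ ha)) (fun e => hb (e ▸ ha')) (fun e => hb (e ▸ ha''))
  | one => rfl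
  | mul g g' _ _ h1 h2 => rw [Equiv.Perm.mul_apply, h2, h1]
  | inv g _ h1 => exact Equiv.Perm.inv_eq_iff_eq.2 h1.symm

open Classical in
theorem fluxAux_c3 (a b c : S) :
    Equiv.Perm.ofSubtype (Equiv.swap a c * Equiv.swap a b) = c3 a.1 b.1 c.1 := by
  rw [map_mul, Equiv.Perm.ofSubtype_swap_eq, Equiv.Perm.ofSubtype_swap_eq, c3]

open Classical in
theorem fluxAux_of [Fintype S] (π : Equiv.Perm S) (h : Equiv.Perm.sign π = 1) :
    Equiv.Perm.ofSubtype π ∈ Alt S := by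
  have h1 : π ∈ Subgroup.closure {g : Equiv.Perm S | g.IsThreeCycle} := by
    rw [Equiv.Perm.closure_three_cycles_eq_alternating]
    exact Equiv.Perm.mem_alternatingGroup.2 h
  clear h
  induction h1 using Subgroup.closure_induction with
  | mem g hg =>
    have hg' : g.IsThreeCycle := hg
    obtain ⟨a, ha⟩ : g.support.Nonempty := Finset.card_pos.1 (by rw [hg'.card_support]; norm_num)
    have h2 := hg'.nodup_iff_mem_support.2 ha
    have h3 := hg'.eq_swap_mul_swap_iff_mem_support.2 ha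
    simp only [List.nodup_cons, List.mem_cons, List.not_mem_nil, or_false, not_or,
      not_false_eq_true, List.nodup_nil, and_true] at h2
    have h4 : g = Equiv.swap (g a) a * Equiv.swap (g a) (g (g a)) := by
      rw [Equiv.swap_comm (g a) a]
      exact h3
    rw [h4, fluxAux_c3]
    exact Subgroup.subset_closure ⟨_, Subtype.prop _, _, Subtype.prop _, _, Subtype.prop _,
      ⟨Subtype.coe_ne_coe.2 h2.2, Subtype.coe_ne_coe.2 (Ne.symm h2.1.1),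
        Subtype.coe_ne_coe.2 (Ne.symm h2.1.2)⟩, rfl⟩
  | one =>
    rw [map_one]
    exact (Alt S).one_mem
  | mul g g' _ _ h1 h2 =>
    rw [map_mul]
    exact (Alt S).mul_mem h1 h2
  | inv g _ h1 =>
    rw [map_inv]
    exact (Alt S).inv_mem h1

open Classical in
theorem fluxAux_to [Fintype S] (hτ : τ ∈ Alt S) :
    ∃ π : Equiv.Perm S, Equiv.Perm.sign π = 1 ∧ τ = Equiv.Perm.ofSubtype π := by
  induction hτ using Subgroup.closure_induction with
  | mem g hg =>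
    obtain ⟨a, ha, b, hb, c, hc, h, rfl⟩ := hg
    lift a to S using ha
    lift b to S using hb
    lift c to S using hc
    refine ⟨_, ?_, (fluxAux_c3 a b c).symm⟩
    have h1 : a ≠ c := fun e => h.2.1 (congrArg Subtype.val e)
    have h2 : a ≠ b := fun e => h.1 (congrArg Subtype.val e)
    rw [map_mul, Equiv.Perm.sign_swap h1, Equiv.Perm.sign_swap h2]
    simp
  | one => exact ⟨1, map_one _, (map_one _).symm⟩
  | mul g g' _ _ h1 h2 =>
    obtain ⟨π, h3, rfl⟩ := h1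
    obtain ⟨π', h4, rfl⟩ := h2
    exact ⟨π * π', by rw [map_mul, h3, h4, one_mul], (map_mul _ _ _).symm⟩
  | inv g _ h1 =>
    obtain ⟨π, h3, rfl⟩ := h1
    exact ⟨π⁻¹, by rw [Equiv.Perm.sign_inv, h3], (map_inv _ _).symm⟩

open Classical in
theorem fluxAux_iff [Fintype S] (π : Equiv.Perm S) (h : ∀ b : S, σ b.1 = (π b).1) :
    EvenOn σ S ↔ Equiv.Perm.sign π = 1 := by
  constructor
  · rintro ⟨ν, h1, h2⟩
    obtain ⟨π', h3, rfl⟩ := fluxAux_to h1
    have : π = π' := Equiv.ext fun b => Subtype.ext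
      ((h b).symm.trans ((h2 b.1 b.2).trans (Equiv.Perm.ofSubtype_apply_coe π' b)))
    rw [this, h3]
  · intro h1
    exact ⟨_, fluxAux_of π h1, fun b hb =>
      (h ⟨b, hb⟩).trans (Equiv.Perm.ofSubtype_apply_of_mem π hb).symm⟩

theorem fluxAux_conj (e : Equiv.Perm B) (h : EvenOn σ S) : EvenOn (e * σ * e⁻¹) (e '' S) := by
  obtain ⟨ν, h1, h2⟩ := h
  refine ⟨e * ν * e⁻¹, ?_, ?_⟩
  · clear h2
    induction h1 using Subgroup.closure_induction with
    | mem g hg =>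
      obtain ⟨a, ha, b, hb, c, hc, h, rfl⟩ := hg
      rw [c3_conj]
      exact Subgroup.subset_closure ⟨_, ⟨a, ha, rfl⟩, _, ⟨b, hb, rfl⟩, _, ⟨c, hc, rfl⟩,
        h.map e.injective, rfl⟩
    | one =>
      rw [mul_one, mul_inv_cancel]
      exact (Alt _).one_mem
    | mul g g' _ _ h1 h2 =>
      have : e * (g * g') * e⁻¹ = e * g * e⁻¹ * (e * g' * e⁻¹) := by group
      rw [this]
      exact (Alt _).mul_mem h1 h2
    | inv g _ h1 =>
      have : e * g⁻¹ * e⁻¹ = (e * g * e⁻¹)⁻¹ := by group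
      rw [this]
      exact (Alt _).inv_mem h1
  · rintro _ ⟨b, hb, rfl⟩
    simp [h2 b hb]

theorem Alt.mem_iff (hτ : τ ∈ Alt S) (b : B) : τ b ∈ S ↔ b ∈ S := by
  refine ⟨fun h => by_contra fun hb => hb (fluxAux_fix hτ hb ▸ h), fun h => by_contra fun hb => ?_⟩
  exact hb ((τ.injective (fluxAux_fix hτ hb)).symm ▸ h)

theorem Alt.fix (hτ : τ ∈ Alt S) {b : B} (hb : b ∉ S) : τ b = b := by
  exact fluxAux_fix hτ hb

theorem EvenOn.congr (h : EvenOn σ S) (h' : ∀ b ∈ S, σ b = τ b) : EvenOn τ S := by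
  obtain ⟨ν, h1, h2⟩ := h
  exact ⟨ν, h1, fun b hb => (h' b hb).symm.trans (h2 b hb)⟩

/-- two permutations of a finite set with the same parity -/
theorem evenOn_div (hS : S.Finite) (h1 : ∀ b ∈ S, σ b ∈ S) (h2 : ∀ b ∈ S, τ b ∈ S)
    (h : EvenOn σ S ↔ EvenOn τ S) : EvenOn (σ⁻¹ * τ) S := by
  classical
  have := hS.fintype
  set s : Equiv.Perm S := σ.subtypePermOfFintype h1 with hs
  set t : Equiv.Perm S := τ.subtypePermOfFintype h2 with ht
  rw [fluxAux_iff s (fun _ => rfl), fluxAux_iff t (fun _ => rfl)] at h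
  refine (fluxAux_iff (s⁻¹ * t) fun b => ?_).2 ?_
  · rw [Equiv.Perm.mul_apply, Equiv.Perm.mul_apply, Equiv.Perm.inv_eq_iff_eq]
    have h3 : σ ((s⁻¹ (t b) : S) : B) = s (s⁻¹ (t b)) := rfl
    rw [h3]
    simp only [Equiv.Perm.coe_inv, Equiv.apply_symm_apply]
    rfl
  · rw [map_mul, Equiv.Perm.sign_inv]
    rcases Int.units_eq_one_or (Equiv.Perm.sign s) with h3 | h3
    · rw [h3, h.1 h3, one_mul]
    · rcases Int.units_eq_one_or (Equiv.Perm.sign t) with h4 | h4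
      · rw [h4, h.2 h4, one_mul]
      · rw [h3, h4]
        simp

theorem evenOn_shift (z : Z2) (h : ∀ b, sh z (σ b) = τ (sh z b)) :
    EvenOn σ S ↔ EvenOn τ (sh z '' S) := by
  let e : Equiv.Perm B := ⟨sh z, sh (-z), fun b => by simp [sh], fun b => by simp [sh]⟩
  have h1 : τ = e * σ * e⁻¹ := by
    rw [eq_mul_inv_iff_mul_eq]
    exact Equiv.ext fun b => (h b).symm
  refine ⟨fun h2 => h1 ▸ fluxAux_conj e h2, fun h2 => ?_⟩
  have h3 := fluxAux_conj e⁻¹ h2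
  have h4 : e⁻¹ * τ * e⁻¹⁻¹ = σ := by
    rw [h1]
    group
  have h5 : ⇑e⁻¹ '' (sh z '' S) = S := by
    rw [Set.image_image]
    exact (Set.image_congr fun b _ => e.symm_apply_apply b).trans (Set.image_id' S)
  rwa [h4, h5] at h3

/-- the right half of a horizontal band -/
def Qd (α β : ℤ) : Set B := {b | 0 ≤ b.1.1 ∧ α ≤ b.1.2 ∧ b.1.2 < β}

def Box (α β ρ : ℤ) : Set B := {b | |b.1.1| ≤ ρ ∧ α ≤ b.1.2 ∧ b.1.2 < β}

/-- `σ` preserves the band and moves its points by at most `ρ` horizontally -/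
def Band (σ : Equiv.Perm B) (α β ρ : ℤ) : Prop :=
  ∀ b : B, ((α ≤ (σ b).1.2 ∧ (σ b).1.2 < β) ↔ (α ≤ b.1.2 ∧ b.1.2 < β)) ∧
    |(σ b).1.1 - b.1.1| ≤ ρ

noncomputable def flux (σ : Equiv.Perm B) (α β : ℤ) : ℤ :=
  ((σ '' Qd α β \ Qd α β).ncard : ℤ) - ((Qd α β \ σ '' Qd α β).ncard : ℤ)

variable {α β α' β' ρ ρ' : ℤ}

theorem box_finite (α β ρ : ℤ) : (Box α β ρ).Finite := by
  refine (((Set.finite_Icc (-ρ) ρ).prod (Set.finite_Ico α β)).prod
    (Set.finite_univ (α := I))).subset fun b hb => ?_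
  exact ⟨⟨abs_le.1 hb.1, hb.2⟩, Set.mem_univ _⟩

theorem Band.mono (h : Band σ α β ρ) (h' : ρ ≤ ρ') : Band σ α β ρ' := by
  exact fun b => ⟨(h b).1, (h b).2.trans h'⟩

theorem Band.mul (h : Band σ α β ρ) (h' : Band τ α β ρ') : Band (σ * τ) α β (ρ + ρ') := by
  intro b
  rw [Equiv.Perm.mul_apply]
  refine ⟨(h (τ b)).1.trans (h' b).1, ?_⟩
  have h1 := abs_le.1 (h (τ b)).2
  have h2 := abs_le.1 (h' b).2
  rw [abs_le]
  omega

theorem Band.inv (h : Band σ α β ρ) : Band σ⁻¹ α β ρ := by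
  intro b
  have h1 := h (σ⁻¹ b)
  simp only [Equiv.Perm.coe_inv, Equiv.apply_symm_apply] at h1 ⊢
  exact ⟨h1.1.symm, by rw [abs_sub_comm]; exact h1.2⟩

theorem fluxAux_nonneg (h : Band σ α β ρ) : 0 ≤ ρ := (abs_nonneg _).trans (h ((0, 0), 0)).2

theorem fluxAux_rind {S T F : Set B} (hF : F.Finite) (h : ∀ b, b ∉ F → (b ∈ S ↔ b ∈ T)) :
    ((S \ T).ncard : ℤ) - ((T \ S).ncard : ℤ) = ((S ∩ F).ncard : ℤ) - ((T ∩ F).ncard : ℤ) := by
  have key : ∀ {S T : Set B}, (∀ b, b ∉ F → (b ∈ S ↔ b ∈ T)) →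
      (S ∩ F).ncard = (S ∩ T ∩ F).ncard + (S \ T).ncard := by
    intro S T h
    have e1 : S ∩ T ∩ F = S ∩ F ∩ T := Set.inter_right_comm _ _ _
    have e2 : S \ T = (S ∩ F) \ T := Set.ext fun b =>
      ⟨fun hb => ⟨⟨hb.1, by_contra fun h1 => hb.2 ((h b h1).1 hb.1)⟩, hb.2⟩,
        fun hb => ⟨hb.1.1, hb.2⟩⟩
    rw [e1, e2, Set.ncard_inter_add_ncard_sdiff_eq_ncard _ _ (hF.inter_of_right _)]
  rw [key h, key fun b hb => (h b hb).symm, Set.inter_comm T S]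
  push_cast
  ring

theorem fluxAux_out (h : Band σ α β ρ) (b : B) (hb : b ∉ Box α β ρ) :
    b ∈ σ '' Qd α β ↔ b ∈ Qd α β := by
  obtain ⟨c, rfl⟩ := σ.surjective b
  rw [σ.injective.mem_set_image]
  have h1 := (h c).1
  have h2 := abs_le.1 (h c).2
  simp only [Box, Qd, Set.mem_ofPred_eq, abs_le] at hb ⊢
  omega

theorem fluxAux_sub (h : Band σ α β ρ) (h' : Band τ α β ρ')
    (he : ∀ b ∈ Box α β (max ρ ρ'), σ b = τ b) : σ '' Qd α β ⊆ τ '' Qd α β := by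
  rintro _ ⟨b, hb, rfl⟩
  obtain ⟨c, hc⟩ := τ.surjective (σ b)
  by_cases h1 : c ∈ Box α β (max ρ ρ')
  · exact ⟨c, σ.injective ((he c h1).trans hc) ▸ hb, hc⟩
  by_cases h2 : b ∈ Box α β (max ρ ρ')
  · exact ⟨b, hb, (he b h2).symm⟩
  refine ⟨c, ?_, hc⟩
  have h3 := (h b).1
  have h4 := abs_le.1 (h b).2
  have h5 := (h' c).1
  have h6 := abs_le.1 (h' c).2
  rw [hc] at h5 h6
  simp only [Box, Qd, Set.mem_ofPred_eq, abs_le] at hb h1 h2 ⊢
  omega

theorem flux_one (α β : ℤ) : flux 1 α β = 0 := by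
  simp [flux]

theorem flux_mul (h : Band σ α β ρ) (h' : Band τ α β ρ') :
    flux (σ * τ) α β = flux σ α β + flux τ α β := by
  have hρ := fluxAux_nonneg h
  have hρ' := fluxAux_nonneg h'
  have hF := box_finite α β (ρ + ρ')
  have a1 := fluxAux_out (h.mul h')
  have a2 := fluxAux_out (h.mono (le_add_of_nonneg_right hρ'))
  have e1 : flux τ α β = (((σ * τ) '' Qd α β \ σ '' Qd α β).ncard : ℤ) -
      ((σ '' Qd α β \ (σ * τ) '' Qd α β).ncard : ℤ) := by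
    rw [Equiv.Perm.coe_mul, Set.image_comp, ← Set.image_sdiff σ.injective,
      ← Set.image_sdiff σ.injective, Set.ncard_image_of_injective _ σ.injective,
      Set.ncard_image_of_injective _ σ.injective, flux]
  rw [e1, flux, flux, fluxAux_rind hF a1, fluxAux_rind hF a2,
    fluxAux_rind hF fun b hb => (a1 b hb).trans (a2 b hb).symm]
  ring

theorem flux_inv (h : Band σ α β ρ) : flux σ⁻¹ α β = -flux σ α β := by
  have h1 := flux_mul h.inv h
  rw [inv_mul_cancel, flux_one] at h1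
  omega

theorem flux_congr (h : Band σ α β ρ) (h' : Band τ α β ρ')
    (he : ∀ b ∈ Box α β (max ρ ρ'), σ b = τ b) : flux σ α β = flux τ α β := by
  have e : σ '' Qd α β = τ '' Qd α β :=
    (fluxAux_sub h h' he).antisymm (fluxAux_sub h' h fun b hb => (he b (max_comm ρ' ρ ▸ hb)).symm)
  rw [flux, flux, e]

theorem flux_extend (h1 : α' ≤ α) (h2 : β ≤ β')
    (hb : ∀ b : B, α ≤ b.1.2 → b.1.2 < β → α ≤ (σ b).1.2 ∧ (σ b).1.2 < β)
    (hf : ∀ b : B, α' ≤ b.1.2 → b.1.2 < β' → ¬ (α ≤ b.1.2 ∧ b.1.2 < β) → σ b = b) :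
    flux σ α' β' = flux σ α β := by
  have e1 : σ '' Qd α' β' \ Qd α' β' = σ '' Qd α β \ Qd α β := by
    ext c
    constructor
    · rintro ⟨⟨b, h3, rfl⟩, h4⟩
      by_cases h5 : α ≤ b.1.2 ∧ b.1.2 < β
      · exact ⟨⟨b, ⟨h3.1, h5⟩, rfl⟩, fun h6 => h4 ⟨h6.1, h1.trans h6.2.1, h6.2.2.trans_le h2⟩⟩
      · exact absurd ((hf b h3.2.1 h3.2.2 h5).symm ▸ h3) h4
    · rintro ⟨⟨b, h3, rfl⟩, h4⟩
      exact ⟨⟨b, ⟨h3.1, h1.trans h3.2.1, h3.2.2.trans_le h2⟩, rfl⟩,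
        fun h6 => h4 ⟨h6.1, hb b h3.2.1 h3.2.2⟩⟩
  have e2 : Qd α' β' \ σ '' Qd α' β' = Qd α β \ σ '' Qd α β := by
    ext c
    constructor
    · rintro ⟨h3, h4⟩
      by_cases h5 : α ≤ c.1.2 ∧ c.1.2 < β
      · refine ⟨⟨h3.1, h5⟩, ?_⟩
        rintro ⟨b, h6, h7⟩
        exact h4 ⟨b, ⟨h6.1, h1.trans h6.2.1, h6.2.2.trans_le h2⟩, h7⟩
      · exact absurd ⟨c, h3, hf c h3.2.1 h3.2.2 h5⟩ h4
    · rintro ⟨h3, h4⟩
      refine ⟨⟨h3.1, h1.trans h3.2.1, h3.2.2.trans_le h2⟩, ?_⟩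
      rintro ⟨b, h6, h7⟩
      by_cases h5 : α ≤ b.1.2 ∧ b.1.2 < β
      · exact h4 ⟨b, ⟨h6.1, h5⟩, h7⟩
      · exact h5 (((hf b h6.2.1 h6.2.2 h5).symm.trans h7).symm ▸ h3.2)
  rw [flux, flux, e1, e2]

theorem flux_zero (h : Band σ α β ρ) (h0 : flux σ α β = 0) :
    ∃ τ ∈ Alt (Box α β ρ), τ '' Qd α β = σ '' Qd α β := by
  classical
  by_cases hαβ : α < β
  swap
  · refine ⟨1, (Alt _).one_mem, ?_⟩
    have : Qd α β = ∅ := Set.eq_empty_of_forall_notMem fun b hb => hαβ (hb.2.1.trans_lt hb.2.2)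
    simp [this]
  have hρ := fluxAux_nonneg h
  have hF := box_finite α β ρ
  have := hF.fintype
  have a1 := fluxAux_out h
  rw [flux, fluxAux_rind hF a1, sub_eq_zero, Nat.cast_inj] at h0
  have hc : ∀ T : Set B, Nat.card {x : Box α β ρ // x.1 ∈ T} = (T ∩ Box α β ρ).ncard := by
    intro T
    rw [← Nat.card_coe_set_eq]
    exact Nat.card_congr ⟨fun x => ⟨x.1.1, x.2, x.1.2⟩, fun x => ⟨⟨x.1, x.2.2⟩, x.2.1⟩,
      fun _ => rfl, fun _ => rfl⟩
  obtain ⟨e⟩ : Nonempty ({x : Box α β ρ // x.1 ∈ Qd α β} ≃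
      {x : Box α β ρ // x.1 ∈ σ '' Qd α β}) := by
    rw [← Finite.card_eq, hc, hc, h0]
  obtain ⟨π, h1, h2⟩ : ∃ π : Equiv.Perm (Box α β ρ), Equiv.Perm.sign π = 1 ∧
      ∀ x : Box α β ρ, (π x).1 ∈ σ '' Qd α β ↔ x.1 ∈ Qd α β := by
    have h3 : ∀ x : Box α β ρ, (e.extendSubtype x).1 ∈ σ '' Qd α β ↔ x.1 ∈ Qd α β := fun x =>
      ⟨fun h4 => by_contra fun h5 => e.extendSubtype_not_mem x h5 h4, e.extendSubtype_mem x⟩
    rcases Int.units_eq_one_or (Equiv.Perm.sign e.extendSubtype) with h4 | h4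
    · exact ⟨_, h4, h3⟩
    · let u : Box α β ρ := ⟨((0, α), 0), by simpa using hρ, le_rfl, hαβ⟩
      let v : Box α β ρ := ⟨((0, α), 1), by simpa using hρ, le_rfl, hαβ⟩
      have huv : u ≠ v := fun h5 =>
        absurd (congrArg (fun x : Box α β ρ => x.1.2) h5) (show (0 : I) ≠ 1 by decide)
      have hu : u.1 ∈ Qd α β := ⟨le_rfl, le_rfl, hαβ⟩
      have hv : v.1 ∈ Qd α β := ⟨le_rfl, le_rfl, hαβ⟩
      refine ⟨e.extendSubtype * Equiv.swap u v, ?_, fun x => ?_⟩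
      · rw [map_mul, h4, Equiv.Perm.sign_swap huv]
        simp
      · rw [Equiv.Perm.mul_apply, h3, Equiv.swap_apply_def]
        split_ifs with h5 h6
        · rw [h5]
          exact iff_of_true hv hu
        · rw [h6]
          exact iff_of_true hu hv
        · rfl
  have h3 : ∀ b, Equiv.Perm.ofSubtype π b ∈ σ '' Qd α β ↔ b ∈ Qd α β := by
    intro b
    by_cases hb : b ∈ Box α β ρ
    · rw [Equiv.Perm.ofSubtype_apply_of_mem π hb]
      exact h2 ⟨b, hb⟩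
    · rw [Equiv.Perm.ofSubtype_apply_of_not_mem π hb]
      exact a1 b hb
  refine ⟨Equiv.Perm.ofSubtype π, fluxAux_of π h1, Set.ext fun c => ⟨?_, fun h4 => ?_⟩⟩
  · rintro ⟨b, h4, rfl⟩
    exact (h3 b).2 h4
  · obtain ⟨b, rfl⟩ := (Equiv.Perm.ofSubtype π).surjective c
    exact ⟨b, (h3 b).1 h4, rfl⟩

end Vale.Agent.P196
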