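import Vale.Agent.P196.HierBasic

/-! P196 task T: invariant finitely additive functions of exponent two have finite range. -/

namespace Vale.Agent.P196

open Pointwise

variable {W : Wang} {K : ℕ}

theorem h0Aux_fib {Γ T : Type} [CommGroup Γ] (ζ : Set W.X → Γ)
    (hu : ∀ U V, IsClopen U → IsClopen V → Disjoint U V → ζ (U ∪ V) = ζ U * ζ V)
    (H : Subgroup Γ) (P : T → Set W.X) (hP : ∀ t, IsClopen (P t))
    (hd : ∀ t t' x, x ∈ P t → x ∈ P t' → t = t') (G : Set T) (hG : G.Finite)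
    (hH : ∀ t ∈ G, ζ (P t) ∈ H) : IsClopen (⋃ t ∈ G, P t) ∧ ζ (⋃ t ∈ G, P t) ∈ H := by
  induction G, hG using Set.Finite.induction_on with
  | empty =>
    rw [Set.biUnion_empty]
    refine ⟨isClopen_empty, ?_⟩
    have h1 := hu ∅ ∅ isClopen_empty isClopen_empty (Set.empty_disjoint _)
    rw [Set.union_self] at h1
    rw [left_eq_mul.1 h1]
    exact H.one_mem
  | @insert a G ha _ ih =>
    obtain ⟨h1, h2⟩ := ih fun t ht => hH t (Set.mem_insert_of_mem _ ht)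
    rw [Set.biUnion_insert]
    refine ⟨(hP a).union h1, ?_⟩
    rw [hu _ _ (hP a) h1]
    · exact H.mul_mem (hH a (Set.mem_insert _ _)) h2
    · refine Set.disjoint_left.2 fun x hx hx' => ?_
      obtain ⟨t, ht, hxt⟩ := Set.mem_iUnion₂.1 hx'
      exact ha (hd _ _ x hx hxt ▸ ht)

/-- displacement from the reference corner -/
def h0Aux_D (K ρ j : ℕ) (α β : ℤ) : Z2 :=
  (if α < ss K j - ρ then α else α - ss K j) • ac j +
    (if β ≤ ρ then β else β - ss K (j + 1)) • ac (j + 1)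

theorem h0Aux_co1 (ρ j : ℕ) (α β : ℤ) :
    co j (h0Aux_D K ρ j α β) = if α < ss K j - ρ then α else α - ss K j := by
  rw [h0Aux_D, co_add, co_smul, co_smul, co_ac rfl, co_ac_ne (by omega), mul_one, mul_zero,
    add_zero]

theorem h0Aux_co2 (ρ j : ℕ) (α β : ℤ) :
    co (j + 1) (h0Aux_D K ρ j α β) = if β ≤ ρ then β else β - ss K (j + 1) := by
  rw [h0Aux_D, co_add, co_smul, co_smul, co_ac rfl, co_ac_ne (by omega), mul_one, mul_zero,
    zero_add]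

theorem h0Aux_res (h : Hier W K) (y : W.X) (i : ℕ) (D : Z2) (α : ℤ) (h0 : 0 ≤ α)
    (h1 : α < ss K i) (hD : co i D = α ∨ co i D = α - ss K i) :
    h.res (-D +ᵥ y) i = 0 ↔ h.res y i = α := by
  have h2 := h.res_nonneg y i
  have h3 := h.res_lt y i
  rw [h.res_vadd, co_neg]
  have h4 : (h.res y i + -co i D) % ss K i = (h.res y i - α) % ss K i := by
    rcases hD with e | e
    · rw [e, sub_eq_add_neg]
    · rw [e, show h.res y i + -(α - ss K i) = h.res y i - α + ss K i by ring, Int.add_emod_right]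
  rw [h4]
  constructor
  · intro h5
    have := Int.eq_zero_of_abs_lt_dvd (Int.dvd_of_emod_eq_zero h5) (abs_lt.2 ⟨by omega, by omega⟩)
    omega
  · intro h5
    rw [h5, sub_self, Int.zero_emod]

theorem h0Aux_res1 (h : Hier W K) (ρ j : ℕ) (y : W.X) (α β : ℤ) (h0 : 0 ≤ α) (h1 : α < ss K j) :
    h.res (-h0Aux_D K ρ j α β +ᵥ y) j = 0 ↔ h.res y j = α :=
  h0Aux_res h y j _ α h0 h1 (by rw [h0Aux_co1]; split_ifs <;> simp)

theorem h0Aux_res2 (h : Hier W K) (ρ j : ℕ) (y : W.X) (α β : ℤ) (h0 : 0 ≤ β)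
    (h1 : β < ss K (j + 1)) :
    h.res (-h0Aux_D K ρ j α β +ᵥ y) (j + 1) = 0 ↔ h.res y (j + 1) = β :=
  h0Aux_res h y (j + 1) _ β h0 h1 (by rw [h0Aux_co2]; split_ifs <;> simp)

/-- the reference sets -/
def h0Aux_base (h : Hier W K) (j : ℕ) (a : W.A) : Set W.X :=
  {x | h.res x j = 0 ∧ h.res x (j + 1) = 0 ∧ x.1 0 = a}

theorem h0Aux_sat (h : Hier W K) {Γ : Type} [CommGroup Γ] (ζ : Set W.X → Γ)
    (hu : ∀ U V, IsClopen U → IsClopen V → Disjoint U V → ζ (U ∪ V) = ζ U * ζ V)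
    (hs : ∀ (z : Z2) U, IsClopen U → ζ (z +ᵥ U) = ζ U) (H : Subgroup Γ) (ρ j : ℕ)
    (hH : ∀ a, ζ (h0Aux_base h j a) ∈ H) (V : Set W.X)
    (hV : ∀ x y, h.res x j = h.res y j → h.res x (j + 1) = h.res y (j + 1) →
      x.1 (-h0Aux_D K ρ j (h.res x j) (h.res x (j + 1))) =
        y.1 (-h0Aux_D K ρ j (h.res x j) (h.res x (j + 1))) → x ∈ V → y ∈ V) : ζ V ∈ H := by
  set P : ℤ × ℤ × W.A → Set W.X := fun t => {y | h.res y j = t.1 ∧ h.res y (j + 1) = t.2.1 ∧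
    y.1 (-h0Aux_D K ρ j t.1 t.2.1) = t.2.2} with hP
  set G : Set (ℤ × ℤ × W.A) := {t | ∃ x ∈ V, x ∈ P t} with hG
  have hfin : G.Finite := by
    refine ((Set.finite_Ico 0 (ss K j)).prod ((Set.finite_Ico 0 (ss K (j + 1))).prod
      Set.finite_univ)).subset ?_
    rintro t ⟨x, -, h1, h2, -⟩
    exact ⟨h1 ▸ ⟨h.res_nonneg x _, h.res_lt x _⟩, h2 ▸ ⟨h.res_nonneg x _, h.res_lt x _⟩, trivial⟩
  have e : V = ⋃ t ∈ G, P t := by
    refine Set.Subset.antisymm (fun x hx => ?_) fun y hy => ?_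
    · exact Set.mem_iUnion₂.2 ⟨(h.res x j, h.res x (j + 1),
        x.1 (-h0Aux_D K ρ j (h.res x j) (h.res x (j + 1)))), ⟨x, hx, rfl, rfl, rfl⟩, rfl, rfl, rfl⟩
    · obtain ⟨t, ⟨x, hx, h1, h2, h3⟩, h4, h5, h6⟩ := Set.mem_iUnion₂.1 hy
      exact hV x y (h1.trans h4.symm) (h2.trans h5.symm) (by rw [h1, h2, h3, h6]) hx
  rw [e]
  refine (h0Aux_fib ζ hu H P (fun t => ?_) ?_ G hfin ?_).2
  · exact (h.isClopen_res j fun s => s = t.1).inter
      ((h.isClopen_res (j + 1) fun s => s = t.2.1).inter (isClopen_site _ _))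
  · rintro ⟨α, β, a⟩ ⟨α', β', a'⟩ x ⟨h1, h2, h3⟩ ⟨h4, h5, h6⟩
    dsimp only at h1 h2 h3 h4 h5 h6
    subst h1 h2 h3
    subst h4 h5 h6
    rfl
  · rintro ⟨α, β, a⟩ ⟨x, -, h1, h2, -⟩
    dsimp only at h1 h2
    have e2 : P (α, β, a) = h0Aux_D K ρ j α β +ᵥ h0Aux_base h j a := by
      ext y
      rw [Set.mem_vadd_set_iff_neg_vadd_mem, h0Aux_base, Set.mem_ofPred_eq, Set.mem_ofPred_eq,
        h0Aux_res1 h ρ j y α β (h1 ▸ h.res_nonneg x _) (h1 ▸ h.res_lt x _),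
        h0Aux_res2 h ρ j y α β (h2 ▸ h.res_nonneg x _) (h2 ▸ h.res_lt x _), vadd_val, zero_add]
    rw [e2, hs]
    · exact hH a
    · exact (h.isClopen_res j fun s => s = 0).inter
        ((h.isClopen_res (j + 1) fun s => s = 0).inter (isClopen_site _ _))

theorem h0Aux_edge (h : Hier W K) (ρ : ℕ) : ∃ i0, ∀ j ≥ i0, ∀ x y, h.res x j = h.res y j →
    h.res x (j + 1) = h.res y (j + 1) →
    x.1 (-h0Aux_D K ρ j (h.res x j) (h.res x (j + 1))) =
      y.1 (-h0Aux_D K ρ j (h.res x j) (h.res x (j + 1))) →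
    (h.res x (j + 1) ≤ ρ ∨ ss K (j + 1) - ρ ≤ h.res x (j + 1)) → Agree x y ρ := by
  obtain ⟨i0, hi0⟩ := h.det_edge (2 * ρ)
  obtain ⟨i1, hi1⟩ := ss_large (K := K) ρ
  refine ⟨max i0 i1, fun j hj x y h1 h2 h3 h4 w hw1 hw2 => ?_⟩
  have a1 := h.res_nonneg x j
  have a2 := h.res_lt x j
  have a3 := h.res_nonneg x (j + 1)
  have a4 := h.res_lt x (j + 1)
  have a5 := hi1 j (le_of_max_le_right hj)
  have b1 := abs_le.1 (abs_co_le j hw1 hw2)
  have b2 := abs_le.1 (abs_co_le (j + 1) hw1 hw2)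
  have key := hi0 j (le_of_max_le_left hj) (-h0Aux_D K ρ j (h.res x j) (h.res x (j + 1)) +ᵥ x)
    (-h0Aux_D K ρ j (h.res x j) (h.res x (j + 1)) +ᵥ y)
    ((h0Aux_res1 h ρ j x _ _ a1 a2).2 rfl) ((h0Aux_res2 h ρ j x _ _ a3 a4).2 rfl)
    ((h0Aux_res1 h ρ j y _ _ a1 a2).2 h1.symm) ((h0Aux_res2 h ρ j y _ _ a3 a4).2 h2.symm)
    (by rw [vadd_val, vadd_val, zero_add]; exact h3)
    (w + h0Aux_D K ρ j (h.res x j) (h.res x (j + 1)))
    (by rw [co_add, h0Aux_co2, abs_le]; push_cast; split_ifs <;> omega)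
    (by rw [co_add, h0Aux_co1]; push_cast; split_ifs <;> omega)
    (by rw [co_add, h0Aux_co1]; split_ifs <;> omega)
  rwa [vadd_val, vadd_val, add_neg_cancel_right] at key

theorem h0Aux_low (h : Hier W K) (ρ k : ℕ) (x y : W.X) (h1 : h.res x (k + 2) = h.res y (k + 2))
    (h2 : h.res x (k + 3) = h.res y (k + 3))
    (h3 : ¬ (h.res x (k + 1) ≤ ρ ∨ ss K (k + 1) - ρ ≤ h.res x (k + 1)))
    (h4 : ¬ (h.res x (k + 2) ≤ ρ ∨ ss K (k + 2) - ρ ≤ h.res x (k + 2))) : Agree x y ρ := by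
  intro w hw1 hw2
  have b1 := abs_le.1 (abs_co_le (k + 1) hw1 hw2)
  have b2 := abs_le.1 (abs_co_le (k + 2) hw1 hw2)
  have key := h.det_low k (w +ᵥ x) (w +ᵥ y) (by rw [h.res_vadd, h.res_vadd, h1])
    (by rw [h.res_vadd, h.res_vadd, h2])
    (by rw [h.res_vadd, Int.emod_eq_of_lt (by omega) (by omega)]; omega)
    (by rw [h.res_vadd, Int.emod_eq_of_lt (by omega) (by omega)]; omega)
  rwa [vadd_val, vadd_val, zero_add] at key

theorem h0Aux_mem (h : Hier W K) {Γ : Type} [CommGroup Γ] (ζ : Set W.X → Γ)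
    (hu : ∀ U V, IsClopen U → IsClopen V → Disjoint U V → ζ (U ∪ V) = ζ U * ζ V)
    (hs : ∀ (z : Z2) U, IsClopen U → ζ (z +ᵥ U) = ζ U) (U : Set W.X) (hU : IsClopen U) :
    ∀ᶠ k in Filter.atTop, ζ U ∈ Subgroup.closure
      (Set.range fun p : Fin 3 × W.A => ζ (h0Aux_base h (k + p.1) p.2)) := by
  obtain ⟨ρ, hρ⟩ := isClopen_iff.1 hU
  obtain ⟨i0, hi0⟩ := h0Aux_edge h ρ
  filter_upwards [Filter.eventually_ge_atTop i0] with k hk
  set H := Subgroup.closure (Set.range fun p : Fin 3 × W.A => ζ (h0Aux_base h (k + p.1) p.2))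
  have hH : ∀ (i : Fin 3) a, ζ (h0Aux_base h (k + i) a) ∈ H := fun i a =>
    Subgroup.subset_closure ⟨(i, a), rfl⟩
  set N : ℕ → Set W.X := fun j => {x | h.res x j ≤ ρ ∨ ss K j - ρ ≤ h.res x j} with hN
  have hNc : ∀ j, IsClopen (N j) := fun j => h.isClopen_res j fun s => s ≤ ρ ∨ ss K j - ρ ≤ s
  have hNr : ∀ j x y, h.res x j = h.res y j → (x ∈ N j ↔ y ∈ N j) := fun j x y e => by
    simp only [hN, Set.mem_ofPred_eq, e]
  have split : ∀ V j, IsClopen V → ζ (V ∩ N j) ∈ H → ζ (V \ N j) ∈ H → ζ V ∈ H := by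
    intro V j hV h1 h2
    rw [← Set.inter_union_sdiff V (N j), hu _ _ (hV.inter (hNc j)) (hV.diff (hNc j))
      (Set.disjoint_left.2 fun _ hx hx' => hx'.2 hx.2)]
    exact H.mul_mem h1 h2
  refine split U (k + 1) hU ?_ (split _ (k + 2) (hU.diff (hNc _)) ?_ ?_)
  · refine h0Aux_sat h ζ hu hs H ρ k (hH 0) _ fun x y h1 h2 h3 hx => ?_
    exact ⟨(hρ x y (hi0 k hk x y h1 h2 h3 hx.2)).1 hx.1, (hNr _ x y h2).1 hx.2⟩
  · refine h0Aux_sat h ζ hu hs H ρ (k + 1) (hH 1) _ fun x y h1 h2 h3 hx => ?_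
    exact ⟨⟨(hρ x y (hi0 (k + 1) (by omega) x y h1 h2 h3 hx.2)).1 hx.1.1,
      fun hy => hx.1.2 ((hNr _ x y h1).2 hy)⟩, (hNr _ x y h2).1 hx.2⟩
  · refine h0Aux_sat h ζ hu hs H ρ (k + 2) (hH 2) _ fun x y h1 h2 _ hx => ?_
    have h4 : h.res x (k + 1) = h.res y (k + 1) := h.res_congr (by omega) (by omega) h2
    exact ⟨⟨(hρ x y (h0Aux_low h ρ k x y h1 h2 hx.1.2 hx.2)).1 hx.1.1,
      fun hy => hx.1.2 ((hNr _ x y h4).2 hy)⟩, fun hy => hx.2 ((hNr _ x y h1).2 hy)⟩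

theorem h0Aux_card {Γ ι : Type} [CommGroup Γ] [Fintype ι] [DecidableEq ι] (g : ι → Γ)
    (hg : ∀ i, g i ^ 2 = 1) (S : Finset Γ) (hS : ∀ x ∈ S, x ∈ Subgroup.closure (Set.range g)) :
    S.card ≤ Fintype.card (ι → Fin 2) := by
  classical
  refine le_trans (Finset.card_le_card (t := Finset.univ.image fun e : ι → Fin 2 =>
    ∏ i, g i ^ (e i : ℕ)) fun x hx => ?_) Finset.card_image_le
  obtain ⟨a, rfl⟩ := Subgroup.mem_closure_range_iff_of_fintype.1 (hS x hx)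
  refine Finset.mem_image.2 ⟨fun i => ⟨(a i % 2).toNat, by omega⟩, Finset.mem_univ _,
    Finset.prod_congr rfl fun i _ => ?_⟩
  rw [zpow_eq_zpow_emod' (a i) (hg i), ← zpow_natCast]
  congr 1
  push_cast
  omega

theorem h0_finite (h : Hier W K) {Γ : Type} [CommGroup Γ] (ζ : Set W.X → Γ)
    (hu : ∀ U V, IsClopen U → IsClopen V → Disjoint U V → ζ (U ∪ V) = ζ U * ζ V)
    (hs : ∀ (z : Z2) U, IsClopen U → ζ (z +ᵥ U) = ζ U) (h2 : ∀ U, IsClopen U → ζ U ^ 2 = 1) :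
    ((Subgroup.closure (ζ '' {U | IsClopen U}) : Subgroup Γ) : Set Γ).Finite := by
  classical
  have key : ∀ x ∈ Subgroup.closure (ζ '' {U | IsClopen U}), ∀ᶠ k in Filter.atTop,
      x ∈ Subgroup.closure (Set.range fun p : Fin 3 × W.A => ζ (h0Aux_base h (k + p.1) p.2)) := by
    intro x hx
    induction hx using Subgroup.closure_induction with
    | mem x hx =>
      obtain ⟨U, hU, rfl⟩ := hx
      exact h0Aux_mem h ζ hu hs U hU
    | one => exact Filter.Eventually.of_forall fun _ => Subgroup.one_mem _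
    | mul x y _ _ hx hy => exact (hx.and hy).mono fun _ hk => Subgroup.mul_mem _ hk.1 hk.2
    | inv x _ hx => exact hx.mono fun _ hk => Subgroup.inv_mem _ hk
  by_contra hinf
  obtain ⟨S, hS, hcard⟩ := Set.Infinite.exists_subset_card_eq hinf
    (Fintype.card (Fin 3 × W.A → Fin 2) + 1)
  obtain ⟨k, hk⟩ := ((Filter.eventually_all_finset S).2 fun x hx => key x (hS hx)).exists
  have := h0Aux_card _ (fun p => h2 _ ((h.isClopen_res _ fun s => s = 0).inter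
    ((h.isClopen_res _ fun s => s = 0).inter (isClopen_site _ _)))) S hk
  omega

end Vale.Agent.P196
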