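import Vale.Agent.P196.Hier

/-! P196 task C: first consequences of a hierarchical structure. -/

namespace Vale.Agent.P196

variable {W : Wang} {K : ℕ}

namespace Hier
variable (h : Hier W K)

theorem res_mod' (x : W.X) {i j : ℕ} (hij : i ≤ j) (hp : i % 2 = j % 2) :
    h.res x j % ss K i = h.res x i := by
  obtain ⟨n, rfl⟩ : ∃ n, j = i + 2 * n := ⟨(j - i) / 2, by omega⟩
  clear hij hp
  induction n with
  | zero => exact Int.emod_eq_of_lt (h.res_nonneg x i) (h.res_lt x i)
  | succ n ih =>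
    rw [show i + 2 * (n + 1) = i + 2 * n + 2 by ring,
      ← Int.emod_emod_of_dvd _ (ss_dvd (K := K) (i := i) (j := i + 2 * n) (by omega) (by omega)),
      h.res_mod, ih]

theorem res_congr {x y : W.X} {i j : ℕ} (hij : i ≤ j) (hp : i % 2 = j % 2)
    (e : h.res x j = h.res y j) : h.res x i = h.res y i := by
  rw [← h.res_mod' x hij hp, ← h.res_mod' y hij hp, e]

theorem res_oo {x : W.X} {δ : ℤ} (hδ : δ = 1 ∨ δ = 2) {i j : ℕ} (hij : i ≤ j) (hp : i % 2 = j % 2)
    (e : h.res x j = oo K δ j) : h.res x i = oo K δ i := by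
  rw [← h.res_mod' x hij hp, e]
  have h1 := oo_bound (K := K) i
  have h2 := ss_pos (K := K) i
  have h3 : oo K δ i % ss K i = oo K δ i := by
    rw [oo_eq]
    rcases hδ with rfl | rfl <;> exact Int.emod_eq_of_lt (by omega) (by omega)
  rw [← h3]
  exact (Int.emod_emod_of_dvd _ dvd_rfl).symm.trans
    ((Int.emod_emod_of_dvd _ dvd_rfl).trans ((Int.modEq_iff_dvd.2 (oo_dvd_sub δ hij hp)).symm))

theorem dvd_res_vadd (x : W.X) (z : Z2) (i : ℕ) :
    ss K i ∣ h.res x i + co i z - h.res (z +ᵥ x) i := by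
  rw [h.res_vadd]
  exact Int.dvd_self_sub_emod

theorem isClopen_res (i : ℕ) (Q : ℤ → Prop) : IsClopen {x | Q (h.res x i)} := by
  obtain ⟨r, hr⟩ := h.res_loc i
  exact isClopen_iff.2 ⟨r, fun x y hxy => by simp only [Set.mem_ofPred_eq, hr x y hxy]⟩

include h in
theorem free : W.Free := by
  intro x z hz
  have key : ∀ i, co i z = 0 := by
    intro i
    obtain ⟨i0, hi0⟩ := ss_large (K := K) (|co i z| + 1)
    have h1 := h.dvd_res_vadd x z (i + 2 * i0)
    rw [hz, add_sub_cancel_left, co_congr (j := i) (by omega)] at h1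
    exact Int.eq_zero_of_abs_lt_dvd h1 (by have := hi0 (i + 2 * i0) (by omega); omega)
  exact co_ext (i := 0) (by rw [key, co_zero]) (by rw [key, co_zero])

/-- every pair of residues is reached by a translate -/
theorem exists_vadd (x : W.X) (k : ℕ) {α β : ℤ} (h1 : 0 ≤ α) (h2 : α < ss K k) (h3 : 0 ≤ β)
    (h4 : β < ss K (k + 1)) : ∃ z : Z2, h.res (z +ᵥ x) k = α ∧ h.res (z +ᵥ x) (k + 1) = β := by
  refine ⟨(α - h.res x k) • ac k + (β - h.res x (k + 1)) • ac (k + 1), ?_, ?_⟩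
  · rw [h.res_vadd, co_add, co_smul, co_smul, co_ac rfl, co_ac_ne (by omega)]
    simpa using Int.emod_eq_of_lt h1 h2
  · rw [h.res_vadd, co_add, co_smul, co_smul, co_ac rfl, co_ac_ne (by omega)]
    simpa using Int.emod_eq_of_lt h3 h4

/-- the tiling with all digits equal to one -/
theorem exists_star : ∃ y : W.X, ∀ k, h.res y k = oo K 1 k := by
  obtain ⟨x⟩ := h.ne
  have hb : ∀ k, 0 ≤ oo K 1 k ∧ oo K 1 k < ss K k := fun k => by
    have h1 := oo_bound (K := K) k
    have h2 := ss_pos (K := K) k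
    omega
  choose z hz using fun k => h.exists_vadd x k (hb k).1 (hb k).2 (hb (k + 1)).1 (hb (k + 1)).2
  obtain ⟨y, hy⟩ := exists_limit fun k => z k +ᵥ x
  refine ⟨y, fun k => ?_⟩
  obtain ⟨r, hr⟩ := h.res_loc k
  obtain ⟨m, hm, h1⟩ := hy r k
  rw [← hr _ _ h1]
  by_cases hp : k % 2 = m % 2
  · exact h.res_oo (Or.inl rfl) hm hp (hz m).1
  · exact h.res_oo (Or.inl rfl) (by omega) (by omega) (hz m).2

/-- `x` lies at height `t` over the tilings all of whose digits of parity `e` are one -/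
def Ht (e : ℕ) (x : W.X) (t : ℤ) : Prop :=
  ∀ k, k % 2 = e % 2 → ss K k ∣ h.res x k - oo K 1 k - t

theorem Ht.unique {e : ℕ} {x : W.X} {t t' : ℤ} (h1 : h.Ht e x t) (h2 : h.Ht e x t') : t = t' := by
  obtain ⟨i0, hi0⟩ := ss_large (K := K) (|t' - t| + 1)
  have h3 := (h1 (e + 2 * i0) (by omega)).sub (h2 (e + 2 * i0) (by omega))
  rw [sub_sub_sub_cancel_left] at h3
  have := Int.eq_zero_of_abs_lt_dvd h3 (by have := hi0 (e + 2 * i0) (by omega); omega)
  omega

theorem Ht.vadd {e : ℕ} {x : W.X} {t : ℤ} (h1 : h.Ht e x t) (z : Z2) :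
    h.Ht e (z +ᵥ x) (t + co e z) := by
  intro k hk
  have h2 := (h1 k hk).sub (h.dvd_res_vadd x z k)
  rw [co_congr hk] at h2
  rwa [show h.res (z +ᵥ x) k - oo K 1 k - (t + co e z) =
    h.res x k - oo K 1 k - t - (h.res x k + co e z - h.res (z +ᵥ x) k) by ring]

/-- tilings at a deep cut line look like tilings of height zero -/
theorem exists_near (e r : ℕ) : ∃ k0, ∀ k ≥ k0, k % 2 = e % 2 → ∀ x, h.res x k = oo K 1 k →
    ∃ y, h.Ht e y 0 ∧ Agree x y r := by
  by_contra hc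
  push Not at hc
  choose k hk hke x hx hbad using hc
  obtain ⟨y, hy⟩ := exists_limit x
  have hy0 : h.Ht e y 0 := by
    intro j hj
    obtain ⟨s, hs⟩ := h.res_loc j
    obtain ⟨m, hm, h1⟩ := hy s j
    rw [← hs _ _ h1, h.res_oo (Or.inl rfl) (hm.trans (hk m)) (by have := hke m; omega) (hx m)]
    simp
  obtain ⟨m, -, h1⟩ := hy r 0
  exact hbad m y hy0 h1

/-- the reference tile determines the whole zone on both sides of the high line -/
theorem zd {i : ℕ} (hi : K + 1 ≤ i) {x y : W.X} (h1 : h.res x (i + 2) = 2 * ss K i)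
    (h2 : h.res y (i + 2) = 2 * ss K i) (h3 : h.res x (i + 1) = 0) (h4 : h.res y (i + 1) = 0)
    (h5 : x.1 0 = y.1 0) (z : Z2) (h6 : Zn K i (2 * ss K i + co i z))
    (h7 : |co (i + 1) z| < ss K (i + 1)) :
    x.1 z = y.1 z ∧ h.sig i (z +ᵥ x) = h.sig i (z +ᵥ y) := by
  have hs := ss_pos (K := K) i
  have hs1 := ss_pos (K := K) (i + 1)
  have hm := three_le_mm i
  have hr2 : ∀ w : W.X, h.res w (i + 2) = 2 * ss K i →
      h.res (z +ᵥ w) (i + 2) = 2 * ss K i + co i z := by
    intro w hw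
    rw [h.res_vadd, hw, co_congr (i := i + 2) (j := i) (by omega), ss_add_two (by omega)]
    exact Int.emod_eq_of_lt (by have := h6.1; omega) (by have := h6.2; nlinarith)
  have hr1 : ∀ w : W.X, h.res w (i + 1) = 0 →
      h.res (z +ᵥ w) (i + 1) = co (i + 1) z % ss K (i + 1) := by
    intro w hw
    rw [h.res_vadd, hw, zero_add]
  obtain ⟨h8, h9⟩ := h.z4 i hi x y h1 h2 h3 h4 h5
  have h10 := abs_lt.1 h7
  have hsig : h.sig i (z +ᵥ x) = h.sig i (z +ᵥ y) := by
    rcases le_or_gt 0 (co (i + 1) z) with hc | hc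
    · rw [h.sig_vadd i x z (by omega) (by omega), h.sig_vadd i y z (by omega) (by omega), h8]
    · have key : ∀ w : W.X, h.res w (i + 1) = 0 →
          h.sig i (z +ᵥ w) = h.sig i (-ac (i + 1) +ᵥ w) := by
        intro w hw
        have e1 : h.res (-ac (i + 1) +ᵥ w) (i + 1) = ss K (i + 1) - 1 := by
          rw [h.res_vadd, hw, co_neg, co_ac rfl, zero_add, ← Int.add_emod_right,
            Int.emod_eq_of_lt (by omega) (by omega)]
          ring
        have e2 : z +ᵥ w = (z + ac (i + 1)) +ᵥ (-ac (i + 1) +ᵥ w) := by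
          rw [← add_vadd, add_neg_cancel_right]
        rw [e2]
        refine h.sig_vadd i _ _ ?_ ?_ <;> rw [e1, co_add, co_ac rfl] <;> omega
      rw [key x h3, key y h4, h9]
  refine ⟨?_, hsig⟩
  have goal : (z +ᵥ x).1 0 = (z +ᵥ y).1 0 := by
    by_cases hc : co (i + 1) z = 0
    · refine h.z3 i hi _ _ (by rw [hr2 x h1]; exact h6) (by rw [hr2 x h1, hr2 y h2])
        (by rw [hr1 x h3, hc]; simp) (by rw [hr1 y h4, hc]; simp) ?_
      have e : (2 * ss K i - h.res (z +ᵥ x) (i + 2)) • ac i + z = 0 := by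
        rw [hr2 x h1]
        refine co_ext (i := i) ?_ ?_
        · rw [co_add, co_smul, co_ac rfl, co_zero]; ring
        · rw [co_add, co_smul, co_ac_ne (by omega), co_zero, hc]; ring
      rw [vadd_val, vadd_val, e, h5]
    · refine h.z1 i hi _ _ (by rw [hr2 x h1]; exact h6) (by rw [hr2 x h1, hr2 y h2])
        (by rw [hr1 x h3, hr1 y h4]) ?_ hsig
      rw [hr1 x h3]
      exact fun h' => hc (Int.eq_zero_of_abs_lt_dvd (Int.dvd_of_emod_eq_zero h') h7)
  simpa only [vadd_val, zero_add] using goal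

end Hier

end Vale.Agent.P196
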