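import Vale.Agent.P196.QL

/-! P196: equivariant families of lifts of three-cycles. -/

namespace Vale.Agent.P196

variable {P : Type} [Group P]

/-- An equivariant family of lifts of three-cycles between the copies. -/
structure IsIdem (κ : I → I → I → P) (Gen : Finset I → Subgroup P) (α : I → I → I → P) :
    Prop where
  junk : ∀ {i j k}, ¬ D3 i j k → α i j k = 1
  cyc : ∀ {i j k}, D3 i j k → α i j k = α j k i
  inv : ∀ {i j k}, D3 i j k → α i k j = (α i j k)⁻¹
  cf : ∀ {x a c e}, D3 x a c → x ≠ e → a ≠ e → c ≠ e → α x a c = α a c e * α x e c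
  conjk : ∀ {i j k i' j' k'}, D3 i j k → D3 i' j' k' →
    κ i j k * α i' j' k' * (κ i j k)⁻¹ = α (c3 i j k i') (c3 i j k j') (c3 i j k k')
  conj : ∀ {i j k i' j' k'}, D3 i j k → D3 i' j' k' →
    α i j k * α i' j' k' * (α i j k)⁻¹ = α (c3 i j k i') (c3 i j k j') (c3 i j k k')
  gen : ∀ {J : Finset I} {i j k}, J.card = 5 → i ∈ J → j ∈ J → k ∈ J → α i j k ∈ Gen J

/-- The ambient data: a full family `κ` and local subgroups. -/
structure Base (P : Type) [Group P] where
  κ : I → I → I → P
  Gen : Finset I → Subgroup P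
  comm : ∀ {J J' : Finset I}, Disjoint J J' → ∀ g ∈ Gen J, ∀ g' ∈ Gen J', Commute g g'
  idem : IsIdem κ Gen κ

/-- the logic of equivariant families -/
def Base.Om (b : Base P) : Type := {α : I → I → I → P // IsIdem b.κ b.Gen α}

instance (b : Base P) : Orth b.Om where
  perp α β := ∀ i j k i' j' k', Commute (α.1 i j k) (β.1 i' j' k')
  top := ⟨b.κ, b.idem⟩

theorem Base.perp_iff {b : Base P} {α β : b.Om} :
    perp α β ↔ ∀ i j k i' j' k', Commute (α.1 i j k) (β.1 i' j' k') := Iff.rfl

theorem Base.top_val (b : Base P) : (Orth.top : b.Om).1 = b.κ := rfl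

end Vale.Agent.P196
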