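import Vale.Agent.P196.Idem

/-! P196 task K: sums, complements and differences of equivariant families. -/

namespace Vale.Agent.P196

open scoped commutatorElement

variable {P : Type} [Group P] {b : Base P} {α β γ s : b.Om}

theorem idemAux_fresh (l : List I) (h : l.length < 30) : ∃ f, f ∉ l := by
  obtain ⟨f, -, hf⟩ := Finset.exists_mem_notMem_of_card_lt_card
    (s := l.toFinset) (t := Finset.univ) (lt_of_le_of_lt (List.toFinset_card_le l) (by simpa))
  exact ⟨f, by simpa using hf⟩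

theorem idemAux_trans (Q : I → I → I → Prop)
    (hQ : ∀ i j k i' j' k', D3 i j k → D3 i' j' k' → Q i' j' k' →
      Q (c3 i j k i') (c3 i j k j') (c3 i j k k'))
    {x y z x' y' z' : I} (h : D3 x y z) (h' : D3 x' y' z') (hq : Q x y z) : Q x' y' z' := by
  have s1 : ∀ x y z w, D3 x y z → w ≠ x → w ≠ y → w ≠ z → Q x y z → Q w y z := by
    intro x y z w h h1 h2 h3 hq
    obtain ⟨f, hf⟩ := idemAux_fresh [x, y, z, w] (by simp)
    simp only [List.mem_cons, List.not_mem_nil, or_false, not_or] at hf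
    have d : D3 x w f := ⟨h1.symm, Ne.symm hf.1, Ne.symm hf.2.2.2⟩
    have := hQ x w f x y z d h hq
    rwa [c3_a d, c3_of_ne h.1.symm h2.symm (Ne.symm hf.2.1),
      c3_of_ne h.2.1.symm h3.symm (Ne.symm hf.2.2.1)] at this
  have s2 : ∀ x y z w, D3 x y z → w ≠ x → w ≠ y → w ≠ z → Q x y z → Q x w z := by
    intro x y z w h h1 h2 h3 hq
    obtain ⟨f, hf⟩ := idemAux_fresh [x, y, z, w] (by simp)
    simp only [List.mem_cons, List.not_mem_nil, or_false, not_or] at hf
    have d : D3 y w f := ⟨h2.symm, Ne.symm hf.2.1, Ne.symm hf.2.2.2⟩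
    have := hQ y w f x y z d h hq
    rwa [c3_a d, c3_of_ne h.1 h1.symm (Ne.symm hf.1),
      c3_of_ne h.2.2.symm h3.symm (Ne.symm hf.2.2.1)] at this
  have s3 : ∀ x y z w, D3 x y z → w ≠ x → w ≠ y → w ≠ z → Q x y z → Q x y w := by
    intro x y z w h h1 h2 h3 hq
    obtain ⟨f, hf⟩ := idemAux_fresh [x, y, z, w] (by simp)
    simp only [List.mem_cons, List.not_mem_nil, or_false, not_or] at hf
    have d : D3 z w f := ⟨h3.symm, Ne.symm hf.2.2.1, Ne.symm hf.2.2.2⟩
    have := hQ z w f x y z d h hq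
    rwa [c3_a d, c3_of_ne h.2.1 h1.symm (Ne.symm hf.1),
      c3_of_ne h.2.2 h2.symm (Ne.symm hf.2.1)] at this
  have s4 : ∀ x y z p q r, D3 x y z → D3 p q r → p ≠ x → p ≠ y → p ≠ z → q ≠ y → q ≠ z →
      r ≠ z → Q x y z → Q p q r := by
    intro x y z p q r h d a1 a2 a3 b2 b3 c3' hq
    exact s3 p q z r ⟨d.1, a3, b3⟩ d.2.1.symm d.2.2.symm c3'
      (s2 p y z q ⟨a2, a3, h.2.2⟩ d.1.symm b2 b3 (s1 x y z p h a1 a2 a3 hq))
  obtain ⟨p, hp⟩ := idemAux_fresh [x, y, z, x', y', z'] (by simp)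
  obtain ⟨q, hq'⟩ := idemAux_fresh [x, y, z, x', y', z', p] (by simp)
  obtain ⟨r, hr⟩ := idemAux_fresh [x, y, z, x', y', z', p, q] (by simp)
  simp only [List.mem_cons, List.not_mem_nil, or_false, not_or] at hp hq' hr
  have d : D3 p q r := ⟨Ne.symm hq'.2.2.2.2.2.2, Ne.symm hr.2.2.2.2.2.2.1,
    Ne.symm hr.2.2.2.2.2.2.2⟩
  exact s4 p q r x' y' z' d h' (Ne.symm hp.2.2.2.1) (Ne.symm hq'.2.2.2.1) (Ne.symm hr.2.2.2.1)
    (Ne.symm hq'.2.2.2.2.1) (Ne.symm hr.2.2.2.2.1) (Ne.symm hr.2.2.2.2.2.1)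
    (s4 x y z p q r h d hp.1 hp.2.1 hp.2.2.1 hq'.2.1 hq'.2.2.1 hr.2.2.1 hq)

theorem idemAux_five {x a c : I} (h : D3 x a c) :
    ∃ u e, D3 x a u ∧ D3 x c e ∧ u ≠ c ∧ u ≠ e ∧ a ≠ e := by
  obtain ⟨u, hu⟩ := idemAux_fresh [x, a, c] (by simp)
  obtain ⟨e, he⟩ := idemAux_fresh [x, a, c, u] (by simp)
  simp only [List.mem_cons, List.not_mem_nil, or_false, not_or] at hu he
  exact ⟨u, e, ⟨h.1, Ne.symm hu.1, Ne.symm hu.2.1⟩, ⟨h.2.1, Ne.symm he.1, Ne.symm he.2.2.1⟩,
    hu.2.2, Ne.symm he.2.2.2, Ne.symm he.2.1⟩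

theorem idemAux_disj (α β : b.Om) (i j k : I) :
    ∃ p q r, D3 p q r ∧ Commute (α.1 i j k) (β.1 p q r) := by
  obtain ⟨J, hJ, hc⟩ := Finset.exists_superset_card_eq (s := ({i, j, k} : Finset I)) (n := 5)
    (Finset.card_le_three.trans (by norm_num)) (by simp)
  obtain ⟨J', hJ', hc'⟩ := Finset.exists_subset_card_eq (s := Jᶜ) (n := 5)
    (by rw [Finset.card_compl, hc]; simp)
  obtain ⟨p, q, r, hp, hq, hr, h1, h2, h3⟩ := Finset.two_lt_card_iff.1 (show 2 < J'.card by omega)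
  refine ⟨p, q, r, ⟨h1, h2, h3⟩, b.comm (J := J) (J' := J') ?_ _
    (α.2.gen hc (hJ (by simp)) (hJ (by simp)) (hJ (by simp))) _ (β.2.gen hc' hp hq hr)⟩
  rw [Finset.disjoint_left]
  intro y hy hy'
  exact Finset.mem_compl.1 (hJ' hy') hy

namespace Base

/-- the five point commutator formula -/
theorem comm5 (α : b.Om) {x a c u e : I} (h : D3 x a c) (h1 : D3 x a u) (h2 : D3 x c e)
    (h3 : u ≠ c) (h4 : u ≠ e) (h5 : a ≠ e) : α.1 x a c = ⁅α.1 x a u, α.1 x c e⁆ := by
  rw [commutatorElement_def, α.2.conj h1 h2, c3_a h1, c3_of_ne h.2.1.symm h.2.2.symm h3.symm,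
    c3_of_ne h2.2.1.symm h5.symm h4.symm, ← α.2.inv h2]
  exact α.2.cf h h2.2.1 h5 h2.2.2

theorem om_symm (h : perp α β) : perp β α := by
  exact fun i j k i' j' k' => (h i' j' k' i j k).symm

theorem eq_one_of_null (h : perp α α) (i j k : I) : α.1 i j k = 1 := by
  by_cases d : D3 i j k
  · obtain ⟨u, e, h1, h2, h3, h4, h5⟩ := idemAux_five d
    rw [comm5 α d h1 h2 h3 h4 h5]
    exact commutatorElement_eq_one_iff_commute.2 (h _ _ _ _ _ _)
  · exact α.2.junk d

theorem om_null (γ : b.Om) (h : perp α α) : perp γ α := by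
  intro i j k i' j' k'
  rw [eq_one_of_null h]
  exact Commute.one_right _

theorem om_top_perp (α : b.Om) (h : perp γ (Orth.top : b.Om)) : perp γ α := by
  have key : ∀ i j k, γ.1 i j k = 1 := by
    intro x a c
    by_cases d : D3 x a c
    · obtain ⟨u, e, h1, h2, h3, h4, h5⟩ := idemAux_five d
      have : γ.1 x c e = γ.1 x a u := by
        refine idemAux_trans (fun i j k => γ.1 i j k = γ.1 x a u) ?_ h1 h2 rfl
        intro i j k i' j' k' d1 d2 hq
        rw [← γ.2.conjk d1 d2, ← hq]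
        have : Commute (γ.1 i' j' k') (b.κ i j k) := h _ _ _ _ _ _
        rw [← this.eq, mul_inv_cancel_right]
      rw [comm5 γ d h1 h2 h3 h4 h5, this]
      exact commutatorElement_eq_one_iff_commute.2 (Commute.refl _)
    · exact γ.2.junk d
  intro i j k i' j' k'
  rw [key]
  exact Commute.one_left _

/-- a pointwise product of orthogonal families is their sum -/
theorem isSum_of_mul (h : perp α β) (hs : ∀ i j k, s.1 i j k = α.1 i j k * β.1 i j k) :
    IsSum s α β := by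
  refine ⟨h, fun c => ⟨fun hc => ?_, fun hc i j k i' j' k' => ?_⟩⟩
  · have h1 : perp c α := by
      intro i j k i' j' k'
      by_cases d : D3 i' j' k'
      · obtain ⟨p, q, r, d', hcm⟩ := idemAux_disj c α i j k
        refine idemAux_trans (fun x y z => Commute (c.1 i j k) (α.1 x y z)) ?_ d' d hcm
        intro x y z x' y' z' d1 d2 hq
        have e : α.1 (c3 x y z x') (c3 x y z y') (c3 x y z z')
            = s.1 x y z * α.1 x' y' z' * (s.1 x y z)⁻¹ := by
          rw [← α.2.conj d1 d2, hs, mul_inv_rev, mul_assoc (α.1 x y z) (β.1 x y z),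
            ← (h x' y' z' x y z).eq]
          group
        change Commute _ _
        rw [e]
        exact ((hc _ _ _ _ _ _).mul_right hq).mul_right (hc _ _ _ _ _ _).inv_right
      · rw [α.2.junk d]
        exact Commute.one_right _
    refine ⟨h1, fun i j k i' j' k' => ?_⟩
    have : β.1 i' j' k' = (α.1 i' j' k')⁻¹ * s.1 i' j' k' := by rw [hs]; group
    rw [this]
    exact (h1 _ _ _ _ _ _).inv_right.mul_right (hc _ _ _ _ _ _)
  · rw [hs]
    exact (hc.1 _ _ _ _ _ _).mul_right (hc.2 _ _ _ _ _ _)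

theorem exists_mul (h : perp α β) : ∃ s : b.Om, ∀ i j k, s.1 i j k = α.1 i j k * β.1 i j k := by
  refine ⟨⟨fun i j k => α.1 i j k * β.1 i j k, ?_, ?_, ?_, ?_, ?_, ?_, ?_⟩, fun _ _ _ => rfl⟩
  · intro i j k d
    rw [α.2.junk d, β.2.junk d, mul_one]
  · intro i j k d
    rw [α.2.cyc d, β.2.cyc d]
  · intro i j k d
    rw [α.2.inv d, β.2.inv d, mul_inv_rev, (h i j k i j k).inv_inv.eq]
  · intro x a c e d h1 h2 h3
    rw [α.2.cf d h1 h2 h3, β.2.cf d h1 h2 h3, (h x e c a c e).mul_mul_mul_comm]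
  · intro i j k i' j' k' d d'
    rw [← α.2.conjk d d', ← β.2.conjk d d']
    group
  · intro i j k i' j' k' d d'
    rw [← α.2.conj d d', ← β.2.conj d d', ← (h i j k i j k).inv_inv.eq.trans (mul_inv_rev _ _).symm,
      ← (h i' j' k' i j k).mul_mul_mul_comm,
      ← ((h i j k i j k).inv_left.mul_right (h i j k i' j' k').inv_left).mul_mul_mul_comm]
  · intro J i j k hJ hi hj hk
    exact mul_mem (α.2.gen hJ hi hj hk) (β.2.gen hJ hi hj hk)

theorem exists_compl (α : b.Om) :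
    ∃ c : b.Om, perp c α ∧ ∀ i j k, b.κ i j k = α.1 i j k * c.1 i j k := by
  have hc : ∀ i j k i' j' k', Commute ((α.1 i j k)⁻¹ * b.κ i j k) (α.1 i' j' k') := by
    intro i j k i' j' k'
    by_cases d : D3 i j k
    · by_cases d' : D3 i' j' k'
      · have e := (α.2.conjk d d').trans (α.2.conj d d').symm
        change _ * _ = _ * _
        calc _ = (α.1 i j k)⁻¹ * (b.κ i j k * α.1 i' j' k' * (b.κ i j k)⁻¹) * b.κ i j k := by group
          _ = _ := by rw [e]; group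
      · rw [α.2.junk d']
        exact Commute.one_right _
    · rw [α.2.junk d, b.idem.junk d]
      simp
  have hk : ∀ {i j k i' j' k'}, D3 i j k → D3 i' j' k' →
      b.κ i j k * ((α.1 i' j' k')⁻¹ * b.κ i' j' k') * (b.κ i j k)⁻¹
        = (α.1 (c3 i j k i') (c3 i j k j') (c3 i j k k'))⁻¹ *
          b.κ (c3 i j k i') (c3 i j k j') (c3 i j k k') := by
    intro i j k i' j' k' d d'
    rw [← α.2.conjk d d', ← b.idem.conjk d d']
    group
  refine ⟨⟨fun i j k => (α.1 i j k)⁻¹ * b.κ i j k, ?_, ?_, ?_, ?_, hk, ?_, ?_⟩, hc,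
    fun _ _ _ => (mul_inv_cancel_left _ _).symm⟩
  · intro i j k d
    rw [α.2.junk d, b.idem.junk d, inv_one, mul_one]
  · intro i j k d
    rw [α.2.cyc d, b.idem.cyc d]
  · intro i j k d
    rw [α.2.inv d, b.idem.inv d]
    have := (hc i j k i j k).inv_left.eq
    calc _ = α.1 i j k * ((α.1 i j k)⁻¹ * b.κ i j k)⁻¹ * (α.1 i j k)⁻¹ := by group
      _ = _ := by rw [← this]; group
  · intro x a c e d h1 h2 h3
    rw [α.2.cf d h1 h2 h3, b.idem.cf d h1 h2 h3]
    have := (hc a c e x e c).inv_right.eq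
    calc _ = (α.1 x e c)⁻¹ * ((α.1 a c e)⁻¹ * b.κ a c e) * b.κ x e c := by group
      _ = _ := by rw [← this]; group
  · intro i j k i' j' k' d d'
    rw [← hk d d']
    have := (((hc i j k i j k).mul_left (hc i' j' k' i j k)).mul_left
      (hc i j k i j k).inv_left).eq
    calc _ = ((α.1 i j k)⁻¹ * b.κ i j k * ((α.1 i' j' k')⁻¹ * b.κ i' j' k') *
          ((α.1 i j k)⁻¹ * b.κ i j k)⁻¹ * α.1 i j k) * (α.1 i j k)⁻¹ := by group
      _ = _ := by rw [this]; group
  · intro J i j k hJ hi hj hk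
    exact mul_mem (inv_mem (α.2.gen hJ hi hj hk)) (b.idem.gen hJ hi hj hk)

theorem om_sum (h : perp α β) : ∃ s, IsSum s α β := by
  obtain ⟨s, hs⟩ := exists_mul h
  exact ⟨s, isSum_of_mul h hs⟩

theorem idemAux_diff {c : b.Om} (hκ : ∀ i j k, b.κ i j k = β.1 i j k * c.1 i j k)
    (h : perp α c) : ∃ d : b.Om, perp α d ∧ ∀ i j k, β.1 i j k = α.1 i j k * d.1 i j k := by
  obtain ⟨s, hs⟩ := exists_mul h
  obtain ⟨d, hd, hd'⟩ := exists_compl s
  obtain ⟨h1, h2⟩ := ((isSum_of_mul h hs).2 d).1 hd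
  refine ⟨d, om_symm h1, fun i j k => ?_⟩
  have := hd' i j k
  rw [hκ, hs, mul_assoc, ← (h2 i j k i j k).eq, ← mul_assoc] at this
  exact mul_right_cancel this

/-- difference, in pointwise form -/
theorem exists_diff (h : Le α β) :
    ∃ d : b.Om, perp α d ∧ ∀ i j k, β.1 i j k = α.1 i j k * d.1 i j k := by
  obtain ⟨c, hc, hc'⟩ := exists_compl β
  exact idemAux_diff hc' (om_symm (h c hc))

theorem om_diff (h : Le α β) : ∃ d, IsSum β α d := by
  obtain ⟨d, hd, hd'⟩ := exists_diff h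
  exact ⟨d, isSum_of_mul hd hd'⟩

theorem om_antisymm (h : Le α β) (h' : Le β α) : α = β := by
  obtain ⟨d, hd, hd'⟩ := exists_diff h
  have hn : perp d d := (((isSum_of_mul hd hd').2 d).1 (h' d (om_symm hd))).2
  apply Subtype.ext
  funext i j k
  rw [hd', eq_one_of_null hn, mul_one]

theorem mul_of_isSum (h : IsSum s α β) (i j k : I) : s.1 i j k = α.1 i j k * β.1 i j k := by
  obtain ⟨s', hs'⟩ := exists_mul h.1
  have h' := isSum_of_mul h.1 hs'
  have : s = s' := om_antisymm (fun c hc => (h.2 c).2 ((h'.2 c).1 hc))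
    (fun c hc => (h'.2 c).2 ((h.2 c).1 hc))
  rw [this, hs']

/-- orthogonal to the complement means below -/
theorem le_of_perp_compl {c : b.Om} (hc : perp c β)
    (hκ : ∀ i j k, b.κ i j k = β.1 i j k * c.1 i j k) (h : perp α c) : Le α β := by
  have _ := hc
  obtain ⟨d, hd, hd'⟩ := idemAux_diff hκ h
  exact fun c' hc' => (((isSum_of_mul hd hd').2 c').1 hc').1

/-- a larger family acts by conjugation as the full family does -/
theorem conj_of_le (h : Le α β) {i j k i' j' k' : I} (h1 : D3 i j k) (h2 : D3 i' j' k') :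
    β.1 i j k * α.1 i' j' k' * (β.1 i j k)⁻¹ = α.1 (c3 i j k i') (c3 i j k j') (c3 i j k k') := by
  obtain ⟨d, hd, hd'⟩ := exists_diff h
  rw [← α.2.conj h1 h2, hd', mul_assoc (α.1 i j k) (d.1 i j k), ← (hd i' j' k' i j k).eq]
  group

/-- the intersection formula -/
theorem inter5 {p q r p' q' : b.Om} (hp : IsSum p r p') (hq : IsSum q r q') (h : perp p' q)
    {x a c u e : I} (h0 : D3 x a c) (h1 : D3 x a u) (h2 : D3 x c e)
    (h3 : u ≠ c) (h4 : u ≠ e) (h5 : a ≠ e) : r.1 x a c = ⁅p.1 x a u, q.1 x c e⁆ := by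
  rw [comm5 r h0 h1 h2 h3 h4 h5, mul_of_isSum hp x a u, commutatorElement_def,
    commutatorElement_def, mul_assoc (r.1 x a u) (p'.1 x a u), (h x a u x c e).eq,
    mul_of_isSum hq x c e]
  have := (hq.1 x a u x c e).inv_left.eq
  calc _ = r.1 x a u * r.1 x c e * ((r.1 x a u)⁻¹ * q'.1 x c e) * (q'.1 x c e)⁻¹ *
        (r.1 x c e)⁻¹ := by group
    _ = _ := by rw [this]; group

end Base

end Vale.Agent.P196
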