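import Vale.Agent.P196.IdemBasic

/-! P196 task L: auxiliary results for the splitting lemma. -/

namespace Vale.Agent.P196.IdemQLAux

open scoped commutatorElement

variable {P : Type} [Group P] {b : Base P}

theorem comm_closure {S : Set P} {x : P} (h : ∀ g ∈ S, Commute g x) :
    ∀ g ∈ Subgroup.closure S, Commute g x := by
  intro g hg
  induction hg using Subgroup.closure_induction with
  | mem g hg => exact h g hg
  | one => exact Commute.one_left x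
  | mul g g' _ _ h1 h2 => exact h1.mul_left h2
  | inv g _ h1 => exact h1.inv_left

theorem comm_closure₂ {S T : Set P} (h : ∀ g ∈ S, ∀ g' ∈ T, Commute g g') :
    ∀ g ∈ Subgroup.closure S, ∀ g' ∈ Subgroup.closure T, Commute g g' := fun g hg g' hg' =>
  (comm_closure (fun y hy => (comm_closure (fun z hz => h z hz y hy) g hg).symm) g' hg').symm

theorem conj_closure {S : Set P} {w : P} (h : ∀ g ∈ S, w * g * w⁻¹ ∈ S) :
    ∀ g ∈ Subgroup.closure S, w * g * w⁻¹ ∈ Subgroup.closure S := by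
  intro g hg
  induction hg using Subgroup.closure_induction with
  | mem g hg => exact Subgroup.subset_closure (h g hg)
  | one => rw [mul_one, mul_inv_cancel]; exact one_mem _
  | mul g g' _ _ h1 h2 => rw [← conj_mul]; exact mul_mem h1 h2
  | inv g _ h1 => rw [← conj_inv]; exact inv_mem h1

theorem conj_of_comm {w g : P} (h : Commute w g) : w * g * w⁻¹ = g := by
  rw [h.eq, mul_inv_cancel_right]

theorem conj_mul_of_comm (v : P) {w g : P} (h : Commute w g) :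
    v * w * g * (v * w)⁻¹ = v * g * v⁻¹ := by
  rw [mul_assoc v, h.eq]
  group

theorem comm_mem {Γ : Subgroup P} {g h : P} (hg : g ∈ Γ) (hh : h ∈ Γ) : ⁅g, h⁆ ∈ Γ :=
  mul_mem (mul_mem (mul_mem hg hh) (inv_mem hg)) (inv_mem hh)

theorem comm_mul {Γ1 Γ2 : Subgroup P} (hc : ∀ g ∈ Γ1, ∀ g' ∈ Γ2, Commute g g') {g1 h1 g2 h2 : P}
    (a1 : g1 ∈ Γ1) (b1 : h1 ∈ Γ1) (a2 : g2 ∈ Γ2) (b2 : h2 ∈ Γ2) :
    ⁅g1 * g2, h1 * h2⁆ = ⁅g1, h1⁆ * ⁅g2, h2⁆ := by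
  have e1 : g1 * g2 * (h1 * h2) * (g1 * g2)⁻¹ = g1 * h1 * g1⁻¹ * (g2 * h2 * g2⁻¹) := by
    rw [← conj_mul, conj_mul_of_comm g1 (hc h1 b1 g2 a2).symm, (hc g1 a1 g2 a2).eq,
      conj_mul_of_comm g2 (hc g1 a1 h2 b2)]
  have e2 := (hc _ (inv_mem b1) _ (comm_mem a2 b2)).eq
  rw [commutatorElement_def, e1, commutatorElement_def g1, mul_assoc _ h1⁻¹, e2,
    commutatorElement_def]
  group

theorem exists_five (S T : Finset I) (h : Disjoint S T) (hS : S.card ≤ 5) (hT : T.card ≤ 25) :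
    ∃ J : Finset I, S ⊆ J ∧ Disjoint J T ∧ J.card = 5 := by
  obtain ⟨J, h1, h2, h3⟩ := Finset.exists_subsuperset_card_eq (s := S) (t := Tᶜ) (n := 5)
    (Finset.subset_compl_iff_disjoint_right.2 h) hS
    (by rw [Finset.card_compl, Fintype.card_fin]; omega)
  exact ⟨J, h1, Finset.subset_compl_iff_disjoint_right.1 h2, h3⟩

theorem exists_fresh (l : List I) (h : l.length < 30) : ∃ f, f ∉ l := by
  by_contra hc
  push Not at hc
  have h1 : (Finset.univ : Finset I) ⊆ l.toFinset := fun x _ => List.mem_toFinset.2 (hc x)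
  have h2 := (Finset.card_le_card h1).trans (List.toFinset_card_le l)
  rw [Finset.card_univ, Fintype.card_fin] at h2
  omega

/-- five distinct points -/
structure D5 (x a u c e : I) : Prop where
  h0 : D3 x a c
  h1 : D3 x a u
  h2 : D3 x c e
  h3 : u ≠ c
  h4 : u ≠ e
  h5 : a ≠ e

theorem D5.map {x a u c e : I} (h : D5 x a u c e) (π : Equiv.Perm I) :
    D5 (π x) (π a) (π u) (π c) (π e) :=
  ⟨h.h0.map π.injective, h.h1.map π.injective, h.h2.map π.injective, π.injective.ne h.h3,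
    π.injective.ne h.h4, π.injective.ne h.h5⟩

theorem D5.swap {x a u c e : I} (h : D5 x a u c e) : D5 x c e a u :=
  ⟨basicAux_flip h.h0, h.h2, h.h1, h.h5.symm, h.h4.symm, h.h3.symm⟩

theorem exists_D5 {J : Finset I} (hJ : J.card = 5) {x a c : I} (h : D3 x a c) :
    ∃ u ∈ J, ∃ e ∈ J, D5 x a u c e := by
  have h1 : 1 < (J \ {x, a, c}).card := by
    have h2 := Finset.le_card_sdiff ({x, a, c} : Finset I) J
    have h3 : ({x, a, c} : Finset I).card ≤ 3 := Finset.card_le_three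
    omega
  obtain ⟨u, hu, e, he, hue⟩ := Finset.one_lt_card.1 h1
  simp only [Finset.mem_sdiff, Finset.mem_insert, Finset.mem_singleton, not_or] at hu he
  exact ⟨u, hu.1, e, he.1, h, ⟨h.1, Ne.symm hu.2.1, Ne.symm hu.2.2.1⟩,
    ⟨h.2.1, Ne.symm he.2.1, Ne.symm he.2.2.2⟩, hu.2.2.2, hue, Ne.symm he.2.2.1⟩

theorem exists_J (x a c : I) : ∃ J : Finset I, J.card = 5 ∧ x ∈ J ∧ a ∈ J ∧ c ∈ J := by
  obtain ⟨J, h1, -, h3⟩ := exists_five {x, a, c} ∅ (Finset.disjoint_empty_right _)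
    (Finset.card_le_three.trans (by norm_num)) (by simp)
  exact ⟨J, h3, h1 (by simp), h1 (by simp), h1 (by simp)⟩

theorem val_inv (α : b.Om) (i j k : I) : (α.1 i j k)⁻¹ = α.1 i k j := by
  by_cases h : D3 i j k
  · exact (α.2.inv h).symm
  · rw [α.2.junk h, α.2.junk fun h' => h (basicAux_flip h'), inv_one]

theorem conjk_val (α : b.Om) (i j k i' j' k' : I) :
    ∃ x y z, b.κ i j k * α.1 i' j' k' * (b.κ i j k)⁻¹ = α.1 x y z := by
  by_cases h : D3 i j k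
  · by_cases h' : D3 i' j' k'
    · exact ⟨_, _, _, α.2.conjk h h'⟩
    · exact ⟨i', j', k', by rw [α.2.junk h', mul_one, mul_inv_cancel]⟩
  · exact ⟨i', j', k', by rw [b.idem.junk h, one_mul, inv_one, mul_one]⟩

/-- the hypotheses of the splitting lemma -/
structure Spl (r : b.Om) (Γ1 Γ2 : Subgroup P) : Prop where
  hc : ∀ g ∈ Γ1, ∀ g' ∈ Γ2, Commute g g'
  h1 : ∀ i j k, ∀ g ∈ Γ1, b.κ i j k * g * (b.κ i j k)⁻¹ ∈ Γ1
  h2 : ∀ i j k, ∀ g ∈ Γ2, b.κ i j k * g * (b.κ i j k)⁻¹ ∈ Γ2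
  hd : ∀ J : Finset I, J.card = 5 → ∀ i ∈ J, ∀ j ∈ J, ∀ k ∈ J, D3 i j k →
    ∃ g1 ∈ Γ1 ⊓ b.Gen J, ∃ g2 ∈ Γ2 ⊓ b.Gen J, r.1 i j k = g1 * g2

/-- `g` is a first component of a value of `r` -/
def Pt (r : b.Om) (Γ1 Γ2 : Subgroup P) (g : P) (x a c : I) : Prop :=
  g ∈ Γ1 ∧ g⁻¹ * r.1 x a c ∈ Γ2

/-- conjugation by `w` acts on the indices as `π` -/
structure Act (r : b.Om) (Γ1 Γ2 : Subgroup P) (w : P) (π : Equiv.Perm I) : Prop where
  n1 : ∀ g ∈ Γ1, w * g * w⁻¹ ∈ Γ1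
  n2 : ∀ g ∈ Γ2, w * g * w⁻¹ ∈ Γ2
  eq : ∀ {i j k}, D3 i j k → w * r.1 i j k * w⁻¹ = r.1 (π i) (π j) (π k)

variable {r : b.Om} {Γ1 Γ2 : Subgroup P}

theorem Spl.symm (h : Spl r Γ1 Γ2) : Spl r Γ2 Γ1 :=
  ⟨fun g hg g' hg' => (h.hc g' hg' g hg).symm, h.h2, h.h1, fun J hJ i hi j hj k hk hD => by
    obtain ⟨g1, a1, g2, a2, e⟩ := h.hd J hJ i hi j hj k hk hD
    exact ⟨g2, a2, g1, a1, e.trans (h.hc g1 a1.1 g2 a2.1).eq⟩⟩

theorem Spl.exists_gen (h : Spl r Γ1 Γ2) {J : Finset I} (hJ : J.card = 5) {x a c : I} (hx : x ∈ J)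
    (ha : a ∈ J) (hc : c ∈ J) (hD : D3 x a c) : ∃ g ∈ b.Gen J, Pt r Γ1 Γ2 g x a c := by
  obtain ⟨g1, a1, g2, a2, e⟩ := h.hd J hJ x hx a ha c hc hD
  exact ⟨g1, a1.2, a1.1, by rw [e, inv_mul_cancel_left]; exact a2.1⟩

theorem Spl.exists_pt (h : Spl r Γ1 Γ2) {x a c : I} (hD : D3 x a c) :
    ∃ g, Pt r Γ1 Γ2 g x a c := by
  obtain ⟨J, hJ, hx, ha, hc⟩ := exists_J x a c
  obtain ⟨g, -, hg⟩ := h.exists_gen hJ hx ha hc hD
  exact ⟨g, hg⟩

theorem Pt.diff {g g' : P} {x a c : I} (h : Pt r Γ1 Γ2 g x a c) (h' : Pt r Γ1 Γ2 g' x a c) :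
    g⁻¹ * g' ∈ Γ1 ∧ g⁻¹ * g' ∈ Γ2 := by
  refine ⟨mul_mem (inv_mem h.1) h'.1, ?_⟩
  have e : g⁻¹ * g' = g⁻¹ * r.1 x a c * (g'⁻¹ * r.1 x a c)⁻¹ := by group
  rw [e]
  exact mul_mem h.2 (inv_mem h'.2)

theorem Spl.cm_eq (h : Spl r Γ1 Γ2) {g g' k k' : P} {x a c y d e : I} (a1 : Pt r Γ1 Γ2 g x a c)
    (a2 : Pt r Γ1 Γ2 g' x a c) (b1 : Pt r Γ1 Γ2 k y d e) (b2 : Pt r Γ1 Γ2 k' y d e) :
    ⁅g, k⁆ = ⁅g', k'⁆ := by
  have e := comm_mul h.hc a1.1 b1.1 (a1.diff a2).2 (b1.diff b2).2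
  rw [mul_inv_cancel_left, mul_inv_cancel_left,
    (h.hc _ (a1.diff a2).1 _ (b1.diff b2).2).commutator_eq, mul_one] at e
  exact e.symm

theorem Spl.val_eq (h : Spl r Γ1 Γ2) {g k : P} {x a u c e : I} (hD : D5 x a u c e)
    (a1 : Pt r Γ1 Γ2 g x a u) (b1 : Pt r Γ1 Γ2 k x c e) :
    r.1 x a c = ⁅g, k⁆ * ⁅g⁻¹ * r.1 x a u, k⁻¹ * r.1 x c e⁆ := by
  rw [← comm_mul h.hc a1.1 b1.1 a1.2 b1.2, mul_inv_cancel_left, mul_inv_cancel_left]
  exact Base.comm5 r hD.h0 hD.h1 hD.h2 hD.h3 hD.h4 hD.h5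

theorem Spl.cm_pt (h : Spl r Γ1 Γ2) {g k : P} {x a u c e : I} (hD : D5 x a u c e)
    (a1 : Pt r Γ1 Γ2 g x a u) (b1 : Pt r Γ1 Γ2 k x c e) : Pt r Γ1 Γ2 ⁅g, k⁆ x a c :=
  ⟨comm_mem a1.1 b1.1, by rw [h.val_eq hD a1 b1, inv_mul_cancel_left]; exact comm_mem a1.2 b1.2⟩

theorem Act.pt {w g : P} {π : Equiv.Perm I} (h : Act r Γ1 Γ2 w π) {x a c : I} (hD : D3 x a c)
    (a1 : Pt r Γ1 Γ2 g x a c) : Pt r Γ1 Γ2 (w * g * w⁻¹) (π x) (π a) (π c) := by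
  refine ⟨h.n1 g a1.1, ?_⟩
  rw [← h.eq hD, conj_inv, conj_mul]
  exact h.n2 _ a1.2

theorem Spl.act_k (h : Spl r Γ1 Γ2) {i j k : I} (hD : D3 i j k) :
    Act r Γ1 Γ2 (b.κ i j k) (c3 i j k) :=
  ⟨h.h1 i j k, h.h2 i j k, fun h' => r.2.conjk hD h'⟩

theorem Spl.conj_pt (h : Spl r Γ1 Γ2) {w g : P} {i j k : I} (hw : Pt r Γ1 Γ2 w i j k)
    (hg : g ∈ Γ1) : r.1 i j k * g * (r.1 i j k)⁻¹ = w * g * w⁻¹ := by
  rw [← conj_mul_of_comm w (h.hc g hg _ hw.2).symm, mul_inv_cancel_left]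

theorem Spl.act_r (h : Spl r Γ1 Γ2) {i j k : I} (hD : D3 i j k) :
    Act r Γ1 Γ2 (r.1 i j k) (c3 i j k) := by
  obtain ⟨w, hw⟩ := h.exists_pt hD
  obtain ⟨v, hv⟩ := h.symm.exists_pt hD
  refine ⟨fun g hg => ?_, fun g hg => ?_, fun h' => r.2.conj hD h'⟩
  · rw [h.conj_pt hw hg]
    exact mul_mem (mul_mem hw.1 hg) (inv_mem hw.1)
  · rw [h.symm.conj_pt hv hg]
    exact mul_mem (mul_mem hv.1 hg) (inv_mem hv.1)

theorem Spl.conj_far (h : Spl r Γ1 Γ2) {g : P} {x a c i j k : I} (hD : D3 x a c) (hD' : D3 i j k)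
    (hg : Pt r Γ1 Γ2 g x a c) (hd : Disjoint ({x, a, c} : Finset I) {i, j, k}) :
    r.1 i j k * g * (r.1 i j k)⁻¹ = g := by
  obtain ⟨J, s1, d1, c1⟩ := exists_five _ _ hd (Finset.card_le_three.trans (by norm_num))
    (Finset.card_le_three.trans (by norm_num))
  obtain ⟨J', s2, d2, c2⟩ := exists_five _ _ d1.symm (Finset.card_le_three.trans (by norm_num))
    (by omega)
  obtain ⟨g0, m0, p0⟩ := h.exists_gen c1 (s1 (by simp)) (s1 (by simp)) (s1 (by simp)) hD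
  have k1 : Commute (r.1 i j k) g0 :=
    b.comm d2 _ (r.2.gen c2 (s2 (by simp)) (s2 (by simp)) (s2 (by simp))) _ m0
  obtain ⟨w, hw⟩ := h.exists_pt hD'
  have k2 : r.1 i j k * (g0⁻¹ * g) * (r.1 i j k)⁻¹ = g0⁻¹ * g := by
    rw [h.conj_pt hw (p0.diff hg).1, conj_of_comm (h.hc w hw.1 _ (p0.diff hg).2)]
  calc _ = r.1 i j k * (g0 * (g0⁻¹ * g)) * (r.1 i j k)⁻¹ := by rw [mul_inv_cancel_left]
    _ = g := by rw [← conj_mul, k2, conj_of_comm k1, mul_inv_cancel_left]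

/-- `z` is the five point commutator of first components -/
def Cm (r : b.Om) (Γ1 Γ2 : Subgroup P) (z : P) (x a u c e : I) : Prop :=
  ∀ g k, Pt r Γ1 Γ2 g x a u → Pt r Γ1 Γ2 k x c e → z = ⁅g, k⁆

theorem Spl.cm_move (h : Spl r Γ1 Γ2) {z : P} {x a u c e i j k : I} (hD : D5 x a u c e)
    (hz : Cm r Γ1 Γ2 z x a u c e) (hD' : D3 i j k)
    (hd : Disjoint ({x, a, c} : Finset I) {i, j, k}) :
    Cm r Γ1 Γ2 z x a (c3 i j k u) c (c3 i j k e) := by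
  obtain ⟨g, hg⟩ := h.exists_pt hD.h1
  obtain ⟨l, hl⟩ := h.exists_pt hD.h2
  have e1 := h.conj_far hD.h0 hD' (h.cm_pt hD hg hl) hd
  have fix : ∀ y ∈ ({x, a, c} : Finset I), c3 i j k y = y := fun y hy => by
    have h1 := Finset.disjoint_left.1 hd hy
    simp only [Finset.mem_insert, Finset.mem_singleton, not_or] at h1
    exact c3_of_ne h1.1 h1.2.1 h1.2.2
  have p1 := (h.act_r hD').pt hD.h1 hg
  have p2 := (h.act_r hD').pt hD.h2 hl
  rw [fix x (by simp), fix a (by simp)] at p1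
  rw [fix x (by simp), fix c (by simp)] at p2
  intro g' l' hg' hl'
  rw [hz g l hg hl, ← e1, conjugate_commutatorElement]
  exact h.cm_eq p1 hg' p2 hl'

theorem Spl.cm_e (h : Spl r Γ1 Γ2) {z : P} {x a u c e e' : I} (hD : D5 x a u c e)
    (hD' : D5 x a u c e') (hz : Cm r Γ1 Γ2 z x a u c e) : Cm r Γ1 Γ2 z x a u c e' := by
  by_cases he : e = e'
  · exact he ▸ hz
  obtain ⟨f, hf⟩ := exists_fresh [x, a, u, c, e, e'] (by simp)
  simp only [List.mem_cons, List.not_mem_nil, or_false, not_or] at hf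
  have d : D3 e e' f := ⟨he, Ne.symm hf.2.2.2.2.1, Ne.symm hf.2.2.2.2.2⟩
  have := h.cm_move hD hz d (by
    simp only [Finset.disjoint_insert_left, Finset.disjoint_singleton_left, Finset.mem_insert,
      Finset.mem_singleton, not_or]
    exact ⟨⟨hD.h2.2.1, hD'.h2.2.1, Ne.symm hf.1⟩, ⟨hD.h5, hD'.h5, Ne.symm hf.2.1⟩,
      hD.h2.2.2, hD'.h2.2.2, Ne.symm hf.2.2.2.1⟩)
  rwa [c3_a d, c3_of_ne hD.h4 hD'.h4 (Ne.symm hf.2.2.1)] at this

theorem Cm.swap {z : P} {x a u c e : I} (hz : Cm r Γ1 Γ2 z x a u c e) :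
    Cm r Γ1 Γ2 z⁻¹ x c e a u := fun g k hg hk => by
  rw [hz k g hk hg, commutatorElement_inv]

theorem Spl.cm_u (h : Spl r Γ1 Γ2) {z : P} {x a u u' c e : I} (hD : D5 x a u c e)
    (hD' : D5 x a u' c e) (hz : Cm r Γ1 Γ2 z x a u c e) : Cm r Γ1 Γ2 z x a u' c e := by
  have := (h.cm_e hD.swap hD'.swap hz.swap).swap
  rwa [inv_inv] at this

theorem Spl.cm_all (h : Spl r Γ1 Γ2) {z : P} {x a u u' c e e' : I} (hD : D5 x a u c e)
    (hD' : D5 x a u' c e') (hz : Cm r Γ1 Γ2 z x a u c e) : Cm r Γ1 Γ2 z x a u' c e' := by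
  obtain ⟨f, hf⟩ := exists_fresh [x, a, c, u, u'] (by simp)
  simp only [List.mem_cons, List.not_mem_nil, or_false, not_or] at hf
  have d0 : D3 x c f := ⟨hD.h0.2.1, Ne.symm hf.1, Ne.symm hf.2.2.1⟩
  have d1 : D5 x a u c f := ⟨hD.h0, hD.h1, d0, hD.h3, Ne.symm hf.2.2.2.1, Ne.symm hf.2.1⟩
  have d2 : D5 x a u' c f := ⟨hD.h0, hD'.h1, d0, hD'.h3, Ne.symm hf.2.2.2.2, Ne.symm hf.2.1⟩
  exact h.cm_e d2 hD' (h.cm_u d1 d2 (h.cm_e hD d1 hz))

theorem Spl.exists_val (h : Spl r Γ1 Γ2) (x a c : I) : ∃ z, (¬ D3 x a c → z = 1) ∧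
    (D3 x a c → Pt r Γ1 Γ2 z x a c) ∧ ∀ u e, D5 x a u c e → Cm r Γ1 Γ2 z x a u c e := by
  by_cases hD : D3 x a c
  · obtain ⟨J, hJ, -⟩ := exists_J x a c
    obtain ⟨u, -, e, -, h5⟩ := exists_D5 hJ hD
    obtain ⟨g, hg⟩ := h.exists_pt h5.h1
    obtain ⟨l, hl⟩ := h.exists_pt h5.h2
    exact ⟨⁅g, l⁆, fun h' => (h' hD).elim, fun _ => h.cm_pt h5 hg hl, fun u' e' h5' =>
      h.cm_all h5 h5' fun g' l' hg' hl' => h.cm_eq hg hg' hl hl'⟩
  · exact ⟨1, fun _ => rfl, fun h' => (hD h').elim, fun _ _ h5 => (hD h5.h0).elim⟩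

theorem Spl.half (h : Spl r Γ1 Γ2) : ∃ r1 : b.Om, (∀ i j k, r1.1 i j k ∈ Γ1) ∧
    ∀ x a u c e, D5 x a u c e → Cm r Γ1 Γ2 (r1.1 x a c) x a u c e := by
  choose z z0 z1 z2 using h.exists_val
  have mem : ∀ i j k, z i j k ∈ Γ1 := fun i j k => by
    by_cases hD : D3 i j k
    · exact (z1 i j k hD).1
    · rw [z0 i j k hD]; exact one_mem _
  have d5 : ∀ {x a c}, D3 x a c → ∃ u e, D5 x a u c e := fun {x a c} hD => by
    obtain ⟨J, hJ, -⟩ := exists_J x a c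
    obtain ⟨u, -, e, -, h5⟩ := exists_D5 hJ hD
    exact ⟨u, e, h5⟩
  have act : ∀ {w π}, Act r Γ1 Γ2 w π → ∀ {x a c}, D3 x a c →
      w * z x a c * w⁻¹ = z (π x) (π a) (π c) := fun {w π} hw {x a c} hD => by
    obtain ⟨u, e, h5⟩ := d5 hD
    rw [z2 x a c u e h5 _ _ (z1 _ _ _ h5.h1) (z1 _ _ _ h5.h2), conjugate_commutatorElement]
    exact (z2 _ _ _ _ _ (h5.map π) _ _ (hw.pt h5.h1 (z1 _ _ _ h5.h1))
      (hw.pt h5.h2 (z1 _ _ _ h5.h2))).symm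
  have conj : ∀ {i j k i' j' k'}, D3 i j k → D3 i' j' k' → z i j k * z i' j' k' * (z i j k)⁻¹ =
      z (c3 i j k i') (c3 i j k j') (c3 i j k k') := fun hD hD' => by
    rw [← h.conj_pt (z1 _ _ _ hD) (mem _ _ _)]
    exact act (h.act_r hD) hD'
  have inv : ∀ {i j k}, D3 i j k → z i k j = (z i j k)⁻¹ := fun {i j k} hD => by
    obtain ⟨u, e, h5⟩ := d5 hD
    rw [z2 i j k u e h5 _ _ (z1 _ _ _ h5.h1) (z1 _ _ _ h5.h2), commutatorElement_inv]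
    exact z2 i k j e u h5.swap _ _ (z1 _ _ _ h5.h2) (z1 _ _ _ h5.h1)
  refine ⟨⟨z, fun hD => z0 _ _ _ hD, fun {i j k} hD => ?_, inv, fun {x a c e} hD h1 h2 h3 => ?_,
    fun hD hD' => act (h.act_k hD) hD', conj, fun {J i j k} hJ hi hj hk => ?_⟩, mem,
    fun x a u c e => z2 x a c u e⟩
  · have := conj hD hD
    rwa [mul_inv_cancel_right, c3_a hD, c3_b hD, c3_c hD] at this
  · obtain ⟨u, hu⟩ := exists_fresh [x, a, c, e] (by simp)
    simp only [List.mem_cons, List.not_mem_nil, or_false, not_or] at hu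
    have h5 : D5 x a u c e := ⟨hD, ⟨hD.1, Ne.symm hu.1, Ne.symm hu.2.1⟩, ⟨hD.2.1, h1, h3⟩,
      hu.2.2.1, hu.2.2.2, h2⟩
    rw [z2 x a c u e h5 _ _ (z1 _ _ _ h5.h1) (z1 _ _ _ h5.h2), commutatorElement_def,
      conj h5.h1 h5.h2, inv h5.h2, c3_a h5.h1, c3_of_ne hD.2.1.symm hD.2.2.symm h5.h3.symm,
      c3_of_ne h1.symm h2.symm h5.h4.symm]
  · by_cases hD : D3 i j k
    · obtain ⟨u, hu, e, he, h5⟩ := exists_D5 hJ hD
      obtain ⟨g, m1, hg⟩ := h.exists_gen hJ hi hj hu h5.h1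
      obtain ⟨l, m2, hl⟩ := h.exists_gen hJ hi hk he h5.h2
      rw [z2 i j k u e h5 g l hg hl]
      exact comm_mem m1 m2
    · rw [z0 i j k hD]
      exact one_mem _

theorem Spl.split (h : Spl r Γ1 Γ2) : ∃ r1 r2 : b.Om, ∀ i j k, r1.1 i j k ∈ Γ1 ∧
    r2.1 i j k ∈ Γ2 ∧ r.1 i j k = r1.1 i j k * r2.1 i j k := by
  obtain ⟨r1, m1, c1⟩ := h.half
  obtain ⟨r2, m2, c2⟩ := h.symm.half
  refine ⟨r1, r2, fun x a c => ⟨m1 x a c, m2 x a c, ?_⟩⟩
  by_cases hD : D3 x a c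
  · obtain ⟨J, hJ, -⟩ := exists_J x a c
    obtain ⟨u, -, e, -, h5⟩ := exists_D5 hJ hD
    obtain ⟨g, hg⟩ := h.exists_pt h5.h1
    obtain ⟨l, hl⟩ := h.exists_pt h5.h2
    have other : ∀ {w : P} {i j k : I}, Pt r Γ1 Γ2 w i j k → Pt r Γ2 Γ1 (w⁻¹ * r.1 i j k) i j k :=
      fun {w i j k} hw => ⟨hw.2, by
        have e1 : (w⁻¹ * r.1 i j k)⁻¹ * r.1 i j k =
            (w⁻¹ * r.1 i j k)⁻¹ * w * (w⁻¹ * r.1 i j k)⁻¹⁻¹ := by group
        rw [e1, conj_of_comm (h.hc w hw.1 _ (inv_mem hw.2)).symm]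
        exact hw.1⟩
    rw [h.val_eq h5 hg hl, c1 x a u c e h5 g l hg hl, c2 x a u c e h5 _ _ (other hg) (other hl)]
  · rw [r.2.junk hD, r1.2.junk hD, r2.2.junk hD, mul_one]

/-- conjugates of values of `X` by products of values of `p` -/
inductive Orb (p X : b.Om) : P → Prop
  | base (i j k : I) : Orb p X (X.1 i j k)
  | conj (i j k : I) {g : P} : Orb p X g → Orb p X (p.1 i j k * g * (p.1 i j k)⁻¹)

theorem Orb.comm {p X c : b.Om} (h1 : perp c p) (h2 : perp c X) {g : P} (hg : Orb p X g)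
    (i j k : I) : Commute g (c.1 i j k) := by
  induction hg with
  | base x y z => exact (h2 i j k x y z).symm
  | conj x y z _ ih =>
    exact ((h1 i j k x y z).symm.mul_left ih).mul_left (h1 i j k x y z).symm.inv_left

theorem orb_sum {p r s X : b.Om} (h : IsSum p r s) (hs : perp s X) (g : P) :
    Orb p X g ↔ Orb r X g := by
  have key : ∀ {g}, Orb r X g → ∀ i j k,
      p.1 i j k * g * (p.1 i j k)⁻¹ = r.1 i j k * g * (r.1 i j k)⁻¹ := fun hg i j k => by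
    rw [Base.mul_of_isSum h, conj_mul_of_comm _ (hg.comm (Base.om_symm h.1) hs i j k).symm]
  constructor
  · intro hg
    induction hg with
    | base x y z => exact .base x y z
    | conj x y z _ ih => rw [key ih]; exact ih.conj x y z
  · intro hg
    induction hg with
    | base x y z => exact .base x y z
    | conj x y z h1 ih => rw [← key h1]; exact ih.conj x y z

theorem orb_steps {p p' X : b.Om} (hs : Relation.ReflTransGen (Step X) p p') {g : P}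
    (hg : Orb p X g) : Orb p' X g := by
  induction hs with
  | refl => exact hg
  | tail _ h ih =>
    obtain ⟨r, s, s', a1, a2, a3, a4⟩ := h
    exact (orb_sum a2 a4 g).2 ((orb_sum a1 a3 g).1 ih)

theorem orb_comm {p X Y : b.Om} (h : ∀ g, Orb p X g → ∀ i j k, Commute g (Y.1 i j k)) {g' : P}
    (hg' : Orb p Y g') : ∀ g, Orb p X g → Commute g g' := by
  induction hg' with
  | base x y z => exact fun g hg => h g hg x y z
  | @conj x y z g' _ ih =>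
    intro g hg
    have h1 := ih _ (hg.conj x z y)
    rw [← val_inv] at h1
    have h2 := h1.conj (p.1 x y z)
    have e : p.1 x y z * ((p.1 x y z)⁻¹ * g * (p.1 x y z)⁻¹⁻¹) * (p.1 x y z)⁻¹ = g := by group
    rwa [e] at h2

theorem Orb.conjk {p X : b.Om} {g : P} (hg : Orb p X g) (i j k : I) :
    Orb p X (b.κ i j k * g * (b.κ i j k)⁻¹) := by
  induction hg with
  | base x y z =>
    obtain ⟨x', y', z', e⟩ := conjk_val X i j k x y z
    rw [e]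
    exact .base x' y' z'
  | conj x y z _ ih =>
    obtain ⟨x', y', z', e⟩ := conjk_val p i j k x y z
    rw [← conj_mul, ← conj_mul, ← conj_inv, e]
    exact ih.conj x' y' z'

theorem le_of_sum {F X Y q : b.Om} (hF : IsSum F X Y) (h1 : perp q Y)
    (h2 : ∀ c, perp c F → perp q c) : Le q X := by
  obtain ⟨c, hc, hκ⟩ := Base.exists_compl F
  obtain ⟨cX, cY⟩ := (hF.2 c).1 hc
  obtain ⟨d, hd⟩ := Base.exists_mul (Base.om_symm cY)
  refine Base.le_of_perp_compl (c := d) (fun i j k x y z => ?_) (fun i j k => ?_)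
    fun i j k x y z => ?_
  · rw [hd]
    exact (hF.1 x y z i j k).symm.mul_left (cX i j k x y z)
  · rw [hκ, hd, Base.mul_of_isSum hF, mul_assoc]
  · rw [hd]
    exact (h1 i j k x y z).mul_right (h2 c hc i j k x y z)

theorem isSum_symm {F X Y : b.Om} (hF : IsSum F X Y) : IsSum F Y X :=
  ⟨Base.om_symm hF.1, fun c => (hF.2 c).trans and_comm⟩

theorem compat_dec {X p : b.Om} (h : Compat X p) :
    ∃ a d : b.Om, (∀ i j k, p.1 i j k = a.1 i j k * d.1 i j k) ∧ Le a X ∧ perp d X := by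
  obtain ⟨x1, x2, hX, h1, h2⟩ := h
  obtain ⟨d, hd, e⟩ := Base.exists_diff h1
  refine ⟨x1, d, e, fun c hc => ((hX.2 c).1 hc).1, (hX.2 d).2 ⟨Base.om_symm hd, ?_⟩⟩
  exact Base.om_symm (((Base.isSum_of_mul hd e).2 x2).1 h2).2

end Vale.Agent.P196.IdemQLAux
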