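import Vale.Agent.P196.IdemBasic
import Vale.Agent.P196.IdemQLAux

/-! P196 task L: the splitting lemma; equivariant families form a quantum logic. -/

namespace Vale.Agent.P196

variable {P : Type} [Group P] {b : Base P}

namespace Base

/-- splitting a family along two commuting subgroups -/
theorem split_gamma (r : b.Om) (Γ1 Γ2 : Subgroup P) (hc : ∀ g ∈ Γ1, ∀ g' ∈ Γ2, Commute g g')
    (h1 : ∀ i j k, ∀ g ∈ Γ1, b.κ i j k * g * (b.κ i j k)⁻¹ ∈ Γ1)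
    (h2 : ∀ i j k, ∀ g ∈ Γ2, b.κ i j k * g * (b.κ i j k)⁻¹ ∈ Γ2)
    (hd : ∀ J : Finset I, J.card = 5 → ∀ i ∈ J, ∀ j ∈ J, ∀ k ∈ J, D3 i j k →
      ∃ g1 ∈ Γ1 ⊓ b.Gen J, ∃ g2 ∈ Γ2 ⊓ b.Gen J, r.1 i j k = g1 * g2) :
    ∃ r1 r2 : b.Om, ∀ i j k, r1.1 i j k ∈ Γ1 ∧ r2.1 i j k ∈ Γ2 ∧
      r.1 i j k = r1.1 i j k * r2.1 i j k :=
  IdemQLAux.Spl.split ⟨hc, h1, h2, hd⟩

theorem om_cl {F X Y p p' : b.Om} (hF : IsSum F X Y) (hp : Le p F)
    (hs : Relation.ReflTransGen (Step X) p p') (h : perp p' Y) :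
    ∃ p1 p2, IsSum p p1 p2 ∧ Le p1 X ∧ Le p2 Y := by
  have k1 : ∀ g, IdemQLAux.Orb p X g → ∀ i j k, Commute g (Y.1 i j k) := fun g hg =>
    (IdemQLAux.orb_steps hs hg).comm (om_symm h) (om_symm hF.1)
  have hc := IdemQLAux.comm_closure₂ (S := {g | IdemQLAux.Orb p X g})
    (T := {g | IdemQLAux.Orb p Y g}) fun g hg g' hg' => IdemQLAux.orb_comm k1 hg' g hg
  have bX : ∀ i j k, X.1 i j k ∈ Subgroup.closure {g | IdemQLAux.Orb p X g} := fun i j k =>
    Subgroup.subset_closure (IdemQLAux.Orb.base i j k)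
  have bY : ∀ i j k, Y.1 i j k ∈ Subgroup.closure {g | IdemQLAux.Orb p Y g} := fun i j k =>
    Subgroup.subset_closure (IdemQLAux.Orb.base i j k)
  obtain ⟨p1, p2, hp12⟩ := split_gamma p _ _ hc
    (fun i j k => IdemQLAux.conj_closure fun g hg => IdemQLAux.Orb.conjk hg i j k)
    (fun i j k => IdemQLAux.conj_closure fun g hg => IdemQLAux.Orb.conjk hg i j k)
    fun J hJ x hx a ha c hc' hD => by
      obtain ⟨u, hu, e, he, h5⟩ := IdemQLAux.exists_D5 hJ hD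
      have m1 : p.1 x a u * X.1 x c e * (p.1 x a u)⁻¹ * (X.1 x c e)⁻¹ ∈
          Subgroup.closure {g | IdemQLAux.Orb p X g} := mul_mem
        (Subgroup.subset_closure ((IdemQLAux.Orb.base x c e).conj x a u)) (inv_mem (bX x c e))
      have m2 : p.1 x a u * Y.1 x c e * (p.1 x a u)⁻¹ * (Y.1 x c e)⁻¹ ∈
          Subgroup.closure {g | IdemQLAux.Orb p Y g} := mul_mem
        (Subgroup.subset_closure ((IdemQLAux.Orb.base x c e).conj x a u)) (inv_mem (bY x c e))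
      refine ⟨_, ⟨m1, IdemQLAux.comm_mem (p.2.gen hJ hx ha hu) (X.2.gen hJ hx hc' he)⟩, _,
        ⟨m2, IdemQLAux.comm_mem (p.2.gen hJ hx ha hu) (Y.2.gen hJ hx hc' he)⟩, ?_⟩
      have e1 := conj_of_le hp h5.h2 (basicAux_flip h5.h1)
      rw [← p.2.conj h5.h2 (basicAux_flip h5.h1), ← IdemQLAux.val_inv p x a u,
        mul_of_isSum hF] at e1
      have e2 := (hc _ (inv_mem (bX x c e)) _ m2).eq
      rw [comm5 p h5.h0 h5.h1 h5.h2 h5.h3 h5.h4 h5.h5, commutatorElement_def, mul_assoc,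
        mul_assoc, ← mul_assoc (p.1 x c e), ← e1, mul_assoc _ (X.1 x c e)⁻¹, e2]
      group
  have h12 : perp p1 p2 := fun i j k x y z => hc _ (hp12 i j k).1 _ (hp12 x y z).2.1
  refine ⟨p1, p2, isSum_of_mul h12 fun i j k => (hp12 i j k).2.2, ?_, ?_⟩
  · refine IdemQLAux.le_of_sum hF (fun i j k x y z => hc _ (hp12 i j k).1 _ (bY x y z))
      fun c hcF i j k x y z => IdemQLAux.comm_closure (fun g hg => ?_) _ (hp12 i j k).1
    exact IdemQLAux.Orb.comm (hp c hcF) ((hF.2 c).1 hcF).1 hg x y z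
  · refine IdemQLAux.le_of_sum (IdemQLAux.isSum_symm hF)
      (fun i j k x y z => (hc _ (bX x y z) _ (hp12 i j k).2.1).symm)
      fun c hcF i j k x y z => IdemQLAux.comm_closure (fun g hg => ?_) _ (hp12 i j k).2.1
    exact IdemQLAux.Orb.comm (hp c hcF) ((hF.2 c).1 hcF).2 hg x y z

theorem om_reg {X p q r p' q' : b.Om} (h1 : Compat X p) (h2 : Compat X q) (hp : IsSum p r p')
    (hq : IsSum q r q') (h : perp p' q) : Compat X r := by
  obtain ⟨a1, d1, e1, l1, o1⟩ := IdemQLAux.compat_dec h1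
  obtain ⟨a2, d2, e2, l2, o2⟩ := IdemQLAux.compat_dec h2
  have hc := IdemQLAux.comm_closure₂ (S := {g | ∃ α : b.Om, Le α X ∧ ∃ i j k, g = α.1 i j k})
    (T := {g | ∃ α : b.Om, perp α X ∧ ∃ i j k, g = α.1 i j k}) (by
      rintro _ ⟨α, hα, i, j, k, rfl⟩ _ ⟨β, hβ, x, y, z, rfl⟩
      exact (hα β hβ x y z i j k).symm)
  have nk : ∀ (Q : b.Om → Prop) (i j k : I),
      ∀ g ∈ Subgroup.closure {g | ∃ α : b.Om, Q α ∧ ∃ i j k, g = α.1 i j k},
        b.κ i j k * g * (b.κ i j k)⁻¹ ∈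
          Subgroup.closure {g | ∃ α : b.Om, Q α ∧ ∃ i j k, g = α.1 i j k} :=
    fun Q i j k => IdemQLAux.conj_closure (by
      rintro _ ⟨α, hα, x, y, z, rfl⟩
      exact ⟨α, hα, IdemQLAux.conjk_val α i j k x y z⟩)
  have mk : ∀ (Q : b.Om → Prop) (α : b.Om), Q α → ∀ i j k,
      α.1 i j k ∈ Subgroup.closure {g | ∃ α : b.Om, Q α ∧ ∃ i j k, g = α.1 i j k} :=
    fun Q α hα i j k => Subgroup.subset_closure ⟨α, hα, i, j, k, rfl⟩
  obtain ⟨r1, r2, hr⟩ := split_gamma r _ _ hc (nk fun α => Le α X) (nk fun α => perp α X)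
    fun J hJ x hx a ha c hc' hD => by
      obtain ⟨u, hu, e, he, h5⟩ := IdemQLAux.exists_D5 hJ hD
      have m1 := mk (fun α => Le α X) a1 l1 x a u
      have m2 := mk (fun α => Le α X) a2 l2 x c e
      have m3 := mk (fun α => perp α X) d1 o1 x a u
      have m4 := mk (fun α => perp α X) d2 o2 x c e
      refine ⟨_, ⟨IdemQLAux.comm_mem m1 m2,
        IdemQLAux.comm_mem (a1.2.gen hJ hx ha hu) (a2.2.gen hJ hx hc' he)⟩, _,
        ⟨IdemQLAux.comm_mem m3 m4,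
        IdemQLAux.comm_mem (d1.2.gen hJ hx ha hu) (d2.2.gen hJ hx hc' he)⟩, ?_⟩
      rw [inter5 hp hq h h5.h0 h5.h1 h5.h2 h5.h3 h5.h4 h5.h5, e1, e2,
        IdemQLAux.comm_mul hc m1 m2 m3 m4]
  have h12 : perp r1 r2 := fun i j k x y z => hc _ (hr i j k).1 _ (hr x y z).2.1
  have hs := isSum_of_mul h12 fun i j k => (hr i j k).2.2
  have l3 : Le r1 X := fun c hcX i j k x y z =>
    (hc _ (hr x y z).1 _ (mk (fun α => perp α X) c hcX i j k)).symm
  have o3 : perp r2 X := fun i j k x y z =>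
    (hc _ (mk (fun α => Le α X) X (fun _ h => h) x y z) _ (hr i j k).2.1).symm
  obtain ⟨d, hd⟩ := om_diff l3
  exact ⟨r1, d, hd, fun c hcr => ((hs.2 c).1 hcr).1,
    (hs.2 d).2 ⟨om_symm hd.1, om_symm ((hd.2 r2).1 o3).2⟩⟩

end Base

instance (b : Base P) : QL b.Om where
  symm := Base.om_symm
  top_perp := Base.om_top_perp
  null := Base.om_null
  sum := Base.om_sum
  diff := Base.om_diff
  cl := Base.om_cl
  reg := Base.om_reg

end Vale.Agent.P196
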