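import Vale.Agent.P196.TilesBasic

/-! P196 task X3: the pieces decide the tiles on the higher rows. -/

namespace Vale.Agent.P196

section general
variable {A Ω : Type} [QL Ω] {P P' : PVM A Ω} {X f : Ω}

theorem stageB_transport {φ ψ : A → Prop} (h : Dec X P φ)
    (h1 : ∀ g, Le g X → Frc g P φ → Frc g P' ψ)
    (h2 : ∀ g, Le g X → (Frc g P fun a => ¬ φ a) → Frc g P' fun a => ¬ ψ a) : Dec X P' ψ := by
  obtain ⟨f1, f2, hs, h3, h4⟩ := h
  exact ⟨f1, f2, hs, h1 _ hs.left h3, h2 _ hs.right h4⟩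

theorem stageB_single {ι : Type} [DecidableEq ι] {S : Finset ι} {Z : ι → Ω} (h : IsPart f S Z)
    {j : ι} (hj : j ∈ S) : ∃ Y, IsSum f (Z j) Y ∧ IsPart Y (S.filter fun i => ¬ i = j) Z := by
  obtain ⟨f1, f2, hs, h1, h2⟩ := h.split fun i => i = j
  refine ⟨f2, hs.congr (Le.refl _) (Le.refl _) (h1.le_of fun i hi => ?_)
    (h1.le (Finset.mem_filter.2 ⟨hj, rfl⟩)) (Le.refl _) (Le.refl _), h2⟩
  rw [(Finset.mem_filter.1 hi).2]
  exact Le.refl _

theorem stageB_det [Fintype A] {T : Type} [Fintype T] (k : A → T) {φ χ : A → Prop}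
    (hk : ∀ t, Dec X P fun a => k a = t) (hχ : Frc X P χ)
    (hdet : ∀ a a', χ a → χ a' → k a = k a' → φ a → φ a') : Dec X P φ :=
  (dec_of_values k hk fun t => ∃ a', χ a' ∧ k a' = t ∧ φ a').congr hχ fun a ha =>
    ⟨fun ⟨a', h1, h2, h3⟩ => hdet a' a h1 ha h2 h3, fun h => ⟨a, ha, rfl, h⟩⟩

theorem stageB_pair [Fintype A] {T T' : Type} {k : A → T} {k' : A → T'}
    (hk : ∀ t, Dec X P fun a => k a = t) (hk' : ∀ t, Dec X P fun a => k' a = t) (t : T × T') :
    Dec X P fun a => (k a, k' a) = t :=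
  ((hk t.1).and (hk' t.2)).congr (frc_of_forall (φ := fun _ => True) fun _ => trivial)
    fun a _ => (Prod.ext_iff (x := (k a, k' a)) (y := t)).symm

end general

section rules

theorem stageB_adj {adj : Bool} {L R Bl Ab : Lab} (h : Rule0 adj L R Bl Ab) :
    adj = false ↔ L.st = .e := by
  refine ⟨fun h1 => (h.gg h1).2.1, fun h1 => ?_⟩
  by_contra h2
  have h3 := (h.ad (by simpa using h2)).2.2.1
  rw [h1] at h3
  simp [stT] at h3

theorem stageB_dm1 {t t' : Ty} {d d1 d2 : Dm} {u u' : Um} (h1 : dmT t t' d d1 u u')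
    (h2 : dmT t t' d d2 u u') : d1 = d2 := by
  unfold dmT at h1 h2
  cases d <;> cases u <;> cases u' <;> split_ifs at h1 h2 <;> simp_all

theorem stageB_dm2 {t t' : Ty} {d d1 d2 : Dm} {u u' : Um} (h1 : dmT t t' d1 d u u')
    (h2 : dmT t t' d2 d u u') : d1 = d2 := by
  unfold dmT at h1 h2
  cases d <;> cases u <;> cases u' <;> split_ifs at h1 h2 <;> simp_all

theorem stageB_rule1 {adj adj' : Bool} {L R Bl Ab Ab' : Lab} (h : Rule0 adj L R Bl Ab)
    (h' : Rule0 adj' L R Bl Ab') : adj = adj' ∧ Ab = Ab' := by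
  have h1 : adj = adj' := by
    have h2 := (stageB_adj h).trans (stageB_adj h').symm
    cases adj <;> cases adj' <;> simp_all
  subst h1
  refine ⟨rfl, ?_⟩
  cases adj
  · exact (h.gg rfl).1.symm.trans (h'.gg rfl).1
  · obtain ⟨a1, a2, -, a3, -⟩ := h.ad rfl
    obtain ⟨b1, b2, -, b3, -⟩ := h'.ad rfl
    exact Lab.ext (h.ty2.symm.trans h'.ty2) (a1.symm.trans b1) (a2.symm.trans b2)
      (stageB_dm1 a3 b3)

theorem stageB_rule2 {adj adj' : Bool} {L R Bl Bl' Ab : Lab} (h : Rule0 adj L R Bl Ab)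
    (h' : Rule0 adj' L R Bl' Ab) : adj = adj' ∧ Bl = Bl' := by
  have h1 : adj = adj' := by
    have h2 := (stageB_adj h).trans (stageB_adj h').symm
    cases adj <;> cases adj' <;> simp_all
  subst h1
  refine ⟨rfl, ?_⟩
  cases adj
  · exact (h.gg rfl).1.trans (h'.gg rfl).1.symm
  · obtain ⟨a1, a2, -, a3, -⟩ := h.ad rfl
    obtain ⟨b1, b2, -, b3, -⟩ := h'.ad rfl
    have e : Bl.ty = Bl'.ty := h.ty2.trans h'.ty2.symm
    rw [← e] at b3
    exact Lab.ext e (a1.trans b1.symm) (a2.trans b2.symm) (stageB_dm2 a3 b3)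

theorem stageB_ph {m z : ℤ} (h0 : 0 ≤ z) (h1 : z < 3 * (2 * m + 1)) :
    0 ≤ ph m z ∧ ph m z ≤ 2 * m := by
  unfold ph
  split_ifs <;> omega

theorem stageB_hh {m j : ℤ} (h0 : 0 ≤ j) (h1 : j ≤ 2 * m) : m ≤ hh m j ∧ hh m j ≤ 2 * m := by
  unfold hh
  split_ifs <;> omega

theorem stageB_inj {m z z' : ℤ} (h0 : 0 ≤ z) (h1 : z < 3 * (2 * m + 1)) (h0' : 0 ≤ z')
    (h1' : z' < 3 * (2 * m + 1)) (hu : um m (hh m (ph m z)) z' = um m (hh m (ph m z)) z)
    (hs : st (2 * m + 1) z' = st (2 * m + 1) z) : z' = z := by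
  have a1 := stageB_ph h0 h1
  have a2 := stageB_ph h0' h1'
  have h2 : ph m z' = ph m z := by
    unfold um at hu
    generalize ph m z = j at *
    generalize ph m z' = j' at *
    unfold hh ms at hu
    split_ifs at hu <;> omega
  unfold ph at h2
  unfold st at hs
  split_ifs at h2 hs <;> omega

theorem stageB_ty {M z : ℤ} (h : ty M z = .f) : z = 1 := by
  unfold ty at h
  split_ifs at h
  assumption

end rules

variable {A Ω : Type} [QL Ω] [Fintype A] {q : ℤ → ℤ → PVM A Ω} {c : A → Core} {m : ℤ} {f : Ω}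

theorem stageB_ndvd {n v t : ℤ} (hv : n ∣ v) (h1 : v < t) (h2 : t < v + n) : ¬ n ∣ t := by
  intro h
  have h3 := Int.le_of_dvd (by omega : 0 < t - v) (dvd_sub h hv)
  omega

theorem stageB_mod {n a b : ℤ} (h0 : 0 ≤ b) (h1 : b < n) (h : n ∣ a - b) : a % n = b := by
  rw [← Int.emod_eq_of_lt h0 h1]
  exact Int.emod_eq_emod_iff_emod_sub_eq_zero.2 (Int.emod_eq_zero_of_dvd h)

theorem stageB_eq {n a w w' : ℤ} (hw : w ∈ Finset.Ico 0 n) (hw' : w' ∈ Finset.Ico 0 n)
    (h : (a + w') % n = (a + w) % n) : w' = w := by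
  rw [Finset.mem_Ico] at hw hw'
  have h1 : n ∣ a + w' - (a + w) := Int.dvd_of_emod_eq_zero
    (Int.emod_eq_emod_iff_emod_sub_eq_zero.1 h)
  rw [add_sub_add_left_eq_sub] at h1
  have := Int.eq_zero_of_abs_lt_dvd h1 (abs_lt.2 ⟨by omega, by omega⟩)
  omega

section main
variable (h : Stage q c m f) (hm : 3 ≤ m) {X : ℤ → Ω}
  (hX : IsPart f (Finset.Ico 0 (3 * (2 * m + 1))) X)
  (ho : ∀ w ∈ Finset.Ico 0 (3 * (2 * m + 1)), StageOut q c m w (X w))
  {w : ℤ} (hw : w ∈ Finset.Ico 0 (3 * (2 * m + 1)))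
include h hm hX ho hw

theorem stageB_a (u r : ℤ) (hr : r % (3 * m) = hh m (ph m ((u + w) % (3 * (2 * m + 1)))))
    (φ : Core → Prop) : Dec (X w) (q u r) fun a => φ (c a) := by
  have hN : 0 < 3 * (2 * m + 1) := by omega
  have b0 := fun t : ℤ => Int.emod_nonneg t hN.ne'
  have b1 := fun t : ℤ => Int.emod_lt_of_pos t hN
  have b2 := stageB_ph (b0 (u + w)) (b1 (u + w))
  have b3 := stageB_hh b2.1 b2.2
  have hnd : ¬ 3 * m ∣ r := fun e => by
    have := Int.emod_eq_zero_of_dvd e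
    omega
  obtain ⟨Y, hs, hY⟩ := stageB_single hX hw
  refine Dec.piece (ψ := fun a => (c a).R.um = um m (r % (3 * m)) ((u + w) % (3 * (2 * m + 1))) ∧
    (c a).R.st = st (2 * m + 1) ((u + w) % (3 * (2 * m + 1)))) hs
    (((ho w hw).low u r hnd).mono fun a ha => ⟨ha.umR, ha.stR⟩) (fun a ha => hY.perp_left ?_)
    (h.dec u r fun c' => (c'.R.um = um m (r % (3 * m)) ((u + w) % (3 * (2 * m + 1))) ∧
      c'.R.st = st (2 * m + 1) ((u + w) % (3 * (2 * m + 1)))) ∧ φ c')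
  intro w' hw'
  obtain ⟨h1, h2⟩ := Finset.mem_filter.1 hw'
  refine (ho w' h1).low u r hnd a fun hl => h2 (stageB_eq (a := u) hw h1 ?_)
  obtain ⟨h3, h4⟩ := not_not.1 ha
  refine stageB_inj (b0 _) (b1 _) (b0 _) (b1 _) ?_ (hl.stR.symm.trans h4)
  rw [← hr]
  exact hl.umR.symm.trans h3

omit hm ho [Fintype A] in
theorem stageB_vert (u t : ℤ) : (∀ φ : Lab → Prop, Dec (X w) (q u t) fun a => φ (c a).Ab) ↔
    ∀ φ : Lab → Prop, Dec (X w) (q u (t + 1)) fun a => φ (c a).Bl :=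
  ⟨fun h1 φ => stageB_transport (h1 φ)
    (fun g hg => (h.vert u t g (hg.trans (hX.le hw)) φ).1)
    (fun g hg => (h.vert u t g (hg.trans (hX.le hw)) fun l => ¬ φ l).1),
  fun h1 φ => stageB_transport (h1 φ)
    (fun g hg => (h.vert u t g (hg.trans (hX.le hw)) φ).2)
    (fun g hg => (h.vert u t g (hg.trans (hX.le hw)) fun l => ¬ φ l).2)⟩

omit hm ho [Fintype A] in
theorem stageB_hor (u : ℤ) {v : ℤ} (hv : 3 * m ∣ v) :
    (∀ φ : Lab → Prop, Dec (X w) (q u v) fun a => φ (c a).R) ↔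
    ∀ φ : Lab → Prop, Dec (X w) (q (u + 1) v) fun a => φ (c a).L :=
  ⟨fun h1 φ => stageB_transport (h1 φ)
    (fun g hg => (h.horF u v hv g (hg.trans (hX.le hw)) φ).1)
    (fun g hg => (h.horF u v hv g (hg.trans (hX.le hw)) fun l => ¬ φ l).1),
  fun h1 φ => stageB_transport (h1 φ)
    (fun g hg => (h.horF u v hv g (hg.trans (hX.le hw)) φ).2)
    (fun g hg => (h.horF u v hv g (hg.trans (hX.le hw)) fun l => ¬ φ l).2)⟩

omit hm in
theorem stageB_low (u : ℤ) {t : ℤ} (ht : ¬ 3 * m ∣ t) :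
    (∀ φ : Lab → Prop, Dec (X w) (q u t) fun a => φ (c a).Ab) ↔
    ∀ φ : Lab → Prop, Dec (X w) (q u t) fun a => φ (c a).Bl := by
  have h1 := ((ho w hw).low u t ht).and ((h.low u t ht).of_le (hX.le hw))
  have key : ∀ a a', (LowF m (t % (3 * m)) ((u + w) % (3 * (2 * m + 1)))
      ((u + w - 1) % (3 * (2 * m + 1))) (c a) ∧ (c a).cdom = true ∧
        (c a).R.ty = ty m (t % (3 * m))) → (LowF m (t % (3 * m)) ((u + w) % (3 * (2 * m + 1)))
      ((u + w - 1) % (3 * (2 * m + 1))) (c a') ∧ (c a').cdom = true ∧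
        (c a').R.ty = ty m (t % (3 * m))) → ((c a).Ab = (c a').Ab ↔ (c a).Bl = (c a').Bl) := by
    intro a a' ha ha'
    by_cases hz : (u + w) % (3 * (2 * m + 1)) = 0
    · have e1 : (c a).adj = false := by
        by_contra e
        exact ha.1.adj.1 (by simpa using e) hz
      have e2 : (c a').adj = false := by
        by_contra e
        exact ha'.1.adj.1 (by simpa using e) hz
      rw [(h.rule a).full_col ha.2.1 e1, (h.rule a').full_col ha'.2.1 e2]
    · obtain ⟨a1, a2, a3⟩ := (h.rule a).up_col ha.2.1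
      obtain ⟨b1, b2, b3⟩ := (h.rule a').up_col ha'.2.1
      obtain ⟨-, a4, a5⟩ := ha.1.col hz
      obtain ⟨-, b4, b5⟩ := ha'.1.col hz
      simp only [Lab.ext_iff, a1, a2, a3, b1, b2, b3, a4, a5, b4, b5]
  exact ⟨fun h2 φ => stageB_det (fun a => (c a).Ab) (fun l => h2 fun l' => l' = l) h1
      fun a a' ha ha' e h3 => (key a a' ha ha').1 e ▸ h3,
    fun h2 φ => stageB_det (fun a => (c a).Bl) (fun l => h2 fun l' => l' = l) h1
      fun a a' ha ha' e h3 => (key a a' ha ha').2 e ▸ h3⟩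

theorem stageB_b (u : ℤ) {v : ℤ} (hv : 3 * m ∣ v) :
    (∀ φ : Lab → Prop, Dec (X w) (q u v) fun a => φ (c a).Bl) ∧
    ∀ φ : Lab → Prop, Dec (X w) (q u v) fun a => φ (c a).Ab := by
  have hN : 0 < 3 * (2 * m + 1) := by omega
  have b2 := stageB_ph (Int.emod_nonneg (u + w) hN.ne') (Int.emod_lt_of_pos (u + w) hN)
  have b3 := stageB_hh b2.1 b2.2
  set y := hh m (ph m ((u + w) % (3 * (2 * m + 1)))) with hy
  have hv' : 3 * m ∣ v - 3 * m := dvd_sub hv (dvd_refl _)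
  have h1 : ∀ t, v - 3 * m + y ≤ t → t < v →
      ∀ φ : Lab → Prop, Dec (X w) (q u t) fun a => φ (c a).Ab := by
    intro t ht
    induction t, ht using Int.leInduction with
    | base =>
      exact fun _ φ => stageB_a h hm hX ho hw u _
        (stageB_mod (by omega) (by omega) (by rwa [add_sub_cancel_right])) fun c' => φ c'.Ab
    | succ t ht ih =>
      exact fun h2 => (stageB_low h hX ho hw u (stageB_ndvd hv' (by omega) (by omega))).2
        ((stageB_vert h hX hw u t).1 (ih (by omega)))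
  have h2 : ∀ t, t ≤ v + y → v < t →
      ∀ φ : Lab → Prop, Dec (X w) (q u t) fun a => φ (c a).Bl := by
    intro t ht
    induction t, ht using Int.leInductionDown with
    | base =>
      exact fun _ φ => stageB_a h hm hX ho hw u _
        (stageB_mod (by omega) (by omega) (by rwa [add_sub_cancel_right])) fun c' => φ c'.Bl
    | pred t ht ih =>
      refine fun h2 => (stageB_low h hX ho hw u (stageB_ndvd hv (by omega) (by omega))).1
        ((stageB_vert h hX hw u (t - 1)).2 ?_)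
      rw [sub_add_cancel]
      exact ih (by omega)
  refine ⟨?_, (stageB_vert h hX hw u v).2 (h2 (v + 1) (by omega) (by omega))⟩
  have h3 := (stageB_vert h hX hw u (v - 1)).1 (h1 (v - 1) (by omega) (by omega))
  rwa [sub_add_cancel] at h3

omit [Fintype A] in
theorem stageB_type (u : ℤ) {v : ℤ} (hv : 3 * m ∣ v) (hz : (u + w) % (3 * (2 * m + 1)) ≠ 0) :
    Frc (X w) (q u v) fun a => (c a).Bl.ty = ty (2 * m + 1) ((u + w) % (3 * (2 * m + 1))) := by
  have hv' : 3 * m ∣ v - 3 * m := dvd_sub hv (dvd_refl _)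
  have h1 := (h.vert u (v - 1) (X w) (hX.le hw)
    fun l => l.ty = ty (2 * m + 1) ((u + w) % (3 * (2 * m + 1)))).1
    (((ho w hw).low u (v - 1) (stageB_ndvd hv' (by omega) (by omega))).mono
      fun a ha => (ha.col hz).1)
  rwa [sub_add_cancel] at h1

theorem stageB_c {u v : ℤ} (hv : 3 * m ∣ v) (hu : 3 * (2 * m + 1) ∣ u + w) (φ : Lab → Prop) :
    Dec (X w) (q (u + 1) v) fun a => φ (c a).R := by
  have hN : 0 < 3 * (2 * m + 1) := by omega
  have e1 : (u + 1 + w) % (3 * (2 * m + 1)) = 1 :=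
    stageB_mod (by omega) (by omega) (by rwa [show u + 1 + w - 1 = u + w by ring])
  have e2 : (u + 1 + 1 + w) % (3 * (2 * m + 1)) = 2 :=
    stageB_mod (by omega) (by omega) (by rwa [show u + 1 + 1 + w - 2 = u + w by ring])
  have t1 : Frc (X w) (q (u + 1) v) fun a => (c a).Bl.ty = .f := by
    have := stageB_type h hm hX ho hw (u + 1) hv (by omega)
    rw [e1] at this
    exact this
  have t2 : Frc (X w) (q (u + 1 + 1) v) fun a => (c a).Bl.ty ≠ .f := by
    have := stageB_type h hm hX ho hw (u + 1 + 1) hv (by omega)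
    rw [e2] at this
    exact this.mono fun a ha e => by
      have := stageB_ty (ha.symm.trans e)
      omega
  obtain ⟨F, F', hF, f1, f2⟩ := h.dec (u + 1) v fun c' => c'.Bl.ty = .f
  obtain ⟨Y, hY⟩ := QL.diff (hF.cancel (hX.le hw) (t1.orth f2 fun a h1 h2 => h2 h1))
  have t3 : Frc Y (q (u + 1 + 1) v) fun a => (c a).Bl.ty = .f := by
    set w' := (-(u + 1)) % (3 * (2 * m + 1)) with hw'
    have m1 : w' ∈ Finset.Ico 0 (3 * (2 * m + 1)) :=
      Finset.mem_Ico.2 ⟨Int.emod_nonneg _ hN.ne', Int.emod_lt_of_pos _ hN⟩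
    have d1 : 3 * (2 * m + 1) ∣ u + 1 + w' := by
      rw [hw', Int.emod_def]
      exact ⟨-(-(u + 1) / (3 * (2 * m + 1))), by ring⟩
    have e3 : (u + 1 + 1 + w') % (3 * (2 * m + 1)) = 1 :=
      stageB_mod (by omega) (by omega) (by rwa [show u + 1 + 1 + w' - 1 = u + 1 + w' by ring])
    have h1 : Le Y (X w') := by
      refine hX.cancel (hY.right.trans hF.left) fun i hi hne => ?_
      by_cases hi' : i = w
      · rw [hi']; exact perp_symm hY.1
      · have h2 : (u + 1 + i) % (3 * (2 * m + 1)) ≠ 0 := fun e =>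
          hne (stageB_eq (a := u + 1) m1 hi (e.trans (Int.emod_eq_zero_of_dvd d1).symm))
        refine (f1.of_le hY.right).orth (stageB_type h hm hX ho hi (u + 1) hv h2) fun a h3 h4 => ?_
        exact hi' (stageB_eq (a := u + 1) hw hi ((stageB_ty (h4.symm.trans h3)).trans e1.symm))
    have := stageB_type h hm hX ho m1 (u + 1 + 1) hv (by omega)
    rw [e3] at this
    exact this.of_le h1
  obtain ⟨Q, Q', hQ, q1, q2⟩ := h.dec (u + 1) v fun c' => φ c'.R
  have q3 := (h.horF (u + 1) v hv Q hQ.left φ).1 q1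
  have q4 := (h.horF (u + 1) v hv Q' hQ.right fun l => ¬ φ l).1 q2
  obtain ⟨p, pc, hp, p1, p2⟩ := h.dec (u + 1) v fun c' => φ c'.R ∧ c'.Bl.ty = .f
  obtain ⟨s, hs⟩ := QL.diff (hQ.cancel hp.left (p1.orth q2 fun a h1 h2 => h2 h1.1))
  have s1 : perp s (X w) := ((q1.of_le hs.right).and (p2.of_le (hp.symm.cancel
    (hs.right.trans hQ.left) (perp_symm hs.1)))).orth t1 fun a h1 h2 => h1.2 ⟨h1.1, h2⟩
  obtain ⟨p', pc', hp', p3, p4⟩ := h.dec (u + 1 + 1) v fun c' => φ c'.L ∧ c'.Bl.ty ≠ .f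
  obtain ⟨s', hs'⟩ := QL.diff (hQ.cancel hp'.left (p3.orth q4 fun a h1 h2 => h2 h1.1))
  have s2 : perp s' (X w) := ((q3.of_le hs'.right).and (p4.of_le (hp'.symm.cancel
    (hs'.right.trans hQ.left) (perp_symm hs'.1)))).orth t2 fun a h1 h2 => h1.2 ⟨h1.1, h2⟩
  obtain ⟨z, hz⟩ := exists_null (Ω := Ω)
  obtain ⟨x1, x2, hx, x3, x4⟩ := QL.cl hY (hF.cancel hp.left (p1.orth f2 fun a h1 h2 => h2 h1.2))
    ((Relation.ReflTransGen.single ⟨p, z, s, isSum_null p hz, hs, null_perp hz _, s1⟩).tail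
      ⟨p', s', z, hs', isSum_null p' hz, s2, null_perp hz _⟩)
    (p3.orth t3 fun a h1 h2 => h1.2 h2)
  obtain ⟨d, hd⟩ := QL.diff x3
  refine ⟨x1, d, hd, (p1.of_le hx.left).mono fun a ha => ha.1,
    q2.of_le (hQ.symm.cancel (hd.right.trans (hX.le hw)) ?_)⟩
  exact (hs.2 d).2 ⟨(hx.2 d).2 ⟨perp_symm hd.1, perp_of_le hY.1 hd.right x4⟩,
    perp_of_le (perp_symm s1) hd.right (Le.refl _)⟩

theorem stageB_dL {u v : ℤ} (hv : 3 * m ∣ v) (hu : ¬ 3 * (2 * m + 1) ∣ u + w)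
    (h1 : ∀ φ : Lab → Prop, Dec (X w) (q u v) fun a => φ (c a).L) (φ : Core → Prop) :
    Dec (X w) (q u v) fun a => φ (c a) := by
  obtain ⟨b1, b2⟩ := stageB_b h hm hX ho hw u hv
  refine stageB_det (fun a => ((c a).L, (c a).Bl, (c a).Ab)) (stageB_pair (fun l => h1 (· = l))
    (stageB_pair (fun l => b1 (· = l)) fun l => b2 (· = l))) ((ho w hw).high u v hv hu)
    fun a a' ha ha' e h2 => ?_
  simp only [Prod.mk.injEq] at e
  have r1 := (h.rule a).2 ha
  have r2 := (h.rule a').2 ha'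
  rw [← e.1, ← e.2.1, ← e.2.2] at r2
  obtain ⟨r3, r4⟩ := stageB_rule1 r1 r2
  rwa [← Core.ext (ha.trans ha'.symm) r3 e.1 r4 e.2.1 e.2.2]

theorem stageB_dR {u v : ℤ} (hv : 3 * m ∣ v) (hu : ¬ 3 * (2 * m + 1) ∣ u + w)
    (h1 : ∀ φ : Lab → Prop, Dec (X w) (q u v) fun a => φ (c a).R) (φ : Core → Prop) :
    Dec (X w) (q u v) fun a => φ (c a) := by
  obtain ⟨b1, b2⟩ := stageB_b h hm hX ho hw u hv
  refine stageB_det (fun a => ((c a).R, (c a).Bl, (c a).Ab)) (stageB_pair (fun l => h1 (· = l))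
    (stageB_pair (fun l => b1 (· = l)) fun l => b2 (· = l))) ((ho w hw).high u v hv hu)
    fun a a' ha ha' e h2 => ?_
  simp only [Prod.mk.injEq] at e
  have r1 := (h.rule a).2 ha
  have r2 := (h.rule a').2 ha'
  rw [← e.1, ← e.2.1, ← e.2.2] at r2
  obtain ⟨r3, r4⟩ := stageB_rule2 r1 r2
  rwa [← Core.ext (ha.trans ha'.symm) r3 r4 e.1 e.2.1 e.2.2]

theorem stageB_d {u v : ℤ} (hv : 3 * m ∣ v) (hu : ¬ 3 * (2 * m + 1) ∣ u + w) (φ : Core → Prop) :
    Dec (X w) (q u v) fun a => φ (c a) := by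
  have hN : 0 < 3 * (2 * m + 1) := by omega
  have b0 := Int.emod_nonneg (u + w) hN.ne'
  have b1 := Int.emod_lt_of_pos (u + w) hN
  have b2 : (u + w) % (3 * (2 * m + 1)) ≠ 0 := fun e => hu (Int.dvd_of_emod_eq_zero e)
  set u0 := u - (u + w) % (3 * (2 * m + 1)) with hu0
  have d0 : 3 * (2 * m + 1) ∣ u0 + w := by
    rw [hu0, Int.emod_def]
    exact ⟨(u + w) / (3 * (2 * m + 1)), by ring⟩
  have h1 : ∀ t, u0 + 1 ≤ t → t < u0 + 3 * (2 * m + 1) →
      ∀ φ : Core → Prop, Dec (X w) (q t v) fun a => φ (c a) := by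
    intro t ht
    induction t, ht using Int.leInduction with
    | base =>
      exact fun _ => stageB_dR h hm hX ho hw hv (stageB_ndvd d0 (by omega) (by omega))
        (stageB_c h hm hX ho hw hv d0)
    | succ t ht ih =>
      exact fun h2 => stageB_dL h hm hX ho hw hv (stageB_ndvd d0 (by omega) (by omega))
        ((stageB_hor h hX hw t hv).1 fun φ => ih (by omega) fun c' => φ c'.R)
  exact h1 u (by omega) (by omega) φ

end main

theorem stageB (h : Stage q c m f) (hm : 3 ≤ m) {X : ℤ → Ω}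
    (hX : IsPart f (Finset.Ico 0 (3 * (2 * m + 1))) X)
    (ho : ∀ w ∈ Finset.Ico 0 (3 * (2 * m + 1)), StageOut q c m w (X w))
    {w : ℤ} (hw : w ∈ Finset.Ico 0 (3 * (2 * m + 1))) (u v : ℤ) (hv : 3 * m ∣ v)
    (φ : Core → Prop) : Dec (X w) (q u v) fun a => φ (c a) := by
  by_cases hu : 3 * (2 * m + 1) ∣ u + w
  swap
  · exact stageB_d h hm hX ho hw hv hu φ
  obtain ⟨b1, b2⟩ := stageB_b h hm hX ho hw u hv
  have b3 := (stageB_hor h hX hw u hv).2 fun φ => stageB_d h hm hX ho hw hv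
    (stageB_ndvd hu (by omega) (by omega)) fun c' => φ c'.L
  have b4 := (stageB_hor h hX hw (u - 1) hv).1 fun φ => stageB_d h hm hX ho hw hv
    (stageB_ndvd (dvd_sub hu (dvd_refl _)) (by omega) (by omega)) fun c' => φ c'.R
  rw [sub_add_cancel] at b4
  have b5 : Dec (X w) (q u v) fun a => (c a).cdom = true := by
    obtain ⟨C, C', hC, c1, c2⟩ := h.dec u v fun c' => c'.cdom = true
    have h1 : Le C (X w) := hX.cancel hC.left fun i hi hne =>
      c1.orth ((ho i hi).high u v hv fun e => hne (stageB_eq (a := u) hw hi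
        ((Int.emod_eq_zero_of_dvd e).trans (Int.emod_eq_zero_of_dvd hu).symm)))
        fun a h2 h3 => by rw [h2] at h3; cases h3
    obtain ⟨d, hd⟩ := QL.diff h1
    exact ⟨C, d, hd, c1, c2.of_le (hC.symm.cancel (hd.right.trans (hX.le hw)) (perp_symm hd.1))⟩
  have b6 : ∀ t, Dec (X w) (q u v) fun a => (c a).cdom = t := by
    rintro (_ | _)
    · exact b5.not.congr (frc_of_forall (φ := fun _ => True) fun _ => trivial) fun a _ => by simp
    · exact b5
  refine stageB_det (fun a => ((c a).cdom, (c a).L, (c a).R, (c a).Bl, (c a).Ab))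
    (stageB_pair b6 (stageB_pair (fun l => b4 (· = l)) (stageB_pair (fun l => b3 (· = l))
      (stageB_pair (fun l => b1 (· = l)) fun l => b2 (· = l)))))
    (frc_of_forall (φ := fun _ => True) fun _ => trivial) fun a a' _ _ e h2 => ?_
  simp only [Prod.mk.injEq] at e
  obtain ⟨e1, e2, e3, e4, e5⟩ := e
  have e6 : (c a).adj = (c a').adj := by
    cases hc : (c a).cdom
    · have r2 := (h.rule a').2 (e1.symm.trans hc)
      rw [← e2, ← e3, ← e4, ← e5] at r2
      exact (stageB_rule1 ((h.rule a).2 hc) r2).1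
    · have r2 := (h.rule a').1 (e1.symm.trans hc)
      rw [← e2, ← e3, ← e4, ← e5] at r2
      exact (stageB_rule1 ((h.rule a).1 hc) r2).1
  rwa [← Core.ext e1 e6 e2 e3 e4 e5]

end Vale.Agent.P196
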