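import Vale.Agent.P196.StageA
import Vale.Agent.P196.StageB

/-! P196 task X4: the induction over the levels. -/

namespace Vale.Agent.P196

variable {K : ℕ} {Ω : Type} [QL Ω] (R : Rep (Wst K) Ω)

/-- the sites of the stage `k` -/
def site (K k : ℕ) (Z : Z2) (u v : ℤ) : Z2 :=
  (u * ss K (k + 1) - co (k + 1) Z) • ac (k + 1) + (v * ss K k - co k Z) • ac k

theorem invAux_cnt {g : Ω} (ξ : ℤ → Prop) (h : Frc g (R.q 0) fun a => ξ (tl a).2) (z : Z2) :
    Frc g (R.q z) fun a => ξ (((tl a).2 - z.2) % nn K) := by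
  have e1 : ∀ (a a' : (Wst K).A) (y : ℤ), (Wst K).out true a = (Wst K).inn true a' →
      ((tl a').2 - (y + 1)) % nn K = ((tl a).2 - y) % nn K := by
    intro a a' y e
    have e2 : ((tl a).2 + 1) % nn K = (tl a').2 := congrArg Prod.snd e
    rw [← e2, Int.emod_sub_emod]
    congr 1; ring
  have e2 : ∀ (a a' : (Wst K).A), (Wst K).out false a = (Wst K).inn false a' →
      (tl a).2 = (tl a').2 := fun a a' e => congrArg (Prod.snd : Lab × ℤ → ℤ) e
  have e3 : ∀ x y : ℤ, ((x, y) : Z2) + ev true = (x, y + 1) := fun x y => by simp [ev]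
  have e4 : ∀ x y : ℤ, ((x, y) : Z2) + ev false = (x + 1, y) := fun x y => by simp [ev]
  have s1 : ∀ y : ℤ, Frc g (R.q (0, y)) fun a => ξ (((tl a).2 - y) % nn K) := by
    intro y
    induction y using Int.induction_on with
    | zero =>
      refine Frc.mono h fun a ha => ?_
      rwa [sub_zero, Int.emod_eq_of_lt (a := (tl a).2) a.2.1 a.2.2.1]
    | succ n ih =>
      rw [← e3]
      exact R.fwd ih fun a a' ha e => by rw [e1 a a' _ e]; exact ha
    | pred n ih =>
      rw [show ((0, -(n : ℤ)) : Z2) = (0, -(n : ℤ) - 1) + ev true by rw [e3, sub_add_cancel]] at ih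
      refine R.bwd ih fun a a' ha e => ?_
      rw [← e1 a a' _ e, sub_add_cancel]; exact ha
  obtain ⟨x, y⟩ := z
  change Frc g (R.q (x, y)) fun a => ξ (((tl a).2 - y) % nn K)
  induction x using Int.induction_on with
  | zero => exact s1 y
  | succ n ih =>
    rw [← e4]
    exact R.fwd ih fun a a' ha e => by rw [← e2 a a' e]; exact ha
  | pred n ih =>
    rw [show ((-(n : ℤ), y) : Z2) = (-(n : ℤ) - 1, y) + ev false by rw [e4, sub_add_cancel]] at ih
    exact R.bwd ih fun a a' ha e => by rw [e2 a a' e]; exact ha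

theorem invAux_known (hK : Stab K) {W : Z2} (a : (Wst K).A) (h : (tl a).2 = dg K K W) :
    Known K K W (tl a) := by
  have key : IsIdx K K W → ∃ z z' Bl Ab ad, vw K (tl a).1 =
      ⟨true, ad, lab K 0 (dg K K W) z, lab K 0 (dg K K W) z', Bl, Ab⟩ := by
    intro hi
    have h1 := hi.one_le
    have h2 : TAt K 0 (tl a).2 (tl a).1 := a.2.2.2.2 (by change (tl a).2 ≠ 0; omega)
    rw [h] at h2
    rcases h2 with ⟨z, w, -, -, -, -, e⟩ | ⟨j, x', y', z', -, -, -, -, -, -, -, -, e⟩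
    · exact ⟨_, _, _, _, _, by rw [e, tAdj, vw_vw]⟩
    · exact ⟨_, _, _, _, _, by rw [e, tGg, vw_vw]⟩
  have h0 : ∀ W', dg K (K - 1) W' = 0 := dg_of_lt (by have := hK.2.1; omega)
  refine ⟨h, fun j hj hi => absurd hi.le (by omega), fun hi => ?_, fun j hj hi _ => ?_,
    fun j hj hi => absurd hi.le (by omega)⟩
  · obtain ⟨z, z', Bl, Ab, ad, e⟩ := key hi
    rw [e]
    simp only [LabAt, lab, h0, dg_sub_ne (show (K + 1) % 2 ≠ K % 2 by omega), and_self]
  · obtain rfl : j = K := le_antisymm hj hi.le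
    obtain ⟨z, z', Bl, Ab, ad, e⟩ := key hi
    rw [e]

theorem invAux_co1 (k : ℕ) (Z : Z2) (u v : ℤ) :
    co (k + 1) (Z + site K k Z u v) = u * ss K (k + 1) := by
  rw [site, co_add, co_add, co_smul, co_smul, co_ac rfl, co_ac_ne (by omega)]; ring

theorem invAux_co0 (k : ℕ) (Z : Z2) (u v : ℤ) : co k (Z + site K k Z u v) = v * ss K k := by
  rw [site, co_add, co_add, co_smul, co_smul, co_ac rfl, co_ac_ne (by omega)]; ring

theorem invAux_ext {k : ℕ} {Z z z' : Z2} (h1 : co (k + 1) (Z + z) = co (k + 1) (Z + z'))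
    (h0 : co k (Z + z) = co k (Z + z')) : z = z' :=
  add_left_cancel (co_ext h0 h1)

theorem invAux_add0 (k : ℕ) (Z z : Z2) (t : ℤ) :
    co k (Z + (z + t • ac k)) = co k (Z + z) + t ∧
      co (k + 1) (Z + (z + t • ac k)) = co (k + 1) (Z + z) := by
  rw [← add_assoc, co_add, co_add (k + 1), co_smul, co_smul, co_ac rfl, co_ac_ne (by omega)]
  simp

theorem invAux_add1 (k : ℕ) (Z z : Z2) (t : ℤ) :
    co k (Z + (z + t • ac (k + 1))) = co k (Z + z) ∧
      co (k + 1) (Z + (z + t • ac (k + 1))) = co (k + 1) (Z + z) + t := by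
  rw [← add_assoc, co_add, co_add (k + 1), co_smul, co_smul, co_ac rfl, co_ac_ne (by omega)]
  simp

theorem invAux_not_dvd {s v t : ℤ} (h1 : 1 ≤ t) (h2 : t < s) : ¬ s ∣ v * s + t := fun h => by
  have := Int.le_of_dvd (by omega) ((dvd_add_right (dvd_mul_left s v)).1 h)
  omega

theorem invAux_run {g : Ω} (i : ℕ) (z : Z2) {s : ℤ} (hs : 0 ≤ s) (φ : Lab → Prop)
    (h : ∀ t : ℤ, 1 ≤ t → t ≤ s → Frc g (R.q (z + t • ac (i + 1))) fun a =>
      (φ (vw i (cr a)).L ↔ φ (vw i (cr a)).R)) :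
    (Frc g (R.q z) fun a => φ (vw i (cr a)).R) ↔
      Frc g (R.q (z + s • ac (i + 1))) fun a => φ (vw i (cr a)).R := by
  obtain ⟨n, rfl⟩ := Int.eq_ofNat_of_zero_le hs
  exact R.run_iff i z n φ fun t h1 h2 => h t (by omega) (by omega)

theorem invAux_run' {g : Ω} (i : ℕ) (z : Z2) {s : ℤ} (hs : 0 < s) (φ : Lab → Prop)
    (h : ∀ t : ℤ, 1 ≤ t → t < s → Frc g (R.q (z + t • ac (i + 1))) fun a =>
      (φ (vw i (cr a)).L ↔ φ (vw i (cr a)).R)) :
    (Frc g (R.q z) fun a => φ (vw i (cr a)).R) ↔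
      Frc g (R.q (z + s • ac (i + 1))) fun a => φ (vw i (cr a)).L := by
  rw [invAux_run R i z (s := s - 1) (by omega) φ fun t h1 h2 => h t h1 (by omega), R.edge_iff,
    show z + (s - 1) • ac (i + 1) + ac (i + 1) = z + s • ac (i + 1) by
      rw [sub_smul, one_smul]; abel]

theorem invAux_succ (k : ℕ) (c : Core) : vw (k + 1) c = (vw k c).tr := vw_ne (by omega) c

theorem invAux_col {k : ℕ} {W : Z2} {p : Core × ℤ} (h : Known K k W p) (hr : Rule p.1)
    (h0 : ¬ ss K k ∣ co k W) (h1 : ss K (k + 1) ∣ co (k + 1) W) :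
    (vw (k + 1) p.1).L = (vw (k + 1) p.1).R := by
  obtain ⟨j, hj, hp, hi⟩ := exists_idx h0
  have e := h.high hr hi (by omega) (by
    rw [co_congr (j := k + 1) (by omega)]; exact (ss_dvd (by omega) (by omega)).trans h1)
  rw [invAux_succ, ← vw_congr hp, e]; rfl

theorem invAux_rowU {k : ℕ} {W : Z2} {p : Core × ℤ} (h : Known K k W p) (hr : Rule p.1)
    (h0 : ss K k ∣ co k W) (h1 : ¬ ss K (k + 1) ∣ co (k + 1) W) :
    (vw k p.1).L.ty = (vw k p.1).R.ty ∧ (vw k p.1).L.st = (vw k p.1).R.st ∧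
      (vw k p.1).L.um = (vw k p.1).R.um := by
  obtain ⟨j, hj, hp, hi⟩ := exists_idx h1
  have e := h.dom j (by omega) hi (by
    rw [co_congr (j := k) (by omega)]; exact (ss_dvd (by omega) (by omega)).trans h0)
  refine (rule_vw.2 hr).up_row ?_
  rw [vw_ne (j := j) (by omega), Core.tr, e]; rfl

theorem invAux_rowF {k : ℕ} {W : Z2} {p : Core × ℤ} (h : Known K k W p) (hr : Rule p.1)
    (h0 : ss K (k + 2) ∣ co k W) (h1 : ¬ ss K (k + 1) ∣ co (k + 1) W) :
    (vw k p.1).L = (vw k p.1).R := by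
  obtain ⟨j, hj, hp, hi⟩ := exists_idx h1
  have e := h.high hr hi (by omega) (by
    rw [co_congr (j := k) (by omega)]; exact (ss_dvd (by omega) (by omega)).trans h0)
  rw [vw_ne (j := j) (by omega), e]; rfl

theorem invAux_dvd {k : ℕ} (hk : K ≤ k) (v : ℤ) : ss K (k + 2) ∣ v * ss K k ↔ 3 * mm k ∣ v := by
  rw [ss_add_two hk]; exact mul_dvd_mul_iff_right (ss_pos k).ne'

theorem invAux_dg {k : ℕ} (hk : K ≤ k) {W : Z2} {v t : ℤ} (h : co k W = v * ss K k + t)
    (h0 : 0 ≤ t) (h1 : t < ss K k) : dg K k W = v % (3 * mm k) := by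
  rw [dg_eq hk, h, add_comm, Int.add_mul_ediv_right _ _ (ss_pos k).ne',
    Int.ediv_eq_zero_of_lt h0 h1, zero_add]

theorem inv_base (hK : Stab K) : Cov (Orth.top : Ω) fun f => ∃ Z, Inv R K Z f := by
  classical
  let c : (Wst K).A → Finset.Ico 0 (nn K) := fun a => ⟨(tl a).2, Finset.mem_Ico.2 ⟨a.2.1, a.2.2.1⟩⟩
  obtain ⟨X, hX, hc⟩ := exists_part_of_dec (P := R.q 0) c fun t => dec_top _ _
  refine ⟨_, _, X, hX, fun t _ => ⟨(0, t.1), fun z => ?_, fun z _ _ φ => ?_⟩⟩
  · refine (invAux_cnt R (fun s => s = t.1) ((hc t).mono fun a ha => congrArg Subtype.val ha)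
      z).mono fun a ha => invAux_known hK a ?_
    rw [dg_eq le_rfl, ss_of_le (by omega), Int.ediv_one, co, if_pos hK.1]
    change _ = (t.1 + z.2) % nn K
    rw [← ha, Int.emod_add_emod, sub_add_cancel]
    exact (Int.emod_eq_of_lt a.2.1 a.2.2.1).symm
  · obtain ⟨f1, f2, hs, h1, h2⟩ := hX.split fun s => s = t
    have a1 : Le f1 (X t) := h1.le_of fun i hi => by
      rw [(Finset.mem_filter.1 hi).2]; exact Le.refl _
    have a2 : Frc f2 (R.q 0) fun a => ¬ (tl a).2 = t.1 := fun a ha =>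
      h2.perp_left fun i hi => hc i a fun e =>
        (Finset.mem_filter.1 hi).2 (e.symm.trans (Subtype.ext (not_not.1 ha)))
    exact (Dec.piece hs (invAux_cnt R (fun s => s = t.1)
      (((hc t).of_le a1).mono fun a ha => congrArg Subtype.val ha) z)
      (invAux_cnt R (fun s => ¬ s = t.1) a2 z) (dec_top _ _)).of_equiv a1
      (h1.le (Finset.mem_filter.2 ⟨Finset.mem_univ _, rfl⟩))

theorem inv_stage (hK : Stab K) {k : ℕ} (hk : K ≤ k) {Z : Z2} {f : Ω} (h : Inv R k Z f) :
    Stage (fun u v => R.q (site K k Z u v)) (fun a => vw k (cr a)) (mm k) f := by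
  have _ := hK
  have c0 := invAux_co0 (K := K) k Z
  have c1 := invAux_co1 (K := K) k Z
  have e1 : ∀ u v, site K k Z (u + 1) v = site K k Z u v + ss K (k + 1) • ac (k + 1) := by
    intro u v
    refine invAux_ext (k := k) (Z := Z) ?_ ?_
    · rw [(invAux_add1 _ _ _ _).2, c1, c1]; ring
    · rw [(invAux_add1 _ _ _ _).1, c0, c0]
  have e0 : ∀ u v, site K k Z u (v + 1) = site K k Z u v + ss K k • ac (k + 1 + 1) := by
    intro u v
    rw [ac_congr (j := k) (by omega)]
    refine invAux_ext (k := k) (Z := Z) ?_ ?_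
    · rw [(invAux_add0 _ _ _ _).2, c1, c1]
    · rw [(invAux_add0 _ _ _ _).1, c0, c0]; ring
  refine ⟨fun a => rule_vw.2 (rule_cr a), fun u v φ => h.2 _ (c0 u v ▸ dvd_mul_left _ _)
    (c1 u v ▸ dvd_mul_left _ _) fun c => φ (vw k c), fun u v g hg φ => ?_, fun u v g hg φ => ?_,
    fun u v hv g hg φ => ?_, fun u v hv => ?_⟩
  · have := invAux_run' R (g := g) (k + 1) (site K k Z u v) (ss_pos k) φ fun t h1 h2 =>
      ((h.1 _).of_le hg).mono fun a ha => by
        rw [ac_congr (j := k) (by omega)] at ha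
        have := invAux_col ha (rule_cr a)
          (by rw [(invAux_add0 _ _ _ _).1, c0]; exact invAux_not_dvd h1 h2)
          (by rw [(invAux_add0 _ _ _ _).2, c1]; exact dvd_mul_left _ _)
        exact iff_of_eq (congrArg φ this)
    simp only [invAux_succ] at this
    rw [e0]; exact this
  · rw [e1]
    exact invAux_run' R k _ (ss_pos _) (fun l => φ l.ty l.st l.um) fun t h1 h2 =>
      ((h.1 _).of_le hg).mono fun a ha => by
        obtain ⟨a1, a2, a3⟩ := invAux_rowU ha (rule_cr a)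
          (by rw [(invAux_add1 _ _ _ _).1, c0]; exact dvd_mul_left _ _)
          (by rw [(invAux_add1 _ _ _ _).2, c1]; exact invAux_not_dvd h1 h2)
        exact iff_of_eq (congr (congr (congrArg φ a1) a2) a3)
  · rw [e1]
    exact invAux_run' R k _ (ss_pos _) φ fun t h1 h2 =>
      ((h.1 _).of_le hg).mono fun a ha => by
        have := invAux_rowF ha (rule_cr a)
          (by rw [(invAux_add1 _ _ _ _).1, c0]; exact (invAux_dvd hk v).2 hv)
          (by rw [(invAux_add1 _ _ _ _).2, c1]; exact invAux_not_dvd h1 h2)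
        exact iff_of_eq (congrArg φ this)
  · have hi : IsIdx K k (Z + site K k Z u v) :=
      ⟨c0 u v ▸ dvd_mul_left _ _, by rw [c0, invAux_dvd hk]; exact hv⟩
    refine (h.1 _).mono fun a ha => ⟨ha.dom k le_rfl hi (c1 u v ▸ dvd_mul_left _ _), ?_⟩
    rw [← invAux_dg hk ((c0 u v).trans (add_zero _).symm) le_rfl (ss_pos k)]
    exact (ha.part hi).1

theorem inv_next (hK : Stab K) {k : ℕ} (hk : K ≤ k) {Z : Z2} {f X : Ω} (h : Inv R k Z f)
    (hX : Le X f) {w : ℤ}
    (ho : StageOut (fun u v => R.q (site K k Z u v)) (fun a => vw k (cr a)) (mm k) w X)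
    (hd : ∀ u v, 3 * mm k ∣ v → ∀ φ : Core → Prop,
      Dec X (R.q (site K k Z u v)) fun a => φ (vw k (cr a))) :
    Inv R (k + 1) (Z + (w * ss K (k + 1)) • ac (k + 1)) X := by
  have c0 := invAux_co0 (K := K) k Z
  have c1 := invAux_co1 (K := K) k Z
  generalize hZ' : Z + (w * ss K (k + 1)) • ac (k + 1) = Z'
  have d0 : ∀ z, co k (Z' + z) = co k (Z + z) := fun z => by
    rw [← hZ', add_assoc, add_comm _ z, (invAux_add1 _ _ _ _).1]
  have d1 : ∀ z, co (k + 1) (Z' + z) = co (k + 1) (Z + z) + w * ss K (k + 1) := fun z => by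
    rw [← hZ', add_assoc, add_comm _ z, (invAux_add1 _ _ _ _).2]
  have hm := three_le_mm k
  have hkn : ∀ z, Frc X (R.q z) fun a => Known K k (Z + z) (tl a) := fun z => (h.1 z).of_le hX
  have hkn' : ∀ z, Frc X (R.q z) fun a => Known K k (Z' + z) (tl a) := fun z =>
    (hkn z).mono fun a ha => ha.congr hK hk
      (by rw [d1, sub_add_cancel_left]; exact (dvd_mul_left _ _).neg_right)
      (by rw [d0, sub_self]; exact dvd_zero _)
  have hsite : ∀ z, ss K k ∣ co k (Z' + z) → ss K (k + 1) ∣ co (k + 1) (Z' + z) →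
      ∃ u v, z = site K k Z u v := by
    intro z h0 h1
    rw [d0] at h0
    rw [d1, dvd_add_left (dvd_mul_left _ _)] at h1
    obtain ⟨v, hv⟩ := h0
    obtain ⟨u, hu⟩ := h1
    exact ⟨u, v, invAux_ext (by rw [c1, hu, mul_comm]) (by rw [c0, hv, mul_comm])⟩
  have hdv : ∀ u, ss K (k + 1 + 2) ∣ u * ss K (k + 1) + w * ss K (k + 1) ↔
      3 * (2 * mm k + 1) ∣ u + w := fun u => by
    rw [← add_mul, invAux_dvd (by omega), mm_succ]
  have lemA : ∀ z, IsIdx K k (Z' + z) →
      Frc X (R.q z) fun a => (vw k (cr a)).R = LabAt K k (Z' + z) := by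
    intro z hi
    obtain ⟨v, hv⟩ := hi.1
    rw [mul_comm] at hv
    have hv3 : ¬ 3 * mm k ∣ v := fun h3 => hi.2 (by rw [hv]; exact (invAux_dvd hk v).2 h3)
    have t0 := Int.emod_nonneg (co (k + 1) (Z + z)) (ss_pos (K := K) (k + 1)).ne'
    have t1 := Int.emod_lt_of_pos (co (k + 1) (Z + z)) (ss_pos (K := K) (k + 1))
    have t2 := Int.ediv_mul_add_emod (co (k + 1) (Z + z)) (ss K (k + 1))
    generalize co (k + 1) (Z + z) % ss K (k + 1) = t at t0 t1 t2
    generalize co (k + 1) (Z + z) / ss K (k + 1) = u at t2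
    have ez : z = site K k Z u v + t • ac (k + 1) :=
      invAux_ext (k := k) (Z := Z) (by rw [(invAux_add1 _ _ _ _).2, c1, t2])
        (by rw [(invAux_add1 _ _ _ _).1, c0, ← d0, hv])
    have g0 : dg K k (Z' + z) = v % (3 * mm k) :=
      invAux_dg hk (hv.trans (add_zero _).symm) le_rfl (ss_pos k)
    have g1 : dg K (k + 1) (Z' + z) = (u + w) % (3 * (2 * mm k + 1)) := by
      rw [← mm_succ]
      exact invAux_dg (by omega) (by rw [d1, ← t2]; ring) t0 t1
    have s1 := (invAux_run R (g := X) k (site K k Z u v) t0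
      (fun l => l.st = (LabAt K k (Z' + z)).st ∧ l.um = (LabAt K k (Z' + z)).um) fun t' h1 h2 =>
      (hkn _).mono fun a ha => by
        obtain ⟨-, a2, a3⟩ := invAux_rowU ha (rule_cr a)
          (by rw [(invAux_add1 _ _ _ _).1, c0]; exact dvd_mul_left _ _)
          (by rw [(invAux_add1 _ _ _ _).2, c1]; exact invAux_not_dvd h1 (by omega))
        exact and_congr (iff_of_eq (congrArg (· = _) a2)) (iff_of_eq (congrArg (· = _) a3))).1
      ((ho.low u v hv3).mono fun a ha => by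
        simp only [LabAt, lab, g0, g1, mm_succ]
        exact ⟨ha.stR, ha.umR⟩)
    rw [← ez] at s1
    exact (s1.and (hkn' z)).mono fun a ha =>
      Lab.ext (ha.2.part hi).1 ha.1.1 ha.1.2 (ha.2.part hi).2.1
  have lemB : ∀ z, IsIdx K (k + 1) (Z' + z) → Frc X (R.q z) fun a =>
      (vw (k + 1) (cr a)).R.ty = (LabAt K (k + 1) (Z' + z)).ty ∧
        (vw (k + 1) (cr a)).R.dm = (LabAt K (k + 1) (Z' + z)).dm := by
    intro z hi
    obtain ⟨u, hu⟩ : ss K (k + 1) ∣ co (k + 1) (Z + z) := by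
      have := hi.1
      rwa [d1, dvd_add_left (dvd_mul_left _ _)] at this
    rw [mul_comm] at hu
    have hu3 : (u + w) % (3 * (2 * mm k + 1)) ≠ 0 := fun h3 =>
      hi.2 (by rw [d1, hu, hdv]; exact Int.dvd_of_emod_eq_zero h3)
    have t0 := Int.emod_nonneg (co k (Z + z)) (ss_pos (K := K) k).ne'
    have t1 := Int.emod_lt_of_pos (co k (Z + z)) (ss_pos (K := K) k)
    have t2 := Int.ediv_mul_add_emod (co k (Z + z)) (ss K k)
    generalize co k (Z + z) % ss K k = t at t0 t1 t2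
    generalize co k (Z + z) / ss K k = v at t2
    have eac : ac (k + 1 + 1) = ac k := ac_congr (by omega)
    have ez : z = site K k Z u v + t • ac (k + 1 + 1) := by
      rw [eac]
      exact invAux_ext (k := k) (Z := Z) (by rw [(invAux_add0 _ _ _ _).2, c1, hu])
        (by rw [(invAux_add0 _ _ _ _).1, c0, t2])
    have g0 : dg K k (Z' + z) = v % (3 * mm k) := invAux_dg hk (by rw [d0, t2]) t0 t1
    have g1 : dg K (k + 1) (Z' + z) = (u + w) % (3 * (2 * mm k + 1)) := by
      rw [← mm_succ]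
      exact invAux_dg (t := 0) (by omega) (by rw [d1, hu]; ring) le_rfl (ss_pos _)
    have s0 : Frc X (R.q (site K k Z u v)) fun a =>
        (vw k (cr a)).Ab.ty = ty (2 * mm k + 1) ((u + w) % (3 * (2 * mm k + 1))) ∧
        (vw k (cr a)).Ab.dm = dm (mm k) (v % (3 * mm k)) ((u + w) % (3 * (2 * mm k + 1))) := by
      by_cases hv : 3 * mm k ∣ v
      · have v1 : (v + 1) % (3 * mm k) = 1 := by
          rw [add_comm, Int.add_emod, Int.emod_eq_zero_of_dvd hv, add_zero, Int.emod_emod]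
          exact Int.emod_eq_of_lt (by omega) (by omega)
        have v2 : ¬ 3 * mm k ∣ v + 1 := fun h3 => by
          rw [Int.emod_eq_zero_of_dvd h3] at v1; omega
        refine ((inv_stage R hK hk h).vert u v X hX fun l =>
          l.ty = ty (2 * mm k + 1) ((u + w) % (3 * (2 * mm k + 1))) ∧
          l.dm = dm (mm k) (v % (3 * mm k)) ((u + w) % (3 * (2 * mm k + 1)))).2
          ((ho.low u (v + 1) v2).mono fun a ha => ?_)
        obtain ⟨a1, -, a3⟩ := ha.col hu3
        rw [v1, sub_self] at a3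
        rw [Int.emod_eq_zero_of_dvd hv]
        exact ⟨(rule_vw.2 (rule_cr a)).ty_col.trans a1, a3⟩
      · exact (ho.low u v hv).mono fun a ha => ⟨(ha.col hu3).1, (ha.col hu3).2.1⟩
    have s1 := (invAux_run R (g := X) (k + 1) (site K k Z u v) t0
      (fun l => l.ty = (LabAt K (k + 1) (Z' + z)).ty ∧ l.dm = (LabAt K (k + 1) (Z' + z)).dm)
      fun t' h1 h2 => (hkn _).mono fun a ha => by
        rw [eac] at ha
        have := invAux_col ha (rule_cr a)
          (by rw [(invAux_add0 _ _ _ _).1, c0]; exact invAux_not_dvd h1 (by omega))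
          (by rw [(invAux_add0 _ _ _ _).2, c1]; exact dvd_mul_left _ _)
        exact iff_of_eq (congrArg (fun l : Lab => l.ty = _ ∧ l.dm = _) this)).1
      (s0.mono fun a ha => by
        simp only [LabAt, lab, Nat.add_sub_cancel, g0, g1, mm_succ, invAux_succ]
        exact ha)
    rwa [← ez] at s1
  refine ⟨fun z => ?_, fun z h1 h0 φ => ?_⟩
  · have f1 : Frc X (R.q z) fun a => IsIdx K k (Z' + z) → (vw k (cr a)).R = LabAt K k (Z' + z) ∧
        (vw k (cr a)).L = LabAt K k (Z' + z - ac (k + 1)) := frc_forall fun hi => by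
      refine (lemA z hi).and ?_
      have := (R.edge_iff k (z - ac (k + 1)) fun l => l = LabAt K k (Z' + (z - ac (k + 1)))).1
        (lemA _ (hi.congr (by
          rw [← add_sub_assoc, co_sub, co_ac_ne (by omega), sub_zero, sub_self]; exact dvd_zero _)))
      rwa [sub_add_cancel, ← add_sub_assoc] at this
    have f2 : Frc X (R.q z) fun a => IsIdx K (k + 1) (Z' + z) →
        ((vw (k + 1) (cr a)).R.ty = (LabAt K (k + 1) (Z' + z)).ty ∧
          (vw (k + 1) (cr a)).R.dm = (LabAt K (k + 1) (Z' + z)).dm) ∧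
        (vw (k + 1) (cr a)).L.dm = (LabAt K (k + 1) (Z' + z - ac (k + 1 + 1))).dm :=
      frc_forall fun hi => by
        refine (lemB z hi).and ?_
        have := (R.edge_iff (k + 1) (z - ac (k + 1 + 1))
          fun l => l.dm = (LabAt K (k + 1) (Z' + (z - ac (k + 1 + 1)))).dm).1
          ((lemB _ (hi.congr (by
            rw [← add_sub_assoc, co_sub, co_ac_ne (by omega), sub_zero, sub_self]
            exact dvd_zero _))).mono fun a ha => ha.2)
        rwa [sub_add_cancel, ← add_sub_assoc] at this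
    have f3 : Frc X (R.q z) fun a => IsIdx K (k + 1) (Z' + z) →
        ss K (k + 1 + 1) ∣ co (k + 1 + 1) (Z' + z) → (vw (k + 1) (cr a)).cdom = true :=
      frc_forall fun hi => frc_forall fun h0 => by
        rw [co_congr (j := k) (by omega)] at h0
        obtain ⟨u, v, rfl⟩ := hsite z ((ss_dvd_add_two k).trans h0) hi.1
        rw [d0, c0, invAux_dvd hk] at h0
        refine (ho.high u v h0 fun h3 => hi.2 (by rw [d1, c1, hdv]; exact h3)).mono fun a ha => ?_
        rw [invAux_succ, Core.tr, ha]; rfl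
    have f4 : Frc X (R.q z) fun a => IsIdx K k (Z' + z) → ss K (k + 1) ∣ co (k + 1) (Z' + z) →
        ((cr a).adj = true ↔ ¬ ss K (k + 3) ∣ co (k + 1) (Z' + z)) :=
      frc_forall fun hi => frc_forall fun h1 => by
        obtain ⟨u, v, rfl⟩ := hsite z hi.1 h1
        refine (ho.low u v fun h3 => hi.2 (by rw [d0, c0, invAux_dvd hk]; exact h3)).mono
          fun a ha => ?_
        rw [← vw_adj k, ha.adj, d1, c1, hdv, Ne, Int.dvd_iff_emod_eq_zero]
    refine (((((hkn' z).and f1).and f2).and f3).and f4).mono fun a ⟨⟨⟨⟨a0, a1⟩, a2⟩, a3⟩, a4⟩ =>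
      ⟨a0.cnt, fun j hj => ?_, fun hi => ⟨(a2 hi).1.1, (a2 hi).1.2, (a2 hi).2⟩, fun j hj => ?_,
        fun j hj => ?_⟩
    · rcases Nat.lt_succ_iff_lt_or_eq.1 hj with hj | rfl
      exacts [a0.full j hj, a1]
    · rcases Nat.le_succ_iff.1 hj with hj | rfl
      exacts [a0.dom j hj, a3]
    · rcases Nat.lt_succ_iff_lt_or_eq.1 hj with hj | rfl
      exacts [a0.adj j hj, a4]
  · rw [co_congr (j := k) (by omega)] at h0
    obtain ⟨u, v, rfl⟩ := hsite z ((ss_dvd_add_two k).trans h0) h1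
    rw [d0, c0, invAux_dvd hk] at h0
    simpa only [vw_vw] using hd u v h0 fun c => φ (vw k c)

theorem inv_step (hK : Stab K) {k : ℕ} (hk : K ≤ k) {Z : Z2} {f : Ω} (h : Inv R k Z f) :
    Cov f fun g => ∃ Z', Inv R (k + 1) Z' g := by
  have hs := inv_stage R hK hk h
  obtain ⟨X, hX, ho⟩ := stageA hs (three_le_mm k)
  exact ⟨ℤ, _, X, hX, fun w hw => ⟨_, inv_next R hK hk h (hX.le hw) (ho w hw)
    fun u v hv φ => stageB hs (three_le_mm k) hX ho hw u v hv φ⟩⟩

theorem inv_all (hK : Stab K) {k : ℕ} (hk : K ≤ k) :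
    Cov (Orth.top : Ω) fun f => ∃ Z, Inv R k Z f := by
  induction k, hk using Nat.le_induction with
  | base => exact inv_base R hK
  | succ k hk ih => exact ih.trans fun g _ ⟨Z, hg⟩ => inv_step R hK hk hg

end Vale.Agent.P196
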