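import Vale.Agent.P196.StepH
import Vale.Agent.P196.H0

/-! P196 task W: the kernel is finitely generated; `DD` is finitely presented. -/

namespace Vale.Agent.P196

open Pointwise

variable {W : Wang} {K : ℕ} {P : Type} [Group P]

theorem kerAux_cyc {U : Set W.X} {a b c : B} (h : Ok U a b c) : cyc U a b c ^ 3 = 1 := by
  have h1 := isCyc_cyc h.2.1 h.2.2
  ext1 p
  rw [pow_succ, pow_two, Equiv.Perm.mul_apply, Equiv.Perm.mul_apply, Equiv.Perm.one_apply]
  rcases basicAux_cases U a b c p with ⟨x, hx, rfl⟩ | ⟨x, hx, rfl⟩ | ⟨x, hx, rfl⟩ | hp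
  · rw [(h1.1 x hx).1, (h1.1 x hx).2.1, (h1.1 x hx).2.2]
  · rw [(h1.1 x hx).2.1, (h1.1 x hx).2.2, (h1.1 x hx).1]
  · rw [(h1.1 x hx).2.2, (h1.1 x hx).1, (h1.1 x hx).2.1]
  · rw [h1.2 p hp, h1.2 p hp, h1.2 p hp]

theorem kerAux_ker (A : Sys3 W P) {U : Set W.X} {a b c : B} (h : Ok U a b c) :
    A.π (A.t U a b c ^ 3) = 1 := by
  rw [map_pow, A.π_t h, kerAux_cyc h]

theorem kerAux_step (A : Sys3 W P) (hF : W.Free) {V : Set W.X} (hV : IsClopen V) {S : Set B}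
    (hS : MS V S) {a b c d e : B} (ha : a ∈ S) (hb : b ∈ S) (hc : c ∈ S) (hd : d ∈ S) (he : e ∈ S)
    (h : D3 a b c) (h' : D3 a d e) (h1 : b ≠ d) (h2 : b ≠ e) (h3 : c ≠ d) (h4 : c ≠ e) :
    A.t V a b c ^ 3 = A.t V b c d ^ 3 := by
  have h5 := A.t_conj hV (hS.mono le_rfl (Set.insert_subset ha (Set.insert_subset hd
    (Set.insert_subset he (basicAux_sub3 ha hb hc))))) h' h
  rw [c3_a h', c3_of_ne h.1.symm h1 h2, c3_of_ne h.2.1.symm h3 h4] at h5
  have h6 : Ok V a b c := ⟨hV, h, hS.mono le_rfl (basicAux_sub3 ha hb hc)⟩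
  have h7 : Ok V d b c := ⟨hV, ⟨h1.symm, h3.symm, h.2.2⟩, hS.mono le_rfl (basicAux_sub3 hd hb hc)⟩
  rw [← A.t_cyc h7, ← h5, conj_pow, ← (A.central hF (kerAux_ker A h6) _).eq,
    mul_inv_cancel_right]

theorem kerAux_fresh (A : Sys3 W P) (hF : W.Free) (T : Finset B) :
    ∃ (r : ℕ) (d₁ d₂ d₃ : B), ∀ x V, IsClopen V → (∀ y ∈ V, Agree x y r) →
      ∀ a ∈ T, ∀ b ∈ T, ∀ c ∈ T, D3 a b c → A.t V a b c ^ 3 = A.t V d₁ d₂ d₃ ^ 3 := by
  classical
  obtain ⟨d₁, h1⟩ := Infinite.exists_notMem_finset T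
  obtain ⟨d₂, h2⟩ := Infinite.exists_notMem_finset (insert d₁ T)
  obtain ⟨d₃, h3⟩ := Infinite.exists_notMem_finset (insert d₂ (insert d₁ T))
  obtain ⟨e, h4⟩ := Infinite.exists_notMem_finset (insert d₃ (insert d₂ (insert d₁ T)))
  obtain ⟨r, hr⟩ :=
    exists_MS hF (insert e (insert d₃ (insert d₂ (insert d₁ T))) : Finset B).finite_toSet
  refine ⟨r, d₁, d₂, d₃, fun x V hV hx a ha b hb c hc h => ?_⟩
  have hS := (hr x).mono (U' := V) hx le_rfl
  simp only [Finset.mem_insert, not_or] at h2 h3 h4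
  have ne : ∀ {y d : B}, y ∈ T → d ∉ T → y ≠ d := fun hy hd e => hd (e ▸ hy)
  rw [kerAux_step A hF hV hS (d := d₁) (e := e) (by simp [ha]) (by simp [hb]) (by simp [hc])
      (by simp) (by simp) h ⟨ne ha h1, ne ha h4.2.2.2, Ne.symm h4.2.2.1⟩ (ne hb h1)
      (ne hb h4.2.2.2) (ne hc h1) (ne hc h4.2.2.2),
    kerAux_step A hF hV hS (d := d₂) (e := e) (by simp [hb]) (by simp [hc]) (by simp)
      (by simp) (by simp) ⟨h.2.2, ne hb h1, ne hc h1⟩ ⟨ne hb h2.2, ne hb h4.2.2.2, Ne.symm h4.2.1⟩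
      (ne hc h2.2) (ne hc h4.2.2.2) (Ne.symm h2.1) (Ne.symm h4.2.2.1),
    kerAux_step A hF hV hS (d := d₃) (e := e) (by simp [hc]) (by simp) (by simp)
      (by simp) (by simp) ⟨ne hc h1, ne hc h2.2, Ne.symm h2.1⟩
      ⟨ne hc h3.2.2, ne hc h4.2.2.2, Ne.symm h4.1⟩
      (Ne.symm h3.2.1) (Ne.symm h4.2.2.1) (Ne.symm h3.1) (Ne.symm h4.2.1)]

theorem kerAux_union (A : Sys3 W P) {V V' : Set W.X} {a b c : B} (hV : IsClopen V)
    (hV' : IsClopen V') (hd : Disjoint V V') (h : D3 a b c) (hS : MS (V ∪ V') {a, b, c}) :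
    A.t (V ∪ V') a b c ^ 3 = A.t V a b c ^ 3 * A.t V' a b c ^ 3 := by
  have h1 := A.t_union hV hV' hd h hS
  have h2 := A.t_union hV' hV hd.symm h (Set.union_comm V V' ▸ hS)
  rw [Set.union_comm V' V] at h2
  rw [h1]
  exact Commute.mul_pow (h1.symm.trans h2) 3

theorem kerAux_eq (A : Sys3 W P) (hF : W.Free) {U : Set W.X} {a b c a' b' c' : B}
    (h : Ok U a b c) (h' : Ok U a' b' c') : A.t U a b c ^ 3 = A.t U a' b' c' ^ 3 := by
  classical
  refine clopen_loc (Q := fun V => A.t V a b c ^ 3 = A.t V a' b' c' ^ 3) h.1 ?_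
    (fun V V' hV hV' h1 h2 hd e e' => ?_) fun x _ => ?_
  · rw [A.t_empty h.2.1, A.t_empty h'.2.1]
  · rw [kerAux_union A hV hV' hd h.2.1 (h.2.2.mono (Set.union_subset h1 h2) le_rfl),
      kerAux_union A hV hV' hd h'.2.1 (h'.2.2.mono (Set.union_subset h1 h2) le_rfl), e, e']
  · obtain ⟨r, d₁, d₂, d₃, hr⟩ := kerAux_fresh A hF {a, b, c, a', b', c'}
    refine ⟨r, fun V hV _ hx => ?_⟩
    rw [hr x V hV hx a (by simp) b (by simp) c (by simp) h.2.1,
      hr x V hV hx a' (by simp) b' (by simp) c' (by simp) h'.2.1]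

theorem kerAux_d3 : D3 ((0, 0) : B) (0, 1) (0, 2) := by
  refine ⟨?_, ?_, ?_⟩ <;> decide

theorem kerAux_ms (U : Set W.X) : MS U {((0, 0) : B), (0, 1), (0, 2)} := by
  refine MS.of_injOn ?_
  rintro _ (rfl | rfl | rfl) _ (rfl | rfl | rfl) e <;> first | rfl | exact absurd e (by decide)

theorem kerAux_ok {U : Set W.X} (hU : IsClopen U) : Ok U (0, 0) (0, 1) (0, 2) :=
  ⟨hU, kerAux_d3, kerAux_ms U⟩

open scoped IsMulCommutative in
/-- the cubes of the lifts generate a finite group -/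
theorem cubes_finite (h : Hier W K) (A : Sys3 W P) :
    ((Subgroup.closure {g | ∃ U a b c, Ok U a b c ∧ g = A.t U a b c ^ 3} : Subgroup P) :
      Set P).Finite := by
  classical
  let ζ : Set W.X → Subgroup.center P := fun U =>
    if hU : IsClopen U then ⟨A.t U (0, 0) (0, 1) (0, 2) ^ 3, Subgroup.mem_center_iff.2 fun g =>
      (A.central h.free (kerAux_ker A (kerAux_ok hU)) g).eq.symm⟩ else 1
  have hζ : ∀ {U}, IsClopen U → (ζ U : P) = A.t U (0, 0) (0, 1) (0, 2) ^ 3 := fun hU => by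
    simp only [ζ, dif_pos hU]
  have h1 := h0_finite h ζ (fun U V hU hV hd => Subtype.ext ?_) (fun z U hU => Subtype.ext ?_)
    fun U hU => Subtype.ext ?_
  · refine (h1.image (Subgroup.center P).subtype).subset ?_
    rw [← Subgroup.coe_map, MonoidHom.map_closure]
    refine Subgroup.closure_mono ?_
    rintro _ ⟨U, a, b, c, hU, rfl⟩
    exact ⟨ζ U, ⟨U, hU.1, rfl⟩, (hζ hU.1).trans (kerAux_eq A h.free (kerAux_ok hU.1) hU)⟩
  · rw [Subgroup.coe_mul, hζ hU, hζ hV, hζ (hU.union hV)]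
    exact kerAux_union A hU hV hd kerAux_d3 (kerAux_ms _)
  · have h2 := kerAux_ok (IsClopen.vadd_X hU z)
    rw [hζ hU, hζ h2.1, ← A.t_shift z h2]
    exact kerAux_eq A h.free (basicAux_ok_shift h2) (kerAux_ok hU)
  · have h2 := kerAux_eq A h.free (kerAux_ok hU) (basicAux_ok_flip (kerAux_ok hU))
    rw [A.t_inv (kerAux_ok hU), inv_pow] at h2
    rw [Subgroup.coe_pow, hζ hU, sq, Subgroup.coe_one]
    exact mul_eq_one_iff_eq_inv.2 h2

/-- the quotient of a system of lifts by a normal subgroup of the kernel -/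
def kerAux_quot (A : Sys3 W P) (Z : Subgroup P) [Z.Normal] (hZ : Z ≤ A.π.ker) :
    Sys3 W (P ⧸ Z) where
  t U a b c := QuotientGroup.mk' Z (A.t U a b c)
  π := QuotientGroup.lift Z A.π hZ
  π_t h := A.π_t h
  gen := by
    rw [← Subgroup.map_top_of_surjective _ (QuotientGroup.mk'_surjective Z), ← A.gen,
      MonoidHom.map_closure]
    refine congrArg _ (Set.ext fun g => ⟨?_, ?_⟩)
    · rintro ⟨U, a, b, c, h, rfl⟩
      exact ⟨_, ⟨U, a, b, c, h, rfl⟩, rfl⟩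
    · rintro ⟨_, ⟨U, a, b, c, h, rfl⟩, rfl⟩
      exact ⟨U, a, b, c, h, rfl⟩
  t_empty h := by rw [A.t_empty h, map_one]
  t_union h1 h2 h3 h4 h5 := by rw [A.t_union h1 h2 h3 h4 h5, map_mul]
  t_shift z h := by rw [A.t_shift z h]
  t_cyc h := by rw [A.t_cyc h]
  t_inv h := by rw [A.t_inv h, map_inv]
  t_cf h1 h2 h3 h4 h5 h6 := by rw [A.t_cf h1 h2 h3 h4 h5 h6, map_mul]
  t_conj h1 h2 h3 h4 := by rw [← A.t_conj h1 h2 h3 h4, map_mul, map_mul, map_inv]
  t_comm h1 h2 h3 := (A.t_comm h1 h2 h3).map _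

theorem ker_fg (h : Hier W K) (A : Sys3 W P) : A.π.ker.FG := by
  obtain ⟨Z, hZ⟩ : ∃ Z : Subgroup P,
    Z = Subgroup.closure {g | ∃ U a b c, Ok U a b c ∧ g = A.t U a b c ^ 3} := ⟨_, rfl⟩
  have h1 : (Z : Set P).Finite := hZ ▸ cubes_finite h A
  have h2 : Z ≤ A.π.ker := by
    rw [hZ, Subgroup.closure_le]
    rintro _ ⟨U, a, b, c, hU, rfl⟩
    exact kerAux_ker A hU
  have h3 : Z.Normal := ⟨fun n hn g => by
    rwa [← (A.central h.free (h2 hn) g).eq, mul_inv_cancel_right]⟩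
  have h4 : (kerAux_quot A Z h2).Cube := fun U a b c hU => by
    refine (map_pow (QuotientGroup.mk' Z) _ 3).symm.trans ((QuotientGroup.eq_one_iff _).2 ?_)
    rw [hZ]
    exact Subgroup.subset_closure ⟨U, a, b, c, hU, rfl⟩
  obtain ⟨S, hS, hf⟩ := (Subgroup.fg_iff _).1 (stepH h _ h4)
  have hs := QuotientGroup.mk'_surjective Z
  have e : QuotientGroup.mk' Z '' (Function.surjInv hs '' S) = S := by
    rw [Set.image_image]
    simp only [Function.surjInv_eq, Set.image_id']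
  refine (Subgroup.fg_iff _).2 ⟨Function.surjInv hs '' S ∪ Z, le_antisymm ?_ fun g hg => ?_,
    (hf.image _).union h1⟩
  · rw [Subgroup.closure_le]
    rintro g (hg | hg)
    · have h5 : QuotientGroup.mk' Z g ∈ (kerAux_quot A Z h2).π.ker :=
        hS ▸ Subgroup.subset_closure (e ▸ Set.mem_image_of_mem _ hg)
      exact h5
    · exact h2 hg
  · have h5 : QuotientGroup.mk' Z g ∈ (kerAux_quot A Z h2).π.ker := hg
    rw [← hS, ← e, ← MonoidHom.map_closure] at h5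
    obtain ⟨g', h6, h7⟩ := h5
    rw [← mul_inv_cancel_left g' g]
    exact mul_mem (Subgroup.closure_mono Set.subset_union_left h6)
      (Subgroup.subset_closure (Or.inr (QuotientGroup.eq.1 h7)))

theorem fp_DD (h : Hier W K) (A : Sys3 W P) (hP : Group.IsFinitelyPresented P) :
    Group.IsFinitelyPresented (DD W) := by
  rw [← A.range_π]
  refine Group.IsFinitelyPresented.of_surjective A.π.rangeRestrict
    A.π.rangeRestrict_surjective ?_
  rw [MonoidHom.ker_rangeRestrict]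
  have := (Group.fg_iff_subgroup_fg _).2 (ker_fg h A)
  exact Subgroup.IsFinitelyNormallyGenerated.of_FG _

end Vale.Agent.P196
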