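import Vale.Agent.P196.Classic

/-! P196 task X9: the tiling space is minimal. -/

namespace Vale.Agent.P196

variable {K : ℕ}

theorem miniAux_pos (i : ℕ) (α β : ℤ) : ∃ V : Z2, co i V = α ∧ co (i + 1) V = β := by
  refine ⟨α • ac i + β • ac (i + 1), ?_, ?_⟩
  · rw [co_add, co_smul, co_smul, co_ac rfl, co_ac_ne (by omega)]
    ring
  · rw [co_add, co_smul, co_smul, co_ac rfl, co_ac_ne (by omega)]
    ring

theorem miniAux_lt {j : ℕ} (hj : K ≤ j) {a d : ℤ} (a1 : a < ss K j) (d1 : d < nn j) :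
    a + d * ss K j < ss K (j + 2) := by
  have h := mul_le_mul_of_nonneg_right (show d + 1 ≤ nn j from d1) (ss_pos (K := K) j).le
  rw [ss_add_two hj]
  rw [add_mul, nn] at h
  omega

theorem miniAux_dg {j : ℕ} (hj : K ≤ j) {V : Z2} {a d c : ℤ}
    (h : co j V = a + d * ss K j + c * ss K (j + 2)) (a0 : 0 ≤ a) (a1 : a < ss K j) (d0 : 0 ≤ d)
    (d1 : d < nn j) : dg K j V = d := by
  have hs := ss_pos (K := K) j
  rw [dg, h, Int.add_mul_emod_self_right,
    Int.emod_eq_of_lt (by positivity) (miniAux_lt hj a1 d1), Int.add_mul_ediv_right _ _ hs.ne',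
    Int.ediv_eq_zero_of_lt a0 a1, zero_add]

theorem miniAux_idx {j : ℕ} (hj : K ≤ j) {V : Z2} {d c : ℤ}
    (h : co j V = d * ss K j + c * ss K (j + 2)) (d0 : 1 ≤ d) (d1 : d < nn j) :
    IsIdx K j V ∧ dg K j V = d := by
  have h1 : dg K j V = d :=
    miniAux_dg hj (a := 0) (by rw [h, zero_add]) le_rfl (ss_pos j) (by omega) d1
  refine ⟨⟨?_, fun h2 => ?_⟩, h1⟩
  · rw [h]
    exact dvd_add (Dvd.intro_left _ rfl) ((ss_dvd_add_two j).mul_left _)
  · rw [dg_eq_zero h2] at h1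
    omega

theorem miniAux_exists_low {k a : ℕ} (ha : a = k + 1 ∨ a = k + 2) {V : Z2} (hno : ¬ IsIdx K k V)
    (h : ¬ ss K a ∣ co a V) : ∃ j, j < k ∧ j % 2 = a % 2 ∧ IsIdx K j V := by
  obtain ⟨j, h1, h2, h3⟩ := exists_idx h
  refine ⟨j, ?_, h2, h3⟩
  by_contra hc
  obtain rfl : j = k := by omega
  exact hno h3

theorem miniAux_low {k i j : ℕ} {V : Z2} {a a' : (Wst K).A} (h : Known K k V (tl a))
    (h' : Known K k V (tl a')) (hi : IsIdx K i V) (hj : IsIdx K j V) (hik : i < k) (hjk : j < k)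
    (hp : i % 2 ≠ j % 2) : a = a' := by
  refine tile_ext (Prod.ext ?_ (h.cnt.trans h'.cnt.symm))
  rcases lt_or_gt_of_ne (show i ≠ j by omega) with h1 | h1
  · rw [h.eq_tileAt hi hj h1 hjk hp, h'.eq_tileAt hi hj h1 hjk hp]
  · rw [h.eq_tileAt hj hi h1 hik hp.symm, h'.eq_tileAt hj hi h1 hik hp.symm]

theorem miniAux_one {k j : ℕ} {V : Z2} {a a' : (Wst K).A} (h : Known K k V (tl a))
    (h' : Known K k V (tl a')) (hj : IsIdx K j V) (hjk : j < k)
    (hh : ss K (j + 3) ∣ co (j + 1) V) (hl : (vw j (cr a)).Ab = (vw j (cr a')).Ab) : a = a' := by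
  refine tile_ext (Prod.ext (vw_inj (i := j) ?_) (h.cnt.trans h'.cnt.symm))
  rw [h.high (rule_cr a) hj hjk hh, h'.high (rule_cr a') hj hjk hh]
  exact congrArg (fun l => Core.mk true false _ _ l l) hl

theorem miniAux_same {k a r : ℕ} (hr : 2 * (r : ℤ) < ss K k) (ha : k ≤ a) {Z z z' : Z2}
    (h1 : |co a z| ≤ r) (h2 : |co a z'| ≤ r) (h3 : ss K a ∣ co a (Z + z))
    (h4 : ss K a ∣ co a (Z + z')) : co a z = co a z' := by
  have h5 := dvd_sub h3 h4
  rw [co_add, co_add, add_sub_add_left_eq_sub] at h5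
  have h6 := ss_mono (K := K) ha
  have h7 := abs_le.1 h1
  have h8 := abs_le.1 h2
  have := Int.eq_zero_of_abs_lt_dvd h5 (abs_lt.2 ⟨by omega, by omega⟩)
  omega

section det

variable {x y : (Wst K).X} {k r : ℕ} {Z z1 : Z2} (hx : At x k Z) (hy : At y k Z)
  (hr : 2 * (r : ℤ) < ss K (k + 1))
  (hno : ∀ z : Z2, |z.1| ≤ r → |z.2| ≤ r → ¬ IsIdx K k (Z + z)) (b1 : |z1.1| ≤ r)
  (b2 : |z1.2| ≤ r) (hz : ∀ a, a = k + 1 ∨ a = k + 2 → ∀ z : Z2, |z.1| ≤ r → |z.2| ≤ r →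
    ss K a ∣ co a (Z + z) → ss K a ∣ co a (Z + z1)) (h1 : x.1 z1 = y.1 z1)
include hx hy hr hno b1 b2 hz h1

theorem miniAux_label {a b : ℕ} (hab : (a = k + 1 ∧ b = k + 2) ∨ (a = k + 2 ∧ b = k + 1))
    {z : Z2} (c1 : |z.1| ≤ r) (c2 : |z.2| ≤ r) (hh : ss K a ∣ co a (Z + z)) :
    (vw a (cr (x.1 z))).R = (vw a (cr (y.1 z))).R := by
  have hz1 := hz a (by omega) z c1 c2 hh
  have e1 : co a z = co a z1 :=
    miniAux_same hr (by omega) (abs_co_le a c1 c2) (abs_co_le a b1 b2) hh hz1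
  have eb : co b = co (a + 1) := co_congr (by omega)
  have d1 := abs_le.1 (abs_co_le (a + 1) c1 c2)
  have d2 := abs_le.1 (abs_co_le (a + 1) b1 b2)
  have key : ∀ (u : Z2) (t : ℤ), co a u = co a z1 → |co (a + 1) u + t| ≤ r →
      co (a + 1) u + t ≠ co (a + 1) z1 → ∃ j, j < k ∧ j % 2 ≠ a % 2 ∧
        IsIdx K j (Z + (u + t • ac (a + 1))) ∧ ss K (j + 3) ∣ co a (Z + u) := by
    intro u t u1 u2 u3
    have f1 : co a (u + t • ac (a + 1)) = co a z1 := by
      rw [co_add, co_smul, co_ac_ne (by omega), mul_zero, add_zero, u1]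
    have f2 : co (a + 1) (u + t • ac (a + 1)) = co (a + 1) u + t := by
      rw [co_add, co_smul, co_ac rfl, mul_one]
    obtain ⟨g1, g2⟩ := abs_le_of_co (i := a) (z := u + t • ac (a + 1)) (r := r)
      (by rw [f1]; exact abs_co_le a b1 b2) (by rw [f2]; exact u2)
    obtain ⟨j, j1, j2, j3⟩ := miniAux_exists_low (a := b) (by omega) (hno _ g1 g2) fun hc => u3 (by
      rw [← f2, ← eb]
      exact miniAux_same hr (by omega) (abs_co_le b g1 g2) (abs_co_le b b1 b2) hc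
        (hz b (by omega) _ g1 g2 hc))
    refine ⟨j, j1, by omega, j3, (ss_dvd (by omega) (by omega)).trans (b := ss K a) ?_⟩
    rwa [co_add, u1, ← co_add]
  rcases le_or_gt (co (a + 1) z1) (co (a + 1) z) with h | h
  · obtain ⟨n, hn⟩ := Int.eq_ofNat_of_zero_le (sub_nonneg.2 h)
    have e2 : z = z1 + (n : ℤ) • ac (a + 1) := by
      refine co_ext (i := a) ?_ ?_
      · rw [co_add, co_smul, co_ac_ne (by omega), mul_zero, add_zero, e1]
      · rw [co_add, co_smul, co_ac rfl, mul_one]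
        omega
    have hrun := fun (t : ℕ) (t1 : 1 ≤ t) (t2 : t ≤ n) =>
      key z1 t rfl (abs_le.2 ⟨by omega, by omega⟩) (by omega)
    rw [e2, hx.run z1 n hrun, hy.run z1 n hrun, h1]
  · obtain ⟨n, hn⟩ := Int.eq_ofNat_of_zero_le
      (show 0 ≤ co (a + 1) z1 - co (a + 1) z - 1 by omega)
    have e2 : z + (n : ℤ) • ac (a + 1) + ac (a + 1) = z1 := by
      refine co_ext (i := a) ?_ ?_
      · rw [co_add, co_add, co_smul, co_ac_ne (by omega), mul_zero, add_zero, add_zero, e1]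
      · rw [co_add, co_add, co_smul, co_ac rfl, mul_one]
        omega
    have hrun := fun (t : ℕ) (t1 : 1 ≤ t) (t2 : t ≤ n) =>
      key z t e1 (abs_le.2 ⟨by omega, by omega⟩) (by omega)
    rw [← hx.run z n hrun, ← hy.run z n hrun, X_edge, X_edge, e2, h1]

theorem miniAux_det_one {a b : ℕ} (hab : (a = k + 1 ∧ b = k + 2) ∨ (a = k + 2 ∧ b = k + 1))
    {z : Z2} (c1 : |z.1| ≤ r) (c2 : |z.2| ≤ r) (hh : ss K a ∣ co a (Z + z))
    (hl : ¬ ss K b ∣ co b (Z + z)) : x.1 z = y.1 z := by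
  obtain ⟨j, j1, j2, j3⟩ := miniAux_exists_low (a := b) (by omega) (hno _ c1 c2) hl
  refine miniAux_one (hx z) (hy z) j3 j1 ?_ ?_
  · rw [co_congr (j := a) (by omega)]
    exact (ss_dvd (by omega) (by omega)).trans hh
  · rw [vw_ne (j := a) (by omega), vw_ne (i := j) (j := a) (by omega)]
    exact miniAux_label hx hy hr hno b1 b2 hz h1 hab c1 c2 hh

theorem miniAux_det : Agree x y r := by
  intro z c1 c2
  by_cases ha : ss K (k + 1) ∣ co (k + 1) (Z + z)
  · by_cases hb : ss K (k + 2) ∣ co (k + 2) (Z + z)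
    · have : z = z1 := co_ext (i := k + 1)
        (miniAux_same hr le_rfl (abs_co_le _ c1 c2) (abs_co_le _ b1 b2) ha
          (hz _ (Or.inl rfl) z c1 c2 ha))
        (miniAux_same hr (by omega) (abs_co_le _ c1 c2) (abs_co_le _ b1 b2) hb
          (hz _ (Or.inr rfl) z c1 c2 hb))
      rw [this, h1]
    · exact miniAux_det_one hx hy hr hno b1 b2 hz h1 (Or.inl ⟨rfl, rfl⟩) c1 c2 ha hb
  · by_cases hb : ss K (k + 2) ∣ co (k + 2) (Z + z)
    · exact miniAux_det_one hx hy hr hno b1 b2 hz h1 (Or.inr ⟨rfl, rfl⟩) c1 c2 hb ha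
    · obtain ⟨i, i1, i2, i3⟩ := miniAux_exists_low (Or.inl rfl) (hno _ c1 c2) ha
      obtain ⟨j, j1, j2, j3⟩ := miniAux_exists_low (Or.inr rfl) (hno _ c1 c2) hb
      exact miniAux_low (hx z) (hy z) i3 j3 i1 j1 (by omega)

end det

/-- two positions with the same digits up to level `k` -/
def miniAux_Cg (K k : ℕ) (V V0 : Z2) : Prop :=
  ∀ a, a = k + 1 ∨ a = k + 2 → ss K a ∣ co a V - co a V0

theorem miniAux_Cg.known (hK : Stab K) {k : ℕ} (hk : K ≤ k) {V V0 : Z2} (h : miniAux_Cg K k V V0)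
    {p : Core × ℤ} (hp : Known K k V p) : Known K k V0 p :=
  hp.congr hK hk (h _ (Or.inl rfl)) (by
    rw [co_congr (j := k + 2) (by omega)]
    exact h _ (Or.inr rfl))

/-- positions on two deep lines -/
theorem miniAux_cg_of {k i : ℕ} (hi : k + 2 ≤ i) {V V0 : Z2} (h1 : ss K i ∣ co i V)
    (h2 : ss K (i + 1) ∣ co (i + 1) V) (ha : ss K (k + 1) ∣ co (k + 1) V0)
    (hb : ss K (k + 2) ∣ co (k + 2) V0) : miniAux_Cg K k V V0 := by
  intro a h
  refine dvd_sub ?_ (by rcases h with rfl | rfl <;> assumption)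
  by_cases hp : a % 2 = i % 2
  · rw [co_congr hp]
    exact (ss_dvd (by omega) hp).trans h1
  · rw [co_congr (j := i + 1) (by omega)]
    exact (ss_dvd (by omega) (by omega)).trans h2

theorem miniAux_real_two (hK : Stab K) {k : ℕ} (hk : K ≤ k) {V0 : Z2} {a : (Wst K).A}
    (h : Known K k V0 (tl a)) (hT : TT (k + 2) (cr a)) (ha : ss K (k + 1) ∣ co (k + 1) V0)
    (hb : ss K (k + 2) ∣ co (k + 2) V0) : ∃ k' V, k ≤ k' ∧ miniAux_Cg K k V V0 ∧
      ∀ a', Known K k' V (tl a') → a' = a := by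
  obtain ⟨i, y, hi, y1, y2, ⟨z, w, z1, z2, w1, w2, e⟩ |
    ⟨j, x', y', z', j1, j2, a1, a2, b1, b2, c1, c2, e⟩⟩ := hT
  · obtain ⟨V, v1, v2⟩ := miniAux_pos i (y * ss K i + w * ss K (i + 2)) (z * ss K (i + 1))
    obtain ⟨d1, d2⟩ := miniAux_idx (by omega) v1 y1 y2
    obtain ⟨d3, d4⟩ := miniAux_idx (K := K) (j := i + 1) (V := V) (c := 0) (by omega)
      (by rw [v2, zero_mul, add_zero]) z1 z2
    have d5 : dg K (i + 2) V = w := miniAux_dg (a := y * ss K i) (c := 0) (by omega)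
      (by rw [co_congr (j := i) (by omega), v1, zero_mul, add_zero])
      (mul_nonneg (by omega) (ss_pos i).le)
      (by simpa using miniAux_lt (K := K) (j := i) (by omega) (ss_pos i) y2) w1 w2
    have hc := miniAux_cg_of hi d1.1 d3.1 ha hb
    refine ⟨i + 2, V, by omega, hc, fun a' h' => tile_ext (Prod.ext ?_
      ((hc.known hK hk (h'.mono (by omega))).cnt.trans h.cnt.symm))⟩
    rw [h'.eq_tileAt d1 d3 (by omega) (by omega) (by omega), tileAt_adj hK d1 d3,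
      if_neg (by omega), d2, d4, d5]
    exact e.symm
  · obtain ⟨j, rfl⟩ : ∃ j', j = j' + 1 := ⟨j - 1, by omega⟩
    rw [Nat.add_sub_cancel] at a2
    obtain ⟨c, hc⟩ := ss_dvd (K := K) (i := i + 2) (j := j) (by omega) (by omega)
    obtain ⟨c', hc'⟩ := ss_dvd (K := K) (i := i + 2) (j := j + 2) (by omega) (by omega)
    obtain ⟨V, v1, v2⟩ := miniAux_pos j (y * ss K i + x' * ss K j + z' * ss K (j + 2))
      (y' * ss K (j + 1))
    have p0 : 0 ≤ y * ss K i := mul_nonneg (by omega) (ss_pos i).le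
    have p1 : y * ss K i < ss K j :=
      (by simpa using miniAux_lt (K := K) (j := i) (by omega) (ss_pos i) y2 :
        y * ss K i < ss K (i + 2)).trans_le (ss_mono (by omega))
    obtain ⟨d1, d2⟩ := miniAux_idx (K := K) (j := i) (V := V) (c := x' * c + z' * c') (by omega)
      (by rw [co_congr (j := j) (by omega), v1, hc, hc']; ring) y1 y2
    obtain ⟨d3, d4⟩ := miniAux_idx (K := K) (j := j + 1) (V := V) (c := 0) (by omega)
      (by rw [v2, zero_mul, add_zero]) b1 b2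
    have d5 : dg K j V = x' := miniAux_dg (by omega) v1 p0 p1 a1 a2
    have d6 : dg K (j + 2) V = z' := miniAux_dg (a := y * ss K i + x' * ss K j) (c := 0) (by omega)
      (by rw [co_congr (j := j) (by omega), v1, zero_mul, add_zero])
      (add_nonneg p0 (mul_nonneg a1 (ss_pos j).le)) (miniAux_lt (by omega) p1 a2) c1 c2
    have hc := miniAux_cg_of hi d1.1 (by
      rw [co_congr (j := j + 1) (by omega)]
      exact (ss_dvd (by omega) (by omega)).trans d3.1) ha hb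
    refine ⟨j + 2, V, by omega, hc, fun a' h' => tile_ext (Prod.ext ?_
      ((hc.known hK hk (h'.mono (by omega))).cnt.trans h.cnt.symm))⟩
    rw [h'.eq_tileAt d1 d3 (by omega) (by omega) (by omega), tileAt_gg hK d1 d3 j1 j2.symm,
      if_neg (by omega), d2, d4, Nat.add_sub_cancel, d5, d6]
    exact e.symm

theorem miniAux_real_one (hK : Stab K) {k : ℕ} (hk : K ≤ k) {V0 : Z2} {t : (Wst K).A}
    (h : Known K k V0 (tl t)) (hT : TT (k + 2) (cr t)) (hno : ¬ IsIdx K k V0) {a b : ℕ}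
    (hab : (a = k + 1 ∧ b = k + 2) ∨ (a = k + 2 ∧ b = k + 1)) (ha : ss K a ∣ co a V0)
    (hb : ¬ ss K b ∣ co b V0) : ∃ k' V, k ≤ k' ∧ miniAux_Cg K k V V0 ∧
      ∀ t', Known K k' V (tl t') → t' = t := by
  obtain ⟨j0, j1, j2, j3⟩ := miniAux_exists_low (a := b) (by omega) hno hb
  have hh : ss K (j0 + 3) ∣ co (j0 + 1) V0 := by
    rw [co_congr (j := a) (by omega)]
    exact (ss_dvd (by omega) (by omega)).trans ha
  have hv : vw j0 (cr t) = _ := h.high (rule_cr t) j3 j1 hh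
  obtain ⟨i, y, hi, y1, y2, ⟨z, w, z1, z2, w1, w2, e⟩ |
    ⟨j, x', y', z', i1, i2, a1, a2, b1, b2, c1, c2, e⟩⟩ := hT
  · have e1 := congrArg Core.adj hv
    rw [vw_adj, e, tAdj, vw_adj] at e1
    exact absurd e1 (by simp)
  · have hp : j0 % 2 = i % 2 := by
      by_contra hp
      have e1 := congrArg Core.cdom hv
      rw [vw_ne hp, e, tGg, vw_vw] at e1
      exact absurd e1 (by simp [Core.tr])
    have hl : (vw j0 (cr t)).Ab = lab j x' y' z' := by
      rw [vw_congr hp, e, tGg, vw_vw]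
    obtain ⟨j, rfl⟩ : ∃ j', j = j' + 1 := ⟨j - 1, by omega⟩
    rw [Nat.add_sub_cancel] at a2
    obtain ⟨V, v1, v2⟩ := miniAux_pos j (co b V0 % ss K b + x' * ss K j + z' * ss K (j + 2))
      (y' * ss K (j + 1))
    have p0 : 0 ≤ co b V0 % ss K b := Int.emod_nonneg _ (ss_pos b).ne'
    have p1 : co b V0 % ss K b < ss K j :=
      (Int.emod_lt_of_pos _ (ss_pos b)).trans_le (ss_mono (by omega))
    obtain ⟨d3, d4⟩ := miniAux_idx (K := K) (j := j + 1) (V := V) (c := 0) (by omega)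
      (by rw [v2, zero_mul, add_zero]) b1 b2
    have d5 : dg K j V = x' := miniAux_dg (by omega) v1 p0 p1 a1 a2
    have d6 : dg K (j + 2) V = z' := miniAux_dg (a := co b V0 % ss K b + x' * ss K j) (c := 0)
      (by omega) (by rw [co_congr (j := j) (by omega), v1, zero_mul, add_zero])
      (add_nonneg p0 (mul_nonneg a1 (ss_pos j).le)) (miniAux_lt (by omega) p1 a2) c1 c2
    have ca : ss K a ∣ co a V - co a V0 := by
      refine dvd_sub ?_ ha
      rw [co_congr (j := j + 1) (by omega)]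
      exact (ss_dvd (by omega) (by omega)).trans d3.1
    have cb : ss K b ∣ co b V - co b V0 := by
      have e1 : co b V - co b V0 =
          x' * ss K j + z' * ss K (j + 2) - (co b V0 - co b V0 % ss K b) := by
        have : co b V = co j V := by rw [co_congr (j := j) (by omega)]
        rw [this, v1]
        ring
      rw [e1]
      exact dvd_sub (dvd_add ((ss_dvd (by omega) (by omega)).mul_left _)
        ((ss_dvd (by omega) (by omega)).mul_left _)) Int.dvd_self_sub_emod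
    have hc : miniAux_Cg K k V V0 := by
      intro c hc
      obtain rfl | rfl : c = a ∨ c = b := by omega
      · exact ca
      · exact cb
    refine ⟨j + 2, V, by omega, hc, fun t' h' =>
      miniAux_one (hc.known hK hk (h'.mono (by omega))) h j3 j1 hh ?_⟩
    rw [hl, vw_ne (j := j + 1) (by omega)]
    have e2 : (vw (j + 1) (cr t')).R = _ := (h'.full (j + 1) (by omega) d3).1
    rw [LabAt, Nat.add_sub_cancel, d4, d5, d6] at e2
    exact e2

/-- every tile with counter zero occurs at a finite level -/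
theorem miniAux_real (hK : Stab K) {k : ℕ} (hk : K ≤ k) {V0 : Z2} {t : (Wst K).A}
    (h : Known K k V0 (tl t)) (h0 : ss K (K + 2) ∣ co K V0) (hno : ¬ IsIdx K k V0) :
    ∃ k' V, k ≤ k' ∧ miniAux_Cg K k V V0 ∧ ∀ t', Known K k' V (tl t') → t' = t := by
  have hT : TT (k + 2) (cr t) := hK.2.2 _ _ (t.2.2.2.1 (h.cnt.trans (dg_eq_zero h0)))
  by_cases ha : ss K (k + 1) ∣ co (k + 1) V0
  · by_cases hb : ss K (k + 2) ∣ co (k + 2) V0
    · exact miniAux_real_two hK hk h hT ha hb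
    · exact miniAux_real_one hK hk h hT hno (Or.inl ⟨rfl, rfl⟩) ha hb
  · by_cases hb : ss K (k + 2) ∣ co (k + 2) V0
    · exact miniAux_real_one hK hk h hT hno (Or.inr ⟨rfl, rfl⟩) hb ha
    · obtain ⟨i, i1, i2, i3⟩ := miniAux_exists_low (Or.inl rfl) hno ha
      obtain ⟨j, j1, j2, j3⟩ := miniAux_exists_low (Or.inr rfl) hno hb
      exact ⟨k, V0, le_rfl, fun a _ => by simp,
        fun t' h' => miniAux_low h' h i3 j3 i1 j1 (by omega)⟩

/-- a level that is not the index of a line meeting the box -/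
theorem miniAux_level (hK : Stab K) (x : (Wst K).X) (r : ℕ) : ∃ k Z, K ≤ k ∧ k % 2 = 0 ∧
    At x k Z ∧ 2 * (r : ℤ) < ss K (k + 1) ∧
      ∀ z : Z2, |z.1| ≤ r → |z.2| ≤ r → ¬ IsIdx K k (Z + z) := by
  obtain ⟨i0, hi0⟩ := ss_large (K := K) (2 * r + 1)
  obtain ⟨k, k1, k2, k3⟩ : ∃ k, K ≤ k ∧ k % 2 = 0 ∧ i0 ≤ k :=
    ⟨2 * (K + i0), by omega, by omega, by omega⟩
  obtain ⟨Z, hZ⟩ := exists_At hK x (k := k + 2) (by omega)
  have h1 := hi0 k k3
  have h2 := hi0 (k + 1) (by omega)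
  have h3 := hi0 (k + 2 + 1) (by omega)
  by_cases h : ∀ z : Z2, |z.1| ≤ r → |z.2| ≤ r → ¬ IsIdx K k (Z + z)
  · exact ⟨k, Z, k1, k2, hZ.mono (by omega), by omega, h⟩
  · push Not at h
    obtain ⟨z, z1, z2, z3⟩ := h
    refine ⟨k + 2, Z, by omega, by omega, hZ, by omega, fun z' c1 c2 hc => z3.2 ?_⟩
    have h4 : ss K (k + 2) ∣ co k (Z + z') := by
      rw [co_congr (j := k + 2) (by omega)]
      exact hc.1
    have h5 := miniAux_same (k := k) (by omega) le_rfl (abs_co_le k z1 z2) (abs_co_le k c1 c2) z3.1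
      ((ss_dvd_add_two k).trans h4)
    rwa [co_add, h5, ← co_add]

/-- the reference point -/
theorem miniAux_ref (hK : Stab K) {k r : ℕ} (hk : K ≤ k) (hk2 : k % 2 = 0)
    (hr : ss K (K + 2) ≤ r) (Z : Z2) : ∃ z1 : Z2, |z1.1| ≤ r ∧ |z1.2| ≤ r ∧
      ss K (K + 2) ∣ co K (Z + z1) ∧ ∀ a, a = k + 1 ∨ a = k + 2 → ∀ z : Z2, |z.1| ≤ r →
        |z.2| ≤ r → ss K a ∣ co a (Z + z) → ss K a ∣ co a (Z + z1) := by
  have hK2 := hK.1
  obtain ⟨α, α1, α2⟩ : ∃ α : ℤ, |α| ≤ r ∧ ∀ z : Z2, |z.1| ≤ r → |z.2| ≤ r →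
      ss K (k + 1) ∣ co (k + 1) (Z + z) → ss K (k + 1) ∣ co (k + 1) Z + α := by
    by_cases h : ∃ z : Z2, |z.1| ≤ r ∧ |z.2| ≤ r ∧ ss K (k + 1) ∣ co (k + 1) (Z + z)
    · obtain ⟨z, z1, z2, z3⟩ := h
      exact ⟨co (k + 1) z, abs_co_le _ z1 z2, fun _ _ _ _ => by rwa [← co_add]⟩
    · exact ⟨0, by simp, fun z z1 z2 z3 => (h ⟨z, z1, z2, z3⟩).elim⟩
  obtain ⟨β, β1, β3, β2⟩ : ∃ β : ℤ, |β| ≤ r ∧ ss K (K + 2) ∣ co (k + 2) Z + β ∧
      ∀ z : Z2, |z.1| ≤ r → |z.2| ≤ r →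
        ss K (k + 2) ∣ co (k + 2) (Z + z) → ss K (k + 2) ∣ co (k + 2) Z + β := by
    by_cases h : ∃ z : Z2, |z.1| ≤ r ∧ |z.2| ≤ r ∧ ss K (k + 2) ∣ co (k + 2) (Z + z)
    · obtain ⟨z, z1, z2, z3⟩ := h
      rw [co_add] at z3
      exact ⟨co (k + 2) z, abs_co_le _ z1 z2, (ss_dvd (by omega) (by omega)).trans z3,
        fun _ _ _ _ => z3⟩
    · have h1 := Int.emod_nonneg (co (k + 2) Z) (ss_pos (K := K) (K + 2)).ne'
      have h2 := Int.emod_lt_of_pos (co (k + 2) Z) (ss_pos (K := K) (K + 2))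
      exact ⟨-(co (k + 2) Z % ss K (K + 2)), abs_le.2 ⟨by omega, by omega⟩, Int.dvd_self_sub_emod,
        fun z z1 z2 z3 => (h ⟨z, z1, z2, z3⟩).elim⟩
  obtain ⟨z1, v1, v2⟩ := miniAux_pos (k + 1) α β
  obtain ⟨c1, c2⟩ := abs_le_of_co (i := k + 1) (z := z1) (r := r) (by rwa [v1]) (by rwa [v2])
  refine ⟨z1, c1, c2, ?_, ?_⟩
  · rwa [co_congr (j := k + 1 + 1) (by omega), co_add, v2]
  · rintro a (rfl | rfl) z d1 d2 d3
    · rw [co_add, v1]
      exact α2 z d1 d2 d3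
    · rw [co_add, v2]
      exact β2 z d1 d2 d3

theorem minimal_W (hK : Stab K) : (Wst K).Minimal := by
  rintro U hU ⟨x, hx⟩ y
  obtain ⟨r0, hr0⟩ := isClopen_iff.1 hU
  obtain ⟨r, r1, r2⟩ : ∃ r : ℕ, r0 ≤ r ∧ ss K (K + 2) ≤ r :=
    ⟨r0 + (ss K (K + 2)).toNat, by omega, by omega⟩
  obtain ⟨k, Z, k1, k2, hZ, hr, hno⟩ := miniAux_level hK x r
  obtain ⟨z1, b1, b2, h0, hz⟩ := miniAux_ref hK k1 k2 r2 Z
  obtain ⟨k', V, hk', hc, hV⟩ := miniAux_real hK k1 (hZ z1) h0 (hno z1 b1 b2)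
  obtain ⟨Y, hY⟩ := exists_At hK y (k1.trans hk')
  have h1 := hY.vadd (V - z1 - Y)
  rw [add_sub_cancel] at h1
  refine ⟨V - z1 - Y, (hr0 x _ (Agree.mono (miniAux_det hZ (fun z => ?_) hr hno b1 b2 hz
    (hV _ (by simpa using h1 z1)).symm) r1)).1 hx⟩
  refine miniAux_Cg.known hK k1 (fun a ha => ?_) ((h1 z).mono hk')
  have h2 := hc a ha
  rw [co_add] at h2
  rw [co_add, co_add, co_sub]
  rwa [show co a V - co a z1 + co a z - (co a Z + co a z) = co a V - (co a Z + co a z1) by ring]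

end Vale.Agent.P196
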