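import Vale.Agent.P196.Sys1

/-! P196 task M: the finitely presented cover. -/

namespace Vale.Agent.P196

open Pointwise

section Cover
variable {S P : Type} [Group P]

/-- `g` is a product of at most `n` generators or inverses of generators -/
def presA_Len (s : S → P) (n : ℕ) (g : P) : Prop :=
  ∃ l : List (S × Bool), l.length ≤ n ∧ FreeGroup.lift s (FreeGroup.mk l) = g

theorem presA_Len.one (s : S → P) : presA_Len s 0 1 :=
  ⟨[], le_rfl, by rw [← FreeGroup.one_eq_mk, map_one]⟩

theorem presA_Len.of (s : S → P) (x : S) : presA_Len s 1 (s x) :=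
  ⟨[(x, true)], le_rfl, by simp⟩

theorem presA_Len.mul {s : S → P} {n n' : ℕ} {g g' : P} (h : presA_Len s n g)
    (h' : presA_Len s n' g') : presA_Len s (n + n') (g * g') := by
  obtain ⟨l, h1, rfl⟩ := h
  obtain ⟨l', h2, rfl⟩ := h'
  exact ⟨l ++ l', by rw [List.length_append]; omega, by rw [← FreeGroup.mul_mk, map_mul]⟩

theorem presA_Len.inv {s : S → P} {n : ℕ} {g : P} (h : presA_Len s n g) : presA_Len s n g⁻¹ := by
  obtain ⟨l, h1, rfl⟩ := h
  exact ⟨FreeGroup.invRev l, by rwa [FreeGroup.invRev_length], by rw [← FreeGroup.inv_mk, map_inv]⟩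

theorem presA_Len.list (s : S → P) (l : List S) : presA_Len s l.length (l.map s).prod := by
  induction l with
  | nil => exact presA_Len.one s
  | cons x l ih =>
    rw [List.map_cons, List.prod_cons, List.length_cons, add_comm]
    exact (presA_Len.of s x).mul ih

theorem presA_cover [Finite S] {G : Type} [Group G] (π₀ : S → G) (L : ℕ) :
    ∃ (P : Type) (_ : Group P) (s : S → P) (π : P →* G), Group.IsFinitelyPresented P ∧
      (∀ x, π (s x) = π₀ x) ∧ Subgroup.closure (Set.range s) = ⊤ ∧
      ∀ {n n' : ℕ} {g g' : P}, presA_Len s n g → presA_Len s n' g' → n + n' ≤ L → π g = π g' →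
        g = g' := by
  let R : Set (FreeGroup S) :=
    {w | w ∈ FreeGroup.mk '' {l : List (S × Bool) | l.length ≤ L} ∧ FreeGroup.lift π₀ w = 1}
  have hfin : R.Finite := ((List.finite_length_le (S × Bool) L).image _).subset fun w hw => hw.1
  have : Finite R := hfin
  have hR : ∀ r ∈ R, FreeGroup.lift π₀ r = 1 := fun r hr => hr.2
  refine ⟨PresentedGroup R, inferInstance, PresentedGroup.of, PresentedGroup.toGroup hR,
    inferInstance, fun x => PresentedGroup.toGroup.of hR, PresentedGroup.closure_range_of R, ?_⟩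
  intro n n' g g' h h' hL he
  obtain ⟨l, h1, h2⟩ := h.mul h'.inv
  have e1 : FreeGroup.lift (PresentedGroup.of (rels := R)) = PresentedGroup.mk R := by
    ext x; rw [FreeGroup.lift_apply_of]; rfl
  have e2 : (PresentedGroup.toGroup hR).comp (PresentedGroup.mk R) = FreeGroup.lift π₀ := by
    ext x
    rw [MonoidHom.comp_apply, FreeGroup.lift_apply_of]
    exact PresentedGroup.toGroup.of hR
  rw [e1] at h2
  rw [← mul_inv_eq_one, ← h2]
  refine PresentedGroup.one_of_mem ⟨⟨l, h1.trans hL, rfl⟩, ?_⟩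
  rw [← e2, MonoidHom.comp_apply, h2, map_mul, map_inv, he, mul_inv_cancel]

end Cover

section Torus

/-- the basic zero-sum vectors -/
def presA_e (d : Bool) (j k : I) : I → Z2 := Pi.single j (ev d) - Pi.single k (ev d)

theorem presA_e_sum (d : Bool) (j k : I) : ∑ i, presA_e d j k i = 0 := by
  simp [presA_e, Finset.sum_sub_distrib]

theorem presA_e_add (d : Bool) (j k l : I) : presA_e d j k + presA_e d k l = presA_e d j l := by
  simp [presA_e]

theorem presA_e_of_ne (d : Bool) {j k n : I} (h1 : n ≠ j) (h2 : n ≠ k) : presA_e d j k n = 0 := by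
  simp [presA_e, h1, h2]

theorem presA_e_left (d : Bool) {j k : I} (h : j ≠ k) : presA_e d j k j = ev d := by
  simp [presA_e, h]

theorem presA_theta0 {A : Type} [CommGroup A] (τ : Bool → I → A) :
    ∃ θ : (I → Z2) → A, (∀ y y', θ (y + y') = θ y * θ y') ∧
      ∀ d j, θ (Pi.single j (ev d)) = τ d j := by
  refine ⟨fun y => ∏ j, τ false j ^ (y j).1 * τ true j ^ (y j).2, fun y y' => ?_, fun d j => ?_⟩
  · rw [← Finset.prod_mul_distrib]
    refine Finset.prod_congr rfl fun j _ => ?_
    rw [Pi.add_apply, Prod.fst_add, Prod.snd_add, zpow_add, zpow_add, mul_mul_mul_comm]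
  · dsimp only
    rw [Finset.prod_eq_single j]
    · cases d <;> simp [ev]
    · intro b _ hb
      simp [hb]
    · simp

theorem presA_theta {P : Type} [Group P] (τ : Bool → I → I → P)
    (hc : ∀ d j k d' j' k', τ d j k * τ d' j' k' = τ d' j' k' * τ d j k)
    (ht : ∀ d j k l, τ d j k * τ d k l = τ d j l) :
    ∃ θ : Multiplicative (I → Z2) →* P,
      ∀ d j k, θ (Multiplicative.ofAdd (presA_e d j k)) = τ d j k := by
  let A := Subgroup.closure {g | ∃ d j k, g = τ d j k}
  have : IsMulCommutative A := Subgroup.isMulCommutative_closure (by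
    rintro _ ⟨d, j, k, rfl⟩ _ ⟨d', j', k', rfl⟩
    exact hc d j k d' j' k')
  let : CommGroup A := { (inferInstance : Group A) with mul_comm := this.is_comm.comm }
  obtain ⟨θ, h1, h2⟩ := presA_theta0 (A := A)
    fun d j => ⟨τ d j 0, Subgroup.subset_closure ⟨d, j, 0, rfl⟩⟩
  refine ⟨MonoidHom.mk' (fun y => (θ y.toAdd : P)) fun y y' => by
    rw [toAdd_mul, h1]; rfl, fun d j k => ?_⟩
  have h3 := congrArg (fun g : A => (g : P)) (h1 (presA_e d j k) (Pi.single k (ev d)))
  simp only [presA_e, sub_add_cancel, h2] at h3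
  change (θ (presA_e d j k) : P) = _
  rw [← ht d j k 0] at h3
  exact (mul_right_cancel h3).symm

theorem presA_zsum {H : AddSubgroup (I → Z2)} {J : Finset I}
    (hH : ∀ d, ∀ j ∈ J, ∀ k ∈ J, presA_e d j k ∈ H) {y : I → Z2} (h0 : ∑ i, y i = 0)
    (hJ : ∀ i, i ∉ J → y i = 0) : y ∈ H := by
  rcases J.eq_empty_or_nonempty with rfl | ⟨l, hl⟩
  · have : y = 0 := funext fun i => hJ i (by simp)
    rw [this]; exact H.zero_mem
  · have h1 : y = ∑ j, (Pi.single j (y j) - Pi.single l (y j)) := by
      rw [Finset.sum_sub_distrib, Finset.univ_sum_single]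
      have : ∑ j, (Pi.single l (y j) : I → Z2) = Pi.single l (∑ j, y j) :=
        (map_sum (AddMonoidHom.single (fun _ : I => Z2) l) y Finset.univ).symm
      rw [this, h0, Pi.single_zero, sub_zero]
    rw [h1]
    refine H.sum_mem fun j _ => ?_
    by_cases hj : j ∈ J
    · have h2 : (Pi.single j (y j) - Pi.single l (y j) : I → Z2) =
          (y j).1 • presA_e false j l + (y j).2 • presA_e true j l := by
        have h3 : y j = (y j).1 • ev false + (y j).2 • ev true := by simp [ev]
        conv_lhs => rw [h3]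
        simp only [presA_e, Pi.single_add, Pi.single_smul, smul_sub]
        abel
      rw [h2]
      exact H.add_mem (H.zsmul_mem (hH _ _ hj _ hl) _) (H.zsmul_mem (hH _ _ hj _ hl) _)
    · rw [hJ j hj]; simp

theorem presA_fresh (i j k : I) : ∃ l : I, l ≠ i ∧ l ≠ j ∧ l ≠ k := by
  have h : ({i, j, k} : Finset I).card < (Finset.univ : Finset I).card :=
    Finset.card_le_three.trans_lt (by simp)
  obtain ⟨l, -, hl⟩ := Finset.exists_mem_notMem_of_card_lt_card h
  exact ⟨l, by simpa [not_or] using hl⟩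

end Torus

section Perm
variable {W : Wang}

/-- translation of each copy -/
def presA_T (y : I → Z2) : Equiv.Perm W.Pt where
  toFun p := (y p.2 +ᵥ p.1, p.2)
  invFun p := (-y p.2 +ᵥ p.1, p.2)
  left_inv p := by simp
  right_inv p := by simp

theorem presA_T_apply (y : I → Z2) (x : W.X) (i : I) : presA_T y (x, i) = (y i +ᵥ x, i) := rfl

theorem presA_T_inv_apply (y : I → Z2) (x : W.X) (i : I) :
    (presA_T y)⁻¹ (x, i) = (-y i +ᵥ x, i) := rfl

theorem presA_T_add (y y' : I → Z2) : (presA_T (y + y') : Equiv.Perm W.Pt) =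
    presA_T y * presA_T y' := by
  ext1 ⟨x, i⟩
  simp only [Equiv.Perm.mul_apply, presA_T_apply, Pi.add_apply, add_vadd]

/-- permutations of the copies depending on the point -/
def presA_F : (W.X → Equiv.Perm I) →* Equiv.Perm W.Pt :=
  MonoidHom.mk' (fun f => Equiv.prodShear (Equiv.refl _) f) fun _ _ => rfl

theorem presA_F_apply (f : W.X → Equiv.Perm I) (x : W.X) (i : I) :
    presA_F f (x, i) = (x, f x i) := rfl

open Classical in
/-- the three-cycles between the copies -/
noncomputable def presA_K (U : Set W.X) (i j k : I) : Equiv.Perm W.Pt :=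
  presA_F fun x => if x ∈ U ∧ D3 i j k then c3 i j k else 1

theorem presA_K_eq {U : Set W.X} {i j k : I} (h : D3 i j k) :
    presA_K U i j k = cyc U (0, i) (0, j) (0, k) := by
  have hinj : Function.Injective fun n : I => ((0, n) : B) := fun _ _ e => congrArg Prod.snd e
  have hMS : MS U {(0, i), (0, j), (0, k)} := by
    refine MS.of_injOn ?_
    rintro _ (rfl | rfl | rfl) _ (rfl | rfl | rfl) e <;> first | rfl | exact congrArg _ e
  refine IsCyc.unique ⟨fun x hx => ?_, ?_⟩ (isCyc_cyc (h.map hinj) hMS)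
  · simp only [pt_zero, presA_K, presA_F_apply, hx, h, and_self, if_true, c3_a h, c3_b h, c3_c h]
  · rintro ⟨x, n⟩ hp
    rw [presA_K, presA_F_apply]
    split_ifs with hx
    · have h1 := hp x hx.1
      simp only [pt_zero, ne_eq, Prod.mk.injEq, true_and] at h1
      rw [c3_of_ne h1.1 h1.2.1 h1.2.2]
    · rfl

theorem presA_K_junk (U : Set W.X) {i j k : I} (h : ¬ D3 i j k) : presA_K U i j k = 1 := by
  rw [presA_K, ← presA_F.map_one]
  congr 1
  funext x
  simp [h]

theorem presA_K_cyc (U : Set W.X) {i j k : I} (h : D3 i j k) :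
    presA_K U i j k = presA_K U j k i := by
  rw [presA_K, presA_K]
  congr 1
  funext x
  by_cases hx : x ∈ U
  · rw [if_pos ⟨hx, h⟩, if_pos ⟨hx, basicAux_rot h⟩, c3_cyc h]
  · rw [if_neg fun e => hx e.1, if_neg fun e => hx e.1]

theorem presA_K_inv (U : Set W.X) {i j k : I} (h : D3 i j k) :
    presA_K U i k j = (presA_K U i j k)⁻¹ := by
  rw [presA_K, presA_K, ← map_inv]
  congr 1
  funext x
  by_cases hx : x ∈ U <;> simp [h, basicAux_flip h, hx, c3_inv h]

theorem presA_K_cf (U : Set W.X) {x a c e : I} (h : D3 x a c) (h1 : x ≠ e) (h2 : a ≠ e)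
    (h3 : c ≠ e) : presA_K U x a c = presA_K U a c e * presA_K U x e c := by
  have d1 : D3 a c e := ⟨h.2.2, h2, h3⟩
  have d2 : D3 x e c := ⟨h1, h.2.1, h3.symm⟩
  rw [presA_K, presA_K, presA_K, ← map_mul]
  congr 1
  funext y
  by_cases hy : y ∈ U <;> simp [h, d1, d2, hy, c3_cf h h1 h2 h3]

theorem presA_K_conj {U V : Set W.X} (hUV : U ⊆ V) {i j k i' j' k' : I} (h : D3 i j k)
    (h' : D3 i' j' k') : presA_K V i j k * presA_K U i' j' k' * (presA_K V i j k)⁻¹ =
      presA_K U (c3 i j k i') (c3 i j k j') (c3 i j k k') := by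
  have d1 : D3 (c3 i j k i') (c3 i j k j') (c3 i j k k') := h'.map (c3 i j k).injective
  rw [presA_K, presA_K, presA_K, ← map_inv, ← map_mul, ← map_mul]
  congr 1
  funext y
  by_cases hy : y ∈ U
  · simp only [Pi.mul_apply, Pi.inv_apply, hy, hUV hy, h, h', d1, and_self, if_true, c3_conj]
  · simp [hy]

theorem presA_K_perp {U V : Set W.X} (hUV : Disjoint U V) (i j k i' j' k' : I) :
    presA_K U i j k * presA_K V i' j' k' = presA_K V i' j' k' * presA_K U i j k := by
  rw [presA_K, presA_K, ← map_mul, ← map_mul]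
  congr 1
  funext y
  by_cases hy : y ∈ U
  · simp [Set.disjoint_left.1 hUV hy]
  · simp [hy]

theorem presA_K_fix (U : Set W.X) {i j k n : I} (x : W.X) (h : n ∉ ({i, j, k} : Finset I)) :
    presA_K U i j k (x, n) = (x, n) := by
  simp only [Finset.mem_insert, Finset.mem_singleton, not_or] at h
  rw [presA_K, presA_F_apply]
  split_ifs
  · rw [c3_of_ne h.1 h.2.1 h.2.2]
  · rfl

theorem presA_T_conj (U : Set W.X) {y : I → Z2} {z : Z2} {i j k : I} (h1 : y i = z) (h2 : y j = z)
    (h3 : y k = z) : presA_T y * presA_K U i j k * (presA_T y)⁻¹ = presA_K (z +ᵥ U) i j k := by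
  ext1 ⟨x, n⟩
  by_cases hn : n ∈ ({i, j, k} : Finset I)
  · have h4 : y n = z := by
      simp only [Finset.mem_insert, Finset.mem_singleton] at hn
      rcases hn with rfl | rfl | rfl <;> assumption
    simp only [Equiv.Perm.mul_apply, presA_T_inv_apply, presA_K, presA_F_apply, presA_T_apply, h4]
    by_cases hx : -z +ᵥ x ∈ U ∧ D3 i j k
    · have h5 : y (c3 i j k n) = z := by
        simp only [Finset.mem_insert, Finset.mem_singleton] at hn
        rcases hn with rfl | rfl | rfl
        · rwa [c3_a hx.2]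
        · rwa [c3_b hx.2]
        · rwa [c3_c hx.2]
      rw [if_pos hx, if_pos ⟨Set.mem_vadd_set_iff_neg_vadd_mem.2 hx.1, hx.2⟩, h5, vadd_neg_vadd]
    · rw [if_neg hx, if_neg fun e => hx ⟨Set.mem_vadd_set_iff_neg_vadd_mem.1 e.1, e.2⟩,
        Equiv.Perm.one_apply, h4, vadd_neg_vadd]
  · rw [Equiv.Perm.mul_apply, Equiv.Perm.mul_apply, presA_T_inv_apply, presA_K_fix _ _ hn,
      presA_K_fix _ _ hn, presA_T_apply, vadd_neg_vadd]

theorem presA_K_T {i j k l : I} (h : D3 i j k) (h1 : l ≠ i) (h2 : l ≠ j) (h3 : l ≠ k) (d : Bool) :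
    presA_K (Set.univ : Set W.X) i j k * presA_T (presA_e d j l) =
      presA_T (presA_e d k l) * presA_K Set.univ i j k := by
  ext1 ⟨x, n⟩
  simp only [Equiv.Perm.mul_apply, presA_K, presA_F_apply, presA_T_apply, Set.mem_univ, h,
    and_self, if_true]
  have h4 : presA_e d j l n = presA_e d k l (c3 i j k n) := by
    by_cases e1 : n = i
    · rw [e1, c3_a h, presA_e_of_ne d h.1 h1.symm, presA_e_of_ne d h.2.2 h2.symm]
    by_cases e2 : n = j
    · rw [e2, c3_b h, presA_e_left d h2.symm, presA_e_left d h3.symm]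
    by_cases e3 : n = k
    · rw [e3, c3_c h, presA_e_of_ne d h.2.2.symm h3.symm, presA_e_of_ne d h.2.1 h1.symm]
    rw [c3_of_ne e1 e2 e3]
    simp [presA_e, e2, e3]
  rw [h4]

theorem presA_K_list (i j k : I) (l : List W.A) (hl : l.Nodup) :
    (l.map fun a => presA_K {x : W.X | x.1 0 = a} i j k).prod =
      presA_K {x : W.X | x.1 0 ∈ l} i j k := by
  induction l with
  | nil =>
    rw [presA_K, List.map_nil, List.prod_nil, ← presA_F.map_one]
    congr 1
    funext x
    simp
  | cons a l ih =>
    rw [List.nodup_cons] at hl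
    rw [List.map_cons, List.prod_cons, ih hl.2, presA_K, presA_K, presA_K, ← map_mul]
    congr 1
    funext x
    rw [Pi.mul_apply]
    by_cases hd : D3 i j k
    · by_cases hx : x.1 0 = a
      · rw [if_pos ⟨hx, hd⟩, if_neg fun e => hl.1 (hx ▸ e.1),
          if_pos ⟨List.mem_cons.2 (Or.inl hx), hd⟩, mul_one]
      · rw [if_neg fun e => hx e.1, one_mul]
        by_cases hx' : x.1 0 ∈ l
        · rw [if_pos ⟨hx', hd⟩, if_pos ⟨List.mem_cons.2 (Or.inr hx'), hd⟩]
        · rw [if_neg fun e => hx' e.1, if_neg fun e => (List.mem_cons.1 e.1).elim hx hx']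
    · rw [if_neg fun e => hd e.2, if_neg fun e => hd e.2, if_neg fun e => hd e.2, mul_one]

/-- the generators -/
abbrev presA_S (W : Wang) : Type := (Option W.A × I × I × I) ⊕ (Bool × I × I)

/-- the cylinder of a generator -/
def presA_U : Option W.A → Set W.X
  | none => Set.univ
  | some a => {x | x.1 0 = a}

/-- the images of the generators -/
noncomputable def presA_π : presA_S W → Equiv.Perm W.Pt
  | .inl (o, i, j, k) => presA_K (presA_U o) i j k
  | .inr (d, j, k) => presA_T (presA_e d j k)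

/-- the copies moved by a generator -/
def presA_idx : presA_S W → Finset I
  | .inl (_, i, j, k) => {i, j, k}
  | .inr (_, j, k) => {j, k}

theorem presA_π_fix (t : presA_S W) (p : W.Pt) (h : p.2 ∉ presA_idx t) : presA_π t p = p := by
  obtain ⟨x, n⟩ := p
  rcases t with ⟨o, i, j, k⟩ | ⟨d, j, k⟩
  · exact presA_K_fix _ _ h
  · simp only [presA_idx, Finset.mem_insert, Finset.mem_singleton, not_or] at h
    rw [presA_π, presA_T_apply, presA_e_of_ne d h.1 h.2, zero_vadd]

end Perm

section Main
variable {W : Wang} {P : Type} [Group P] {s : presA_S W → P} {π : P →* Equiv.Perm W.Pt}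

/-- the local subgroups -/
def presA_Gen (s : presA_S W → P) (J : Finset I) : Subgroup P :=
  Subgroup.closure {g | ∃ t, presA_idx t ⊆ J ∧ g = s t}

/-- the short relations of the permutation group hold -/
structure presA_Rel (s : presA_S W → P) (π : P →* Equiv.Perm W.Pt) : Prop where
  π_s : ∀ x, π (s x) = presA_π x
  eq : ∀ {n n' : ℕ} {g g' : P}, presA_Len s n g → presA_Len s n' g' →
    n + n' ≤ Fintype.card W.A + 100 → π g = π g' → g = g'

theorem presA_Rel.comm (h : presA_Rel s π) {J J' : Finset I} (hd : Disjoint J J') :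
    ∀ g ∈ presA_Gen s J, ∀ g' ∈ presA_Gen s J', Commute g g' := by
  intro g hg g' hg'
  induction hg using Subgroup.closure_induction with
  | one => exact Commute.one_left _
  | mul _ _ _ _ h1 h2 => exact h1.mul_left h2
  | inv _ _ h1 => exact h1.inv_left
  | mem g hg =>
    induction hg' using Subgroup.closure_induction with
    | one => exact Commute.one_right _
    | mul _ _ _ _ h1 h2 => exact h1.mul_right h2
    | inv _ _ h1 => exact h1.inv_right
    | mem g' hg' =>
      obtain ⟨t, ht, rfl⟩ := hg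
      obtain ⟨t', ht', rfl⟩ := hg'
      refine h.eq ((presA_Len.of s t).mul (presA_Len.of s t'))
        ((presA_Len.of s t').mul (presA_Len.of s t)) (by omega) ?_
      rw [map_mul, map_mul, h.π_s, h.π_s]
      refine Equiv.Perm.Disjoint.commute fun p => ?_
      by_cases hp : p.2 ∈ J
      · exact Or.inr (presA_π_fix _ _ fun e => Finset.disjoint_left.1 hd hp (ht' e))
      · exact Or.inl (presA_π_fix _ _ fun e => hp (ht e))

theorem presA_Rel.idem (h : presA_Rel s π) (o : Option W.A) :
    IsIdem (fun i j k => s (.inl (none, i, j, k))) (presA_Gen s)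
      fun i j k => s (.inl (o, i, j, k)) where
  junk hd := h.eq (.of s _) (.one s) (by omega) (by
    rw [h.π_s, map_one]; exact presA_K_junk _ hd)
  cyc hd := h.eq (.of s _) (.of s _) (by omega) (by
    rw [h.π_s, h.π_s]; exact presA_K_cyc _ hd)
  inv hd := h.eq (.of s _) (presA_Len.of s _).inv (by omega) (by
    rw [map_inv, h.π_s, h.π_s]; exact presA_K_inv _ hd)
  cf hd h1 h2 h3 := h.eq (.of s _) ((presA_Len.of s _).mul (.of s _)) (by omega) (by
    rw [map_mul, h.π_s, h.π_s, h.π_s]; exact presA_K_cf _ hd h1 h2 h3)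
  conjk hd hd' := h.eq (((presA_Len.of s _).mul (.of s _)).mul (presA_Len.of s _).inv) (.of s _)
    (by omega) (by
      rw [map_mul, map_mul, map_inv, h.π_s, h.π_s, h.π_s]
      exact presA_K_conj (Set.subset_univ _) hd hd')
  conj hd hd' := h.eq (((presA_Len.of s _).mul (.of s _)).mul (presA_Len.of s _).inv) (.of s _)
    (by omega) (by
      rw [map_mul, map_mul, map_inv, h.π_s, h.π_s, h.π_s]
      exact presA_K_conj le_rfl hd hd')
  gen _ hi hj hk := Subgroup.subset_closure ⟨_, by
    simp only [presA_idx, Finset.insert_subset_iff, Finset.singleton_subset_iff]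
    exact ⟨hi, hj, hk⟩, rfl⟩

theorem presA_Rel.cover (h : presA_Rel s π) (i j k : I) : s (.inl (none, i, j, k)) ∈
    Subgroup.closure (Set.range fun a => s (.inl (some a, i, j, k))) := by
  classical
  have h1 : s (.inl (none, i, j, k)) = (((Finset.univ : Finset W.A).toList.map
      fun a => (.inl (some a, i, j, k) : presA_S W)).map s).prod := by
    refine h.eq (.of s _) (.list s _) (by
      rw [List.length_map, Finset.length_toList, Finset.card_univ]; omega) ?_
    rw [map_list_prod, List.map_map, List.map_map, h.π_s]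
    have h2 : (π ∘ s) ∘ (fun a => (.inl (some a, i, j, k) : presA_S W)) =
        fun a => presA_K {x : W.X | x.1 0 = a} i j k := funext fun a => h.π_s _
    rw [h2, presA_K_list i j k _ (Finset.nodup_toList _)]
    simp [presA_π, presA_U]
  rw [h1]
  refine Subgroup.list_prod_mem _ fun g hg => ?_
  rw [List.map_map, List.mem_map] at hg
  obtain ⟨a, -, rfl⟩ := hg
  exact Subgroup.subset_closure ⟨a, rfl⟩

variable {θ : Multiplicative (I → Z2) →* P}
  (hθ : ∀ d j k, θ (Multiplicative.ofAdd (presA_e d j k)) = s (.inr (d, j, k)))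
include hθ

theorem presA_θ_gen {y : I → Z2} {J : Finset I} (h0 : ∑ i, y i = 0)
    (hJ : ∀ i, i ∉ J → y i = 0) : θ (Multiplicative.ofAdd y) ∈ presA_Gen s J := by
  refine presA_zsum (H := Subgroup.toAddSubgroup' ((presA_Gen s J).comap θ))
    (fun d j hj k hk => ?_) h0 hJ
  change θ (Multiplicative.ofAdd _) ∈ presA_Gen s J
  rw [hθ]
  refine Subgroup.subset_closure ⟨_, ?_, rfl⟩
  simp only [presA_idx, Finset.insert_subset_iff, Finset.singleton_subset_iff]
  exact ⟨hj, hk⟩

theorem presA_Rel.π_θ (h : presA_Rel s π) {y : I → Z2} (h0 : ∑ i, y i = 0) :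
    π (θ (Multiplicative.ofAdd y)) = presA_T y := by
  let T : Multiplicative (I → Z2) →* Equiv.Perm W.Pt :=
    MonoidHom.mk' (fun y => presA_T y.toAdd) fun y y' => presA_T_add _ _
  refine presA_zsum (H := Subgroup.toAddSubgroup' ((π.comp θ).eqLocus T)) (J := Finset.univ)
    (fun d j _ k _ => ?_) h0 (by simp)
  change π (θ (Multiplicative.ofAdd _)) = _
  rw [hθ, h.π_s]
  rfl

theorem presA_Rel.θ_comm (h : presA_Rel s π) {y : I → Z2} (h0 : ∑ i, y i = 0) {i j k : I}
    (h1 : y i = 0) (h2 : y j = 0) (h3 : y k = 0) (o : Option W.A) :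
    Commute (θ (Multiplicative.ofAdd y)) (s (.inl (o, i, j, k))) := by
  refine h.comm (J := {i, j, k}ᶜ) (J' := {i, j, k}) disjoint_compl_left _
    (presA_θ_gen hθ h0 fun n hn => ?_) _ (Subgroup.subset_closure ⟨_, le_rfl, rfl⟩)
  simp only [Finset.mem_compl, not_not, Finset.mem_insert, Finset.mem_singleton] at hn
  rcases hn with rfl | rfl | rfl <;> assumption

theorem presA_len3 (d : Bool) (i j k l : I) : presA_Len s 3
    (θ (Multiplicative.ofAdd (presA_e d i l + presA_e d j l + presA_e d k l))) := by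
  rw [ofAdd_add, ofAdd_add, map_mul, map_mul, hθ, hθ, hθ]
  exact ((presA_Len.of s _).mul (.of s _)).mul (.of s _)

end Main

theorem presA_b {i j k : I} (h : D3 i j k) : ∃ l : I, ∀ d,
    ∑ n, (presA_e d i l + presA_e d j l + presA_e d k l) n = 0 ∧
    (presA_e d i l + presA_e d j l + presA_e d k l) i = ev d ∧
    (presA_e d i l + presA_e d j l + presA_e d k l) j = ev d ∧
    (presA_e d i l + presA_e d j l + presA_e d k l) k = ev d := by
  obtain ⟨l, h1, h2, h3⟩ := presA_fresh i j k
  refine ⟨l, fun d => ⟨?_, ?_, ?_, ?_⟩⟩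
  · simp only [Pi.add_apply, Finset.sum_add_distrib, presA_e_sum, add_zero]
  · simp only [Pi.add_apply, presA_e_left d h1.symm, presA_e_of_ne d h.1 h1.symm,
      presA_e_of_ne d h.2.1 h1.symm, add_zero]
  · simp only [Pi.add_apply, presA_e_left d h2.symm, presA_e_of_ne d h.1.symm h2.symm,
      presA_e_of_ne d h.2.2 h2.symm, add_zero, zero_add]
  · simp only [Pi.add_apply, presA_e_left d h3.symm, presA_e_of_ne d h.2.1.symm h3.symm,
      presA_e_of_ne d h.2.2.symm h3.symm, add_zero, zero_add]

theorem exists_sys1 (W : Wang) :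
    ∃ (P : Type) (_ : Group P), Group.IsFinitelyPresented P ∧ Nonempty (Sys1 W P) := by
  obtain ⟨P, hP, s, π, hfp, hπ, hgen, heq⟩ :=
    presA_cover (presA_π (W := W)) (Fintype.card W.A + 100)
  have h : presA_Rel s π := ⟨hπ, heq⟩
  have hτ : ∀ d j k l, s (.inr (d, j, k)) * s (.inr (d, k, l)) = s (.inr (d, j, l)) :=
    fun d j k l => h.eq ((presA_Len.of s _).mul (.of s _)) (.of s _) (by omega) (by
      rw [map_mul, h.π_s, h.π_s, h.π_s, presA_π, presA_π, presA_π, ← presA_T_add, presA_e_add])
  obtain ⟨θ, hθ⟩ := presA_theta (fun d j k => s (.inr (d, j, k)))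
    (fun d j k d' j' k' => h.eq ((presA_Len.of s _).mul (.of s _))
      ((presA_Len.of s _).mul (.of s _)) (by omega) (by
        rw [map_mul, map_mul, h.π_s, h.π_s, presA_π, presA_π, ← presA_T_add, ← presA_T_add,
          add_comm])) hτ
  refine ⟨P, hP, hfp, ⟨{
    b := ⟨fun i j k => s (.inl (none, i, j, k)), presA_Gen s, h.comm, h.idem none⟩
    θ := fun y => θ (Multiplicative.ofAdd y)
    lam := fun a => ⟨fun i j k => s (.inl (some a, i, j, k)), h.idem (some a)⟩
    π := π
    θ_add := fun _ _ => by rw [ofAdd_add, map_mul]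
    θ_gen := presA_θ_gen hθ
    θ_κ := ?_
    π_θ := fun h0 x i => by rw [h.π_θ hθ h0, presA_T_apply]
    π_κ := fun hd => (h.π_s _).trans (presA_K_eq hd)
    π_lam := fun a _ _ _ hd => (h.π_s _).trans (presA_K_eq hd)
    orth := ?_
    cover := h.cover
    edge := ?_
    gen := ?_ }⟩⟩
  · intro y i j k h0 hd h1 h2
    obtain ⟨l, hl⟩ := presA_b hd
    set b := fun d => presA_e d i l + presA_e d j l + presA_e d k l with hb
    have h3 : ∀ d, Commute (θ (Multiplicative.ofAdd (b d))) (s (.inl (none, i, j, k))) := by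
      intro d
      refine h.eq ((presA_len3 hθ d i j k l).mul (.of s _))
        ((presA_Len.of s _).mul (presA_len3 hθ d i j k l)) (by omega) ?_
      rw [map_mul, map_mul, h.π_θ hθ (hl d).1, h.π_s, ← mul_inv_eq_iff_eq_mul, presA_π,
        presA_T_conj _ (hl d).2.1 (hl d).2.2.1 (hl d).2.2.2, presA_U, Set.vadd_set_univ]
    have h4 : y i = (y i).1 • ev false + (y i).2 • ev true := by simp [ev]
    have h5 : y = (y - (y i).1 • b false - (y i).2 • b true) + (y i).1 • b false +
      (y i).2 • b true := by abel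
    rw [h5, ofAdd_add, ofAdd_add, map_mul, map_mul, ofAdd_zsmul, ofAdd_zsmul, map_zpow, map_zpow]
    refine ((h.θ_comm hθ ?_ ?_ ?_ ?_ none).mul_left ((h3 false).zpow_left _)).mul_left
      ((h3 true).zpow_left _)
    · simp only [Pi.sub_apply, Pi.smul_apply, Finset.sum_sub_distrib, ← Finset.smul_sum, h0, hb,
        (hl _).1, smul_zero, sub_zero]
    · simp only [Pi.sub_apply, Pi.smul_apply, hb, (hl _).2.1]
      rw [sub_sub, ← h4, sub_self]
    · simp only [Pi.sub_apply, Pi.smul_apply, hb, (hl _).2.2.1]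
      rw [sub_sub, ← h4, h1, sub_self]
    · simp only [Pi.sub_apply, Pi.smul_apply, hb, (hl _).2.2.2]
      rw [sub_sub, ← h4, h2, sub_self]
  · intro a a' ha i j k i' j' k'
    refine h.eq ((presA_Len.of s _).mul (.of s _)) ((presA_Len.of s _).mul (.of s _))
      (by omega) ?_
    rw [map_mul, map_mul, h.π_s, h.π_s]
    exact presA_K_perp (Set.disjoint_left.2 fun x h1 h2 => ha (h1.symm.trans h2)) _ _ _ _ _ _
  · intro d a a' y i' j' k' ha h0 hd h1 h2 h3 i j k
    obtain ⟨l, hl⟩ := presA_b hd
    obtain ⟨hl0, hl1, hl2, hl3⟩ := hl d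
    have hlen := presA_len3 hθ d i' j' k' l
    set b := presA_e d i' l + presA_e d j' l + presA_e d k' l with hb
    have h4 := h.θ_comm hθ (y := y + b) (i := i') (j := j') (k := k')
      (by simp only [Pi.add_apply, Finset.sum_add_distrib, h0, hl0, add_zero])
      (by rw [Pi.add_apply, h1, hl1, neg_add_cancel])
      (by rw [Pi.add_apply, h2, hl2, neg_add_cancel])
      (by rw [Pi.add_apply, h3, hl3, neg_add_cancel]) (some a')
    have h5 : θ (Multiplicative.ofAdd y) =
        (θ (Multiplicative.ofAdd b))⁻¹ * θ (Multiplicative.ofAdd (y + b)) := by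
      rw [eq_inv_mul_iff_mul_eq, ← map_mul, ← ofAdd_add, add_comm]
    have h6 : θ (Multiplicative.ofAdd y) * s (.inl (some a', i', j', k')) *
        (θ (Multiplicative.ofAdd y))⁻¹ = (θ (Multiplicative.ofAdd b))⁻¹ *
          s (.inl (some a', i', j', k')) * θ (Multiplicative.ofAdd b) := by
      rw [h5, mul_assoc (θ (Multiplicative.ofAdd b))⁻¹, h4.eq]
      group
    have h7 : π (θ (Multiplicative.ofAdd y) * s (.inl (some a', i', j', k')) *
        (θ (Multiplicative.ofAdd y))⁻¹) = presA_K (-ev d +ᵥ presA_U (some a')) i' j' k' := by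
      rw [map_mul, map_mul, map_inv, h.π_θ hθ h0, h.π_s, presA_π, presA_T_conj _ h1 h2 h3]
    have h8 : presA_Len s (3 + 1 + 3) (θ (Multiplicative.ofAdd y) *
        s (.inl (some a', i', j', k')) * (θ (Multiplicative.ofAdd y))⁻¹) := by
      rw [h6]
      exact (hlen.inv.mul (.of s _)).mul hlen
    refine h.eq ((presA_Len.of s _).mul h8) (h8.mul (.of s _)) (by omega) ?_
    rw [map_mul π (s _), map_mul π _ (s (.inl (some a, i, j, k))), h7, h.π_s]
    refine presA_K_perp (Set.disjoint_left.2 fun x e1 e2 => ha ?_) _ _ _ _ _ _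
    rw [Set.mem_vadd_set_iff_neg_vadd_mem, neg_neg] at e2
    have e3 : x.1 0 = a := e1
    have e4 : x.1 (0 + ev d) = a' := e2
    rw [← e3, ← e4]
    exact x.2 0 d
  · rw [eq_top_iff, ← hgen, Subgroup.closure_le]
    set H := Subgroup.closure {g | ∃ y a i j k, ∑ i, y i = 0 ∧ D3 i j k ∧
      g = θ (Multiplicative.ofAdd y) * s (.inl (some a, i, j, k)) *
        (θ (Multiplicative.ofAdd y))⁻¹} with hH
    have h1 : ∀ (y : I → Z2) o i j k, ∑ n, y n = 0 → θ (Multiplicative.ofAdd y) *
        s (.inl (o, i, j, k)) * (θ (Multiplicative.ofAdd y))⁻¹ ∈ H := by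
      intro y o i j k h0
      by_cases hd : D3 i j k
      · cases o with
        | some a => exact Subgroup.subset_closure ⟨y, a, i, j, k, h0, hd, rfl⟩
        | none =>
          have h2 := h.cover i j k
          generalize s (.inl (none, i, j, k)) = g at h2
          induction h2 using Subgroup.closure_induction with
          | one => rw [mul_one, mul_inv_cancel]; exact H.one_mem
          | mul g g' _ _ h3 h4 =>
            have := H.mul_mem h3 h4
            rwa [conj_mul] at this
          | inv g _ h3 =>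
            have := H.inv_mem h3
            rwa [conj_inv] at this
          | mem g hg =>
            obtain ⟨a, rfl⟩ := hg
            exact Subgroup.subset_closure ⟨y, a, i, j, k, h0, hd, rfl⟩
      · have h2 : s (.inl (o, i, j, k)) = 1 := (h.idem o).junk hd
        rw [h2, mul_one, mul_inv_cancel]
        exact H.one_mem
    have h2 : ∀ o i j k, s (.inl (o, i, j, k)) ∈ H := fun o i j k => by
      simpa using h1 0 o i j k (by simp)
    rintro _ ⟨⟨o, i, j, k⟩ | ⟨d, j, k⟩, rfl⟩
    · exact h2 o i j k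
    · change s (.inr (d, j, k)) ∈ H
      by_cases hjk : j = k
      · have h3 := hτ d j j j
        rw [mul_eq_left] at h3
        rw [← hjk, h3]
        exact H.one_mem
      · obtain ⟨i, e1, e2, -⟩ := presA_fresh j k k
        obtain ⟨l, e3, e4, e5⟩ := presA_fresh i j k
        have hd : D3 i j k := ⟨e1, e2, hjk⟩
        have h3 : s (.inl (none, i, j, k)) * s (.inr (d, j, l)) =
            s (.inr (d, k, l)) * s (.inl (none, i, j, k)) :=
          h.eq ((presA_Len.of s _).mul (.of s _)) ((presA_Len.of s _).mul (.of s _)) (by omega)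
            (by
              rw [map_mul, map_mul, h.π_s, h.π_s, h.π_s]
              exact presA_K_T hd e3 e4 e5 d)
        have h4 := H.mul_mem (h1 (presA_e d j l) none i j k (presA_e_sum d j l))
          (H.inv_mem (h2 none i j k))
        rw [hθ] at h4
        have h5 : s (.inr (d, j, k)) = s (.inr (d, j, l)) * s (.inl (none, i, j, k)) *
            (s (.inr (d, j, l)))⁻¹ * (s (.inl (none, i, j, k)))⁻¹ := by
          rw [mul_assoc _ _⁻¹, ← mul_inv_rev, h3, ← hτ d j k l]
          group
        rwa [h5]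

end Vale.Agent.P196
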