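import Vale.Agent.P196.Sys1
import Vale.Agent.P196.IdemQL
import Vale.Agent.P196.Alpha

/-! P196 task N: rigidity extends the lifts to all clopen sets. -/

namespace Vale.Agent.P196

open Pointwise
open scoped commutatorElement

variable {W : Wang} {P : Type} [Group P]

namespace PresB

theorem ex5 {s t : Finset I} (h : Disjoint s t) (hs : s.card ≤ 5) (ht : t.card ≤ 25) :
    ∃ J : Finset I, s ⊆ J ∧ Disjoint J t ∧ J.card = 5 := by
  obtain ⟨J, h1, h2, h3⟩ := Finset.exists_subsuperset_card_eq (n := 5)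
    (Finset.subset_compl_iff_disjoint_right.2 h) hs (by
      rw [Finset.card_compl, Fintype.card_fin]
      omega)
  exact ⟨J, h1, Finset.subset_compl_iff_disjoint_right.1 h2, h3⟩

theorem exy {J T : Finset I} (h : T.card < J.card) (z : Z2) : ∃ y : I → Z2, ∑ i, y i = 0 ∧
    (∀ i, i ∉ J → y i = 0) ∧ ∀ i ∈ J, i ∈ T → y i = z := by
  obtain ⟨l, h1, h2⟩ := Finset.exists_mem_notMem_of_card_lt_card h
  refine ⟨fun n => (if n ∈ J then z else 0) - (Pi.single l (J.card • z) : I → Z2) n, ?_,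
    fun i hi => ?_, fun i hi hi' => ?_⟩
  · rw [Finset.sum_sub_distrib, Finset.sum_pi_single', if_pos (Finset.mem_univ _),
      Finset.sum_ite_mem, Finset.univ_inter, Finset.sum_const, sub_self]
  · simp only [if_neg hi, Pi.single_eq_of_ne (ne_of_mem_of_not_mem h1 hi).symm, sub_zero]
  · simp only [if_pos hi, Pi.single_eq_of_ne (ne_of_mem_of_not_mem hi' h2), sub_zero]

theorem six (z : Z2) (a b c d e f : I) : ∃ y : I → Z2, ∑ i, y i = 0 ∧
    (y a = z ∧ y b = z ∧ y c = z) ∧ y d = z ∧ y e = z ∧ y f = z := by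
  obtain ⟨y, h1, -, h2⟩ := exy (J := Finset.univ) (T := {a, b, c, d, e, f})
    (Finset.card_le_six.trans_lt (by simp)) z
  refine ⟨y, h1, ⟨?_, ?_, ?_⟩, ?_, ?_, ?_⟩ <;> exact h2 _ (Finset.mem_univ _) (by simp)

theorem c3_val {y : I → Z2} {z : Z2} {i j k e : I} (h : D3 i j k)
    (h1 : y i = z ∧ y j = z ∧ y k = z) (h2 : y e = z) : y (c3 i j k e) = z := by
  by_cases e1 : e = i
  · rw [e1, c3_a h, h1.2.1]
  by_cases e2 : e = j
  · rw [e2, c3_b h, h1.2.2]
  by_cases e3 : e = k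
  · rw [e3, c3_c h, h1.1]
  rwa [c3_of_ne e1 e2 e3]

theorem fresh {x a c : I} (h : D3 x a c) :
    ∃ u e, D3 x a u ∧ D3 x c e ∧ u ≠ c ∧ u ≠ e ∧ a ≠ e := by
  obtain ⟨u, -, hu⟩ := Finset.exists_mem_notMem_of_card_lt_card (s := {x, a, c})
    (t := Finset.univ) (Finset.card_le_three.trans_lt (by simp))
  obtain ⟨e, -, he⟩ := Finset.exists_mem_notMem_of_card_lt_card (s := {x, a, c, u})
    (t := Finset.univ) (Finset.card_le_four.trans_lt (by simp))
  simp only [Finset.mem_insert, Finset.mem_singleton, not_or] at hu he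
  exact ⟨u, e, ⟨h.1, Ne.symm hu.1, Ne.symm hu.2.1⟩, ⟨h.2.1, Ne.symm he.1, Ne.symm he.2.2.1⟩,
    hu.2.2, Ne.symm he.2.2.2, Ne.symm he.2.1⟩

theorem c3_comm5 {x a c u e : I} (h : D3 x a c) (h1 : D3 x a u) (h2 : D3 x c e) (h3 : u ≠ c)
    (h4 : u ≠ e) (h5 : a ≠ e) : c3 x a c = ⁅c3 x a u, c3 x c e⁆ := by
  rw [commutatorElement_def, c3_conj, c3_a h1, c3_of_ne h.2.1.symm h.2.2.symm h3.symm,
    c3_of_ne h2.2.1.symm h5.symm h4.symm, ← c3_inv h2, ← c3_cf h h2.2.1 h5 h2.2.2]

/-- fibrewise permutations of the copies -/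
def fib (W : Wang) : (W.X → Equiv.Perm I) →* Equiv.Perm W.Pt where
  toFun f := Equiv.prodCongrRight f
  map_one' := Equiv.ext fun _ => rfl
  map_mul' _ _ := Equiv.ext fun _ => rfl

theorem d3_zero {i j k : I} (h : D3 i j k) : D3 ((0, i) : B) (0, j) (0, k) :=
  h.map (Prod.mk_right_injective 0)

theorem ms_zero (U : Set W.X) (i j k : I) : MS U {(0, i), (0, j), (0, k)} :=
  MS.of_injOn <| by
    rintro _ (rfl | rfl | rfl) _ (rfl | rfl | rfl) h <;> exact congrArg (Prod.mk 0) h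

theorem cyc_fib (U : Set W.X) {i j k : I} (h : D3 i j k) :
    cyc U (0, i) (0, j) (0, k) = fib W (U.mulIndicator fun _ => c3 i j k) := by
  have e : ∀ x n, fib W (U.mulIndicator fun _ => c3 i j k) (x, n) =
      (x, U.mulIndicator (fun _ => c3 i j k) x n) := fun _ _ => rfl
  refine (isCyc_cyc (d3_zero h) (ms_zero U i j k)).unique ⟨fun x hx => ?_, ?_⟩
  · simp only [pt_zero, e, Set.mulIndicator_of_mem hx, c3_a h, c3_b h, c3_c h, and_self]
  · rintro ⟨x, n⟩ hp
    by_cases hx : x ∈ U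
    · have h1 := hp x hx
      simp only [pt_zero, ne_eq, Prod.mk.injEq, true_and] at h1
      rw [e, Set.mulIndicator_of_mem hx, c3_of_ne h1.1 h1.2.1 h1.2.2]
    · rw [e, Set.mulIndicator_of_notMem hx, Equiv.Perm.one_apply]

theorem cyc_inter (U V : Set W.X) {x a c u e : I} (h : D3 x a c) (h1 : D3 x a u) (h2 : D3 x c e)
    (h3 : u ≠ c) (h4 : u ≠ e) (h5 : a ≠ e) : cyc (U ∩ V) (0, x) (0, a) (0, c) =
      ⁅cyc U (0, x) (0, a) (0, u), cyc V (0, x) (0, c) (0, e)⁆ := by
  rw [cyc_fib _ h, cyc_fib _ h1, cyc_fib _ h2, ← map_commutatorElement]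
  refine congrArg _ (funext fun p => ?_)
  change _ = ⁅U.mulIndicator (fun _ => c3 x a u) p, V.mulIndicator (fun _ => c3 x c e) p⁆
  by_cases hU : p ∈ U
  · by_cases hV : p ∈ V
    · rw [Set.mulIndicator_of_mem hU, Set.mulIndicator_of_mem hV,
        Set.mulIndicator_of_mem (Set.mem_inter hU hV), c3_comm5 h h1 h2 h3 h4 h5]
    · rw [Set.mulIndicator_of_notMem hV, Set.mulIndicator_of_notMem (fun h => hV h.2),
        commutatorElement_one_right]
  · rw [Set.mulIndicator_of_notMem hU, Set.mulIndicator_of_notMem (fun h => hU h.1),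
      commutatorElement_one_left]

theorem vadd_site (z w : Z2) (a : W.A) :
    z +ᵥ {x : W.X | x.1 w = a} = {x : W.X | x.1 (w - z) = a} := by
  ext x
  rw [Set.mem_vadd_set_iff_neg_vadd_mem, sub_eq_add_neg]
  rfl

variable (S : Sys1 W P)

theorem θ_zero : S.θ 0 = 1 := by
  have h := S.θ_add (y := 0) (y' := 0) (by simp) (by simp)
  rw [add_zero] at h
  exact left_eq_mul.1 h

theorem θ_comm (α : S.b.Om) {y : I → Z2} (hy : ∑ i, y i = 0) {i j k : I}
    (h : y i = 0 ∧ y j = 0 ∧ y k = 0) : Commute (S.θ y) (α.1 i j k) := by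
  obtain ⟨l, -, hl⟩ := Finset.exists_mem_notMem_of_card_lt_card (s := {i, j, k})
    (t := Finset.univ) (Finset.card_le_three.trans_lt (by simp))
  let e : I → I → Z2 := fun n => Pi.single n (y n) - Pi.single l (y n)
  have he : ∀ n, ∑ m, e n m = 0 := fun n => by
    simp [e, Finset.sum_sub_distrib]
  have he' : ∀ n, Commute (S.θ (e n)) (α.1 i j k) := fun n => by
    by_cases hn : n ∈ ({i, j, k} : Finset I)
    · have h1 : y n = 0 := by
        simp only [Finset.mem_insert, Finset.mem_singleton] at hn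
        rcases hn with rfl | rfl | rfl
        exacts [h.1, h.2.1, h.2.2]
      simp only [e, h1, Pi.single_zero, sub_zero, θ_zero]
      exact Commute.one_left _
    · obtain ⟨J, h1, h2, h3⟩ := ex5 (s := {i, j, k}) (t := {n, l})
        (by simp only [Finset.disjoint_insert_right, Finset.disjoint_singleton_right]
            exact ⟨hn, hl⟩)
        (Finset.card_le_three.trans (by norm_num)) (Finset.card_le_two.trans (by norm_num))
      refine S.b.comm h2.symm _ (S.θ_gen (he n) fun m hm => ?_) _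
        (α.2.gen h3 (h1 (by simp)) (h1 (by simp)) (h1 (by simp)))
      simp only [Finset.mem_insert, Finset.mem_singleton, not_or] at hm
      simp only [e, Pi.sub_apply, Pi.single_eq_of_ne hm.1, Pi.single_eq_of_ne hm.2, sub_zero]
  have key : ∀ s : Finset I, ∑ m, (∑ n ∈ s, e n) m = 0 ∧
      Commute (S.θ (∑ n ∈ s, e n)) (α.1 i j k) := fun s => by
    induction s using Finset.induction_on with
    | empty => exact ⟨by simp, by rw [Finset.sum_empty, θ_zero]; exact Commute.one_left _⟩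
    | insert n s hn ih =>
      rw [Finset.sum_insert hn, S.θ_add (he n) ih.1]
      refine ⟨?_, (he' n).mul_left ih.2⟩
      simp only [Pi.add_apply, Finset.sum_add_distrib, he n, ih.1, add_zero]
  have h1 : ∑ n, e n = y := by
    rw [Finset.sum_sub_distrib, Finset.univ_sum_single, sub_eq_self]
    exact (map_sum (AddMonoidHom.single (fun _ : I => Z2) l) y _).symm.trans (by rw [hy, map_zero])
  exact h1 ▸ (key Finset.univ).2

theorem conj_eq (α : S.b.Om) {y y' : I → Z2} (hy : ∑ i, y i = 0) (hy' : ∑ i, y' i = 0) {z : Z2}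
    {i j k : I} (h : y i = z ∧ y j = z ∧ y k = z) (h' : y' i = z ∧ y' j = z ∧ y' k = z) :
    MulAut.conj (S.θ y) (α.1 i j k) = MulAut.conj (S.θ y') (α.1 i j k) := by
  have h1 : ∑ i, (y - y') i = 0 := by
    simp only [Pi.sub_apply, Finset.sum_sub_distrib, hy, hy', sub_zero]
  have h2 := θ_comm S α h1 (i := i) (j := j) (k := k) (by
    simp only [Pi.sub_apply, h, h', sub_self, and_self])
  rw [← add_sub_cancel y' y, S.θ_add hy' h1, map_mul, MulAut.mul_apply,
    MulAut.conj_apply (S.θ (y - y')), h2.eq, mul_inv_cancel_right]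

/-- the underlying function of the translate of a family -/
noncomputable def trF (z : Z2) (α : S.b.Om) (i j k : I) : P :=
  MulAut.conj (S.θ (six z i j k i j k).choose) (α.1 i j k)

theorem trF_eq (α : S.b.Om) {y : I → Z2} (hy : ∑ i, y i = 0) {z : Z2} {i j k : I}
    (h : y i = z ∧ y j = z ∧ y k = z) : trF S z α i j k = MulAut.conj (S.θ y) (α.1 i j k) :=
  conj_eq S α (six z i j k i j k).choose_spec.1 hy (six z i j k i j k).choose_spec.2.1 h

theorem conj_κ {y : I → Z2} (hy : ∑ i, y i = 0) {z : Z2} {i j k : I}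
    (h : y i = z ∧ y j = z ∧ y k = z) : MulAut.conj (S.θ y) (S.b.κ i j k) = S.b.κ i j k := by
  by_cases hd : D3 i j k
  · rw [MulAut.conj_apply, (S.θ_κ hy hd (h.1.trans h.2.1.symm) (h.1.trans h.2.2.symm)).eq,
      mul_inv_cancel_right]
  · rw [S.b.idem.junk hd, map_one]

/-- the translate of a family -/
noncomputable def tr (z : Z2) (α : S.b.Om) : S.b.Om := ⟨trF S z α,
  { junk := fun h => by rw [trF, α.2.junk h, map_one]
    cyc := fun {i j k} h => by
      obtain ⟨y, hy, h1, -⟩ := six z i j k i j k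
      rw [trF_eq S α hy h1, trF_eq S α hy ⟨h1.2.1, h1.2.2, h1.1⟩, α.2.cyc h]
    inv := fun {i j k} h => by
      obtain ⟨y, hy, h1, -⟩ := six z i j k i j k
      rw [trF_eq S α hy h1, trF_eq S α hy ⟨h1.1, h1.2.2, h1.2.1⟩, α.2.inv h, map_inv]
    cf := fun {x a c e} h h2 h3 h4 => by
      obtain ⟨y, hy, h1, h5, -⟩ := six z x a c e e e
      rw [trF_eq S α hy h1, trF_eq S α hy ⟨h1.2.1, h1.2.2, h5⟩, trF_eq S α hy ⟨h1.1, h5, h1.2.2⟩,
        α.2.cf h h2 h3 h4, map_mul]
    conjk := fun {i j k i' j' k'} h h' => by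
      obtain ⟨y, hy, h1, h2⟩ := six z i j k i' j' k'
      rw [trF_eq S α hy h2, trF_eq S α hy ⟨c3_val h h1 h2.1, c3_val h h1 h2.2.1,
        c3_val h h1 h2.2.2⟩, ← α.2.conjk h h', map_mul, map_mul, map_inv, conj_κ S hy h1]
    conj := fun {i j k i' j' k'} h h' => by
      obtain ⟨y, hy, h1, h2⟩ := six z i j k i' j' k'
      rw [trF_eq S α hy h1, trF_eq S α hy h2, trF_eq S α hy ⟨c3_val h h1 h2.1, c3_val h h1 h2.2.1,
        c3_val h h1 h2.2.2⟩, ← α.2.conj h h', map_mul, map_mul, map_inv]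
    gen := fun {J i j k} hJ hi hj hk => by
      obtain ⟨y, hy, h1, h2⟩ := exy (J := J) (T := {i, j, k})
        (Finset.card_le_three.trans_lt (by omega)) z
      rw [trF_eq S α hy ⟨h2 i hi (by simp), h2 j hj (by simp), h2 k hk (by simp)⟩,
        MulAut.conj_apply]
      exact mul_mem (mul_mem (S.θ_gen hy h1) (α.2.gen hJ hi hj hk)) (inv_mem (S.θ_gen hy h1)) }⟩

theorem tr_eq (α : S.b.Om) {y : I → Z2} (hy : ∑ i, y i = 0) {z : Z2} {i j k : I}
    (h : y i = z ∧ y j = z ∧ y k = z) : (tr S z α).1 i j k = MulAut.conj (S.θ y) (α.1 i j k) :=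
  trF_eq S α hy h

theorem om_ext {b : Base P} {α β : b.Om} (h : ∀ i j k, D3 i j k → α.1 i j k = β.1 i j k) :
    α = β := by
  refine Subtype.ext (funext fun i => funext fun j => funext fun k => ?_)
  by_cases hd : D3 i j k
  · exact h i j k hd
  · rw [α.2.junk hd, β.2.junk hd]

theorem tr_perp (z : Z2) {α β : S.b.Om} (h : perp α β) : perp (tr S z α) (tr S z β) := by
  intro i j k i' j' k'
  obtain ⟨y, hy, h1, h2⟩ := six z i j k i' j' k'
  rw [tr_eq S α hy h1, tr_eq S β hy h2]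
  exact (h i j k i' j' k').map _

theorem tr_tr (z w : Z2) (α : S.b.Om) : tr S z (tr S w α) = tr S (z + w) α := by
  refine om_ext fun i j k _ => ?_
  obtain ⟨y, hy, h1, -⟩ := six z i j k i j k
  obtain ⟨y', hy', h2, -⟩ := six w i j k i j k
  rw [tr_eq S _ hy h1, tr_eq S _ hy' h2, tr_eq S α (y := y + y')
    (by simp only [Pi.add_apply, Finset.sum_add_distrib, hy, hy', add_zero])
    (by simp only [Pi.add_apply, h1, h2, and_self]), S.θ_add hy hy', map_mul, MulAut.mul_apply]

theorem tr_zero (α : S.b.Om) : tr S 0 α = α :=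
  om_ext fun i j k _ => by
    rw [tr_eq S α (y := 0) (z := 0) (i := i) (j := j) (k := k) (by simp) ⟨rfl, rfl, rfl⟩,
      θ_zero, map_one, MulAut.one_apply]

theorem tr_top (z : Z2) : tr S z Orth.top = Orth.top :=
  om_ext fun i j k _ => by
    obtain ⟨y, hy, h1, -⟩ := six z i j k i j k
    rw [tr_eq S _ hy h1]
    exact conj_κ S hy h1

/-- the quantum tiling given by the translates of the one-site families -/
noncomputable def rep : Rep W S.b.Om where
  q z :=
    { p := fun a => tr S (-z) (S.lam a)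
      orth := fun h => tr_perp S _ (S.orth h)
      cover := fun c h => by
        have h1 : perp (tr S z c) Orth.top := fun i j k i' j' k' => by
          refine (Subgroup.closure_le (Subgroup.centralizer {(tr S z c).1 i j k})).2 ?_
            (S.cover i' j' k') _ rfl
          rintro _ ⟨a, rfl⟩ _ rfl
          have h2 := tr_perp S z (h a)
          rw [tr_tr, add_neg_cancel, tr_zero] at h2
          exact h2 i j k i' j' k'
        have h2 := tr_perp S (-z) h1
        rwa [tr_tr, neg_add_cancel, tr_zero, tr_top] at h2 }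
  edge z d a a' h := by
    change perp (tr S (-z) (S.lam a)) (tr S (-(z + ev d)) (S.lam a'))
    rw [neg_add, ← tr_tr]
    refine tr_perp S _ fun i j k i' j' k' => ?_
    by_cases hd : D3 i' j' k'
    · obtain ⟨y, hy, h1, -⟩ := six (-ev d) i' j' k' i' j' k'
      rw [tr_eq S _ hy h1]
      exact S.edge h hy hd h1.1 h1.2.1 h1.2.2 i j k
    · rw [(tr S _ _).2.junk hd]
      exact Commute.one_right _

end PresB

open PresB in
theorem exists_sys2 (hQ : QRigid W) (S : Sys1 W P) : Nonempty (Sys2 W P) := by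
  obtain ⟨α, hs, ht, hp⟩ := exists_alpha (rep S) (hQ _ (rep S))
  have h0 : ∀ i j k, (α ∅).1 i j k = 1 :=
    Base.eq_one_of_null (hs ∅ ∅ isClopen_empty isClopen_empty disjoint_bot_left).1
  have h1 : α Set.univ = Orth.top := Base.om_antisymm (le_top' _) ht
  have h2 : ∀ z a, α {x | x.1 z = a} = tr S (-z) (S.lam a) := fun z a =>
    Base.om_antisymm (hp z a).1 (hp z a).2
  have h3 : ∀ {U V : Set W.X}, IsClopen U → IsClopen V → ∀ {x a c u e : I}, D3 x a c → D3 x a u →
      D3 x c e → u ≠ c → u ≠ e → a ≠ e →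
      (α (U ∩ V)).1 x a c = ⁅(α U).1 x a u, (α V).1 x c e⁆ := fun {U V} hU hV => by
    have e1 := hs _ _ (hU.inter hV) (hU.diff hV) Set.disjoint_sdiff_inter.symm
    have e2 := hs _ _ (hV.inter hU) (hV.diff hU) Set.disjoint_sdiff_inter.symm
    rw [Set.inter_union_sdiff] at e1 e2
    rw [Set.inter_comm] at e2
    exact fun {_ _ _ _ _} => Base.inter5 e1 e2 (hs _ _ (hU.diff hV) hV Set.disjoint_sdiff_left).1
  have h4 : ∀ (z : Z2) {U : Set W.X}, IsClopen U → tr S z (α U) = α (z +ᵥ U) := fun z U hU => by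
    refine clopen_ind (Q := fun U => tr S z (α U) = α (z +ᵥ U)) ?_ ?_ (fun w a => ?_)
      (fun U V hU hV e1 e2 => ?_) (fun U V hU hV hd e1 e2 => ?_) hU
    · refine om_ext fun i j k _ => ?_
      obtain ⟨y, hy, e, -⟩ := six z i j k i j k
      rw [tr_eq S _ hy e, Set.vadd_set_empty, h0, map_one]
    · rw [Set.vadd_set_univ, h1, tr_top]
    · rw [vadd_site, h2, h2, tr_tr, neg_sub, sub_eq_add_neg]
    · refine om_ext fun x a c hd => ?_
      obtain ⟨u, e, d1, d2, d3, d4, d5⟩ := fresh hd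
      obtain ⟨y, hy, e3, e4, e5, -⟩ := six z x a c u e e
      rw [Set.vadd_set_inter, h3 (IsClopen.vadd_X hU z) (IsClopen.vadd_X hV z) hd d1 d2 d3 d4 d5,
        ← e1, ← e2, tr_eq S _ hy e3, tr_eq S _ hy ⟨e3.1, e3.2.1, e4⟩,
        tr_eq S _ hy ⟨e3.1, e3.2.2, e5⟩, h3 hU hV hd d1 d2 d3 d4 d5, map_commutatorElement]
    · refine om_ext fun i j k _ => ?_
      obtain ⟨y, hy, e, -⟩ := six z i j k i j k
      rw [Set.vadd_set_union, Base.mul_of_isSum (hs _ _ (IsClopen.vadd_X hU z)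
        (IsClopen.vadd_X hV z) (Set.disjoint_vadd_set.2 hd)), ← e1, ← e2, tr_eq S _ hy e,
        tr_eq S _ hy e, tr_eq S _ hy e, Base.mul_of_isSum (hs _ _ hU hV hd), map_mul]
  have h5 : ∀ {U : Set W.X}, IsClopen U → ∀ i j k, D3 i j k →
      S.π ((α U).1 i j k) = cyc U (0, i) (0, j) (0, k) := fun {U} hU => by
    refine clopen_ind (Q := fun U => ∀ i j k, D3 i j k →
      S.π ((α U).1 i j k) = cyc U (0, i) (0, j) (0, k)) (fun i j k hd => ?_) (fun i j k hd => ?_)
      (fun w a i j k hd => ?_) (fun U V hU hV e1 e2 x a c hd => ?_)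
      (fun U V hU hV hUV e1 e2 i j k hd => ?_) hU
    · rw [h0, map_one, basicAux_cyc_empty (d3_zero hd)]
    · rw [h1]
      exact S.π_κ hd
    · obtain ⟨y, hy, e, -⟩ := six (-w) i j k i j k
      have e1 : {x : W.X | x.1 w = a} = -w +ᵥ {x : W.X | x.1 0 = a} := by
        rw [vadd_site, zero_sub, neg_neg]
      rw [h2, tr_eq S _ hy e, MulAut.conj_apply, map_mul, map_mul, map_inv, S.π_lam a hd, e1,
        ← basicAux_cyc_shift ⟨IsClopen.vadd_X (isClopen_site 0 a) _, d3_zero hd, ms_zero _ i j k⟩]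
      refine (cyc_conj' (d3_zero hd) (ms_zero _ i j k)
        ((d3_zero hd).map (basicAux_sh_inj _)) _ fun x _ => ?_).2
      simp only [← pt_vadd, pt_zero, S.π_θ hy, e, and_self]
    · obtain ⟨u, e, d1, d2, d3, d4, d5⟩ := fresh hd
      rw [h3 hU hV hd d1 d2 d3 d4 d5, map_commutatorElement, e1 _ _ _ d1, e2 _ _ _ d2,
        cyc_inter U V hd d1 d2 d3 d4 d5]
    · rw [Base.mul_of_isSum (hs _ _ hU hV hUV), map_mul, e1 _ _ _ hd, e2 _ _ _ hd,
        basicAux_cyc_union hUV (d3_zero hd) (ms_zero _ i j k)]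
  refine ⟨{
    θ := S.θ
    al := fun U => (α U).1
    π := S.π
    θ_add := S.θ_add
    π_θ := S.π_θ
    π_al := fun hU hd => h5 hU _ _ _ hd
    gen := top_le_iff.1 (S.gen.ge.trans (Subgroup.closure_mono ?_))
    θ_al := fun z hy hU _ e1 e2 e3 => by rw [← h4 z hU, tr_eq S _ hy ⟨e1, e2, e3⟩]; rfl
    al_empty := fun _ => h0 _ _ _
    al_union := fun hU hV hd _ => Base.mul_of_isSum (hs _ _ hU hV hd) _ _ _
    al_perp := fun hU hV hd _ _ => (hs _ _ hU hV hd).1 _ _ _ _ _ _
    al_disj := fun {U V i j k i' j' k'} _ _ _ _ hd => ?_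
    al_cyc := fun _ => (α _).2.cyc
    al_inv := fun _ => (α _).2.inv
    al_cf := fun _ => (α _).2.cf
    al_conj := fun _ => (α _).2.conj }⟩
  · rintro _ ⟨y, a, i, j, k, hy, hd, rfl⟩
    exact ⟨y, _, i, j, k, hy, isClopen_site 0 a, hd, by rw [h2, neg_zero, tr_zero]⟩
  · obtain ⟨J, e1, e2, e3⟩ := ex5 (s := {i, j, k}) (t := {i', j', k'})
      (by rw [← Finset.disjoint_coe]; simpa only [Finset.coe_insert, Finset.coe_singleton] using hd)
      (Finset.card_le_three.trans (by norm_num)) (Finset.card_le_three.trans (by norm_num))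
    obtain ⟨J', e4, e5, e6⟩ := ex5 e2.symm (Finset.card_le_three.trans (by norm_num)) (by omega)
    exact S.b.comm e5.symm _ ((α U).2.gen e3 (e1 (by simp)) (e1 (by simp)) (e1 (by simp))) _
      ((α V).2.gen e6 (e4 (by simp)) (e4 (by simp)) (e4 (by simp)))

end Vale.Agent.P196
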