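import Vale.Agent.P196.Inv

/-! P196 task X5: quantum rigidity. -/

namespace Vale.Agent.P196

variable {K : ℕ}

section
variable {Ω : Type} [QL Ω] {R : Rep (Wst K) Ω} {f g : Ω} {k : ℕ} {Z z0 : Z2} {c0 : Core}

theorem rigidAux_compat {X Y : Ω}
    (h : Cov (Orth.top : Ω) fun g => (Le g X ∨ perp g X) ∧ (Le g Y ∨ perp g Y)) : Compat X Y := by
  obtain ⟨f1, f2, hs, h1, h2⟩ := Cov.split (Q := fun g => Le g X ∧ (Le g Y ∨ perp g Y))
    (Q' := fun g => perp g X) (h.imp fun g _ hg => hg.1.imp_left fun h => ⟨h, hg.2⟩)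
  refine compat_of_cov ((h1.imp fun g _ hg => hg.2).congr ?_
    (hs.cancel (le_top' X) (perp_symm h2.perp_left)))
  obtain ⟨ι, S, V, h3, h4⟩ := h1
  exact h3.le_of fun i hi => (h4 i hi).1

/-- the piece forces a unique core -/
def rigidAux_Uq (R : Rep (Wst K) Ω) (g : Ω) (w : Z2) : Prop :=
  ∃ φ : (Wst K).A → Prop, Frc g (R.q w) φ ∧ ∀ a a', φ a → φ a' → cr a = cr a'

theorem rigidAux_nd {s x t : ℤ} (h : s ∣ x) (h0 : t ≠ 0) (h1 : |t| < s) : ¬ s ∣ x + t :=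
  fun h2 => h0 (Int.eq_zero_of_abs_lt_dvd ((dvd_add_right h).1 h2) h1)

theorem rigidAux_run {T : Type} (F : Lab → T) (i : ℕ) (hc : Frc g (R.q z0) fun a => cr a = c0)
    {t : ℤ} (h0 : t ≠ 0) (h : ∀ u : ℤ, u ≠ 0 → |u| ≤ |t| → Frc g (R.q (z0 + u • ac (i + 1)))
      fun a => F (vw i (cr a)).L = F (vw i (cr a)).R) :
    ∃ v, Frc g (R.q (z0 + t • ac (i + 1))) fun a => F (vw i (cr a)).R = v := by
  rcases lt_or_gt_of_ne h0 with ht | ht
  · obtain ⟨n, rfl⟩ : ∃ n : ℕ, t = -(n + 1) := ⟨(-t - 1).toNat, by omega⟩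
    refine ⟨F (vw i c0).L, (R.run_iff i _ n (fun l => F l = F (vw i c0).L) fun u h1 h2 => ?_).2
      ((R.edge_iff i _ fun l => F l = F (vw i c0).L).2 ?_)⟩
    · rw [add_assoc, ← add_smul]
      exact (h _ (by omega) (by rw [abs_of_neg ht, abs_le]; omega)).mono fun a ha => by rw [ha]
    · rw [add_assoc, add_assoc, ← add_one_zsmul, ← add_smul, neg_add_cancel, zero_smul, add_zero]
      exact hc.mono fun a ha => by rw [ha]
  · obtain ⟨n, rfl⟩ : ∃ n : ℕ, t = n := ⟨t.toNat, by omega⟩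
    exact ⟨F (vw i c0).R, (R.run_iff i _ n (fun l => F l = F (vw i c0).R) fun u h1 h2 =>
      (h _ (by omega) (by rw [abs_of_pos ht, abs_le]; omega)).mono fun a ha => by rw [ha]).1
        (hc.mono fun a ha => by rw [ha])⟩

theorem rigidAux_co (n : ℕ) (Z z0 : Z2) (u : ℤ) : co n (Z + (z0 + u • ac n)) = co n (Z + z0) + u ∧
    co (n + 1) (Z + (z0 + u • ac n)) = co (n + 1) (Z + z0) := by
  rw [← add_assoc, co_add, co_add (n + 1), co_smul, co_smul, co_ac rfl, co_ac_ne (by omega)]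
  simp

theorem rigidAux_high (hk : ∀ z, Frc g (R.q z) fun a => Known K k (Z + z) (tl a))
    (hc : Frc g (R.q z0) fun a => cr a = c0) {n : ℕ} (hn : n ≤ k + 1)
    (h1 : ss K n ∣ co n (Z + z0)) (h2 : ss K (n + 1) ∣ co (n + 1) (Z + z0)) {t : ℤ} (h0 : t ≠ 0)
    (ht : |t| < ss K n) : rigidAux_Uq R g (z0 + t • ac n) := by
  have key : ∀ u : ℤ, u ≠ 0 → |u| ≤ |t| → ∃ x y, Frc g (R.q (z0 + u • ac n)) fun a =>
      vw n (cr a) = ⟨true, false, x, y, (vw n (cr a)).Ab, (vw n (cr a)).Ab⟩ := fun u u0 u1 => by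
    obtain ⟨e1, e2⟩ := rigidAux_co n Z z0 u
    obtain ⟨j, j1, j2, j3⟩ := exists_idx (K := K) (k := n) (Z := Z + (z0 + u • ac n))
      (e1 ▸ rigidAux_nd h1 u0 (u1.trans_lt ht))
    refine ⟨LabAt K j (Z + (z0 + u • ac n) - ac (j + 1)), LabAt K j (Z + (z0 + u • ac n)),
      (hk _).mono fun a ha => ?_⟩
    rw [← vw_congr j2]
    refine ha.high (rule_cr a) j3 (by omega) ?_
    rw [co_congr (show (j + 1) % 2 = (n + 1) % 2 by omega), e2]
    exact (ss_dvd (by omega) (by omega)).trans h2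
  have e : ∀ c, vw (n + 1) c = (vw n c).tr := vw_ne (by omega)
  have ea : ac (n + 1 + 1) = ac n := ac_congr (by omega)
  obtain ⟨v, hv⟩ := rigidAux_run id (n + 1) hc h0 fun u u0 u1 => by
    obtain ⟨x, y, h⟩ := key u u0 u1
    rw [ea]
    exact h.mono fun a ha => by rw [e, ha]; rfl
  obtain ⟨x, y, h⟩ := key t h0 le_rfl
  rw [ea] at hv
  refine ⟨_, h.and hv, fun a a' ha ha' => vw_inj (i := n) ?_⟩
  have e1 : (vw n (cr a)).Ab = (vw n (cr a')).Ab := by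
    have := ha.2.trans ha'.2.symm
    rwa [e, e] at this
  rw [ha.1, ha'.1, e1]

theorem rigidAux_mid (hk : ∀ z, Frc g (R.q z) fun a => Known K k (Z + z) (tl a))
    (hc : Frc g (R.q z0) fun a => cr a = c0) (h1 : IsIdx K k (Z + z0))
    (h2 : ss K (k + 1) ∣ co (k + 1) (Z + z0)) {t : ℤ} (h0 : t ≠ 0) (ht : |t| < ss K (k + 1)) :
    rigidAux_Uq R g (z0 + t • ac (k + 1)) := by
  have e : ∀ c, vw k c = (vw (k + 1) c).tr := vw_ne (by omega)
  have key : ∀ u : ℤ, u ≠ 0 → |u| ≤ |t| → ∃ j, j < k ∧ j % 2 = (k + 1) % 2 ∧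
      IsIdx K j (Z + (z0 + u • ac (k + 1))) ∧ IsIdx K k (Z + (z0 + u • ac (k + 1))) ∧
      ss K (j + 1) ∣ co (j + 1) (Z + (z0 + u • ac (k + 1))) := fun u u0 u1 => by
    obtain ⟨e1, e2⟩ := rigidAux_co (k + 1) Z z0 u
    obtain ⟨j, j1, j2, j3⟩ := exists_idx (K := K) (k := k + 1) (Z := Z + (z0 + u • ac (k + 1)))
      (e1 ▸ rigidAux_nd h2 u0 (u1.trans_lt ht))
    rw [co_congr (show (k + 1 + 1) % 2 = k % 2 by omega)] at e2
    refine ⟨j, by omega, j2, j3, h1.congr (by rw [e2, sub_self]; exact dvd_zero _), ?_⟩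
    rw [co_congr (show (j + 1) % 2 = k % 2 by omega), e2]
    exact (ss_dvd (by omega) (by omega)).trans h1.1
  have key2 : ∀ u : ℤ, u ≠ 0 → |u| ≤ |t| → Frc g (R.q (z0 + u • ac (k + 1))) fun a =>
      (vw k (cr a)).cdom = false := fun u u0 u1 => by
    obtain ⟨j, j1, j2, j3, -, j5⟩ := key u u0 u1
    refine (hk _).mono fun a ha => ?_
    have := ha.dom j j1.le j3 j5
    rw [vw_congr j2] at this
    rw [e]
    exact (congrArg (!·) this).trans rfl
  obtain ⟨v, hv⟩ := rigidAux_run (fun l => (l.ty, l.st, l.um)) k hc h0 fun u u0 u1 =>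
    (key2 u u0 u1).mono fun a ha => by
      obtain ⟨a1, a2, a3⟩ := (rule_vw.2 (rule_cr a)).up_row ha
      rw [a1, a2, a3]
  obtain ⟨j, j1, j2, j3, j4, j5⟩ := key t h0 le_rfl
  refine ⟨_, ((hk _).and (key2 t h0 le_rfl)).and hv, fun a a' ha ha' => vw_inj (i := k) ?_⟩
  obtain ⟨a1, a2, a3⟩ := (rule_vw.2 (rule_cr a)).up_row ha.1.2
  obtain ⟨b1, b2, b3⟩ := (rule_vw.2 (rule_cr a')).up_row ha'.1.2
  have c1 := ha.2.trans ha'.2.symm
  simp only [Prod.mk.injEq] at c1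
  obtain ⟨-, a4, a5⟩ := ha.1.1.part j4
  obtain ⟨-, b4, b5⟩ := ha'.1.1.part j4
  obtain ⟨a6, a7⟩ := ha.1.1.full j j1 j3
  obtain ⟨b6, b7⟩ := ha'.1.1.full j j1 j3
  rw [vw_congr j2] at a6 a7 b6 b7
  refine Core.ext (ha.1.2.trans ha'.1.2.symm) ?_
    (Lab.ext (a1.trans (c1.1.trans b1.symm)) (a2.trans (c1.2.1.trans b2.symm))
      (a3.trans (c1.2.2.trans b3.symm)) (a5.trans b5.symm))
    (Lab.ext c1.1 c1.2.1 c1.2.2 (a4.trans b4.symm)) ?_ ?_
  · rw [vw_adj, vw_adj]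
    exact Bool.eq_iff_iff.2 ((ha.1.1.adj j j1 j3 j5).trans (ha'.1.1.adj j j1 j3 j5).symm)
  · rw [e, e]
    exact a7.trans b7.symm
  · rw [e, e]
    exact a6.trans b6.symm

theorem rigidAux_near (hk : ∀ z, Frc g (R.q z) fun a => Known K k (Z + z) (tl a))
    (hc : Frc g (R.q z0) fun a => cr a = c0) (h1 : ss K k ∣ co k (Z + z0))
    (h2 : ss K (k + 1) ∣ co (k + 1) (Z + z0)) {w : Z2}
    (h3 : |co k (Z + w) - co k (Z + z0)| < ss K k)
    (h4 : |co (k + 1) (Z + w) - co (k + 1) (Z + z0)| < ss K (k + 1)) (a : (Wst K).A) :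
    Le g ((R.q w).p a) ∨ perp g ((R.q w).p a) := by
  suffices h : rigidAux_Uq R g w by
    obtain ⟨φ, h5, h6⟩ := h
    by_cases ha : Known K k (Z + w) (tl a) ∧ φ a
    · exact .inl (((hk w).and h5).mono fun b hb =>
        tile_ext (Prod.ext (h6 _ _ hb.2 ha.2) (hb.1.cnt.trans ha.1.cnt.symm))).le_p
    · exact .inr (((hk w).and h5) a ha)
  rw [← co_sub, add_sub_add_left_eq_sub] at h3 h4
  have e : w = z0 + (co k (w - z0) • ac k + co (k + 1) (w - z0) • ac (k + 1)) := by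
    rw [← co_decomp, add_sub_cancel]
  have e1 : ∀ i, co i (Z + w) = co i (Z + z0) + co i (w - z0) := fun i => by
    rw [← co_add, add_assoc, add_sub_cancel]
  by_cases t1 : co k (w - z0) = 0 <;> by_cases t2 : co (k + 1) (w - z0) = 0
  · rw [t1, t2, zero_smul, zero_smul, add_zero, add_zero] at e
    exact ⟨_, e ▸ hc, fun a a' ha ha' => ha.trans ha'.symm⟩
  · rw [t1, zero_smul, zero_add] at e
    rw [e]
    by_cases h5 : ss K (k + 2) ∣ co k (Z + z0)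
    · exact rigidAux_high hk hc le_rfl h2
        (by rwa [co_congr (show (k + 1 + 1) % 2 = k % 2 by omega)]) t2 h4
    · exact rigidAux_mid hk hc ⟨h1, h5⟩ h2 t2 h4
  · rw [t2, zero_smul, add_zero] at e
    rw [e]
    exact rigidAux_high hk hc k.le_succ h1 h2 t1 h3
  · obtain ⟨i, i1, i2, i3⟩ := exists_idx (K := K) (k := k) (Z := Z + w)
      (e1 k ▸ rigidAux_nd h1 t1 h3)
    obtain ⟨j, j1, j2, j3⟩ := exists_idx (K := K) (k := k + 1) (Z := Z + w)
      (e1 _ ▸ rigidAux_nd h2 t2 h4)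
    refine ⟨_, hk w, fun a a' ha ha' => ?_⟩
    rcases lt_or_gt_of_ne (show i ≠ j by omega) with h | h
    · exact (ha.eq_tileAt i3 j3 h (by omega) (by omega)).trans
        (ha'.eq_tileAt i3 j3 h (by omega) (by omega)).symm
    · exact (ha.eq_tileAt j3 i3 h (by omega) (by omega)).trans
        (ha'.eq_tileAt j3 i3 h (by omega) (by omega)).symm

end

theorem rigidAux_mult {s x y : ℤ} (h : |x - y| < s) :
    ∃ m, s ∣ m ∧ |x - m| < s ∧ |y - m| < s := by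
  have h0 : 0 < s := (abs_nonneg _).trans_lt h
  have h1 := Int.emod_nonneg (max x y) h0.ne'
  have h2 := Int.emod_lt_of_pos (max x y) h0
  have h3 := Int.mul_ediv_add_emod (max x y) s
  refine ⟨s * (max x y / s), dvd_mul_right _ _, ?_⟩
  rw [abs_lt] at h ⊢
  rw [abs_lt]
  omega

theorem qrigid (hK : Stab K) : QRigid (Wst K) := by
  intro Ω _ R z a z' a'
  obtain ⟨i0, hi⟩ := ss_large (K := K) (max |(z - z').1| |(z - z').2| + 1)
  have hb : ∀ i ≥ max K i0, ∀ Z, |co i (Z + z) - co i (Z + z')| < ss K i := fun i h Z => by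
    rw [← co_sub, add_sub_add_left_eq_sub]
    exact (abs_co_le i (le_max_left _ _) (le_max_right _ _)).trans_lt
      (hi i ((le_max_right _ _).trans h))
  refine rigidAux_compat ((inv_all R hK (le_max_left K i0)).trans fun f _ ⟨Z, hf⟩ => ?_)
  generalize max K i0 = k at hb hf
  obtain ⟨m, m1, m2, m3⟩ := rigidAux_mult (hb k le_rfl Z)
  obtain ⟨n, n1, n2, n3⟩ := rigidAux_mult (hb (k + 1) k.le_succ Z)
  obtain ⟨z0, rfl, rfl⟩ : ∃ z0, m = co k (Z + z0) ∧ n = co (k + 1) (Z + z0) := by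
    refine ⟨m • ac k + n • ac (k + 1) - Z, ?_⟩
    simp only [add_sub_cancel, co_add, co_smul]
    rw [co_ac rfl, co_ac rfl, co_ac_ne (by omega), co_ac_ne (by omega)]
    simp
  refine (cov_of_dec cr fun c => hf.2 z0 m1 n1 fun c' => c' = c).imp fun g hg ⟨c0, hc⟩ => ?_
  have hk := fun z => (hf.1 z).of_le hg
  exact ⟨rigidAux_near hk hc m1 n1 m2 n2 a, rigidAux_near hk hc m1 n1 m3 n3 a'⟩

end Vale.Agent.P196
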