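import Vale.Agent.P196.Basic

/-! P196 task B: the group `DD` of a free minimal tiling space is infinite and simple. -/

namespace Vale.Agent.P196

variable {W : Wang}

open Pointwise

theorem simpleAux_mem {U : Set W.X} {a b c : B} (h : Ok U a b c) : cyc U a b c ∈ DD W :=
  Subgroup.subset_closure ⟨U, a, b, c, h, rfl⟩

theorem simpleAux_ok {U : Set W.X} {S : Set B} (hU : IsClopen U) (hS : MS U S) {a b c : B}
    (h : D3 a b c) (ha : a ∈ S) (hb : b ∈ S) (hc : c ∈ S) : Ok U a b c :=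
  ⟨hU, h, hS.mono le_rfl (basicAux_sub3 ha hb hc)⟩

theorem simpleAux_univ (z : Z2) : Ok (Set.univ : Set W.X) (0, 0) (z, 1) (0, 2) := by
  refine ⟨isClopen_univ, ⟨by simp, by simp, by simp⟩, MS.of_injOn ?_⟩
  rintro _ (rfl | rfl | rfl) _ (rfl | rfl | rfl) h <;> first | rfl | simp at h

theorem infinite_DD (hF : W.Free) (hne : Nonempty W.X) : Infinite (DD W) := by
  obtain ⟨x⟩ := hne
  refine Infinite.of_injective
    (fun z : Z2 => (⟨_, simpleAux_mem (simpleAux_univ (W := W) z)⟩ : DD W)) fun z z' h => ?_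
  have o := simpleAux_univ (W := W) z
  have o' := simpleAux_univ (W := W) z'
  have h1 := ((isCyc_cyc o.2.1 o.2.2).1 x trivial).1
  have h2 := ((isCyc_cyc o'.2.1 o'.2.2).1 x trivial).1
  rw [Subtype.mk.inj h, h2] at h1
  exact (congrArg Prod.fst (pt_inj hF h1)).symm

theorem simpleAux_fresh (s : Finset B) : ∃ a, a ∉ s := Infinite.exists_notMem_finset s

section normal
variable {N : Subgroup (Equiv.Perm W.Pt)} (hN : ∀ n ∈ N, ∀ d ∈ DD W, d * n * d⁻¹ ∈ N)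
include hN

theorem simpleAux_one {U : Set W.X} {S : Set B} (hU : IsClopen U) (hS : MS U S) {a b c e f : B}
    (h : D3 a b c) (h' : D3 a e f) (h1 : e ≠ b) (h2 : e ≠ c) (h3 : f ≠ b) (h4 : f ≠ c)
    (ha : a ∈ S) (hb : b ∈ S) (hc : c ∈ S) (he : e ∈ S) (hf : f ∈ S) (hm : cyc U a b c ∈ N) :
    cyc U b c e ∈ N := by
  have h5 := hN _ hm _ (simpleAux_mem (simpleAux_ok hU hS h' ha he hf))
  rw [(basicAux_cyc_conj (hS.mono le_rfl (Set.insert_subset ha (Set.insert_subset he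
    (Set.insert_subset hf (basicAux_sub3 ha hb hc))))) h' h).2, c3_a h',
    c3_of_ne h.1.symm h1.symm h3.symm, c3_of_ne h.2.1.symm h2.symm h4.symm,
    basicAux_cyc_rot (simpleAux_ok hU hS ⟨h1, h2, h.2.2⟩ he hb hc)] at h5
  exact h5

theorem simpleAux_three {U : Set W.X} {S : Set B} (hU : IsClopen U) (hS : MS U S)
    {a b c a' b' c' f : B} (h : D3 a b c) (h' : D3 a' b' c')
    (h1 : ∀ p ∈ ({a, b, c} : Set B), ∀ q ∈ ({a', b', c'} : Set B), p ≠ q)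
    (h2 : ∀ p ∈ ({a, b, c, a', b', c'} : Set B), p ≠ f)
    (hs : {a, b, c, a', b', c', f} ⊆ S) (hm : cyc U a b c ∈ N) : cyc U a' b' c' ∈ N := by
  simp only [Set.mem_insert_iff, Set.mem_singleton_iff, forall_eq_or_imp, forall_eq] at h1 h2
  simp only [Set.insert_subset_iff, Set.singleton_subset_iff] at hs
  obtain ⟨⟨p1, p2, p3⟩, ⟨p4, p5, p6⟩, p7, p8, p9⟩ := h1
  obtain ⟨q1, q2, q3, q4, q5, q6⟩ := h2
  obtain ⟨s1, s2, s3, s4, s5, s6, s7⟩ := hs
  have m1 := simpleAux_one hN hU hS h ⟨p1, q1, q4⟩ p4.symm p7.symm q2.symm q3.symm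
    s1 s2 s3 s4 s7 hm
  have m2 := simpleAux_one hN hU hS ⟨h.2.2, p4, p7⟩ ⟨p5, q2, q5⟩ p8.symm h'.1.symm q3.symm q4.symm
    s2 s3 s4 s5 s7 m1
  exact simpleAux_one hN hU hS ⟨p7, p8, h'.1⟩ ⟨p9, q3, q6⟩ h'.2.1.symm h'.2.2.symm q4.symm q5.symm
    s3 s4 s5 s6 s7 m2

theorem simpleAux_any (hF : W.Free) {a b c a' b' c' : B} (h : D3 a b c) (h' : D3 a' b' c') :
    ∃ r, ∀ (x : W.X) (U : Set W.X), IsClopen U → (∀ y ∈ U, Agree x y r) →
      cyc U a b c ∈ N → cyc U a' b' c' ∈ N := by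
  obtain ⟨p, hp⟩ := simpleAux_fresh {a, b, c, a', b', c'}
  obtain ⟨q, hq⟩ := simpleAux_fresh {p, a, b, c, a', b', c'}
  obtain ⟨s, hs⟩ := simpleAux_fresh {q, p, a, b, c, a', b', c'}
  obtain ⟨f, hf⟩ := simpleAux_fresh {s, q, p, a, b, c, a', b', c'}
  simp only [Finset.mem_insert, Finset.mem_singleton, not_or, ← ne_eq] at hp hq hs hf
  obtain ⟨r, hr⟩ := exists_MS hF (S := {f, s, q, p, a, b, c, a', b', c'}) (Set.toFinite _)
  refine ⟨r, fun x U hU hx hm => ?_⟩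
  have hS := (hr x).mono hx le_rfl
  have d : D3 p q s := ⟨hq.1.symm, hs.2.1.symm, hs.1.symm⟩
  obtain ⟨p1, p2, p3, p4, p5, p6⟩ := hp
  obtain ⟨q0, q1, q2, q3, q4, q5, q6⟩ := hq
  obtain ⟨s0, s0', s1, s2, s3, s4, s5, s6⟩ := hs
  obtain ⟨f0, f0', f0'', f1, f2, f3, f4, f5, f6⟩ := hf
  refine simpleAux_three hN hU hS d h' (f := f) ?_ ?_ (by simp [Set.insert_subset_iff])
    (simpleAux_three hN hU hS h d (f := f) ?_ ?_ (by simp [Set.insert_subset_iff]) hm)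
  all_goals simp only [Set.mem_insert_iff, Set.mem_singleton_iff, forall_eq_or_imp, forall_eq]
  · exact ⟨⟨p4, p5, p6⟩, ⟨q4, q5, q6⟩, s4, s5, s6⟩
  · exact ⟨f0''.symm, f0'.symm, f0.symm, f4.symm, f5.symm, f6.symm⟩
  · exact ⟨⟨p1.symm, q1.symm, s1.symm⟩, ⟨p2.symm, q2.symm, s2.symm⟩, p3.symm, q3.symm, s3.symm⟩
  · exact ⟨f1.symm, f2.symm, f3.symm, f0''.symm, f0'.symm, f0.symm⟩

theorem simpleAux_start (hF : W.Free) {g : Equiv.Perm W.Pt} (hg : g ∈ N) (hg' : g ∈ DD W)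
    (h1 : g ≠ 1) : ∃ (x : W.X) (r : ℕ) (a b c : B), D3 a b c ∧ ∀ U : Set W.X, IsClopen U →
      (∀ y ∈ U, Agree x y r) → Ok U a b c ∧ cyc U a b c ∈ N := by
  obtain ⟨⟨x, i⟩, hx⟩ : ∃ p, g p ≠ p := by
    by_contra h
    push Not at h
    exact h1 (Equiv.ext h)
  have hG := DD_le_FG hg'
  obtain ⟨ρ, hρ, -⟩ := id hG
  obtain ⟨a, ha⟩ : ∃ a, crd x g a ≠ a := ⟨(0, i), fun h => hx (by
    rw [← pt_zero, crd_spec hF hG, h])⟩
  obtain ⟨b, hb⟩ := simpleAux_fresh {a, (crd x g).symm a}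
  obtain ⟨c, hc⟩ := simpleAux_fresh {b, a, (crd x g).symm a}
  obtain ⟨p, hp⟩ := simpleAux_fresh {a, b, c, crd x g a, crd x g b, crd x g c}
  obtain ⟨q, hq⟩ := simpleAux_fresh {p, a, b, c, crd x g a, crd x g b, crd x g c}
  simp only [Finset.mem_insert, Finset.mem_singleton, not_or, ← ne_eq] at hb hc hp hq
  have hb' : crd x g b ≠ a := fun h => hb.2 (Equiv.eq_symm_apply _ |>.2 h)
  have hc' : crd x g c ≠ a := fun h => hc.2.2 (Equiv.eq_symm_apply _ |>.2 h)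
  obtain ⟨r, hr⟩ := exists_MS hF (S := {q, p, a, b, c, crd x g a, crd x g b, crd x g c})
    (Set.toFinite _)
  obtain ⟨m, hm⟩ := basicAux_bound {a.1, b.1, c.1}
  have d1 : D3 a b c := ⟨hb.1.symm, hc.2.1.symm, hc.1.symm⟩
  have d2 := d1.map (crd x g).injective
  have d3 : D3 a p q := ⟨hp.1.symm, hq.2.1.symm, hq.1.symm⟩
  have d4 : D3 a b p := ⟨d1.1, d3.1, hp.2.1.symm⟩
  refine ⟨x, max r (ρ + m), a, b, p, d4, fun U hU hx => ?_⟩
  have hS := (hr x).mono (fun y hy => (hx y hy).mono (le_max_left _ _)) le_rfl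
  have o1 := simpleAux_ok hU hS d1 (by simp) (by simp) (by simp)
  have o2 := simpleAux_ok hU hS d2 (by simp) (by simp) (by simp)
  have o3 := simpleAux_ok hU hS d3 (by simp) (by simp) (by simp)
  refine ⟨simpleAux_ok hU hS d4 (by simp) (by simp) (by simp), ?_⟩
  have e0 : ∀ y ∈ U, ∀ e : B, e.1 ∈ ({a.1, b.1, c.1} : Finset Z2) →
      g (pt e y) = pt (crd x g e) y := fun y hy e he => by
    rw [crd_congr hF hG hρ (((hx y hy).mono (le_max_right _ _)).vadd (hm _ he).1 (hm _ he).2),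
      crd_spec hF hG]
  have e1 := (cyc_conj' d1 o1.2.2 d2 g fun y hy =>
    ⟨e0 y hy a (by simp), e0 y hy b (by simp), e0 y hy c (by simp)⟩).2
  have e2 := basicAux_cyc_comm o3 o2 fun s hs t ht y hy y' hy' e => by
    have h2 := hS s (basicAux_sub3 (by simp) (by simp) (by simp) hs) t
      (basicAux_sub3 (by simp) (by simp) (by simp) ht) y hy y' hy' e
    simp only [Set.mem_insert_iff, Set.mem_singleton_iff] at hs ht
    rcases hs with rfl | rfl | rfl <;> rcases ht with rfl | rfl | rfl <;> tauto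
  have e3 := (basicAux_cyc_conj (hS.mono le_rfl (show ({a, b, c, a, p, q} : Set B) ⊆ _ by
    simp [Set.insert_subset_iff])) d1 d3).2
  rw [c3_a d1, c3_of_ne hp.1 hp.2.1 hp.2.2.1, c3_of_ne hq.2.1 hq.2.2.1 hq.2.2.2.1] at e3
  have e4 := basicAux_cyc_cf (hS.mono le_rfl (show ({a, b, p, q} : Set B) ⊆ _ by
    simp [Set.insert_subset_iff])) d4 d3.2.1 hq.2.2.1.symm d3.2.2
  have n1 : cyc U (crd x g a) (crd x g b) (crd x g c) * (cyc U a b c)⁻¹ ∈ N := by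
    have h2 := N.mul_mem hg (hN _ (N.inv_mem hg) _ (simpleAux_mem o1))
    rwa [← mul_assoc, ← mul_assoc, e1] at h2
  have n2 := N.mul_mem (N.inv_mem n1) (hN _ n1 _ (simpleAux_mem o3))
  rw [e4, ← e3, basicAux_cyc_inv o3]
  rw [← mul_assoc (cyc U a p q), e2] at n2
  simpa only [mul_inv_rev, inv_inv, mul_assoc, inv_mul_cancel_left] using n2

theorem simpleAux_all (hF : W.Free) (hM : W.Minimal) {g : Equiv.Perm W.Pt} (hg : g ∈ N)
    (hg' : g ∈ DD W) (h1 : g ≠ 1) : DD W ≤ N := by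
  obtain ⟨x, r, a, b, c, h, hr⟩ := simpleAux_start hN hF hg hg' h1
  rw [DD, Subgroup.closure_le]
  rintro _ ⟨U, a', b', c', h', rfl⟩
  refine clopen_loc (Q := fun V => cyc V a' b' c' ∈ N) h'.1
    (basicAux_cyc_empty h'.2.1 ▸ N.one_mem) (fun V V' _ _ h2 h3 h4 h5 h6 => ?_) fun y _ => ?_
  · rw [basicAux_cyc_union h4 h'.2.1 (h'.2.2.mono (Set.union_subset h2 h3) le_rfl)]
    exact N.mul_mem h5 h6
  · obtain ⟨z, hz⟩ := hM _ (isClopen_agree x r) ⟨x, Agree.refl x r⟩ y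
    obtain ⟨m, hm⟩ := basicAux_bound {z}
    obtain ⟨s, hs⟩ := simpleAux_any hN hF (h.map (basicAux_sh_inj z)) h'.2.1
    refine ⟨max s (r + m), fun V hV _ h2 =>
      hs y V hV (fun y' hy' => (h2 y' hy').mono (le_max_left _ _)) ?_⟩
    obtain ⟨h3, h4⟩ := hr (z +ᵥ V) (IsClopen.vadd_X hV z) (by
      rintro _ ⟨y', hy', rfl⟩
      exact Agree.trans hz (((h2 y' hy').mono (le_max_right _ _)).vadd (hm z (by simp)).1
        (hm z (by simp)).2))
    rwa [basicAux_cyc_shift h3]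

end normal

theorem simple_DD (hF : W.Free) (hM : W.Minimal) (hne : Nonempty W.X) :
    IsSimpleGroup (DD W) := by
  have := infinite_DD hF hne
  refine ⟨fun N hN => ?_⟩
  rcases N.bot_or_exists_ne_one with h | ⟨g, hg, h1⟩
  · exact Or.inl h
  · refine Or.inr (top_le_iff.1 fun d _ => ?_)
    obtain ⟨d', h2, h3⟩ := simpleAux_all (N := N.map (DD W).subtype) (by
      rintro _ ⟨n, hn, rfl⟩ e he
      exact ⟨_, hN.conj_mem n hn ⟨e, he⟩, rfl⟩) hF hM ⟨g, hg, rfl⟩ g.2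
      (fun h => h1 (Subtype.ext h)) d.2
    exact Subtype.ext h3 ▸ h2

end Vale.Agent.P196
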