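import Vale.Agent.P196.Basic

/-! P196 task O: from lifts between the copies to lifts of all three-cycles. -/

namespace Vale.Agent.P196

open Pointwise

variable {W : Wang} {P : Type} [Group P]

theorem sys23Aux_fresh (A : Finset I) (h : A.card < 30) : ∃ l, l ∉ A := by
  obtain ⟨l, -, hl⟩ := Finset.exists_mem_notMem_of_card_lt_card (s := A) (t := Finset.univ)
    (by simpa using h)
  exact ⟨l, hl⟩

theorem sys23Aux_freshL (L : List I) (h : L.length < 30) : ∃ l, l ∉ L := by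
  obtain ⟨l, hl⟩ := sys23Aux_fresh L.toFinset (lt_of_le_of_lt (List.toFinset_card_le L) h)
  exact ⟨l, by simpa using hl⟩

theorem sys23Aux_pair (A : Finset I) (h : A.card < 29) : ∃ i j, i ≠ j ∧ i ∉ A ∧ j ∉ A := by
  obtain ⟨i, hi⟩ := sys23Aux_fresh A (by omega)
  obtain ⟨j, hj⟩ := sys23Aux_fresh (insert i A)
    (lt_of_le_of_lt (Finset.card_insert_le _ _) (by omega))
  rw [Finset.mem_insert, not_or] at hj
  exact ⟨i, j, fun e => hj.1 e.symm, hi, hj.2⟩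

theorem sys23Aux_pairL (L : List I) (h : L.length < 29) : ∃ i j, i ≠ j ∧ i ∉ L ∧ j ∉ L := by
  obtain ⟨i, j, h1, h2, h3⟩ :=
    sys23Aux_pair L.toFinset (lt_of_le_of_lt (List.toFinset_card_le L) h)
  exact ⟨i, j, h1, by simpa using h2, by simpa using h3⟩

theorem sys23Aux_y0 (v : I → Z2) (l : I) : ∃ y : I → Z2, ∑ i, y i = 0 ∧ ∀ i, i ≠ l → y i = v i := by
  refine ⟨v + Pi.single l (-∑ i, v i), ?_, fun i hi => by simp [hi]⟩
  simp [Finset.sum_add_distrib]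

/-- a separated list of arrows lies on the graph of a vector of sum zero -/
theorem sys23Aux_y (L : List B) (hL : L.length < 30)
    (h : ∀ a ∈ L, ∀ b ∈ L, a.2 = b.2 → a = b) :
    ∃ y : I → Z2, ∑ i, y i = 0 ∧ ∀ a ∈ L, y a.2 = a.1 := by
  classical
  obtain ⟨l, hl⟩ := sys23Aux_freshL (L.map Prod.snd) (by simpa using hL)
  obtain ⟨y, h1, h2⟩ := sys23Aux_y0 (fun i => if h : ∃ b ∈ L, b.2 = i then h.choose.1 else 0) l
  refine ⟨y, h1, fun a ha => ?_⟩
  have h3 : ∃ b ∈ L, b.2 = a.2 := ⟨a, ha, rfl⟩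
  rw [h2 a.2 (fun e => hl (e ▸ List.mem_map_of_mem ha)), dif_pos h3,
    h _ h3.choose_spec.1 a ha h3.choose_spec.2]

theorem sys23Aux_sep3 {a b c : B} (h : D3 a.2 b.2 c.2) :
    ∀ p ∈ [a, b, c], ∀ q ∈ [a, b, c], p.2 = q.2 → p = q := by
  obtain ⟨h1, h2, h3⟩ := h
  simp only [List.mem_cons, List.not_mem_nil, or_false]
  rintro p (rfl | rfl | rfl) q (rfl | rfl | rfl) e <;> first | rfl | simp_all

theorem sys23Aux_d3 {a b c : B} (h : D3 a.2 b.2 c.2) : D3 a b c :=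
  ⟨fun e => h.1 (congrArg _ e), fun e => h.2.1 (congrArg _ e), fun e => h.2.2 (congrArg _ e)⟩

theorem sys23Aux_ms {U : Set W.X} {a b c : B} (h : D3 a.2 b.2 c.2) : MS U {a, b, c} :=
  MS.of_injOn fun p hp q hq e => sys23Aux_sep3 h p (by simpa using hp) q (by simpa using hq) e

theorem sys23Aux_c3_map {α β : Type} [DecidableEq α] [DecidableEq β] {φ : α → β} {a b c e : α}
    (h : D3 a b c) (h' : D3 (φ a) (φ b) (φ c)) (ha : φ e = φ a → e = a) (hb : φ e = φ b → e = b)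
    (hc : φ e = φ c → e = c) : φ (c3 a b c e) = c3 (φ a) (φ b) (φ c) (φ e) := by
  by_cases e1 : e = a
  · rw [e1, c3_a h, c3_a h']
  by_cases e2 : e = b
  · rw [e2, c3_b h, c3_b h']
  by_cases e3 : e = c
  · rw [e3, c3_c h, c3_c h']
  rw [c3_of_ne e1 e2 e3, c3_of_ne (fun e => e1 (ha e)) (fun e => e2 (hb e)) (fun e => e3 (hc e))]

namespace Sys2

variable (S : Sys2 W P)

theorem θ_zero : S.θ 0 = 1 := by
  have := S.θ_add (y := 0) (y' := 0) (by simp) (by simp)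
  rw [add_zero] at this
  exact left_eq_mul.1 this

open Classical in
/-- lift of the three-cycle on a separated triple of arrows -/
noncomputable def T (U : Set W.X) (a b c : B) : P :=
  if h : ∃ y : I → Z2, ∑ i, y i = 0 ∧ y a.2 = a.1 ∧ y b.2 = b.1 ∧ y c.2 = c.1 then
    S.θ h.choose * S.al U a.2 b.2 c.2 * (S.θ h.choose)⁻¹ else 1

variable {U V : Set W.X} {a b c a' b' c' f f' : B}

theorem T_eq (hU : IsClopen U) (h : D3 a.2 b.2 c.2) {y : I → Z2} (hy : ∑ i, y i = 0)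
    (ha : y a.2 = a.1) (hb : y b.2 = b.1) (hc : y c.2 = c.1) :
    S.T U a b c = S.θ y * S.al U a.2 b.2 c.2 * (S.θ y)⁻¹ := by
  have h1 : ∃ y : I → Z2, ∑ i, y i = 0 ∧ y a.2 = a.1 ∧ y b.2 = b.1 ∧ y c.2 = c.1 :=
    ⟨y, hy, ha, hb, hc⟩
  rw [T, dif_pos h1]
  obtain ⟨e0, e1, e2, e3⟩ := h1.choose_spec
  generalize h1.choose = y0 at e0 e1 e2 e3
  have h2 : ∑ i, (y0 - y) i = 0 := by simp [Finset.sum_sub_distrib, hy, e0]
  have h3 := S.θ_al (U := U) (0 : Z2) h2 hU h (by simp [ha, e1]) (by simp [hb, e2])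
    (by simp [hc, e3])
  have h4 := S.θ_add hy h2
  rw [add_sub_cancel] at h4
  rw [zero_vadd] at h3
  rw [h4]
  conv_rhs => rw [← h3]
  group

theorem T_cyc (hU : IsClopen U) (h : D3 a.2 b.2 c.2) : S.T U a b c = S.T U b c a := by
  obtain ⟨y, hy, h1⟩ := sys23Aux_y [a, b, c] (by simp) (sys23Aux_sep3 h)
  have ha := h1 a (by simp); have hb := h1 b (by simp); have hc := h1 c (by simp)
  rw [S.T_eq hU h hy ha hb hc, S.T_eq hU (basicAux_rot h) hy hb hc ha, S.al_cyc hU h]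

theorem T_inv (hU : IsClopen U) (h : D3 a.2 b.2 c.2) : S.T U a c b = (S.T U a b c)⁻¹ := by
  obtain ⟨y, hy, h1⟩ := sys23Aux_y [a, b, c] (by simp) (sys23Aux_sep3 h)
  have ha := h1 a (by simp); have hb := h1 b (by simp); have hc := h1 c (by simp)
  rw [S.T_eq hU h hy ha hb hc, S.T_eq hU (basicAux_flip h) hy ha hc hb, S.al_inv hU h]
  group

theorem T_empty (h : D3 a.2 b.2 c.2) : S.T ∅ a b c = 1 := by
  obtain ⟨y, hy, h1⟩ := sys23Aux_y [a, b, c] (by simp) (sys23Aux_sep3 h)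
  have ha := h1 a (by simp); have hb := h1 b (by simp); have hc := h1 c (by simp)
  rw [S.T_eq isClopen_empty h hy ha hb hc, S.al_empty h]
  group

theorem T_union (hU : IsClopen U) (hV : IsClopen V) (hd : Disjoint U V) (h : D3 a.2 b.2 c.2) :
    S.T (U ∪ V) a b c = S.T U a b c * S.T V a b c := by
  obtain ⟨y, hy, h1⟩ := sys23Aux_y [a, b, c] (by simp) (sys23Aux_sep3 h)
  have ha := h1 a (by simp); have hb := h1 b (by simp); have hc := h1 c (by simp)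
  rw [S.T_eq hU h hy ha hb hc, S.T_eq hV h hy ha hb hc, S.T_eq (hU.union hV) h hy ha hb hc,
    S.al_union hU hV hd h]
  group

theorem T_shift (z : Z2) (hU : IsClopen U) (h : D3 a.2 b.2 c.2) :
    S.T U (sh z a) (sh z b) (sh z c) = S.T (z +ᵥ U) a b c := by
  obtain ⟨y, hy, h1⟩ := sys23Aux_y [a, b, c] (by simp) (sys23Aux_sep3 h)
  have ha := h1 a (by simp); have hb := h1 b (by simp); have hc := h1 c (by simp)
  obtain ⟨l, hl⟩ := sys23Aux_freshL [a.2, b.2, c.2] (by simp)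
  simp only [List.mem_cons, List.not_mem_nil, or_false, not_or] at hl
  obtain ⟨y', hy', h2⟩ := sys23Aux_y0 (fun _ => z) l
  have ha' := h2 a.2 (Ne.symm hl.1)
  have hb' := h2 b.2 (Ne.symm hl.2.1)
  have hc' := h2 c.2 (Ne.symm hl.2.2)
  have h3 : ∑ i, (y + y') i = 0 := by simp [Finset.sum_add_distrib, hy, hy']
  rw [S.T_eq (IsClopen.vadd_X hU z) h hy ha hb hc,
    S.T_eq (a := sh z a) (b := sh z b) (c := sh z c) hU h h3 (by simp [sh, ha, ha'])
      (by simp [sh, hb, hb']) (by simp [sh, hc, hc']),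
    ← S.θ_al z hy' hU h ha' hb' hc', S.θ_add hy hy']
  simp only [sh]
  group

theorem π_T (hU : IsClopen U) (h : D3 a.2 b.2 c.2) : S.π (S.T U a b c) = cyc U a b c := by
  obtain ⟨y, hy, h1⟩ := sys23Aux_y [a, b, c] (by simp) (sys23Aux_sep3 h)
  have ha := h1 a (by simp); have hb := h1 b (by simp); have hc := h1 c (by simp)
  rw [S.T_eq hU h hy ha hb hc, map_mul, map_mul, map_inv, S.π_al hU h]
  have h0 : D3 ((0, a.2) : B).2 ((0, b.2) : B).2 ((0, c.2) : B).2 := h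
  refine (cyc_conj' (sys23Aux_d3 h0) (sys23Aux_ms h0) (sys23Aux_d3 h) _ fun x _ => ?_).2
  simp only [pt_zero, S.π_θ hy, ha, hb, hc]
  exact ⟨rfl, rfl, rfl⟩

theorem T_cf {x e : B} (hU : IsClopen U) (h : D3 x.2 a.2 c.2) (h1 : x.2 ≠ e.2) (h2 : a.2 ≠ e.2)
    (h3 : c.2 ≠ e.2) : S.T U x a c = S.T U a c e * S.T U x e c := by
  obtain ⟨y, hy, h4⟩ := sys23Aux_y [x, a, c, e] (by simp) (by
    obtain ⟨h5, h6, h7⟩ := h
    simp only [List.mem_cons, List.not_mem_nil, or_false]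
    rintro p (rfl | rfl | rfl | rfl) q (rfl | rfl | rfl | rfl) e <;> first | rfl | simp_all)
  have ha := h4 a (by simp); have hx := h4 x (by simp); have hc := h4 c (by simp)
  have he := h4 e (by simp)
  rw [S.T_eq hU h hy hx ha hc, S.T_eq hU ⟨h.2.2, h2, h3⟩ hy ha hc he,
    S.T_eq hU ⟨h1, h.2.1, h3.symm⟩ hy hx he hc, S.al_cf hU h h1 h2 h3]
  group

theorem T_conj (hU : IsClopen U) (h : D3 a.2 b.2 c.2) (h' : D3 a'.2 b'.2 c'.2)
    (hs : ∀ p ∈ [a, b, c, a', b', c'], ∀ q ∈ [a, b, c, a', b', c'], p.2 = q.2 → p = q) :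
    S.T U a b c * S.T U a' b' c' * (S.T U a b c)⁻¹ =
      S.T U (c3 a b c a') (c3 a b c b') (c3 a b c c') := by
  obtain ⟨y, hy, h4⟩ := sys23Aux_y _ (by simp) hs
  have key : ∀ e ∈ [a, b, c, a', b', c'], (c3 a b c e).2 = c3 a.2 b.2 c.2 e.2 ∧
      y (c3 a b c e).2 = (c3 a b c e).1 := fun e he =>
    ⟨sys23Aux_c3_map (φ := Prod.snd) (sys23Aux_d3 h) h (hs e he a (by simp)) (hs e he b (by simp))
      (hs e he c (by simp)),
      h4 _ (basicAux_c3_mem (S := {p | p ∈ [a, b, c, a', b', c']}) (sys23Aux_d3 h) (by simp)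
        (by simp) (by simp) he)⟩
  have ka := key a' (by simp); have kb := key b' (by simp); have kc := key c' (by simp)
  have h5 : D3 (c3 a b c a').2 (c3 a b c b').2 (c3 a b c c').2 := by
    rw [ka.1, kb.1, kc.1]; exact h'.map (c3 a.2 b.2 c.2).injective
  rw [S.T_eq hU h5 hy ka.2 kb.2 kc.2, ka.1, kb.1, kc.1, ← S.al_conj hU h h',
    S.T_eq hU h hy (h4 a (by simp)) (h4 b (by simp)) (h4 c (by simp)),
    S.T_eq hU h' hy (h4 a' (by simp)) (h4 b' (by simp)) (h4 c' (by simp))]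
  group

theorem T_comm0 (hU : IsClopen U) (hV : IsClopen V) (h : D3 a.2 b.2 c.2) (h' : D3 a'.2 b'.2 c'.2)
    (hs : ∀ p ∈ [a, b, c, a', b', c'], ∀ q ∈ [a, b, c, a', b', c'], p.2 = q.2 → p = q)
    (hc : Commute (S.al U a.2 b.2 c.2) (S.al V a'.2 b'.2 c'.2)) :
    Commute (S.T U a b c) (S.T V a' b' c') := by
  obtain ⟨y, hy, h4⟩ := sys23Aux_y _ (by simp) hs
  rw [S.T_eq hU h hy (h4 a (by simp)) (h4 b (by simp)) (h4 c (by simp)),
    S.T_eq hV h' hy (h4 a' (by simp)) (h4 b' (by simp)) (h4 c' (by simp))]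
  exact hc.map (MulAut.conj (S.θ y))

theorem T_comm1 (hU : IsClopen U) (hV : IsClopen V) (h : D3 a.2 b.2 c.2)
    (ha : D3 a.2 f.2 f'.2) (hb : D3 b.2 f.2 f'.2) (hc : D3 c.2 f.2 f'.2) (e : a'.2 = a.2)
    (hd : ∀ x ∈ U, ∀ y ∈ V, pt a x ≠ pt a' y) : Commute (S.T U a b c) (S.T V a' f f') := by
  have e2 : a' = sh (a'.1 - a.1) a := Prod.ext (by simp [sh]) e
  generalize a'.1 - a.1 = z at e2
  have e1 : ∀ p : B, sh z (sh (-z) p) = p := fun p => by simp [sh]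
  subst e2
  rw [← e1 f, ← e1 f', S.T_shift z hV (a := a) (b := sh (-z) f) (c := sh (-z) f') ha]
  refine S.T_comm0 hU (IsClopen.vadd_X hV z) h ha ?_ (S.al_perp hU (IsClopen.vadd_X hV z) ?_ h ha)
  · obtain ⟨h1, h2, h3⟩ := h
    obtain ⟨a1, a2, a3⟩ := ha
    obtain ⟨b1, b2, -⟩ := hb
    obtain ⟨c1, c2, -⟩ := hc
    simp only [List.mem_cons, List.not_mem_nil, or_false]
    rintro p (rfl | rfl | rfl | rfl | rfl | rfl) q (rfl | rfl | rfl | rfl | rfl | rfl) e <;>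
      first | rfl | (exfalso; simp_all [sh])
  · rw [Set.disjoint_left]
    rintro _ hx ⟨y, hy, rfl⟩
    exact hd _ hx y hy (pt_vadd _ _ _)

theorem T_comm (hU : IsClopen U) (hV : IsClopen V) (h : D3 a.2 b.2 c.2)
    (ha : D3 a.2 f.2 f'.2) (hb : D3 b.2 f.2 f'.2) (hc : D3 c.2 f.2 f'.2) (h' : D3 a'.2 f.2 f'.2)
    (hd : ∀ x ∈ U, ∀ y ∈ V, pt a x ≠ pt a' y ∧ pt b x ≠ pt a' y ∧ pt c x ≠ pt a' y) :
    Commute (S.T U a b c) (S.T V a' f f') := by
  by_cases e1 : a'.2 = a.2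
  · exact S.T_comm1 hU hV h ha hb hc e1 fun x hx y hy => (hd x hx y hy).1
  by_cases e2 : a'.2 = b.2
  · rw [S.T_cyc hU h]
    exact S.T_comm1 hU hV (basicAux_rot h) hb hc ha e2 fun x hx y hy => (hd x hx y hy).2.1
  by_cases e3 : a'.2 = c.2
  · rw [S.T_cyc hU h, S.T_cyc hU (basicAux_rot h)]
    exact S.T_comm1 hU hV (basicAux_rot (basicAux_rot h)) hc ha hb e3
      fun x hx y hy => (hd x hx y hy).2.2
  refine S.T_comm0 hU hV h h' ?_ (S.al_disj hU hV h h' ?_)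
  · obtain ⟨h1, h2, h3⟩ := h
    obtain ⟨a1, a2, a3⟩ := ha
    obtain ⟨b1, b2, -⟩ := hb
    obtain ⟨c1, c2, -⟩ := hc
    obtain ⟨d1, d2, -⟩ := h'
    simp only [List.mem_cons, List.not_mem_nil, or_false]
    rintro p (rfl | rfl | rfl | rfl | rfl | rfl) q (rfl | rfl | rfl | rfl | rfl | rfl) e <;>
      first | rfl | (exfalso; simp_all)
  · obtain ⟨a1, a2, a3⟩ := ha
    obtain ⟨b1, b2, -⟩ := hb
    obtain ⟨c1, c2, -⟩ := hc
    rw [Set.disjoint_left]
    simp only [Set.mem_insert_iff, Set.mem_singleton_iff]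
    rintro _ (rfl | rfl | rfl) (e | e | e) <;> simp_all

theorem T_congr (hF : W.Free) {p q : B} (hp : D3 p.2 f.2 f'.2) (hq : D3 q.2 f.2 f'.2)
    (h : ∀ x ∈ V, pt p x = pt q x) : S.T V p f f' = S.T V q f f' := by
  rcases V.eq_empty_or_nonempty with rfl | ⟨x, hx⟩
  · rw [S.T_empty hp, S.T_empty hq]
  · rw [pt_inj hF (h x hx)]

/-- conjugation when the arrow is not moved -/
theorem conj_fix (hF : W.Free) {q : B} (hU : IsClopen U) (hV : IsClopen V) (h : D3 a.2 b.2 c.2)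
    (ha : D3 a.2 f.2 f'.2) (hb : D3 b.2 f.2 f'.2) (hc : D3 c.2 f.2 f'.2) (h' : D3 a'.2 f.2 f'.2)
    (hq : D3 q.2 f.2 f'.2) (hm : ∀ x ∈ V, cyc U a b c (pt a' x) = pt q x)
    (hd : ∀ x ∈ U, ∀ y ∈ V, pt a x ≠ pt a' y ∧ pt b x ≠ pt a' y ∧ pt c x ≠ pt a' y) :
    S.T U a b c * S.T V a' f f' * (S.T U a b c)⁻¹ = S.T V q f f' := by
  rw [(S.T_comm hU hV h ha hb hc h' hd).eq, mul_inv_cancel_right]
  refine S.T_congr hF h' hq fun x hx => ?_
  rw [← hm x hx]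
  exact ((isCyc_cyc (sys23Aux_d3 h) (sys23Aux_ms h)).2 _ fun y hy =>
    ⟨(hd y hy x hx).1.symm, (hd y hy x hx).2.1.symm, (hd y hy x hx).2.2.symm⟩).symm

theorem conj_first (hF : W.Free) {q : B} (hU : IsClopen U) (hV : IsClopen V) (h : D3 a.2 b.2 c.2)
    (ha : D3 a.2 f.2 f'.2) (hb : D3 b.2 f.2 f'.2) (hc : D3 c.2 f.2 f'.2) (e : a'.2 = a.2)
    (hq : D3 q.2 f.2 f'.2) (hm : ∀ x ∈ V, cyc U a b c (pt a' x) = pt q x) :
    S.T U a b c * S.T V a' f f' * (S.T U a b c)⁻¹ = S.T V q f f' := by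
  have e2 : a' = sh (a'.1 - a.1) a := Prod.ext (by simp [sh]) e
  generalize a'.1 - a.1 = z at e2
  subst e2
  have h' : D3 (sh z a).2 f.2 f'.2 := ha
  have hZ : IsClopen ((fun x : W.X => z +ᵥ x) ⁻¹' U) := hU.preimage (continuous_vadd_X z)
  have h1 : IsClopen (V ∩ (fun x : W.X => z +ᵥ x) ⁻¹' U) := hV.inter hZ
  have h2 : IsClopen (V \ (fun x : W.X => z +ᵥ x) ⁻¹' U) := hV.diff hZ
  have hs := Set.inter_union_sdiff V ((fun x : W.X => z +ᵥ x) ⁻¹' U)
  have hd : Disjoint (V ∩ (fun x : W.X => z +ᵥ x) ⁻¹' U) (V \ (fun x : W.X => z +ᵥ x) ⁻¹' U) :=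
    Set.disjoint_sdiff_inter.symm
  have m1 : ∀ x ∈ V ∩ (fun x : W.X => z +ᵥ x) ⁻¹' U, x ∈ V ∧ z +ᵥ x ∈ U := fun x hx => hx
  have m2 : ∀ x ∈ V \ (fun x : W.X => z +ᵥ x) ⁻¹' U, x ∈ V ∧ z +ᵥ x ∉ U := fun x hx => hx
  generalize V ∩ (fun x : W.X => z +ᵥ x) ⁻¹' U = V1 at h1 hs hd m1
  generalize V \ (fun x : W.X => z +ᵥ x) ⁻¹' U = V2 at h2 hs hd m2
  have sep : ∀ x y : W.X, (pt a x = pt (sh z a) y → x = z +ᵥ y) ∧ pt b x ≠ pt (sh z a) y ∧
      pt c x ≠ pt (sh z a) y := fun x y =>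
    ⟨fun e => pt_inj_right (e.trans (pt_vadd _ _ _).symm),
      fun e => h.1 (congrArg Prod.snd e :).symm, fun e => h.2.1 (congrArg Prod.snd e :).symm⟩
  have k2 : S.T U a b c * S.T V2 (sh z a) f f' * (S.T U a b c)⁻¹ = S.T V2 q f f' :=
    S.conj_fix hF hU h2 h ha hb hc h' hq (fun x hx => hm x (m2 x hx).1) fun x hx y hy =>
      ⟨fun e => (m2 y hy).2 ((sep x y).1 e ▸ hx), (sep x y).2⟩
  have k1 : S.T U a b c * S.T V1 (sh z a) f f' * (S.T U a b c)⁻¹ = S.T V1 q f f' := by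
    have h3 : IsClopen (z +ᵥ V1) := IsClopen.vadd_X h1 z
    have h4 : z +ᵥ V1 ⊆ U := by
      rintro _ ⟨x, hx, rfl⟩
      exact (m1 x hx).2
    have h5 := S.T_union h3 (hU.diff h3) Set.disjoint_sdiff_right h
    rw [Set.union_sdiff_cancel h4] at h5
    have h6 := S.T_comm (hU.diff h3) h1 h ha hb hc h' fun x hx y hy =>
      ⟨fun e => hx.2 ((sep x y).1 e ▸ Set.vadd_mem_vadd_set hy), (sep x y).2⟩
    have h7 : D3 (sh z a).2 (sh z b).2 (sh z c).2 := h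
    have h8 := S.T_conj h1 h7 h' (by
      obtain ⟨h1, h2, h3⟩ := h
      obtain ⟨a1, a2, a3⟩ := ha
      obtain ⟨b1, b2, -⟩ := hb
      obtain ⟨c1, c2, -⟩ := hc
      simp only [List.mem_cons, List.not_mem_nil, or_false]
      rintro p (rfl | rfl | rfl | rfl | rfl | rfl) q (rfl | rfl | rfl | rfl | rfl | rfl) e <;>
        first | rfl | (exfalso; simp_all [sh]))
    rw [c3_a (sys23Aux_d3 h7),
      c3_of_ne (a := sh z a) (b := sh z b) (c := sh z c) (x := f)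
        (fun e => ha.1 (congrArg Prod.snd e :).symm)
        (fun e => hb.1 (congrArg Prod.snd e :).symm) (fun e => hc.1 (congrArg Prod.snd e :).symm),
      c3_of_ne (a := sh z a) (b := sh z b) (c := sh z c) (x := f')
        (fun e => ha.2.1 (congrArg Prod.snd e :).symm)
        (fun e => hb.2.1 (congrArg Prod.snd e :).symm)
        (fun e => hc.2.1 (congrArg Prod.snd e :).symm),
      S.T_shift z h1 h] at h8
    rw [h5, mul_inv_rev, mul_assoc _ _ (S.T V1 (sh z a) f f'), h6.eq, ← mul_assoc, ← mul_assoc,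
      mul_inv_cancel_right, h8]
    refine S.T_congr hF (p := sh z b) hb hq fun x hx => ?_
    rw [← hm x (m1 x hx).1, ← pt_vadd, ← pt_vadd]
    exact (((isCyc_cyc (sys23Aux_d3 h) (sys23Aux_ms h)).1 _ (m1 x hx).2).1).symm
  rw [← hs, S.T_union h1 h2 hd h', S.T_union h1 h2 hd hq, ← k1, ← k2]
  group

/-- conjugation of a lift with two fresh arrows -/
theorem conj_T (hF : W.Free) {q : B} (hU : IsClopen U) (hV : IsClopen V) (h : D3 a.2 b.2 c.2)
    (ha : D3 a.2 f.2 f'.2) (hb : D3 b.2 f.2 f'.2) (hc : D3 c.2 f.2 f'.2) (h' : D3 a'.2 f.2 f'.2)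
    (hq : D3 q.2 f.2 f'.2) (hm : ∀ x ∈ V, cyc U a b c (pt a' x) = pt q x) :
    S.T U a b c * S.T V a' f f' * (S.T U a b c)⁻¹ = S.T V q f f' := by
  have ok : Ok U a b c := ⟨hU, sys23Aux_d3 h, sys23Aux_ms h⟩
  by_cases e1 : a'.2 = a.2
  · exact S.conj_first hF hU hV h ha hb hc e1 hq hm
  by_cases e2 : a'.2 = b.2
  · rw [S.T_cyc hU h]
    rw [basicAux_cyc_rot ok] at hm
    exact S.conj_first hF hU hV (basicAux_rot h) hb hc ha e2 hq hm
  by_cases e3 : a'.2 = c.2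
  · rw [S.T_cyc hU h, S.T_cyc hU (basicAux_rot h)]
    rw [basicAux_cyc_rot ok, basicAux_cyc_rot (basicAux_ok_rot ok)] at hm
    exact S.conj_first hF hU hV (basicAux_rot (basicAux_rot h)) hc ha hb e3 hq hm
  exact S.conj_fix hF hU hV h ha hb hc h' hq hm fun x _ y _ =>
    ⟨fun e => e1 (congrArg Prod.snd e).symm, fun e => e2 (congrArg Prod.snd e).symm,
      fun e => e3 (congrArg Prod.snd e).symm⟩

/-- the word expressing a three-cycle through two fresh arrows -/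
noncomputable def wd (f f' : B) (V : Set W.X) (a b c : B) : P :=
  S.T V c f f' * S.T V b f' f * S.T V a f f' * S.T V c f' f

theorem wd_eq (hV : IsClopen V) (h : D3 a.2 b.2 c.2) (ha : D3 a.2 f.2 f'.2)
    (hb : D3 b.2 f.2 f'.2) (hc : D3 c.2 f.2 f'.2) : S.wd f f' V a b c = S.T V a b c := by
  have h1 := S.T_cf (x := a) (a := b) (c := f') (e := f) hV ⟨h.1, ha.2.1, hb.2.1⟩ ha.1 hb.1
    ha.2.2.symm
  have h2 := S.T_conj (a := c) (b := f) (c := f') (a' := a) (b' := b) (c' := f') hV hc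
    ⟨h.1, ha.2.1, hb.2.1⟩ (by
      obtain ⟨h1, h2, h3⟩ := h
      obtain ⟨a1, a2, a3⟩ := ha
      obtain ⟨b1, b2, -⟩ := hb
      obtain ⟨c1, c2, -⟩ := hc
      simp only [List.mem_cons, List.not_mem_nil, or_false]
      rintro p (rfl | rfl | rfl | rfl | rfl | rfl) q (rfl | rfl | rfl | rfl | rfl | rfl) e <;>
        first | rfl | (exfalso; simp_all))
  rw [c3_c (sys23Aux_d3 hc),
    c3_of_ne (sys23Aux_d3 h).2.1 (sys23Aux_d3 ha).1 (sys23Aux_d3 ha).2.1,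
    c3_of_ne (sys23Aux_d3 h).2.2 (sys23Aux_d3 hb).1 (sys23Aux_d3 hb).2.1] at h2
  rw [wd, S.T_inv hV hc, ← h2, h1]
  group

/-- moving a multisection to fresh copies -/
theorem straight0 (hF : W.Free) (Z : Finset B) (hV : IsClopen V) (hZ : MS V (Z : Set B))
    (ι : B → I) (hι : Set.InjOn ι Z) (s : I) (h1 : ∀ a ∈ Z, ∀ b ∈ Z, ι a ≠ b.2)
    (h2 : ∀ a ∈ Z, ι a ≠ s ∧ a.2 ≠ s) (Z0 : Finset B) (h0 : Z0 ⊆ Z) :
    ∃ g : P, ∀ V', IsClopen V' → V' ⊆ V → ∀ a ∈ Z, ∀ f f' : B, D3 s f.2 f'.2 →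
      (∀ b ∈ Z, D3 b.2 f.2 f'.2 ∧ D3 (ι b) f.2 f'.2) →
      g * S.T V' a f f' * g⁻¹ = S.T V' (if a ∈ Z0 then (0, ι a) else a) f f' := by
  classical
  induction Z0 using Finset.induction_on with
  | empty => exact ⟨1, fun V' _ _ a _ f f' _ _ => by simp⟩
  | insert b Z0 hb ih =>
    obtain ⟨g, hg⟩ := ih fun x hx => h0 (Finset.mem_insert_of_mem hx)
    have hbZ : b ∈ Z := h0 (Finset.mem_insert_self _ _)
    have hd : D3 b.2 ((0, ι b) : B).2 ((0, s) : B).2 :=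
      ⟨(h1 b hbZ b hbZ).symm, (h2 b hbZ).2, (h2 b hbZ).1⟩
    have hc := isCyc_cyc (U := V) (sys23Aux_d3 hd) (sys23Aux_ms hd)
    refine ⟨S.T V b (0, ι b) (0, s) * g, fun V' hV' hs a ha f f' d1 d2 => ?_⟩
    have e : S.T V b (0, ι b) (0, s) * g * S.T V' a f f' * (S.T V b (0, ι b) (0, s) * g)⁻¹ =
        S.T V b (0, ι b) (0, s) * (g * S.T V' a f f' * g⁻¹) * (S.T V b (0, ι b) (0, s))⁻¹ := by
      group
    rw [e, hg V' hV' hs a ha f f' d1 d2]
    refine S.conj_T hF hV hV' hd (d2 b hbZ).1 (d2 b hbZ).2 d1 ?_ ?_ fun x hx => ?_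
    · split_ifs
      · exact (d2 a ha).2
      · exact (d2 a ha).1
    · split_ifs
      · exact (d2 a ha).2
      · exact (d2 a ha).1
    · by_cases e1 : a = b
      · rw [e1, if_neg hb, if_pos (Finset.mem_insert_self _ _)]
        exact (hc.1 x (hs hx)).1
      · simp only [Finset.mem_insert, e1, false_or]
        refine hc.2 _ fun y hy => ?_
        split_ifs
        · exact ⟨fun e => h1 a ha b hbZ (congrArg Prod.snd e),
            fun e => e1 (hι ha hbZ (congrArg Prod.snd e)), fun e => (h2 a ha).1 (congrArg Prod.snd e)⟩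
        · exact ⟨fun e => e1 (hZ a ha b hbZ x (hs hx) y hy e),
            fun e => h1 b hbZ a ha (congrArg Prod.snd e).symm,
            fun e => (h2 a ha).2 (congrArg Prod.snd e)⟩

theorem straight1 (hF : W.Free) (Z : Finset B) (hV : IsClopen V) (hZ : MS V (Z : Set B))
    (A : Finset I) (hc : Z.card + Z.card + A.card < 30) :
    ∃ (g : P) (φ : B → B), (∀ a ∈ Z, ∀ b ∈ Z, (φ a).2 = (φ b).2 → a = b) ∧
      ∀ V', IsClopen V' → V' ⊆ V → ∀ a ∈ Z, ∀ b ∈ Z, ∀ c ∈ Z, D3 a b c → ∀ f f' : B,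
        f.2 ∈ A → f'.2 ∈ A → (∀ b ∈ Z, D3 b.2 f.2 f'.2) →
        S.wd f f' V' a b c = g⁻¹ * S.T V' (φ a) (φ b) (φ c) * g := by
  classical
  have c1 : (Z.image Prod.snd ∪ A).card ≤ Z.card + A.card :=
    (Finset.card_union_le _ _).trans (Nat.add_le_add_right Finset.card_image_le _)
  obtain ⟨s, hs⟩ := sys23Aux_fresh (Z.image Prod.snd ∪ A) (by omega)
  have c2 : Z.card ≤ (insert s (Z.image Prod.snd ∪ A))ᶜ.card := by
    have := Finset.card_insert_le s (Z.image Prod.snd ∪ A)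
    rw [Finset.card_compl, Fintype.card_fin]
    omega
  obtain ⟨ι, hι1, hι2⟩ := Z.finite_toSet.exists_injOn_of_encard_le
    (t := (((insert s (Z.image Prod.snd ∪ A))ᶜ : Finset I) : Set I)) (by
      rw [Set.encard_coe_eq_coe_finsetCard, Set.encard_coe_eq_coe_finsetCard]
      exact_mod_cast c2)
  have h3 : ∀ a ∈ Z, ι a ≠ s ∧ (∀ b ∈ Z, ι a ≠ b.2) ∧ ι a ∉ A := by
    intro a ha
    have := hι1 (Finset.mem_coe.2 ha)
    simp only [Set.mem_preimage, Finset.mem_coe, Finset.mem_compl, Finset.mem_insert,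
      Finset.mem_union, Finset.mem_image, not_or, not_exists, not_and] at this
    exact ⟨this.1, fun b hb e => this.2.1 b hb e.symm, this.2.2⟩
  simp only [Finset.mem_union, Finset.mem_image, not_or, not_exists, not_and] at hs
  obtain ⟨g, hg⟩ := S.straight0 hF Z hV hZ ι hι2 s (fun a ha => (h3 a ha).2.1)
    (fun a ha => ⟨(h3 a ha).1, hs.1 a ha⟩) Z Finset.Subset.rfl
  refine ⟨g, fun a => (0, ι a), fun a ha b hb e => hι2 ha hb e,
    fun V' hV' hVV a ha b hb c hc hd f f' m1 m2 d1 => ?_⟩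
  have ff : f.2 ≠ f'.2 := (d1 a ha).2.2
  have d2 : ∀ b ∈ Z, D3 (ι b) f.2 f'.2 := fun b hb =>
    ⟨fun e => (h3 b hb).2.2 (e ▸ m1), fun e => (h3 b hb).2.2 (e ▸ m2), ff⟩
  have d3 : D3 s f.2 f'.2 := ⟨fun e => hs.2 (e ▸ m1), fun e => hs.2 (e ▸ m2), ff⟩
  have k1 := fun a ha => hg V' hV' hVV a ha f f' d3 fun b hb => ⟨d1 b hb, d2 b hb⟩
  have k2 := fun a ha => hg V' hV' hVV a ha f' f (basicAux_flip d3)
    fun b hb => ⟨basicAux_flip (d1 b hb), basicAux_flip (d2 b hb)⟩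
  have d4 : D3 ((0, ι a) : B).2 ((0, ι b) : B).2 ((0, ι c) : B).2 :=
    ⟨fun e => hd.1 (hι2 ha hb e), fun e => hd.2.1 (hι2 ha hc e), fun e => hd.2.2 (hι2 hb hc e)⟩
  have k1a := k1 a ha
  have k1c := k1 c hc
  have k2b := k2 b hb
  have k2c := k2 c hc
  rw [if_pos ha] at k1a
  rw [if_pos hb] at k2b
  rw [if_pos hc] at k1c k2c
  rw [← S.wd_eq (f := f) (f' := f') hV' d4 (d2 a ha) (d2 b hb) (d2 c hc), wd, wd, ← k1a, ← k1c,
    ← k2b, ← k2c]
  group

theorem wd_indep (hF : W.Free) {e e' : B} (h : Ok V a b c) (ha : D3 a.2 f.2 f'.2)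
    (hb : D3 b.2 f.2 f'.2) (hc : D3 c.2 f.2 f'.2) (ha' : D3 a.2 e.2 e'.2)
    (hb' : D3 b.2 e.2 e'.2) (hc' : D3 c.2 e.2 e'.2) :
    S.wd f f' V a b c = S.wd e e' V a b c := by
  classical
  obtain ⟨g, φ, -, hg⟩ := S.straight1 hF {a, b, c} h.1 (by simpa using h.2.2)
    {f.2, f'.2, e.2, e'.2} (by
      have h1 : ({a, b, c} : Finset B).card ≤ 3 := Finset.card_le_three
      have h2 : ({f.2, f'.2, e.2, e'.2} : Finset I).card ≤ 4 := Finset.card_le_four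
      omega)
  rw [hg V h.1 le_rfl a (by simp) b (by simp) c (by simp) h.2.1 f f' (by simp) (by simp)
      (by simp [ha, hb, hc]),
    hg V h.1 le_rfl a (by simp) b (by simp) c (by simp) h.2.1 e e' (by simp) (by simp)
      (by simp [ha', hb', hc'])]

theorem exists_fresh (L : List B) (hL : L.length < 29) :
    ∃ f f' : B, f.2 ≠ f'.2 ∧ ∀ a ∈ L, D3 a.2 f.2 f'.2 := by
  obtain ⟨i, j, h1, h2, h3⟩ := sys23Aux_pairL (L.map Prod.snd) (by simpa using hL)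
  exact ⟨(0, i), (0, j), h1, fun a ha => ⟨fun e => h2 (List.mem_map.2 ⟨a, ha, e⟩),
    fun e => h3 (List.mem_map.2 ⟨a, ha, e⟩), h1⟩⟩

/-- the lift of an arbitrary three-cycle -/
noncomputable def t (V : Set W.X) (a b c : B) : P :=
  S.wd (exists_fresh [a, b, c] (by simp)).choose
    (exists_fresh [a, b, c] (by simp)).choose_spec.choose V a b c

theorem t_ex (a b c : B) : ∃ f f' : B, D3 a.2 f.2 f'.2 ∧ D3 b.2 f.2 f'.2 ∧ D3 c.2 f.2 f'.2 ∧
    ∀ V, S.t V a b c = S.wd f f' V a b c := by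
  have h := (exists_fresh [a, b, c] (by simp)).choose_spec.choose_spec.2
  exact ⟨_, _, h a (by simp), h b (by simp), h c (by simp), fun _ => rfl⟩

theorem t_eq (hF : W.Free) (h : Ok V a b c) (ha : D3 a.2 f.2 f'.2)
    (hb : D3 b.2 f.2 f'.2) (hc : D3 c.2 f.2 f'.2) : S.t V a b c = S.wd f f' V a b c := by
  obtain ⟨e, e', h1, h2, h3, h4⟩ := S.t_ex a b c
  rw [h4, S.wd_indep hF h h1 h2 h3 ha hb hc]

theorem straight (hF : W.Free) (L : List B) (hL : L.length ≤ 6) (hV : IsClopen V)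
    (hZ : MS V {p | p ∈ L}) :
    ∃ (g : P) (φ : B → B), (∀ a ∈ L, ∀ b ∈ L, (φ a).2 = (φ b).2 → a = b) ∧
      ∀ V', IsClopen V' → V' ⊆ V → ∀ a ∈ L, ∀ b ∈ L, ∀ c ∈ L, D3 a b c →
        D3 (φ a).2 (φ b).2 (φ c).2 ∧ S.t V' a b c = g⁻¹ * S.T V' (φ a) (φ b) (φ c) * g := by
  classical
  obtain ⟨f, f', -, h1⟩ := exists_fresh L (by omega)
  obtain ⟨g, φ, h2, hg⟩ := S.straight1 hF L.toFinset hV (by simpa using hZ) {f.2, f'.2} (by
      have h1 := List.toFinset_card_le L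
      have h2 : ({f.2, f'.2} : Finset I).card ≤ 2 := Finset.card_le_two
      omega)
  simp only [List.mem_toFinset] at h2 hg
  refine ⟨g, φ, h2, fun V' hV' hs a ha b hb c hc hd => ⟨⟨fun e => hd.1 (h2 a ha b hb e),
    fun e => hd.2.1 (h2 a ha c hc e), fun e => hd.2.2 (h2 b hb c hc e)⟩, ?_⟩⟩
  rw [S.t_eq hF ⟨hV', hd, hZ.mono hs (basicAux_sub3 ha hb hc)⟩ (h1 a ha) (h1 b hb) (h1 c hc)]
  exact hg V' hV' hs a ha b hb c hc hd f f' (by simp) (by simp) h1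

theorem ms_list3 (h : MS V {a, b, c}) : MS V {p | p ∈ [a, b, c]} :=
  h.mono le_rfl fun p hp => by simpa using hp

theorem π_t (h : Ok V a b c) : S.π (S.t V a b c) = cyc V a b c := by
  obtain ⟨f, f', ha, hb, hc, h4⟩ := S.t_ex a b c
  have hm : MS V {a, b, c, f, f'} := by
    intro p hp q hq x hx y hy e
    have e2 : p.2 = q.2 := (congrArg Prod.snd e :)
    have h3 := fun hp hq => h.2.2 p hp q hq x hx y hy e
    obtain ⟨a1, a2, a3⟩ := ha
    obtain ⟨b1, b2, -⟩ := hb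
    obtain ⟨c1, c2, -⟩ := hc
    simp only [Set.mem_insert_iff, Set.mem_singleton_iff] at hp hq
    rcases hp with rfl | rfl | rfl | rfl | rfl <;> rcases hq with rfl | rfl | rfl | rfl | rfl <;>
      first | rfl | contradiction | exact absurd e2.symm ‹_› | exact h3 (by simp) (by simp)
  have da := sys23Aux_d3 ha
  have db := sys23Aux_d3 hb
  have dc := sys23Aux_d3 hc
  have h1 := basicAux_cyc_cf (U := V) (x := a) (a := b) (c := f') (e := f)
    (hm.mono le_rfl (by intro p; simp only [Set.mem_insert_iff, Set.mem_singleton_iff]; tauto))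
    ⟨h.2.1.1, da.2.1, db.2.1⟩ da.1 db.1 da.2.2.symm
  have h2 := (basicAux_cyc_conj (U := V) (a := c) (b := f) (c := f') (a' := a) (b' := b) (c' := f')
    (hm.mono le_rfl (by intro p; simp only [Set.mem_insert_iff, Set.mem_singleton_iff]; tauto))
    dc ⟨h.2.1.1, da.2.1, db.2.1⟩).2
  rw [c3_c dc, c3_of_ne h.2.1.2.1 da.1 da.2.1, c3_of_ne h.2.1.2.2 db.1 db.2.1] at h2
  rw [h4, wd, map_mul, map_mul, map_mul, S.π_T h.1 hc, S.π_T h.1 (basicAux_flip hb), S.π_T h.1 ha,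
    S.π_T h.1 (basicAux_flip hc), basicAux_cyc_inv ⟨h.1, dc, sys23Aux_ms hc⟩, ← h2, h1]
  group

theorem t_comm (hF : W.Free) (h : Ok U a b c) (h' : Ok V a' b' c')
    (hd : ∀ p ∈ ({a, b, c} : Set B), ∀ q ∈ ({a', b', c'} : Set B), ∀ x ∈ U, ∀ y ∈ V,
      pt p x ≠ pt q y) : Commute (S.t U a b c) (S.t V a' b' c') := by
  obtain ⟨f, f', -, h1⟩ := exists_fresh [a, b, c, a', b', c'] (by simp)
  obtain ⟨e, e', -, h2⟩ := exists_fresh [a, b, c, a', b', c', f, f'] (by simp)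
  have key : ∀ p ∈ ({a, b, c} : Set B), ∀ q ∈ ({a', b', c'} : Set B), ∀ f f' e e' : B,
      D3 p.2 f.2 f'.2 → D3 q.2 f.2 f'.2 → D3 p.2 e.2 e'.2 → D3 q.2 e.2 e'.2 → D3 f.2 e.2 e'.2 →
      D3 f'.2 e.2 e'.2 → Commute (S.T U p f f') (S.T V q e e') :=
    fun p hp q hq f f' e e' d1 d2 d3 d4 d5 d6 => S.T_comm h.1 h'.1 d1 d3 d5 d6 d4
      fun x hx y hy => ⟨hd p hp q hq x hx y hy, fun e => d2.1 (congrArg Prod.snd e).symm,
        fun e => d2.2.1 (congrArg Prod.snd e).symm⟩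
  have m1 : ∀ p ∈ ({a, b, c} : Set B), D3 p.2 f.2 f'.2 ∧ D3 p.2 e.2 e'.2 := by
    rintro p (rfl | rfl | rfl) <;> exact ⟨h1 _ (by simp), h2 _ (by simp)⟩
  have m2 : ∀ p ∈ ({a', b', c'} : Set B), D3 p.2 f.2 f'.2 ∧ D3 p.2 e.2 e'.2 := by
    rintro p (rfl | rfl | rfl) <;> exact ⟨h1 _ (by simp), h2 _ (by simp)⟩
  have df := h2 f (by simp)
  have df' := h2 f' (by simp)
  have key2 : ∀ p ∈ ({a, b, c} : Set B), Commute (S.T U p f f') (S.wd e e' V a' b' c') ∧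
      Commute (S.T U p f' f) (S.wd e e' V a' b' c') := by
    intro p hp
    have k1 := fun q hq => key p hp q hq f f' e e' (m1 p hp).1 (m2 q hq).1 (m1 p hp).2 (m2 q hq).2
      df df'
    have k2 := fun q hq => key p hp q hq f f' e' e (m1 p hp).1 (m2 q hq).1
      (basicAux_flip (m1 p hp).2) (basicAux_flip (m2 q hq).2) (basicAux_flip df) (basicAux_flip df')
    have k3 := fun q hq => key p hp q hq f' f e e' (basicAux_flip (m1 p hp).1)
      (basicAux_flip (m2 q hq).1) (m1 p hp).2 (m2 q hq).2 df' df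
    have k4 := fun q hq => key p hp q hq f' f e' e (basicAux_flip (m1 p hp).1)
      (basicAux_flip (m2 q hq).1) (basicAux_flip (m1 p hp).2) (basicAux_flip (m2 q hq).2)
      (basicAux_flip df') (basicAux_flip df)
    exact ⟨(((k1 c' (by simp)).mul_right (k2 b' (by simp))).mul_right
        (k1 a' (by simp))).mul_right (k2 c' (by simp)),
      (((k3 c' (by simp)).mul_right (k4 b' (by simp))).mul_right
        (k3 a' (by simp))).mul_right (k4 c' (by simp))⟩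
  rw [S.t_eq hF h (m1 a (by simp)).1 (m1 b (by simp)).1 (m1 c (by simp)).1,
    S.t_eq hF h' (m2 a' (by simp)).2 (m2 b' (by simp)).2 (m2 c' (by simp)).2]
  exact (((key2 c (by simp)).1.mul_left (key2 b (by simp)).2).mul_left
    (key2 a (by simp)).1).mul_left (key2 c (by simp)).2

end Sys2

theorem exists_sys3 (hF : W.Free) (S : Sys2 W P) : Nonempty (Sys3 W P) := by
  refine ⟨⟨S.t, S.π, S.π_t, ?_, ?_, ?_, ?_, ?_, ?_, ?_, ?_, S.t_comm hF⟩⟩
  · refine top_le_iff.1 (S.gen.ge.trans (Subgroup.closure_mono ?_))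
    rintro _ ⟨y, U, i, j, k, hy, hU, h, rfl⟩
    have h1 : D3 ((y i, i) : B).2 ((y j, j) : B).2 ((y k, k) : B).2 := h
    obtain ⟨f, f', ha, hb, hc, h4⟩ := S.t_ex (y i, i) (y j, j) (y k, k)
    refine ⟨U, (y i, i), (y j, j), (y k, k), ⟨hU, sys23Aux_d3 h1, sys23Aux_ms h1⟩, ?_⟩
    rw [h4, S.wd_eq hU h1 ha hb hc, S.T_eq hU h1 hy rfl rfl rfl]
  · intro a b c _
    obtain ⟨f, f', ha, hb, hc, h4⟩ := S.t_ex a b c
    rw [h4, Sys2.wd, S.T_empty ha, S.T_empty hc, S.T_empty (basicAux_flip hb),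
      S.T_empty (basicAux_flip hc)]
    simp
  · intro U V a b c hU hV hd h hS
    obtain ⟨g, φ, -, hg⟩ := S.straight hF [a, b, c] (by simp) (hU.union hV) (Sys2.ms_list3 hS)
    have k := fun V' h1 h2 => hg V' h1 h2 a (by simp) b (by simp) c (by simp) h
    rw [(k _ (hU.union hV) le_rfl).2, (k _ hU Set.subset_union_left).2,
      (k _ hV Set.subset_union_right).2, S.T_union hU hV hd (k _ hU Set.subset_union_left).1]
    group
  · intro U a b c z h
    obtain ⟨f, f', ha, hb, hc, h4⟩ := S.t_ex a b c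
    have h1 := basicAux_ok_shift h
    rw [h4, S.t_eq (f := sh z f) (f' := sh z f') hF h1 ha hb hc, Sys2.wd, Sys2.wd,
      S.T_shift z h1.1 ha, S.T_shift z h1.1 hc, S.T_shift z h1.1 (basicAux_flip hb),
      S.T_shift z h1.1 (basicAux_flip hc)]
  · intro U a b c h
    obtain ⟨g, φ, -, hg⟩ := S.straight hF [a, b, c] (by simp) h.1 (Sys2.ms_list3 h.2.2)
    have k1 := hg U h.1 le_rfl a (by simp) b (by simp) c (by simp) h.2.1
    have k2 := hg U h.1 le_rfl b (by simp) c (by simp) a (by simp) (basicAux_rot h.2.1)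
    rw [k1.2, k2.2, S.T_cyc h.1 k1.1]
  · intro U a b c h
    obtain ⟨g, φ, -, hg⟩ := S.straight hF [a, b, c] (by simp) h.1 (Sys2.ms_list3 h.2.2)
    have k1 := hg U h.1 le_rfl a (by simp) b (by simp) c (by simp) h.2.1
    have k2 := hg U h.1 le_rfl a (by simp) c (by simp) b (by simp) (basicAux_flip h.2.1)
    rw [k1.2, k2.2, S.T_inv h.1 k1.1]
    group
  · intro U x a c e hU hS h h1 h2 h3
    obtain ⟨g, φ, hφ, hg⟩ := S.straight hF [x, a, c, e] (by simp) hU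
      (hS.mono le_rfl fun p hp => by simpa using hp)
    have k1 := hg U hU le_rfl x (by simp) a (by simp) c (by simp) h
    have k2 := hg U hU le_rfl a (by simp) c (by simp) e (by simp) ⟨h.2.2, h2, h3⟩
    have k3 := hg U hU le_rfl x (by simp) e (by simp) c (by simp) ⟨h1, h.2.1, h3.symm⟩
    rw [k1.2, k2.2, k3.2, S.T_cf hU k1.1 k3.1.1 k2.1.2.1 k2.1.2.2]
    group
  · intro U a b c a' b' c' hU hS h h'
    obtain ⟨g, φ, hφ, hg⟩ := S.straight hF [a, b, c, a', b', c'] (by simp) hU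
      (hS.mono le_rfl fun p hp => by simpa using hp)
    have k1 := hg U hU le_rfl a (by simp) b (by simp) c (by simp) h
    have k2 := hg U hU le_rfl a' (by simp) b' (by simp) c' (by simp) h'
    have m : ∀ e ∈ [a, b, c, a', b', c'], c3 a b c e ∈ [a, b, c, a', b', c'] ∧
        φ (c3 a b c e) = c3 (φ a) (φ b) (φ c) (φ e) := fun e he =>
      ⟨basicAux_c3_mem (S := {p | p ∈ [a, b, c, a', b', c']}) h (by simp) (by simp) (by simp) he,
        sys23Aux_c3_map h (sys23Aux_d3 k1.1)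
          (fun e1 => hφ e he a (by simp) (congrArg Prod.snd e1))
          (fun e1 => hφ e he b (by simp) (congrArg Prod.snd e1))
          (fun e1 => hφ e he c (by simp) (congrArg Prod.snd e1))⟩
    have ma := m a' (by simp); have mb := m b' (by simp); have mc := m c' (by simp)
    have k3 := hg U hU le_rfl _ ma.1 _ mb.1 _ mc.1 (h'.map (c3 a b c).injective)
    have k4 := S.T_conj hU k1.1 k2.1 (by
      intro p hp q hq e
      have h5 : ∀ p ∈ [φ a, φ b, φ c, φ a', φ b', φ c'], ∃ p0 ∈ [a, b, c, a', b', c'], φ p0 = p :=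
        fun p hp => List.mem_map.1 (by simpa using hp)
      obtain ⟨p0, hp0, rfl⟩ := h5 p hp
      obtain ⟨q0, hq0, rfl⟩ := h5 q hq
      rw [hφ p0 hp0 q0 hq0 e])
    rw [k1.2, k2.2, k3.2, ma.2, mb.2, mc.2, ← k4]
    group

end Vale.Agent.P196
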