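import Vale.Agent.P196.DetA
import Vale.Agent.P196.DetB
import Vale.Agent.P196.Mini
import Vale.Agent.P196.Exist
import Vale.Agent.P196.Rigid
import Vale.Agent.P196.Amen
import Vale.Agent.P196.KerFG
import Vale.Agent.P196.PresA
import Vale.Agent.P196.PresB
import Vale.Agent.P196.Sys23
import Vale.Agent.P196.Simple

/-! P196: assembly. -/

namespace Vale.Agent.P196

variable {K : ℕ}

/-- the hierarchical structure of the tiling space -/
noncomputable def hierW (hK : Stab K) : Hier (Wst K) K where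
  res := resW
  res_nonneg := resW_nonneg
  res_lt := resW_lt
  res_mod := resW_mod hK
  res_vadd := resW_vadd hK
  res_loc := resW_loc hK
  ne := nonempty_W hK
  min := minimal_W hK
  Sg := St
  fin := inferInstance
  sig := sigW
  sig_vadd := sigW_vadd hK
  sig_loc := sigW_loc hK
  det_low := detW_low hK
  det_edge := detW_edge hK
  det_corner := detW_corner hK
  det_strip := detW_strip hK
  z1 := detW_z1 hK
  z2 := detW_z2 hK
  z3 := detW_z3 hK
  z4 := detW_z4 hK

theorem main : ∃ (G : Type) (_ : Group G), Infinite G ∧ Group.IsFinitelyPresented G ∧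
    IsSimpleGroup G ∧ ∀ (Kf : Finset G) (ε : ℝ), 0 < ε → ∃ D : Set G, D.Finite ∧ D.Nonempty ∧
      ∀ g ∈ Kf, ((symmDiff ((fun d => g * d) '' D) D).ncard : ℝ) < ε * D.ncard := by
  obtain ⟨K, hK⟩ := exists_stab
  have h := hierW hK
  obtain ⟨P, _, hP, ⟨S1⟩⟩ := exists_sys1 (Wst K)
  obtain ⟨S2⟩ := exists_sys2 (qrigid hK) S1
  obtain ⟨S3⟩ := exists_sys3 h.free S2
  exact ⟨DD (Wst K), inferInstance, infinite_DD h.free h.ne, fp_DD h S3 hP,
    simple_DD h.free h.min h.ne, fun Kf ε hε => folner (am_of_le h DD_le_FG) Kf ε hε⟩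

end Vale.Agent.P196
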