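import Vale.Agent.P196.HierBasic

/-! P196: parcel relations and the subgroups they generate. -/

namespace Vale.Agent.P196

variable {W : Wang} {K : ℕ} {P : Type} [Group P]

/-- A locally constant, shift invariant equivalence relation on a part of the arrows. -/
structure IsPar (E : W.X → B → B → Prop) : Prop where
  symm : ∀ {x b b'}, E x b b' → E x b' b
  trans : ∀ {x b b' b''}, E x b b' → E x b' b'' → E x b b''
  shift : ∀ (z : Z2) x b b', E (z +ᵥ x) b b' ↔ E x (sh z b) (sh z b')
  clopen : ∀ b b', IsClopen {x | E x b b'}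

/-- the parcels have bounded size -/
def Bdd (E : W.X → B → B → Prop) : Prop :=
  ∃ D : ℤ, ∀ x b b', E x b b' → |b.1.1 - b'.1.1| ≤ D ∧ |b.1.2 - b'.1.2| ≤ D

/-- the subgroup generated by the three-cycles inside parcels -/
def Sys3.R (A : Sys3 W P) (E : W.X → B → B → Prop) : Subgroup P :=
  Subgroup.closure {g | ∃ U a b c, Ok U a b c ∧ (∀ x ∈ U, E x a b ∧ E x a c) ∧ g = A.t U a b c}

/-- bands: both arrows lie in the same interval `o + q * ss K k + [α, β)` -/
def Hier.J (h : Hier W K) (k : ℕ) (o α β : ℤ) (x : W.X) (b b' : B) : Prop :=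
  ∃ q : ℤ, (α ≤ h.res x k + co k b.1 - o - q * ss K k ∧
      h.res x k + co k b.1 - o - q * ss K k < β) ∧
    (α ≤ h.res x k + co k b'.1 - o - q * ss K k ∧ h.res x k + co k b'.1 - o - q * ss K k < β)

/-- the group generated by the three-cycles of a set of arrows -/
def Alt (S : Set B) : Subgroup (Equiv.Perm B) :=
  Subgroup.closure {g | ∃ a ∈ S, ∃ b ∈ S, ∃ c ∈ S, D3 a b c ∧ g = c3 a b c}

def EvenOn (σ : Equiv.Perm B) (S : Set B) : Prop := ∃ τ ∈ Alt S, ∀ b ∈ S, σ b = τ b

/-- all lifts have order three -/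
def Sys3.Cube (A : Sys3 W P) : Prop := ∀ U a b c, Ok U a b c → A.t U a b c ^ 3 = 1

end Vale.Agent.P196
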