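import Vale.Agent.P196.Par

/-! P196 task Q: splitting elements along bands. -/

namespace Vale.Agent.P196

variable {W : Wang} {K : ℕ} {P : Type} [Group P] {E E1 E2 : W.X → B → B → Prop}

theorem isPar_top : IsPar (⊤ : W.X → B → B → Prop) := by
  exact ⟨fun _ => trivial, fun _ _ => trivial, fun _ _ _ _ => Iff.rfl, fun _ _ => isClopen_univ⟩

theorem IsPar.inf (h1 : IsPar E1) (h2 : IsPar E2) : IsPar (E1 ⊓ E2) := by
  exact ⟨fun h => ⟨h1.symm h.1, h2.symm h.2⟩, fun h h' => ⟨h1.trans h.1 h'.1, h2.trans h.2 h'.2⟩,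
    fun z x b b' => and_congr (h1.shift z x b b') (h2.shift z x b b'),
    fun b b' => (h1.clopen b b').inter (h2.clopen b b')⟩

theorem IsPar.sup (h1 : IsPar E1) (h2 : IsPar E2) (hd : ∀ x b, E1 x b b → ¬ E2 x b b) :
    IsPar (E1 ⊔ E2) := by
  refine ⟨fun h => h.imp h1.symm h2.symm, ?_,
    fun z x b b' => or_congr (h1.shift z x b b') (h2.shift z x b b'),
    fun b b' => (h1.clopen b b').union (h2.clopen b b')⟩
  rintro x b b' b'' (h | h) (h' | h')
  · exact Or.inl (h1.trans h h')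
  · exact absurd (h2.trans h' (h2.symm h')) (hd _ _ (h1.trans (h1.symm h) h))
  · exact absurd (h2.trans (h2.symm h) h) (hd _ _ (h1.trans h' (h1.symm h')))
  · exact Or.inr (h2.trans h h')

theorem parAux_q {s q q' : ℤ} (hs : 0 < s) (h : q * s < q' * s + s) : q ≤ q' :=
  Int.lt_add_one_iff.1 (lt_of_mul_lt_mul_right (by rwa [add_mul, one_mul]) hs.le)

theorem Hier.isPar_J (h : Hier W K) (k : ℕ) (o : ℤ) {α β : ℤ} (hl : β - α ≤ ss K k) :
    IsPar (h.J k o α β) := by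
  have hs := ss_pos (K := K) k
  refine ⟨fun ⟨q, h1, h2⟩ => ⟨q, h2, h1⟩, fun ⟨q, h1, h2⟩ ⟨q', h3, h4⟩ => ?_, fun z x b b' => ?_,
    fun b b' => h.isClopen_res k fun r => ∃ q : ℤ, (α ≤ r + co k b.1 - o - q * ss K k ∧
      r + co k b.1 - o - q * ss K k < β) ∧
      (α ≤ r + co k b'.1 - o - q * ss K k ∧ r + co k b'.1 - o - q * ss K k < β)⟩
  · obtain rfl : q = q' := le_antisymm (parAux_q hs (by omega)) (parAux_q hs (by omega))
    exact ⟨q, h1, h4⟩
  · obtain ⟨t, ht⟩ := h.dvd_res_vadd x z k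
    rw [mul_comm] at ht
    simp only [Hier.J, sh, co_add]
    exact ⟨fun ⟨q, hq⟩ => ⟨q + t, by rw [add_mul]; omega⟩,
      fun ⟨q, hq⟩ => ⟨q - t, by rw [sub_mul]; omega⟩⟩

theorem Hier.J_mono (h : Hier W K) (k : ℕ) (o : ℤ) {α β α' β' : ℤ} (h1 : α' ≤ α) (h2 : β ≤ β') :
    h.J k o α β ≤ h.J k o α' β' := by
  exact fun _ _ _ ⟨q, hq⟩ => ⟨q, by omega⟩

theorem Hier.J_offset (h : Hier W K) (k : ℕ) (o α β t : ℤ) :
    h.J k (o + t) α β = h.J k o (α + t) (β + t) := by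
  ext x b b'
  exact exists_congr fun q => by omega

theorem Hier.J_period (h : Hier W K) (k : ℕ) (o α β q : ℤ) :
    h.J k (o + q * ss K k) α β = h.J k o α β := by
  ext x b b'
  exact ⟨fun ⟨p, hp⟩ => ⟨p + q, by rw [add_mul]; omega⟩,
    fun ⟨p, hp⟩ => ⟨p - q, by rw [sub_mul]; omega⟩⟩

theorem parAux_lift (h : Hier W K) {k k' : ℕ} {o o' α β : ℤ} (hk : k ≤ k') (hp : k % 2 = k' % 2)
    (ho : ss K k ∣ o' - o) {x : W.X} {b b' : B} (hJ : h.J k o α β x b b') :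
    ∃ t : ℤ, (t = 0 ∨ ss K k ≤ t) ∧ t + ss K k ≤ ss K k' ∧ h.J k' o' (α + t) (β + t) x b b' := by
  have hs := ss_pos (K := K) k
  obtain ⟨m, hm⟩ := ss_dvd (K := K) hk hp
  have hm0 : 0 < m := (mul_pos_iff_of_pos_left hs).1 (hm ▸ ss_pos k')
  obtain ⟨n, hn⟩ := ho
  obtain ⟨q, hq⟩ := hJ
  have h1 := Int.emod_add_mul_ediv (h.res x k') (ss K k)
  rw [h.res_mod' x hk hp] at h1
  generalize h.res x k' / ss K k = r at h1
  have h2 := Int.emod_nonneg (q + r - n) hm0.ne'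
  have h3 := Int.emod_lt_of_pos (q + r - n) hm0
  have h4 := congrArg (· * ss K k) (Int.emod_add_mul_ediv (q + r - n) m)
  refine ⟨(q + r - n) % m * ss K k, ?_, ?_, (q + r - n) / m, ?_⟩
  · rcases h2.eq_or_lt with h5 | h5
    · exact Or.inl (by rw [← h5, zero_mul])
    · exact Or.inr (le_mul_of_one_le_left hs.le h5)
  · rw [hm, ← add_one_mul, mul_comm]
    exact mul_le_mul_of_nonneg_left h3 hs.le
  · rw [← co_congr hp, hm]
    refine ⟨⟨?_, ?_⟩, ?_, ?_⟩ <;> linarith [hq.1.1, hq.1.2, hq.2.1, hq.2.2]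

theorem parAux_disj (h : Hier W K) {k : ℕ} {o R : ℤ} {x : W.X} {b : B}
    (h1 : h.J k o (-R) R x b b) : ¬ h.J k o R (ss K k - R) x b b := by
  rintro ⟨q', h2, -⟩
  obtain ⟨q, h1, -⟩ := h1
  have hs := ss_pos (K := K) k
  have := mul_le_mul_of_nonneg_right (parAux_q (q := q) (q' := q') hs (by omega)) hs.le
  omega

/-- strips of a level lie in strips of deeper levels -/
theorem Hier.J_raise (h : Hier W K) {k k' : ℕ} {o o' : ℤ} (hk : k ≤ k') (hp : k % 2 = k' % 2)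
    (ho : ss K k ∣ o' - o) : h.J k o 0 (ss K k) ≤ h.J k' o' 0 (ss K k') := by
  intro x b b' hJ
  obtain ⟨t, h1, h2, h3⟩ := parAux_lift h hk hp ho hJ
  have := ss_pos (K := K) k
  exact h.J_mono _ _ (by omega) (by omega) _ _ _ h3

theorem Hier.bdd_J (h : Hier W K) {k k' : ℕ} (hp : k % 2 ≠ k' % 2) (o α β o' α' β' : ℤ) :
    Bdd (h.J k o α β ⊓ h.J k' o' α' β') := by
  refine ⟨|β - α| + |β' - α'|, fun x b b' ⟨⟨q, h1⟩, q', h2⟩ => ?_⟩
  have := le_abs_self (β - α)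
  have := le_abs_self (β' - α')
  simp only [co] at h1 h2
  simp only [abs_le]
  split_ifs at h1 h2 <;> omega

theorem Bdd.mono (h : Bdd E2) (h' : E1 ≤ E2) : Bdd E1 := by
  exact h.imp fun D hD x b b' e => hD x b b' (h' _ _ _ e)

theorem Bdd.sup (h : Bdd E1) (h' : Bdd E2) : Bdd (E1 ⊔ E2) := by
  obtain ⟨D, hD⟩ := h
  obtain ⟨D', hD'⟩ := h'
  refine ⟨max D D', fun x b b' e => e.elim (fun e => ?_) fun e => ?_⟩
  · exact (hD x b b' e).imp le_max_of_le_left le_max_of_le_left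
  · exact (hD' x b b' e).imp le_max_of_le_right le_max_of_le_right

theorem parAux_move {p q : B} {x y : W.X} (e : pt p x = pt q y) :
    ∃ z : Z2, y = z +ᵥ x ∧ p = sh z q := by
  have e1 : p.1 +ᵥ x = q.1 +ᵥ y := congrArg Prod.fst e
  refine ⟨-q.1 + p.1, by rw [add_vadd, e1, neg_vadd_vadd], Prod.ext ?_ (congrArg Prod.snd e :)⟩
  exact (add_neg_cancel_left _ _).symm

theorem parAux_self (hE : IsPar E) {x : W.X} {a b c p : B} (h : E x a b ∧ E x a c)
    (hp : p ∈ ({a, b, c} : Set B)) : E x p p := by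
  rcases hp with rfl | rfl | rfl
  · exact hE.trans h.1 (hE.symm h.1)
  · exact hE.trans (hE.symm h.1) h.1
  · exact hE.trans (hE.symm h.2) h.2

namespace Sys3
variable (A : Sys3 W P)

theorem R_mono (h : E1 ≤ E2) : A.R E1 ≤ A.R E2 := by
  refine Subgroup.closure_mono ?_
  rintro g ⟨U, a, b, c, h1, h2, h3⟩
  exact ⟨U, a, b, c, h1, fun x hx => ⟨h _ _ _ (h2 x hx).1, h _ _ _ (h2 x hx).2⟩, h3⟩

theorem R_top : A.R ⊤ = ⊤ := by
  rw [eq_top_iff, ← A.gen]
  refine Subgroup.closure_mono ?_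
  rintro g ⟨U, a, b, c, h1, h3⟩
  exact ⟨U, a, b, c, h1, fun x hx => ⟨trivial, trivial⟩, h3⟩

theorem parAux_split {U V : Set W.X} {a b c : B} (h : Ok U a b c) (hV : IsClopen V) :
    A.t U a b c = A.t (U ∩ V) a b c * A.t (U \ V) a b c := by
  rw [← A.t_union (h.1.inter hV) (h.1.diff hV) (Set.disjoint_left.2 fun x h1 h2 => h2.2 h1.2) h.2.1
    (by rw [Set.inter_union_diff]; exact h.2.2), Set.inter_union_diff]

theorem parAux_mem {U V : Set W.X} {a b c : B} (h : Ok U a b c) (hV : IsClopen V) (hU : V ⊆ U)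
    (h' : ∀ x ∈ V, E x a b ∧ E x a c) : A.t V a b c ∈ A.R E :=
  Subgroup.subset_closure ⟨V, a, b, c, h.mono hV hU, h', rfl⟩

theorem R_pres (hF : W.Free) (hE : IsPar E) {g : P} (hg : g ∈ A.R E) (x : W.X) (b : B) :
    (E x b b → E x b (crd x (A.π g) b)) ∧ (¬ E x b b → crd x (A.π g) b = b) := by
  suffices h : E x b (crd x (A.π g) b) ∨ crd x (A.π g) b = b from
    ⟨fun h' => h.elim id fun e => by rwa [e], fun h' => h.resolve_left fun e =>
      h' (hE.trans e (hE.symm e))⟩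
  induction hg using Subgroup.closure_induction generalizing b with
  | mem g hg =>
    obtain ⟨U, a, c, d, h1, h2, rfl⟩ := hg
    have h3 := isCyc_cyc h1.2.1 h1.2.2
    have key : ∀ {p q y}, E y p q → pt b x = pt p y → cyc U a c d (pt p y) = pt q y →
        E x b (crd x (cyc U a c d) b) := fun h4 e h5 => by
      obtain ⟨z, rfl, rfl⟩ := parAux_move e
      rw [crd_eq hF (cyc_mem_FG h1) (((congrArg _ e).trans h5).trans (pt_vadd _ _ _))]
      exact (hE.shift _ _ _ _).1 h4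
    rw [A.π_t h1]
    rcases basicAux_cases U a c d (pt b x) with ⟨y, hy, e⟩ | ⟨y, hy, e⟩ | ⟨y, hy, e⟩ | hp
    · exact Or.inl (key (h2 y hy).1 e (h3.1 y hy).1)
    · exact Or.inl (key (hE.trans (hE.symm (h2 y hy).1) (h2 y hy).2) e (h3.1 y hy).2.1)
    · exact Or.inl (key (hE.symm (h2 y hy).2) e (h3.1 y hy).2.2)
    · exact Or.inr (crd_eq hF (cyc_mem_FG h1) (h3.2 _ hp))
  | one => exact Or.inr (by rw [map_one, crd_one hF, Equiv.Perm.one_apply])
  | mul g g' _ _ h1 h2 =>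
    rw [map_mul, crd_mul hF (A.π_mem_FG g) (A.π_mem_FG g'), Equiv.Perm.mul_apply]
    rcases h2 b with h2 | h2
    · exact Or.inl ((h1 _).elim (hE.trans h2) fun e => by rwa [e])
    · rw [h2]
      exact h1 b
  | inv g _ h1 =>
    rw [map_inv, crd_inv hF (A.π_mem_FG g)]
    have h2 := h1 ((crd x (A.π g))⁻¹ b)
    rw [← Equiv.Perm.mul_apply, mul_inv_cancel, Equiv.Perm.one_apply] at h2
    exact h2.imp hE.symm Eq.symm

theorem R_comm (h1 : IsPar E1) (h2 : IsPar E2) (hd : ∀ x b, E1 x b b → ¬ E2 x b b) {g g' : P}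
    (hg : g ∈ A.R E1) (hg' : g' ∈ A.R E2) : Commute g g' := by
  induction hg using Subgroup.closure_induction with
  | mem g hg =>
    induction hg' using Subgroup.closure_induction with
    | mem g' hg' =>
      obtain ⟨U, a, b, c, h3, h4, rfl⟩ := hg
      obtain ⟨V, a', b', c', h5, h6, rfl⟩ := hg'
      refine A.t_comm h3 h5 fun p hp q hq x hx y hy e => ?_
      obtain ⟨z, rfl, rfl⟩ := parAux_move e
      exact hd _ _ (parAux_self h1 (h4 x hx) hp)
        ((h2.shift _ _ _ _).1 (parAux_self h2 (h6 _ hy) hq))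
    | one => exact Commute.one_right _
    | mul _ _ _ _ h h' => exact h.mul_right h'
    | inv _ _ h => exact h.inv_right
  | one => exact Commute.one_left _
  | mul _ _ _ _ h h' => exact h.mul_left h'
  | inv _ _ h => exact h.inv_left

theorem R_sup (h1 : IsPar E1) (h2 : IsPar E2) (hd : ∀ x b, E1 x b b → ¬ E2 x b b) {g : P}
    (hg : g ∈ A.R (E1 ⊔ E2)) : ∃ g1 ∈ A.R E1, ∃ g2 ∈ A.R E2, g = g1 * g2 := by
  induction hg using Subgroup.closure_induction with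
  | mem g hg =>
    obtain ⟨U, a, b, c, h3, h4, rfl⟩ := hg
    refine ⟨_, A.parAux_mem h3 (h3.1.inter (h1.clopen a a)) Set.inter_subset_left fun x hx => ?_,
      _, A.parAux_mem h3 (h3.1.diff (h1.clopen a a)) Set.diff_subset fun x hx => ?_,
      A.parAux_split h3 (h1.clopen a a)⟩
    · have h5 : ∀ {p}, (E1 ⊔ E2) x a p → E1 x a p := fun h =>
        h.resolve_right fun e => hd x a hx.2 (h2.trans e (h2.symm e))
      exact (h4 x hx.1).imp h5 h5
    · have h5 : ∀ {p}, (E1 ⊔ E2) x a p → E2 x a p := fun h =>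
        h.resolve_left fun e => hx.2 (h1.trans e (h1.symm e))
      exact (h4 x hx.1).imp h5 h5
  | one => exact ⟨1, one_mem _, 1, one_mem _, (mul_one 1).symm⟩
  | mul _ _ _ _ h h' =>
    obtain ⟨g1, h3, g2, h4, rfl⟩ := h
    obtain ⟨g3, h5, g4, h6, rfl⟩ := h'
    exact ⟨_, mul_mem h3 h5, _, mul_mem h4 h6,
      (A.R_comm h1 h2 hd h5 h4).symm.mul_mul_mul_comm g1 g4⟩
  | inv _ _ h =>
    obtain ⟨g1, h3, g2, h4, rfl⟩ := h
    exact ⟨_, inv_mem h3, _, inv_mem h4, (A.R_comm h1 h2 hd h3 h4).mul_inv⟩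

/-- an element is a product of a part near the cut lines and a part between the cut lines -/
theorem split (h : Hier W K) {g : P} (hg : g ∈ A.R E) :
    ∃ R0 : ℕ, ∀ (k : ℕ) (o : ℤ), 2 * (R0 : ℤ) ≤ ss K k →
      ∃ g1 ∈ A.R (E ⊓ h.J k o (-R0) R0), ∃ g2 ∈ A.R (E ⊓ h.J k o 0 (ss K k)), g = g1 * g2 := by
  have key : ∀ U a b c g, Ok U a b c → (∀ x ∈ U, E x a b ∧ E x a c) →
      (∃ R0 : ℕ, ∀ (k : ℕ) (o : ℤ), 2 * (R0 : ℤ) ≤ ss K k → ∃ g1 ∈ A.R (E ⊓ h.J k o (-R0) R0),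
        ∃ g2 ∈ A.R (E ⊓ h.J k o 0 (ss K k)), g = g1 * g2) →
      ∃ R0 : ℕ, ∀ (k : ℕ) (o : ℤ), 2 * (R0 : ℤ) ≤ ss K k → ∃ g1 ∈ A.R (E ⊓ h.J k o (-R0) R0),
        ∃ g2 ∈ A.R (E ⊓ h.J k o 0 (ss K k)), A.t U a b c * g = g1 * g2 := by
    rintro U a b c g h1 h2 ⟨R, hR⟩
    obtain ⟨D, hD⟩ := basicAux_bound {a.1 - b.1, a.1 - c.1}
    refine ⟨R + 2 * D, fun k o hk => ?_⟩
    push_cast at hk ⊢
    obtain ⟨g1, h3, g2, h4, rfl⟩ := hR k o (by omega)
    have hb := abs_le.1 (abs_co_le k (hD _ (by simp : a.1 - b.1 ∈ _)).1 (hD _ (by simp)).2)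
    have hc := abs_le.1 (abs_co_le k (hD _ (by simp : a.1 - c.1 ∈ _)).1 (hD _ (by simp)).2)
    rw [co_sub] at hb hc
    have hV := (h.isPar_J k o (α := -(R + D)) (β := R + D) (by omega)).clopen a a
    have h5 : A.t _ a b c ∈ A.R (E ⊓ h.J k o R (ss K k - R)) :=
      A.parAux_mem h1 (h1.1.diff hV) Set.diff_subset fun x hx => by
        have hs := ss_pos (K := K) k
        have e1 := Int.emod_nonneg (h.res x k + co k a.1 - o + R + D) hs.ne'
        have e2 := Int.emod_lt_of_pos (h.res x k + co k a.1 - o + R + D) hs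
        have e3 := Int.emod_add_ediv_mul (h.res x k + co k a.1 - o + R + D) (ss K k)
        generalize (h.res x k + co k a.1 - o + R + D) / ss K k = q at e3
        have e4 : ¬ _ := fun e => hx.2 ⟨q, e, e⟩
        exact ⟨⟨(h2 x hx.1).1, q, by omega⟩, (h2 x hx.1).2, q, by omega⟩
    refine ⟨_, mul_mem (A.parAux_mem h1 (h1.1.inter hV) Set.inter_subset_left
      fun x ⟨hx, q, hq⟩ => ⟨⟨(h2 x hx).1, q, by omega⟩, (h2 x hx).2, q, by omega⟩)
      (A.R_mono (inf_le_inf_left _ (h.J_mono _ _ (by omega) (by omega))) h3), _, mul_mem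
      (A.R_mono (inf_le_inf_left _ (h.J_mono _ _ (by omega) (by omega))) h5) h4, ?_⟩
    rw [A.parAux_split h1 hV]
    exact (A.R_comm (h.isPar_J k o (by omega)) (h.isPar_J k o (by omega))
      (fun _ _ => parAux_disj h) (A.R_mono inf_le_right h3)
      (A.R_mono inf_le_right h5)).symm.mul_mul_mul_comm _ _
  induction hg using Subgroup.closure_induction_left with
  | one => exact ⟨0, fun _ _ _ => ⟨1, one_mem _, 1, one_mem _, (mul_one 1).symm⟩⟩
  | mul_left x hx y _ ih =>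
    obtain ⟨U, a, b, c, h1, h2, rfl⟩ := hx
    exact key U a b c y h1 h2 ih
  | inv_mul_cancel x hx y _ ih =>
    obtain ⟨U, a, b, c, h1, h2, rfl⟩ := hx
    rw [← A.t_inv h1]
    exact key U a c b y (basicAux_ok_flip h1) (fun x hx => (h2 x hx).symm) ih

/-- keeping only the windows of a deeper level -/
theorem raise (h : Hier W K) (hE : IsPar E) {k1 k : ℕ} {o1 o R : ℤ} (hk : k1 ≤ k)
    (hp : k1 % 2 = k % 2) (ho : ss K k1 ∣ o - o1) (h0 : 0 ≤ R) (hR : 2 * R ≤ ss K k1) {g : P}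
    (hg : g ∈ A.R (E ⊓ h.J k1 o1 (-R) R)) :
    ∃ g1 ∈ A.R (E ⊓ h.J k o (-R) R), ∃ g2 ∈ A.R (E ⊓ h.J k o 0 (ss K k)), g = g1 * g2 ∧
      ∀ x b, h.J k o (-R) R x b b → crd x (A.π g1) b = crd x (A.π g) b := by
  have hs := ss_mono (K := K) hk
  have h1 := hE.inf (h.isPar_J k o (α := R) (β := ss K k - R) (by omega))
  obtain ⟨g1, h2, g2, h3, rfl⟩ := A.R_sup (hE.inf (h.isPar_J k o (α := -R) (β := R) (by omega))) h1
    (fun _ _ e e' => parAux_disj h e.2 e'.2) (A.R_mono (fun x b b' e => by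
      obtain ⟨t, h4 | h4, h5, h6⟩ := parAux_lift h hk hp ho e.2
      · exact Or.inl ⟨e.1, h.J_mono _ _ (by omega) (by omega) _ _ _ h6⟩
      · exact Or.inr ⟨e.1, h.J_mono _ _ (by omega) (by omega) _ _ _ h6⟩) hg)
  refine ⟨g1, h2, g2, A.R_mono (inf_le_inf_left _ (h.J_mono _ _ h0 (by omega))) h3, rfl,
    fun x b e => ?_⟩
  rw [map_mul, crd_mul h.free (A.π_mem_FG _) (A.π_mem_FG _), Equiv.Perm.mul_apply,
    (A.R_pres h.free h1 h3 x b).2 fun e' => parAux_disj h e e'.2]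

end Sys3

end Vale.Agent.P196
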