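import Vale.Agent.P196.Basic

/-! P196: an abstract quantum logic, projection valued tiles, forcing and quantum rigidity. -/

namespace Vale.Agent.P196

/-- an orthogonality relation with a top element -/
class Orth (Ω : Type) where
  perp : Ω → Ω → Prop
  top : Ω

export Orth (perp)

section
variable {Ω : Type} [Orth Ω]

def Le (a b : Ω) : Prop := ∀ c, perp c b → perp c a

def IsSum (s a b : Ω) : Prop := perp a b ∧ ∀ c, perp c s ↔ perp c a ∧ perp c b

/-- `p'` arises from `p` by exchanging a part orthogonal to `X` -/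
def Step (X p p' : Ω) : Prop :=
  ∃ r s s', IsSum p r s ∧ IsSum p' r s' ∧ perp s X ∧ perp s' X

def Compat (X p : Ω) : Prop := ∃ x1 x2, IsSum X x1 x2 ∧ Le x1 p ∧ perp x2 p

/-- `f` is the orthogonal sum of the finite family `X` -/
def IsPart {ι : Type} (f : Ω) (s : Finset ι) (X : ι → Ω) : Prop :=
  (∀ i ∈ s, ∀ j ∈ s, i ≠ j → perp (X i) (X j)) ∧ ∀ c, perp c f ↔ ∀ i ∈ s, perp c (X i)

/-- `f` is an orthogonal sum of finitely many pieces with property `Q` -/
def Cov (f : Ω) (Q : Ω → Prop) : Prop :=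
  ∃ (ι : Type) (s : Finset ι) (X : ι → Ω), IsPart f s X ∧ ∀ i ∈ s, Q (X i)

end

class QL (Ω : Type) extends Orth Ω where
  symm : ∀ {a b : Ω}, perp a b → perp b a
  top_perp : ∀ {c : Ω} (a : Ω), perp c top → perp c a
  null : ∀ {a : Ω} (c : Ω), perp a a → perp c a
  sum : ∀ {a b : Ω}, perp a b → ∃ s, IsSum s a b
  diff : ∀ {a b : Ω}, Le a b → ∃ d, IsSum b a d
  cl : ∀ {F X Y p p' : Ω}, IsSum F X Y → Le p F → Relation.ReflTransGen (Step X) p p' →
    perp p' Y → ∃ p1 p2, IsSum p p1 p2 ∧ Le p1 X ∧ Le p2 Y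
  reg : ∀ {X p q r p' q' : Ω}, Compat X p → Compat X q → IsSum p r p' → IsSum q r q' →
    perp p' q → Compat X r

/-- a partition of the top element indexed by `A` -/
structure PVM (A Ω : Type) [QL Ω] where
  p : A → Ω
  orth : ∀ {a a'}, a ≠ a' → perp (p a) (p a')
  cover : ∀ c, (∀ a, perp c (p a)) → perp c (Orth.top : Ω)

section
variable {A Ω : Type} [QL Ω]

/-- `f` forces the property `φ` -/
def Frc (f : Ω) (P : PVM A Ω) (φ : A → Prop) : Prop := ∀ a, ¬ φ a → perp f (P.p a)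

/-- `f` decides the property `φ` -/
def Dec (f : Ω) (P : PVM A Ω) (φ : A → Prop) : Prop :=
  ∃ f1 f2, IsSum f f1 f2 ∧ Frc f1 P φ ∧ Frc f2 P fun a => ¬ φ a

end

/-- a quantum tiling -/
structure Rep (W : Wang) (Ω : Type) [QL Ω] where
  q : Z2 → PVM W.A Ω
  edge : ∀ z d a a', W.out d a ≠ W.inn d a' → perp ((q z).p a) ((q (z + ev d)).p a')

/-- quantum rigidity: all tile projections of a quantum tiling are compatible -/
def QRigid (W : Wang) : Prop :=
  ∀ (Ω : Type) [QL Ω] (R : Rep W Ω) z a z' a', Compat ((R.q z).p a) ((R.q z').p a')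

end Vale.Agent.P196
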