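import Vale.Agent.P196.QL

/-! P196 task I: calculus of the quantum logic. -/

namespace Vale.Agent.P196

variable {Ω : Type} [QL Ω] {a b c d f g s X Y : Ω}

theorem perp_symm (h : perp a b) : perp b a := QL.symm h

theorem Le.refl (a : Ω) : Le a a := fun _ h => h

theorem Le.trans (h : Le a b) (h' : Le b c) : Le a c := fun x hx => h x (h' x hx)

theorem le_top' (a : Ω) : Le a Orth.top := fun _ h => QL.top_perp a h

theorem perp_of_le (h : perp a b) (h1 : Le c a) (h2 : Le d b) : perp c d :=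
  h2 _ (perp_symm (h1 _ (perp_symm h)))

theorem null_le (h : perp a a) (b : Ω) : Le a b := fun c _ => QL.null c h

theorem null_perp (h : perp a a) (b : Ω) : perp a b := perp_symm (QL.null b h)

theorem null_of_le_perp (h : Le a b) (h' : perp a b) : perp a a := h a h'

theorem exists_null : ∃ z : Ω, perp z z := by
  obtain ⟨d, hd⟩ := QL.diff (Le.refl (Orth.top : Ω))
  exact ⟨d, QL.top_perp d (perp_symm hd.1)⟩

theorem IsSum.symm (h : IsSum s a b) : IsSum s b a := by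
  exact ⟨perp_symm h.1, fun c => (h.2 c).trans and_comm⟩

theorem IsSum.left (h : IsSum s a b) : Le a s := fun c hc => ((h.2 c).1 hc).1

theorem IsSum.right (h : IsSum s a b) : Le b s := fun c hc => ((h.2 c).1 hc).2

theorem IsSum.le (h : IsSum s a b) (h1 : Le a c) (h2 : Le b c) : Le s c := by
  exact fun x hx => (h.2 x).2 ⟨h1 x hx, h2 x hx⟩

theorem IsSum.perp_left (h : IsSum s a b) (h1 : perp a c) (h2 : perp b c) : perp s c := by
  exact perp_symm ((h.2 c).2 ⟨perp_symm h1, perp_symm h2⟩)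

theorem isSum_null (a : Ω) (h : perp b b) : IsSum a a b := by
  exact ⟨QL.null a h, fun c => ⟨fun h' => ⟨h', QL.null c h⟩, fun h' => h'.1⟩⟩

theorem IsSum.congr {s' a' b' : Ω} (h : IsSum s a b) (h1 : Le s s') (h2 : Le s' s) (h3 : Le a a')
    (h4 : Le a' a) (h5 : Le b b') (h6 : Le b' b) : IsSum s' a' b' := by
  exact ⟨perp_of_le h.1 h4 h6, fun c => ⟨fun hc => ⟨h4 c (h.left c (h1 c hc)),
    h6 c (h.right c (h1 c hc))⟩, fun hc => h2 c ((h.2 c).2 ⟨h3 c hc.1, h5 c hc.2⟩)⟩⟩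

/-- cancellation -/
theorem IsSum.cancel (h : IsSum f X Y) (h1 : Le g f) (h2 : perp g Y) : Le g X := by
  obtain ⟨p1, p2, hs, h3, h4⟩ := QL.cl h h1 Relation.ReflTransGen.refl h2
  exact hs.le h3 (null_le (null_of_le_perp h4 (perp_of_le h2 hs.right (Le.refl _))) X)

theorem Compat.symm (h : Compat a b) : Compat b a := by
  obtain ⟨x1, x2, hs, h1, h2⟩ := h
  obtain ⟨d, hd⟩ := QL.diff h1
  exact ⟨x1, d, hd, hs.left, (hs.2 d).2 ⟨perp_symm hd.1, perp_symm (hd.right _ h2)⟩⟩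

theorem compat_of_le (h : Le a b) : Compat a b := by
  obtain ⟨z, hz⟩ := exists_null (Ω := Ω)
  exact ⟨a, z, isSum_null a hz, h, null_perp hz b⟩

theorem compat_of_perp (h : perp a b) : Compat a b := by
  obtain ⟨z, hz⟩ := exists_null (Ω := Ω)
  exact ⟨z, a, (isSum_null a hz).symm, null_le hz b, h⟩

section part
variable {ι : Type} {S : Finset ι} {Z : ι → Ω}

theorem exists_isPart (h : ∀ i ∈ S, ∀ j ∈ S, i ≠ j → perp (Z i) (Z j)) : ∃ f, IsPart f S Z := by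
  classical
  induction S using Finset.induction_on with
  | empty =>
    obtain ⟨z, hz⟩ := exists_null (Ω := Ω)
    exact ⟨z, h, fun c => ⟨fun _ i hi => absurd hi (Finset.notMem_empty i), fun _ => QL.null c hz⟩⟩
  | insert i S hi ih =>
    obtain ⟨f, hf⟩ := ih fun j hj k hk =>
      h j (Finset.mem_insert_of_mem hj) k (Finset.mem_insert_of_mem hk)
    obtain ⟨s, hs⟩ := QL.sum ((hf.2 (Z i)).2 fun j hj => h i (Finset.mem_insert_self i S) j
      (Finset.mem_insert_of_mem hj) fun e => hi (e ▸ hj))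
    exact ⟨s, h, fun c => by rw [hs.2, hf.2, Finset.forall_mem_insert]⟩

theorem IsPart.le (h : IsPart f S Z) {i : ι} (hi : i ∈ S) : Le (Z i) f :=
  fun c hc => (h.2 c).1 hc i hi

theorem IsPart.le_of (h : IsPart f S Z) (h' : ∀ i ∈ S, Le (Z i) g) : Le f g := by
  exact fun c hc => (h.2 c).2 fun i hi => h' i hi c hc

theorem IsPart.perp_left (h : IsPart f S Z) (h' : ∀ i ∈ S, perp (Z i) g) : perp f g := by
  exact perp_symm ((h.2 g).2 fun i hi => perp_symm (h' i hi))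

theorem IsPart.congr {f' : Ω} {Z' : ι → Ω} (h : IsPart f S Z) (h1 : Le f f') (h2 : Le f' f)
    (h3 : ∀ i ∈ S, Le (Z i) (Z' i) ∧ Le (Z' i) (Z i)) : IsPart f' S Z' := by
  exact ⟨fun i hi j hj e => perp_of_le (h.1 i hi j hj e) (h3 i hi).2 (h3 j hj).2,
    fun c => ⟨fun hc i hi => (h3 i hi).2 c (h.le hi c (h1 c hc)),
      fun hc => h2 c ((h.2 c).2 fun i hi => (h3 i hi).1 c (hc i hi))⟩⟩

/-- splitting a partition along a predicate -/
theorem IsPart.split (h : IsPart f S Z) (Q : ι → Prop) [DecidablePred Q] :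
    ∃ f1 f2, IsSum f f1 f2 ∧ IsPart f1 (S.filter Q) Z ∧ IsPart f2 (S.filter fun i => ¬ Q i) Z := by
  obtain ⟨f1, h1⟩ := exists_isPart (S := S.filter Q) (Z := Z) fun i hi j hj =>
    h.1 i (Finset.mem_filter.1 hi).1 j (Finset.mem_filter.1 hj).1
  obtain ⟨f2, h2⟩ := exists_isPart (S := S.filter fun i => ¬ Q i) (Z := Z) fun i hi j hj =>
    h.1 i (Finset.mem_filter.1 hi).1 j (Finset.mem_filter.1 hj).1
  refine ⟨f1, f2, ⟨h1.perp_left fun i hi => (h2.2 _).2 fun j hj => ?_, fun c => ?_⟩, h1, h2⟩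
  · exact h.1 i (Finset.mem_filter.1 hi).1 j (Finset.mem_filter.1 hj).1 fun e =>
      (Finset.mem_filter.1 hj).2 (e ▸ (Finset.mem_filter.1 hi).2)
  · rw [h.2, h1.2, h2.2]
    refine ⟨fun hc => ⟨fun i hi => hc i (Finset.mem_filter.1 hi).1,
      fun i hi => hc i (Finset.mem_filter.1 hi).1⟩, fun hc i hi => ?_⟩
    by_cases hq : Q i
    · exact hc.1 i (Finset.mem_filter.2 ⟨hi, hq⟩)
    · exact hc.2 i (Finset.mem_filter.2 ⟨hi, hq⟩)

theorem IsPart.cancel (h : IsPart f S Z) (h1 : Le g f) {j : ι}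
    (h2 : ∀ i ∈ S, i ≠ j → perp g (Z i)) : Le g (Z j) := by
  classical
  obtain ⟨f1, f2, hs, h3, h4⟩ := h.split fun i => i = j
  refine (hs.cancel h1 ((h4.2 g).2 fun i hi => h2 i (Finset.mem_filter.1 hi).1
    (Finset.mem_filter.1 hi).2)).trans (h3.le_of fun i hi => ?_)
  rw [(Finset.mem_filter.1 hi).2]
  exact Le.refl _

theorem IsPart.cancel_sub {T : Finset ι} (h : IsPart f S Z) (hT : IsPart Y T Z) (h1 : Le g f)
    (h2 : ∀ i ∈ S, i ∉ T → perp g (Z i)) : Le g Y := by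
  classical
  obtain ⟨f1, f2, hs, h3, h4⟩ := h.split fun i => i ∈ T
  exact (hs.cancel h1 ((h4.2 g).2 fun i hi => h2 i (Finset.mem_filter.1 hi).1
    (Finset.mem_filter.1 hi).2)).trans (h3.le_of fun i hi => hT.le (Finset.mem_filter.1 hi).2)

end part

section cov
variable {Q Q' : Ω → Prop}

theorem Cov.refl (h : Q f) : Cov f Q := by
  exact ⟨Unit, Finset.univ, fun _ => f, ⟨fun _ _ _ _ e => (e rfl).elim,
    fun _ => ⟨fun hc _ _ => hc, fun hc => hc () (Finset.mem_univ _)⟩⟩, fun _ _ => h⟩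

theorem Cov.of_null (h : perp f f) : Cov f Q := by
  exact ⟨Unit, ∅, fun _ => f, ⟨fun _ _ _ _ _ => h, fun c => ⟨fun hc _ _ => hc,
    fun _ => QL.null c h⟩⟩, fun i hi => absurd hi (Finset.notMem_empty i)⟩

theorem Cov.imp (h : Cov f Q) (h' : ∀ g, Le g f → Q g → Q' g) : Cov f Q' := by
  obtain ⟨ι, S, Z, h1, h2⟩ := h
  exact ⟨ι, S, Z, h1, fun i hi => h' _ (h1.le hi) (h2 i hi)⟩

theorem Cov.trans (h : Cov f Q) (h' : ∀ g, Le g f → Q g → Cov g Q') : Cov f Q' := by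
  obtain ⟨ι, S, Z, h1, h2⟩ := h
  have h3 : ∀ i, ∃ (κ : Type) (T : Finset κ) (V : κ → Ω), i ∈ S →
      IsPart (Z i) T V ∧ ∀ j ∈ T, Q' (V j) := fun i => by
    by_cases hi : i ∈ S
    · obtain ⟨κ, T, V, h4⟩ := h' _ (h1.le hi) (h2 i hi)
      exact ⟨κ, T, V, fun _ => h4⟩
    · exact ⟨Unit, ∅, fun _ => f, fun h4 => (hi h4).elim⟩
  choose κ T V h3 using h3
  refine ⟨Σ i, κ i, S.sigma T, fun x => V x.1 x.2, ⟨?_, fun c => ?_⟩,
    fun x hx => (h3 _ (Finset.mem_sigma.1 hx).1).2 _ (Finset.mem_sigma.1 hx).2⟩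
  · rintro ⟨i, x⟩ hx ⟨j, y⟩ hy e
    obtain ⟨hi, hx⟩ := Finset.mem_sigma.1 hx
    obtain ⟨hj, hy⟩ := Finset.mem_sigma.1 hy
    by_cases hij : i = j
    · subst hij
      exact (h3 i hi).1.1 x hx y hy fun e' => e (by rw [e'])
    · exact perp_of_le (h1.1 i hi j hj hij) ((h3 i hi).1.le hx) ((h3 j hj).1.le hy)
  · refine ⟨fun hc x hx => ?_, fun hc => (h1.2 c).2 fun i hi => ((h3 i hi).1.2 c).2 fun x hx =>
      hc ⟨i, x⟩ (Finset.mem_sigma.2 ⟨hi, hx⟩)⟩
    obtain ⟨hi, hx⟩ := Finset.mem_sigma.1 hx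
    exact (h3 _ hi).1.le hx c (h1.le hi c hc)

theorem Cov.of_sum (h : IsSum f a b) (h1 : Cov a Q) (h2 : Cov b Q) : Cov f Q := by
  refine Cov.trans (Q := fun g => Cov g Q) ⟨Bool, Finset.univ, fun x => cond x a b, ⟨?_, fun c => ?_⟩,
    ?_⟩ fun _ _ h => h
  · rintro (_ | _) _ (_ | _) _ e
    exacts [(e rfl).elim, perp_symm h.1, h.1, (e rfl).elim]
  · rw [h.2]
    refine ⟨?_, fun hc => ⟨hc true (Finset.mem_univ _), hc false (Finset.mem_univ _)⟩⟩
    rintro hc (_ | _) _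
    exacts [hc.2, hc.1]
  · rintro (_ | _) _
    exacts [h2, h1]

theorem Cov.congr (h : Cov f Q) (h1 : Le f g) (h2 : Le g f) : Cov g Q := by
  obtain ⟨ι, S, Z, h3, h4⟩ := h
  exact ⟨ι, S, Z, h3.congr h1 h2 fun _ _ => ⟨Le.refl _, Le.refl _⟩, h4⟩

theorem Cov.perp_left (h : Cov f fun g => perp g c) : perp f c := by
  obtain ⟨ι, S, Z, h3, h4⟩ := h
  exact h3.perp_left h4

theorem Cov.split (h : Cov f fun g => Q g ∨ Q' g) :
    ∃ f1 f2, IsSum f f1 f2 ∧ Cov f1 Q ∧ Cov f2 Q' := by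
  classical
  obtain ⟨ι, S, Z, h3, h4⟩ := h
  obtain ⟨f1, f2, hs, h1, h2⟩ := h3.split fun i => Q (Z i)
  exact ⟨f1, f2, hs, ⟨ι, _, Z, h1, fun i hi => (Finset.mem_filter.1 hi).2⟩, ⟨ι, _, Z, h2,
    fun i hi => (h4 i (Finset.mem_filter.1 hi).1).resolve_left (Finset.mem_filter.1 hi).2⟩⟩

theorem compat_of_cov (h : Cov X fun g => Le g a ∨ perp g a) : Compat X a := by
  obtain ⟨f1, f2, hs, ⟨ι, S, Z, h1, h2⟩, h3⟩ := h.split
  exact ⟨f1, f2, hs, h1.le_of h2, h3.perp_left⟩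

end cov

section frc
variable {A A' : Type} {P : PVM A Ω} {P' : PVM A' Ω} {φ ψ χ : A → Prop}

theorem Frc.mono (h : Frc f P φ) (h' : ∀ a, φ a → ψ a) : Frc f P ψ :=
  fun a ha => h a fun h1 => ha (h' a h1)

theorem Frc.of_le (h : Frc f P φ) (h' : Le g f) : Frc g P φ :=
  fun a ha => perp_of_le (h a ha) h' (Le.refl _)

theorem Frc.and (h : Frc f P φ) (h' : Frc f P ψ) : Frc f P fun a => φ a ∧ ψ a := by
  intro a ha
  by_cases h1 : φ a
  · exact h' a fun h2 => ha ⟨h1, h2⟩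
  · exact h a h1

theorem frc_forall {ι : Sort*} {φ : ι → A → Prop} (h : ∀ i, Frc f P (φ i)) :
    Frc f P fun a => ∀ i, φ i a := by
  intro a ha
  obtain ⟨i, hi⟩ := not_forall.1 ha
  exact h i a hi

theorem frc_of_forall (h : ∀ a, φ a) : Frc f P φ := fun a ha => (ha (h a)).elim

theorem frc_of_null (h : perp f f) : Frc f P φ := fun _ _ => null_perp h _

theorem Frc.null (h : Frc f P φ) (h' : ∀ a, ¬ φ a) : perp f f := by
  exact QL.top_perp f (P.cover f fun a => h a (h' a))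

theorem Frc.sum (h : IsSum f a b) (h1 : Frc a P φ) (h2 : Frc b P φ) : Frc f P φ := by
  exact fun x hx => h.perp_left (h1 x hx) (h2 x hx)

theorem Cov.frc (h : Cov f fun g => Frc g P φ) : Frc f P φ := by
  exact fun x hx => (h.imp fun _ _ hg => hg x hx).perp_left

theorem frc_self (P : PVM A Ω) (a : A) : Frc (P.p a) P fun a' => a' = a := by
  exact fun a' ha => P.orth (Ne.symm ha)

variable [Fintype A]

theorem PVM.isPart (P : PVM A Ω) : IsPart Orth.top Finset.univ P.p := by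
  exact ⟨fun _ _ _ _ e => P.orth e, fun c => ⟨fun hc _ _ => QL.top_perp _ hc,
    fun hc => P.cover c fun a => hc a (Finset.mem_univ a)⟩⟩

theorem Frc.le_p {x : A} (h : Frc f P fun a => a = x) : Le f (P.p x) := by
  exact P.isPart.cancel (le_top' f) fun i _ hi => h i hi

theorem qlb_phi (P : PVM A Ω) (φ : A → Prop) :
    ∃ Φ, (∀ f, Frc f P φ ↔ Le f Φ) ∧ ∀ f, Frc f P (fun a => ¬ φ a) ↔ perp f Φ := by
  classical
  obtain ⟨Φ, Φ', hs, h1, h2⟩ := P.isPart.split φ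
  refine ⟨Φ, fun f => ⟨fun h => hs.cancel (le_top' f) ((h2.2 f).2 fun a ha =>
    h a (Finset.mem_filter.1 ha).2), fun h a ha => perp_of_le hs.1 h
      (h2.le (Finset.mem_filter.2 ⟨Finset.mem_univ a, ha⟩))⟩, fun f => ⟨fun h => (h1.2 f).2 fun a ha =>
        h a (not_not_intro (Finset.mem_filter.1 ha).2), fun h a ha => ?_⟩⟩
  exact h1.le (Finset.mem_filter.2 ⟨Finset.mem_univ a, not_not.1 ha⟩) f h

omit [Fintype A] in
theorem qlb_dec {Φ : Ω} (h1 : ∀ f, Frc f P φ ↔ Le f Φ)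
    (h2 : ∀ f, Frc f P (fun a => ¬ φ a) ↔ perp f Φ) : Dec f P φ ↔ Compat f Φ := by
  simp only [Dec, Compat, h1, h2]

theorem Frc.orth (h : Frc f P φ) (h' : Frc g P ψ) (h2 : ∀ a, φ a → ψ a → False) : perp f g := by
  obtain ⟨Φ, h3, h4⟩ := qlb_phi P φ
  exact perp_symm ((h3 f).1 h g ((h4 g).1 (h'.mono fun a h5 h6 => h2 a h6 h5)))

/-- transfer of forcing along a constraint between two partitions -/
theorem Frc.transfer {ρ : A → A' → Prop} (hρ : ∀ a a', ¬ ρ a a' → perp (P.p a) (P'.p a'))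
    (h : Frc f P φ) {φ' : A' → Prop} (h' : ∀ a a', φ a → ρ a a' → φ' a') : Frc f P' φ' := by
  intro a' ha'
  exact h.orth (ψ := fun a => ¬ φ a) (fun a ha => perp_symm (hρ a a' fun h1 =>
    ha' (h' a a' (not_not.1 ha) h1))) fun a h1 h2 => h2 h1

theorem dec_top (P : PVM A Ω) (φ : A → Prop) : Dec Orth.top P φ := by
  obtain ⟨Φ, h3, h4⟩ := qlb_phi P φ
  exact (qlb_dec h3 h4).2 (compat_of_le (le_top' Φ)).symm

theorem Frc.dec (h : Frc f P φ) : Dec f P φ := by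
  obtain ⟨z, hz⟩ := exists_null (Ω := Ω)
  exact ⟨f, z, isSum_null f hz, h, frc_of_null hz⟩

theorem Dec.not (h : Dec f P φ) : Dec f P fun a => ¬ φ a := by
  obtain ⟨f1, f2, hs, h1, h2⟩ := h
  exact ⟨f2, f1, hs.symm, h2, h1.mono fun _ => not_not_intro⟩

theorem Dec.congr (h : Dec f P φ) (h1 : Frc f P χ) (h2 : ∀ a, χ a → (φ a ↔ ψ a)) :
    Dec f P ψ := by
  obtain ⟨f1, f2, hs, h3, h4⟩ := h
  exact ⟨f1, f2, hs, (h3.and (h1.of_le hs.left)).mono fun a ha => (h2 a ha.2).1 ha.1,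
    (h4.and (h1.of_le hs.right)).mono fun a ha h5 => ha.1 ((h2 a ha.2).2 h5)⟩

theorem Dec.of_equiv (h : Dec f P φ) (h1 : Le f g) (h2 : Le g f) : Dec g P φ := by
  obtain ⟨f1, f2, hs, h3, h4⟩ := h
  exact ⟨f1, f2, hs.congr h1 h2 (Le.refl _) (Le.refl _) (Le.refl _) (Le.refl _), h3, h4⟩

/-- uses `QL.reg` -/
theorem Dec.and (h : Dec f P φ) (h' : Dec f P ψ) : Dec f P fun a => φ a ∧ ψ a := by
  obtain ⟨Φ, h1, h2⟩ := qlb_phi P φ
  obtain ⟨Ψ, h3, h4⟩ := qlb_phi P ψ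
  obtain ⟨r, h5, h6⟩ := qlb_phi P fun a => φ a ∧ ψ a
  have h7 := (h5 r).2 (Le.refl r)
  obtain ⟨p', hp⟩ := QL.diff ((h1 r).1 (h7.mono fun _ h => h.1))
  obtain ⟨q', hq⟩ := QL.diff ((h3 r).1 (h7.mono fun _ h => h.2))
  refine (qlb_dec h5 h6).2 (QL.reg ((qlb_dec h1 h2).1 h) ((qlb_dec h3 h4).1 h') hp hq ((h4 p').1 ?_))
  exact (((h1 p').2 hp.right).and ((h6 p').2 (perp_symm hp.1))).mono fun a ha h8 => ha.2 ⟨ha.1, h8⟩

theorem Dec.or (h : Dec f P φ) (h' : Dec f P ψ) : Dec f P fun a => φ a ∨ ψ a := by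
  exact (h.not.and h'.not).not.congr (frc_of_forall (φ := fun _ => True) fun _ => trivial)
    fun a _ => or_iff_not_and_not.symm

theorem dec_of_cov (h : Cov f fun g => Frc g P φ ∨ Frc g P fun a => ¬ φ a) : Dec f P φ := by
  obtain ⟨f1, f2, hs, h1, h2⟩ := h.split
  exact ⟨f1, f2, hs, h1.frc, h2.frc⟩

/-- deciding each value of a finitely valued function gives a partition by values -/
theorem exists_part_of_dec {T : Type} [Fintype T] (c : A → T)
    (h : ∀ t, Dec f P fun a => c a = t) :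
    ∃ Z : T → Ω, IsPart f Finset.univ Z ∧ ∀ t, Frc (Z t) P fun a => c a = t := by
  choose Z Z' hs h1 h2 using h
  obtain ⟨g, hg⟩ := exists_isPart (S := Finset.univ) (Z := Z) fun i _ j _ e =>
    (h1 i).orth (h1 j) fun a h3 h4 => e (h3.symm.trans h4)
  have h3 : Le g f := hg.le_of fun t _ => (hs t).left
  obtain ⟨d, hd⟩ := QL.diff h3
  have h4 : perp d d := (frc_forall fun t => (h2 t).of_le ((hs t).symm.cancel hd.right
    (hg.le (Finset.mem_univ t) d (perp_symm hd.1)))).null fun a ha => ha (c a) rfl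
  exact ⟨Z, hg.congr h3 (hd.le (Le.refl g) (null_le h4 g)) fun _ _ => ⟨Le.refl _, Le.refl _⟩, h1⟩

theorem cov_of_dec {T : Type} [Fintype T] (c : A → T) (h : ∀ t, Dec f P fun a => c a = t) :
    Cov f fun g => ∃ t, Frc g P fun a => c a = t := by
  obtain ⟨Z, h1, h2⟩ := exists_part_of_dec c h
  exact ⟨T, Finset.univ, Z, h1, fun t _ => ⟨t, h2 t⟩⟩

theorem dec_of_values {T : Type} [Fintype T] (c : A → T) (h : ∀ t, Dec f P fun a => c a = t)
    (ξ : T → Prop) : Dec f P fun a => ξ (c a) := by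
  refine dec_of_cov ((cov_of_dec c h).imp fun g _ ⟨t, ht⟩ => ?_)
  by_cases h1 : ξ t
  · exact Or.inl (ht.mono fun a ha => ha ▸ h1)
  · exact Or.inr (ht.mono fun a ha => ha ▸ h1)

/-- a summand cut out by a property of the tile decides what the whole decides -/
theorem Dec.piece (hs : IsSum f X Y) (h1 : Frc X P ψ) (h2 : Frc Y P fun a => ¬ ψ a)
    (h : Dec f P fun a => ψ a ∧ φ a) : Dec X P φ := by
  obtain ⟨f1, f2, hf, h3, h4⟩ := h
  obtain ⟨d, hd⟩ := QL.diff (hs.cancel hf.left (h3.orth h2 fun a h5 h6 => h6 h5.1))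
  exact ⟨f1, d, hd, h3.mono fun _ h5 => h5.2, ((h1.of_le hd.right).and (h4.of_le (hf.symm.cancel
    (hd.right.trans hs.left) (perp_symm hd.1)))).mono fun a ha h5 => ha.2 ⟨ha.1, h5⟩⟩

end frc

section rep
variable {W : Wang} (R : Rep W Ω)

theorem Rep.fwd {z : Z2} {d : Bool} {φ ψ : W.A → Prop} (h : Frc f (R.q z) φ)
    (h' : ∀ a a', φ a → W.out d a = W.inn d a' → ψ a') : Frc f (R.q (z + ev d)) ψ := by
  exact h.transfer (ρ := fun a a' => W.out d a = W.inn d a') (R.edge z d) h'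

theorem Rep.bwd {z : Z2} {d : Bool} {φ ψ : W.A → Prop} (h : Frc f (R.q (z + ev d)) ψ)
    (h' : ∀ a a', ψ a' → W.out d a = W.inn d a' → φ a) : Frc f (R.q z) φ := by
  exact h.transfer (ρ := fun a' a => W.out d a = W.inn d a')
    (fun a' a e => perp_symm (R.edge z d a a' e)) fun a' a => h' a a'

end rep

theorem qlb_le {a b : Prop} : @Le Prop ⟨fun a b => ¬ (a ∧ b), True⟩ a b ↔ (a → b) :=
  ⟨fun h ha => not_not.1 fun hb => h True (fun h' => hb h'.2) ⟨trivial, ha⟩,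
    fun h _ hc h' => hc ⟨h'.1, h h'.2⟩⟩

theorem qlb_sum {s a b : Prop} :
    @IsSum Prop ⟨fun a b => ¬ (a ∧ b), True⟩ s a b ↔ ¬ (a ∧ b) ∧ (s ↔ a ∨ b) := by
  refine and_congr_right fun _ => ⟨fun h => ?_, fun h c => ?_⟩
  · have h1 : ¬ (True ∧ s) ↔ ¬ (True ∧ a) ∧ ¬ (True ∧ b) := h True
    tauto
  · show ¬ (c ∧ s) ↔ ¬ (c ∧ a) ∧ ¬ (c ∧ b)
    tauto

/-- classical logic -/
instance : QL Prop where
  perp a b := ¬ (a ∧ b)
  top := True
  symm := fun h h' => h h'.symm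
  top_perp := fun _ h h' => h ⟨h'.1, trivial⟩
  null := fun _ h h' => h ⟨h'.2, h'.2⟩
  sum := fun {a b} h => ⟨a ∨ b, qlb_sum.2 ⟨h, Iff.rfl⟩⟩
  diff := fun {a b} h => ⟨b ∧ ¬ a, qlb_sum.2 (by have := qlb_le.1 h; tauto)⟩
  cl := fun {F X Y p p'} h h1 _ _ => ⟨p ∧ X, p ∧ Y, qlb_sum.2 (by
    have := qlb_le.1 h1; have := qlb_sum.1 h; tauto), qlb_le.2 And.right, qlb_le.2 And.right⟩
  reg := fun {X p q r p' q'} _ _ _ _ _ => ⟨X ∧ r, X ∧ ¬ r, qlb_sum.2 (by tauto),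
    qlb_le.2 And.right, fun h => h.1.2 h.2⟩

/-- a tiling as a quantum tiling -/
def Rep.ofX {W : Wang} (x : W.X) : Rep W Prop where
  q z := { p := fun a => x.1 z = a, orth := fun e h => e (h.1.symm.trans h.2),
           cover := fun _ h h' => h (x.1 z) ⟨h'.1, rfl⟩ }
  edge := fun z d _ _ e h => e (h.1 ▸ h.2 ▸ x.2 z d)

theorem frc_ofX {W : Wang} {x : W.X} {g : Prop} (hg : g) {z : Z2} {φ : W.A → Prop}
    (h : Frc g ((Rep.ofX x).q z) φ) : φ (x.1 z) := by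
  exact not_not.1 fun h1 => h _ h1 ⟨hg, rfl⟩

theorem Cov.exists_prop {f : Prop} {Q : Prop → Prop} (h : Cov f Q) (hf : f) :
    ∃ g : Prop, g ∧ Q g := by
  obtain ⟨ι, S, Z, h1, h2⟩ := h
  by_contra h3
  exact (h1.2 True).2 (fun i hi h4 => h3 ⟨Z i, h4.2, h2 i hi⟩) ⟨trivial, hf⟩

end Vale.Agent.P196
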