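import Vale.Agent.P196.Basic

/-! P196: the interlaced scales. Even indices count rows, odd indices count columns. -/

namespace Vale.Agent.P196

def mm (i : ℕ) : ℤ := 2 ^ (i + 2) - 1

def nn (i : ℕ) : ℤ := 3 * mm i

/-- the scales -/
def ss (K : ℕ) : ℕ → ℤ
  | 0 => 1
  | 1 => 1
  | (i + 2) => if i < K then 1 else nn i * ss K i

/-- the offset with all digits equal to `δ` -/
def oo (K : ℕ) (δ : ℤ) : ℕ → ℤ
  | 0 => 0
  | 1 => 0
  | (i + 2) => if i < K then 0 else oo K δ i + δ * ss K i

/-- the coordinate across the lines of index `i` -/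
def co (i : ℕ) (z : Z2) : ℤ := if i % 2 = 0 then z.2 else z.1

/-- the unit vector across the lines of index `i` -/
def ac (i : ℕ) : Z2 := if i % 2 = 0 then (0, 1) else (1, 0)

variable {K : ℕ}

theorem mm_succ (i : ℕ) : mm (i + 1) = 2 * mm i + 1 := by
  unfold mm; ring

theorem three_le_mm (i : ℕ) : 3 ≤ mm i := by
  induction i with
  | zero => simp [mm]
  | succ i ih => rw [mm_succ]; omega

theorem le_mm (i : ℕ) : (i : ℤ) + 3 ≤ mm i := by
  induction i with
  | zero => simp [mm]
  | succ i ih => rw [mm_succ]; push_cast; omega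

theorem ss_of_le {i : ℕ} (h : i ≤ K + 1) : ss K i = 1 := by
  match i with
  | 0 => rfl
  | 1 => rfl
  | (i + 2) => simp only [ss]; rw [if_pos (by omega)]

theorem ss_add_two {i : ℕ} (h : K ≤ i) : ss K (i + 2) = 3 * mm i * ss K i := by
  simp only [ss]; rw [if_neg (by omega)]; rfl

theorem ss_pos (i : ℕ) : 0 < ss K i := by
  induction i using Nat.strong_induction_on with
  | _ i ih =>
    by_cases h : i ≤ K + 1
    · rw [ss_of_le h]; exact one_pos
    · obtain ⟨j, rfl⟩ : ∃ j, i = j + 2 := ⟨i - 2, by omega⟩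
      rw [ss_add_two (by omega)]
      have := three_le_mm j
      have := ih j (by omega)
      positivity

theorem ss_dvd_add_two (i : ℕ) : ss K i ∣ ss K (i + 2) := by
  by_cases h : K ≤ i
  · rw [ss_add_two h]; exact Dvd.intro_left _ rfl
  · rw [ss_of_le (by omega : i ≤ K + 1)]; exact one_dvd _

theorem ss_dvd {i j : ℕ} (h : i ≤ j) (hp : i % 2 = j % 2) : ss K i ∣ ss K j := by
  obtain ⟨n, rfl⟩ : ∃ n, j = i + 2 * n := ⟨(j - i) / 2, by omega⟩
  clear h hp
  induction n with
  | zero => exact dvd_rfl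
  | succ n ih => exact ih.trans (by rw [show i + 2 * (n + 1) = i + 2 * n + 2 by ring]; exact ss_dvd_add_two _)

/-- the ratio of consecutive scales doubles every two steps -/
theorem ss_ratio (n : ℕ) {i : ℕ} (h : K + 2 * n ≤ i) : 2 ^ n * ss K i ≤ ss K (i + 1) := by
  induction n generalizing i with
  | zero =>
    induction i using Nat.strong_induction_on with
    | _ i ih =>
      by_cases h1 : i ≤ K + 1
      · rw [ss_of_le h1]; have := ss_pos (K := K) (i + 1); omega
      · obtain ⟨j, rfl⟩ : ∃ j, i = j + 2 := ⟨i - 2, by omega⟩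
        have h2 := ih j (by omega) (by omega)
        rw [show j + 2 + 1 = (j + 1) + 2 by ring, ss_add_two (by omega : K ≤ j),
          ss_add_two (by omega : K ≤ j + 1), mm_succ]
        have := three_le_mm j
        have := ss_pos (K := K) j
        nlinarith
  | succ n ih =>
    obtain ⟨j, rfl⟩ : ∃ j, i = j + 2 := ⟨i - 2, by omega⟩
    have h2 := ih (i := j) (by omega)
    rw [show j + 2 + 1 = (j + 1) + 2 by ring, ss_add_two (by omega : K ≤ j),
      ss_add_two (by omega : K ≤ j + 1), mm_succ, pow_succ]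
    have h3 := three_le_mm j
    have h4 := ss_pos (K := K) j
    have h5 : (0 : ℤ) < 2 ^ n := by positivity
    have h6 : 0 < 2 ^ n * ss K j := by positivity
    nlinarith

theorem ss_le_succ (i : ℕ) : ss K i ≤ ss K (i + 1) := by
  by_cases h : K ≤ i
  · simpa using ss_ratio (K := K) 0 (i := i) (by omega)
  · rw [ss_of_le (by omega : i ≤ K + 1)]; exact ss_pos _

theorem ss_mono {i j : ℕ} (h : i ≤ j) : ss K i ≤ ss K j :=
  monotone_nat_of_le_succ ss_le_succ h

/-- the Liouville property of the scales -/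
theorem ss_growth (C : ℤ) : ∃ i0, ∀ i ≥ i0, C * ss K i ≤ ss K (i + 1) := by
  refine ⟨K + 2 * C.toNat, fun i hi => le_trans ?_ (ss_ratio C.toNat hi)⟩
  have h1 : C ≤ 2 ^ C.toNat := by
    have := (Nat.lt_two_pow_self (n := C.toNat)).le
    have h2 : ((C.toNat : ℕ) : ℤ) ≤ 2 ^ C.toNat := by exact_mod_cast this
    omega
  exact mul_le_mul_of_nonneg_right h1 (ss_pos i).le

theorem ss_large (C : ℤ) : ∃ i0, ∀ i ≥ i0, C ≤ ss K i := by
  obtain ⟨i0, h⟩ := ss_growth (K := K) (max C 0)
  refine ⟨i0 + 1, fun i hi => ?_⟩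
  obtain ⟨j, rfl⟩ : ∃ j, i = j + 1 := ⟨i - 1, by omega⟩
  have h1 := h j (by omega)
  have h2 := ss_pos (K := K) j
  have h3 := le_max_left C 0
  have h4 := le_max_right C 0
  nlinarith

theorem oo_of_le (δ : ℤ) {i : ℕ} (h : i ≤ K + 1) : oo K δ i = 0 := by
  match i with
  | 0 => rfl
  | 1 => rfl
  | (i + 2) => simp only [oo]; rw [if_pos (by omega)]

theorem oo_add_two (δ : ℤ) {i : ℕ} (h : K ≤ i) : oo K δ (i + 2) = oo K δ i + δ * ss K i := by
  simp only [oo]; rw [if_neg (by omega)]

theorem oo_eq (δ : ℤ) (i : ℕ) : oo K δ i = δ * oo K 1 i := by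
  induction i using Nat.strong_induction_on with
  | _ i ih =>
    by_cases h : i ≤ K + 1
    · rw [oo_of_le _ h, oo_of_le _ h, mul_zero]
    · obtain ⟨j, rfl⟩ : ∃ j, i = j + 2 := ⟨i - 2, by omega⟩
      rw [oo_add_two _ (by omega), oo_add_two _ (by omega), ih j (by omega)]; ring

theorem oo_bound (i : ℕ) : 0 ≤ oo K 1 i ∧ 6 * oo K 1 i ≤ ss K i := by
  induction i using Nat.strong_induction_on with
  | _ i ih =>
    by_cases h : i ≤ K + 1
    · rw [oo_of_le _ h, ss_of_le h]; omega
    · obtain ⟨j, rfl⟩ : ∃ j, i = j + 2 := ⟨i - 2, by omega⟩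
      rw [oo_add_two _ (by omega), ss_add_two (by omega)]
      have h1 := ih j (by omega)
      have h2 := three_le_mm j
      have h3 := ss_pos (K := K) j
      constructor <;> nlinarith

theorem oo_large (C : ℤ) : ∃ i0, ∀ i ≥ i0, C ≤ oo K 1 i := by
  obtain ⟨i0, h⟩ := ss_large (K := K) C
  refine ⟨i0 + K + 2, fun i hi => ?_⟩
  obtain ⟨j, rfl⟩ : ∃ j, i = j + 2 := ⟨i - 2, by omega⟩
  rw [oo_add_two _ (by omega)]
  have := h j (by omega)
  have := (oo_bound (K := K) j).1
  omega

theorem oo_dvd_sub (δ : ℤ) {i j : ℕ} (h : i ≤ j) (hp : i % 2 = j % 2) :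
    ss K i ∣ oo K δ j - oo K δ i := by
  obtain ⟨n, rfl⟩ : ∃ n, j = i + 2 * n := ⟨(j - i) / 2, by omega⟩
  clear h hp
  induction n with
  | zero => simp
  | succ n ih =>
    rw [show i + 2 * (n + 1) = i + 2 * n + 2 by ring]
    by_cases h : K ≤ i + 2 * n
    · rw [oo_add_two _ h, add_sub_right_comm]
      exact ih.add ((ss_dvd (by omega) (by omega)).mul_left _)
    · rw [ss_of_le (by omega : i ≤ K + 1)]; exact one_dvd _

theorem co_add (i : ℕ) (z w : Z2) : co i (z + w) = co i z + co i w := by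
  unfold co; split_ifs <;> rfl

theorem co_neg (i : ℕ) (z : Z2) : co i (-z) = -co i z := by
  unfold co; split_ifs <;> rfl

theorem co_sub (i : ℕ) (z w : Z2) : co i (z - w) = co i z - co i w := by
  unfold co; split_ifs <;> rfl

theorem co_zero (i : ℕ) : co i 0 = 0 := by
  unfold co; split_ifs <;> rfl

theorem co_smul (i : ℕ) (t : ℤ) (z : Z2) : co i (t • z) = t * co i z := by
  unfold co; split_ifs <;> simp

theorem co_congr {i j : ℕ} (h : i % 2 = j % 2) : co i = co j := by
  funext z; unfold co; rw [h]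

theorem ac_congr {i j : ℕ} (h : i % 2 = j % 2) : ac i = ac j := by
  unfold ac; rw [h]

theorem co_ac {i j : ℕ} (h : i % 2 = j % 2) : co i (ac j) = 1 := by
  unfold co ac; rw [h]; split_ifs <;> rfl

theorem co_ac_ne {i j : ℕ} (h : i % 2 ≠ j % 2) : co i (ac j) = 0 := by
  unfold co ac; split_ifs <;> first | rfl | omega

theorem co_decomp (i : ℕ) (z : Z2) : z = co i z • ac i + co (i + 1) z • ac (i + 1) := by
  unfold co ac
  rcases Nat.mod_two_eq_zero_or_one i with h | h
  · have : (i + 1) % 2 = 1 := by omega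
    simp [h, this]
  · have : (i + 1) % 2 = 0 := by omega
    simp [h, this]

theorem co_ext {i : ℕ} {z w : Z2} (h : co i z = co i w) (h' : co (i + 1) z = co (i + 1) w) :
    z = w := by
  rw [co_decomp i z, co_decomp i w, h, h']

theorem abs_co_le (i : ℕ) {z : Z2} {r : ℤ} (h1 : |z.1| ≤ r) (h2 : |z.2| ≤ r) : |co i z| ≤ r := by
  unfold co; split_ifs <;> assumption

theorem abs_le_of_co {i : ℕ} {z : Z2} {r : ℤ} (h1 : |co i z| ≤ r) (h2 : |co (i + 1) z| ≤ r) :
    |z.1| ≤ r ∧ |z.2| ≤ r := by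
  unfold co at h1 h2
  rcases Nat.mod_two_eq_zero_or_one i with h | h
  · have : (i + 1) % 2 = 1 := by omega
    simp only [h, this] at h1 h2
    exact ⟨by simpa using h2, by simpa using h1⟩
  · have : (i + 1) % 2 = 0 := by omega
    simp only [h, this] at h1 h2
    exact ⟨by simpa using h1, by simpa using h2⟩

end Vale.Agent.P196
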