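import Vale.Agent.P196.Bern

/-! P196 task F: ramps, numerics and local geometry for the horizontal cuts. -/

namespace Vale.Agent.P196

open Pointwise

/-- the angle that grows linearly from `0` to `π / 2` on the interval from `a` to `a + L` -/
noncomputable def s1_ramp (a L s : ℤ) : ℝ :=
  Real.pi / 2 * max 0 (min 1 (((s : ℝ) - a) / L))

theorem s1_ramp_lo {a L s : ℤ} (hL : 0 < L) (h : s ≤ a) : s1_ramp a L s = 0 := by
  have h1 : (0 : ℝ) < L := by exact_mod_cast hL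
  have h2 : (s : ℝ) ≤ a := by exact_mod_cast h
  have h3 : ((s : ℝ) - a) / L ≤ 0 := div_nonpos_of_nonpos_of_nonneg (by linarith) h1.le
  rw [s1_ramp, max_eq_left ((min_le_right _ _).trans h3), mul_zero]

theorem s1_ramp_hi {a L s : ℤ} (hL : 0 < L) (h : a + L ≤ s) : s1_ramp a L s = Real.pi / 2 := by
  have h1 : (0 : ℝ) < L := by exact_mod_cast hL
  have h2 : (a : ℝ) + L ≤ s := by exact_mod_cast h
  have h3 : 1 ≤ ((s : ℝ) - a) / L := by rw [le_div_iff₀ h1]; linarith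
  rw [s1_ramp, min_eq_left h3, max_eq_right zero_le_one, mul_one]

theorem s1_ramp_gt {a L s : ℤ} (hL : 0 < L) (h : s1_ramp a L s = Real.pi / 2) : a < s := by
  by_contra h1
  rw [s1_ramp_lo hL (not_lt.1 h1)] at h
  linarith [Real.pi_pos]

theorem s1_ramp_lip {a L s s' : ℤ} {r : ℕ} (hL : 0 < L) (h : |s - s'| ≤ r) :
    |s1_ramp a L s - s1_ramp a L s'| ≤ Real.pi / 2 * (r / L) := by
  have h1 : (0 : ℝ) < L := by exact_mod_cast hL
  have h2 : |(s : ℝ) - s'| ≤ r := by exact_mod_cast h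
  rw [s1_ramp, s1_ramp, ← mul_sub, abs_mul, abs_of_pos (by positivity : 0 < Real.pi / 2)]
  refine mul_le_mul_of_nonneg_left ?_ (by positivity)
  rw [max_comm 0, max_comm 0]
  refine (abs_max_sub_max_le_abs _ _ _).trans ?_
  refine (abs_min_sub_min_le_max _ _ _ _).trans ?_
  rw [sub_self, abs_zero, max_eq_right (abs_nonneg _), ← sub_div, abs_div, abs_of_pos h1]
  refine div_le_div_of_nonneg_right (le_trans (le_of_eq ?_) h2) h1.le
  congr 1; ring

theorem s1_num {n r : ℕ} {L : ℤ} {M e : ℝ} (hL : 0 < L) (he : 0 ≤ e) (hn : (n : ℝ) ≤ M * L)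
    (hM : 32 * r ^ 2 * M ≤ e ^ 2 * L) : 2 * √(2 * n) * (Real.pi / 2 * (r / L)) ≤ e := by
  have h1 : (0 : ℝ) < L := by exact_mod_cast hL
  refine (pow_le_pow_iff_left₀ (by positivity) he two_ne_zero).1 ?_
  have h2 : (2 * √(2 * n) * (Real.pi / 2 * (r / L))) ^ 2 =
      2 * Real.pi ^ 2 * (n * r ^ 2) / L ^ 2 := by
    rw [mul_pow, mul_pow, Real.sq_sqrt (by positivity)]
    field_simp
  rw [h2, div_le_iff₀ (by positivity)]
  have h3 : Real.pi ^ 2 ≤ 16 := by nlinarith [Real.pi_pos, Real.pi_le_four]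
  have h4 : (n : ℝ) * r ^ 2 ≤ M * L * r ^ 2 := mul_le_mul_of_nonneg_right hn (by positivity)
  have h5 : 32 * r ^ 2 * M * L ≤ e ^ 2 * L * L := mul_le_mul_of_nonneg_right hM h1.le
  have h6 : Real.pi ^ 2 * (n * r ^ 2) ≤ 16 * (n * r ^ 2) :=
    mul_le_mul_of_nonneg_right h3 (by positivity)
  nlinarith

theorem s1_delta {r : ℕ} {L : ℤ} (h : (r : ℤ) < L) :
    0 ≤ Real.pi / 2 * ((r : ℝ) / L) ∧ Real.pi / 2 * ((r : ℝ) / L) < Real.pi / 2 := by
  have h1 : (r : ℝ) < L := by exact_mod_cast h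
  have h2 : (0 : ℝ) < L := lt_of_le_of_lt (Nat.cast_nonneg r) h1
  refine ⟨by positivity, mul_lt_of_lt_one_right (by positivity) ((div_lt_one h2).2 h1)⟩

theorem s1_mod {w j j' c : ℤ} (h1 : 0 ≤ j) (h2 : j < w) (h3 : 0 ≤ j') (h4 : j' < w)
    (h5 : |c| < w) (h6 : w ∣ j + c - j') : j' = j + c ∨ j' = j + c - w ∨ j' = j + c + w := by
  obtain ⟨k, hk⟩ := h6
  rw [abs_lt] at h5
  have h7 : k < 2 := by by_contra h; nlinarith
  have h8 : -2 < k := by by_contra h; nlinarith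
  obtain rfl | rfl | rfl : k = 0 ∨ k = 1 ∨ k = -1 := by omega
  all_goals omega

variable {W : Wang} {K : ℕ}

/-- the tiling has a height -/
def s1_H (h : Hier W K) (x : W.X) : Prop := ∃ t, h.Ht 0 x t

open Classical in
/-- the height, counted from a line of index `i + 2` -/
noncomputable def s1_s (h : Hier W K) (i : ℕ) (x : W.X) : ℤ :=
  oo K 1 (i + 2) + if hx : s1_H h x then hx.choose else 0

/-- distance to the nearest high column -/
def s1_d (h : Hier W K) (i : ℕ) (x : W.X) : ℤ :=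
  min (h.res x (i + 1)) (ss K (i + 1) - h.res x (i + 1))

/-- signed distance to the nearest high column -/
def s1_u (h : Hier W K) (i : ℕ) (x : W.X) : ℤ :=
  if 2 * h.res x (i + 1) ≤ ss K (i + 1) then h.res x (i + 1) else h.res x (i + 1) - ss K (i + 1)

/-- the reference site -/
noncomputable def s1_z (h : Hier W K) (i : ℕ) (x : W.X) : Z2 :=
  (2 * ss K i - s1_s h i x) • ac i - s1_u h i x • ac (i + 1)

variable {h : Hier W K} {i r : ℕ} {x y : W.X} {z : Z2}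

theorem s1_s_eq {t : ℤ} (ht : h.Ht 0 x t) : s1_s h i x = oo K 1 (i + 2) + t := by
  have hx : s1_H h x := ⟨t, ht⟩
  rw [s1_s, dif_pos hx, Hier.Ht.unique h hx.choose_spec ht]

theorem s1_H_vadd (z : Z2) : s1_H h (z +ᵥ x) ↔ s1_H h x := by
  refine ⟨fun ⟨t, ht⟩ => ?_, fun ⟨t, ht⟩ => ⟨_, Hier.Ht.vadd h ht z⟩⟩
  have := Hier.Ht.vadd h ht (-z)
  rw [neg_vadd_vadd] at this
  exact ⟨_, this⟩

theorem s1_s_vadd (he : i % 2 = 0) (hx : s1_H h x) (z : Z2) :
    s1_s h i (z +ᵥ x) = s1_s h i x + co i z := by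
  obtain ⟨t, ht⟩ := hx
  rw [s1_s_eq ht, s1_s_eq (Hier.Ht.vadd h ht z), co_congr (show 0 % 2 = i % 2 by omega),
    add_assoc]

theorem s1_res (he : i % 2 = 0) (hx : s1_H h x) (h0 : 0 ≤ s1_s h i x)
    (h1 : s1_s h i x < ss K (i + 2)) : h.res x (i + 2) = s1_s h i x := by
  obtain ⟨t, ht⟩ := hx
  have h2 := ht (i + 2) (by omega)
  rw [sub_sub, ← s1_s_eq ht] at h2
  have h3 := h.res_nonneg x (i + 2)
  have h4 := h.res_lt x (i + 2)
  exact sub_eq_zero.1 (Int.eq_zero_of_abs_lt_dvd h2 (abs_lt.2 ⟨by omega, by omega⟩))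

theorem s1_zn (hi : K + 1 ≤ i) (he : i % 2 = 0) (hx : s1_H h x) (w : Z2)
    (hz : Zn K i (s1_s h i x + co i w)) : h.res (w +ᵥ x) (i + 2) = s1_s h i x + co i w := by
  have h1 := ss_pos (K := K) i
  have h2 := three_le_mm i
  have h3 := ss_add_two (K := K) (i := i) (by omega)
  rw [← s1_s_vadd he hx] at hz ⊢
  refine s1_res he ((s1_H_vadd w).2 hx) (by linarith [hz.1]) ?_
  rw [h3]
  nlinarith [hz.2]

theorem s1_col (x : W.X) (hz : |co (i + 1) z| < ss K (i + 1)) :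
    h.res (z +ᵥ x) (i + 1) = h.res x (i + 1) + co (i + 1) z ∨
    h.res (z +ᵥ x) (i + 1) = h.res x (i + 1) + co (i + 1) z - ss K (i + 1) ∨
    h.res (z +ᵥ x) (i + 1) = h.res x (i + 1) + co (i + 1) z + ss K (i + 1) :=
  s1_mod (h.res_nonneg _ _) (h.res_lt _ _) (h.res_nonneg _ _) (h.res_lt _ _) hz
    (h.dvd_res_vadd x z _)

theorem s1_d_vadd (hr : (r : ℤ) < ss K (i + 1)) (hz : |co (i + 1) z| ≤ r) :
    |s1_d h i x - s1_d h i (z +ᵥ x)| ≤ r := by
  have h1 := s1_col (h := h) x (hz.trans_lt hr)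
  have := h.res_nonneg x (i + 1)
  have := h.res_lt x (i + 1)
  have := h.res_nonneg (z +ᵥ x) (i + 1)
  have := h.res_lt (z +ᵥ x) (i + 1)
  rw [abs_le] at hz ⊢
  unfold s1_d
  omega

theorem s1_far (hd : (r : ℤ) < s1_d h i x) (hz : |co (i + 1) z| ≤ r) :
    h.res (z +ᵥ x) (i + 1) = h.res x (i + 1) + co (i + 1) z ∧ h.sig i (z +ᵥ x) = h.sig i x ∧
      0 < h.res x (i + 1) + co (i + 1) z := by
  rw [abs_le] at hz
  unfold s1_d at hd
  refine ⟨?_, h.sig_vadd i x z (by omega) (by omega), by omega⟩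
  rw [h.res_vadd]
  exact Int.emod_eq_of_lt (by omega) (by omega)

theorem s1_co_z (h : Hier W K) (i : ℕ) (x : W.X) :
    co i (s1_z h i x) = 2 * ss K i - s1_s h i x ∧ co (i + 1) (s1_z h i x) = -s1_u h i x := by
  rw [s1_z, co_sub, co_sub, co_smul, co_smul, co_smul, co_smul, co_ac rfl, co_ac rfl,
    co_ac_ne (by omega), co_ac_ne (by omega)]
  constructor <;> ring

theorem s1_b_vadd (he : i % 2 = 0) (hx : s1_H h x) (hd : 2 * (s1_d h i x + r) < ss K (i + 1))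
    (hz : |co (i + 1) z| ≤ r) : (z +ᵥ x).1 (s1_z h i (z +ᵥ x)) = x.1 (s1_z h i x) := by
  rw [vadd_val]
  refine congrArg x.1 (co_ext (i := i) ?_ ?_)
  · rw [co_add, (s1_co_z h i _).1, (s1_co_z h i _).1, s1_s_vadd he hx]; ring
  · rw [co_add, (s1_co_z h i _).2, (s1_co_z h i _).2]
    have := h.res_nonneg x (i + 1)
    have := h.res_lt x (i + 1)
    have := h.res_nonneg (z +ᵥ x) (i + 1)
    have := h.res_lt (z +ᵥ x) (i + 1)
    unfold s1_d at hd
    have h1 := s1_col (h := h) x (z := z) (i := i) (by omega)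
    rw [abs_le] at hz
    unfold s1_u
    split_ifs <;> omega

/-- the height lies well inside the zone -/
def s1_In (h : Hier W K) (i : ℕ) (r : ℤ) (x : W.X) : Prop :=
  s1_H h x ∧ 2 * ss K i + r ≤ s1_s h i x ∧ s1_s h i x < mm i * ss K i - r

theorem s1_In.zn (hx : s1_In h i r x) {w : Z2} (h1 : |w.1| ≤ r) (h2 : |w.2| ≤ r) :
    Zn K i (s1_s h i x + co i w) := by
  have := abs_le.1 (abs_co_le i h1 h2)
  exact ⟨by linarith [hx.2.1], by linarith [hx.2.2]⟩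

theorem s1_agree_ref (hi : K + 1 ≤ i) (he : i % 2 = 0) (hr : 2 * (r : ℤ) < ss K (i + 1))
    (hx : s1_In h i r x) (hy : s1_H h y) (e1 : s1_s h i x = s1_s h i y)
    (e2 : h.res x (i + 1) = h.res y (i + 1)) (e3 : x.1 (s1_z h i x) = y.1 (s1_z h i y)) :
    Agree x y r := by
  have e4 : s1_z h i y = s1_z h i x := by rw [s1_z, s1_z, s1_u, s1_u, e1, e2]
  have hP := ss_pos (K := K) i
  have hm := three_le_mm i
  have k1 : ∀ v, s1_H h v → h.res (s1_z h i v +ᵥ v) (i + 2) = 2 * ss K i := fun v hv => by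
    have e : s1_s h i v + co i (s1_z h i v) = 2 * ss K i := by rw [(s1_co_z h i _).1]; ring
    rw [s1_zn hi he hv _ (by rw [e]; exact ⟨le_rfl, by nlinarith⟩), e]
  have k2 : ∀ v, h.res (s1_z h i v +ᵥ v) (i + 1) = 0 := fun v => by
    rw [h.res_vadd, (s1_co_z h i _).2, s1_u]
    split_ifs <;> simp
  intro w h1 h2
  have k3 := (h.zd hi (k1 x hx.1) (k1 y hy) (k2 x) (k2 y) (by simpa using e3) (w - s1_z h i x)
    (by
      rw [co_sub, (s1_co_z h i _).1]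
      exact (congrArg (Zn K i) (by ring)).mp (hx.zn h1 h2))
    (by
      rw [co_sub, (s1_co_z h i _).2]
      have := abs_le.1 (abs_co_le (i + 1) h1 h2)
      have := h.res_nonneg x (i + 1)
      have := h.res_lt x (i + 1)
      rw [abs_lt]
      unfold s1_u
      split_ifs <;> omega)).1
  rwa [e4, vadd_val, vadd_val, sub_add_cancel] at k3

theorem s1_agree_sig (hi : K + 1 ≤ i) (he : i % 2 = 0) (hx : s1_In h i r x) (hy : s1_H h y)
    (e1 : s1_s h i x = s1_s h i y) (e2 : h.res x (i + 1) = h.res y (i + 1))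
    (hd : (r : ℤ) < s1_d h i x) (e3 : h.sig i x = h.sig i y) : Agree x y r := by
  intro w h1 h2
  have hd' : (r : ℤ) < s1_d h i y := by rwa [s1_d, ← e2]
  have k1 := s1_far hd (abs_co_le (i + 1) h1 h2)
  have k2 := s1_far hd' (abs_co_le (i + 1) h1 h2)
  have k3 := s1_zn hi he hx.1 w (hx.zn h1 h2)
  have k4 := s1_zn hi he hy w (e1 ▸ hx.zn h1 h2)
  have := h.z1 i hi (w +ᵥ x) (w +ᵥ y) (k3 ▸ hx.zn h1 h2) (by rw [k3, k4, e1])
    (by rw [k1.1, k2.1, e2]) (by rw [k1.1]; exact k1.2.2.ne') (by rw [k1.2.1, k2.2.1, e3])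
  simpa using this

theorem s1_agree_cell (hi : K + 1 ≤ i) (he : i % 2 = 0) (hx : s1_In h i r x)
    (hy : s1_In h i r y) (e1 : h.res x i = h.res y i) (e2 : h.res x (i + 1) = h.res y (i + 1))
    (hd : (r : ℤ) < s1_d h i x) (hd2 : 3 * (s1_d h i x + r) < ss K (i + 1))
    (e3 : h.sig i x = h.sig i y) : Agree x y r := by
  intro w h1 h2
  have hd' : (r : ℤ) < s1_d h i y := by rwa [s1_d, ← e2]
  have k0 := abs_co_le (i + 1) h1 h2
  have k1 := s1_far hd k0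
  have k2 := s1_far hd' k0
  have k3 := s1_zn hi he hx.1 w (hx.zn h1 h2)
  have k4 := s1_zn hi he hy.1 w (hy.zn h1 h2)
  have := h.z2 i hi (w +ᵥ x) (w +ᵥ y) (k3 ▸ hx.zn h1 h2) (k4 ▸ hy.zn h1 h2)
    (by rw [h.res_vadd, h.res_vadd, e1]) (by rw [k1.1, k2.1, e2])
    (by rw [k1.1]; exact k1.2.2.ne')
    (by
      rw [k1.1]
      rw [abs_le] at k0
      unfold s1_d at hd2
      omega) (by rw [k1.2.1, k2.2.1, e3])
  simpa using this

theorem s1_mv {g : Equiv.Perm W.Pt} (hg : Rad g r) (p : W.Pt) :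
    ∃ z : Z2, |z.1| ≤ r ∧ |z.2| ≤ r ∧ (g p).1 = z +ᵥ p.1 ∧ ∀ q : W.Pt, q.2 = p.2 →
      Agree p.1 q.1 r → (g q).1 = z +ᵥ q.1 ∧ (g q).2 = (g p).2 := by
  obtain ⟨b, h1, h2, h3⟩ := hg p.1 p.2
  have h4 : g p = pt b p.1 := h3 p.1 (Agree.refl _ _)
  refine ⟨b.1, h1, h2, by rw [h4]; rfl, fun q hq ha => ?_⟩
  have h5 : g q = pt b q.1 := by rw [← h3 q.1 ha, ← hq]
  rw [h4, h5]
  exact ⟨rfl, rfl⟩

end Vale.Agent.P196
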