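import Vale.Agent.P196.StageAAux

/-! P196 task X2: the marker splits a stage according to the next digit. -/

namespace Vale.Agent.P196

namespace SA

variable {A Ω : Type} [QL Ω] [Fintype A] {q : ℤ → ℤ → PVM A Ω} {c : A → Core} {m : ℤ} {f g : Ω}
  {u v v0 : ℤ}

theorem cov_adj (h : Stage q c m f) (hm : 3 ≤ m) (h0 : 3 * m ∣ v0) (u : ℤ) :
    Cov (Pc h u (v0 + 1) fun x => x.adj = true)
      fun p => ∃ j, 0 ≤ j ∧ j ≤ 2 * m ∧ PH q c m p u v0 j := by
  have tr : ∀ r, 1 ≤ r → r < 3 * m → ∀ d0 : Dm, d0 ≠ .B → ∀ p, Le p f →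
      (Fr q c p u (v0 + r) fun x => x.adj = true ∧ x.Bl.dm = .B ∧ x.Ab.dm = d0) →
      Cov p fun p => ∃ j, 0 ≤ j ∧ j ≤ 2 * m ∧ PH q c m p u v0 j := by
    intro r a b d0 hd p hp h1
    rcases col_of_tr h hm hp h0 a b (fun r' a' b' => s1' h hp (blk h0 a b).1
      (h1.mono fun _ hx => hx.1) (blk h0 a' b').1) hd (h1.mono fun _ hx => hx.2) with h2 | h2
    · exact Cov.of_null h2
    · exact Cov.refl h2
  have key : ∀ r, r ≤ 3 * m → 1 ≤ r → r < 3 * m →
      Cov (Pc h u (v0 + r) fun x => x.adj = true ∧ x.Bl.dm = .B)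
      fun p => ∃ j, 0 ≤ j ∧ j ≤ 2 * m ∧ PH q c m p u v0 j := by
    intro r hr
    induction r, hr using Int.leInductionDown with
    | base => intro _ b; omega
    | pred r hr ih =>
      intro a b
      refine Cov.of_sum (pc_split h _ _ _ fun x => x.Ab.dm = .B) ?_
        (Cov.of_sum (pc_split h _ _ _ fun x => x.Ab.dm = .U)
          (tr _ a b .U (by simp) _ (pc_le h) ((pc_fr h).mono fun x hx => ⟨hx.1.1.1, hx.1.1.2, hx.2⟩))
          (Cov.of_sum (pc_split h _ _ _ fun x => x.Ab.dm = .D)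
            (tr _ a b .D (by simp) _ (pc_le h)
              ((pc_fr h).mono fun x hx => ⟨hx.1.1.1.1, hx.1.1.1.2, hx.2⟩))
            (tr _ a b .A (by simp) _ (pc_le h)
              ((pc_fr h).mono fun x hx => ⟨hx.1.1.1.1, hx.1.1.1.2, ?_⟩))))
      · by_cases hr' : r = 3 * m
        · refine Cov.of_null (((pc_fr h).and (fr_lo' h (pc_le h) u h0 a b)).null fun x hx => ?_)
          have := (hx.2.1.ad hx.1.1.1).2.2.2.2.2 (hx.2.2.trans ((ty_l hm).2 (by omega)))
          rw [hx.1.2] at this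
          cases this
        · refine (ih (by omega) (by omega)).congr (le_pc h (pc_le h) ?_) (le_pc h (pc_le h) ?_)
          · have e1 := s1' h (pc_le h) (blk h0 (by omega : 1 ≤ r) (by omega)).1
              ((pc_fr h (u := u) (φ := fun x => x.adj = true ∧ x.Bl.dm = .B)).mono
                fun _ hx => hx.1) (blk h0 a b).1
            have e2 := Fr.down (χ := fun l => l.dm = .B) (v := v0 + (r - 1)) h (pc_le h)
              (((pc_fr h (u := u) (v := v0 + r)
                (φ := fun x => x.adj = true ∧ x.Bl.dm = .B)).mono fun _ hx => hx.2).cast rfl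
                (by ring))
            refine ((e1.and e2).and (fr_lo' h (pc_le h) u h0 a b)).mono fun x hx =>
              ⟨⟨hx.1.1, ?_⟩, hx.1.2⟩
            have h5 := (hx.2.1.ad hx.1.1).2.2.2.1
            rw [hx.1.2] at h5
            simp only [dmT] at h5
            aesop
          · exact (s1' h (pc_le h) (blk h0 a b).1 ((pc_fr h).mono fun _ hx => hx.1.1)
              (blk h0 (by omega : 1 ≤ r) (by omega)).1).and
              ((Fr.up (χ := fun l => l.dm = .B) h (pc_le h)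
                ((pc_fr h).mono fun _ hx => hx.2)).cast rfl (by ring))
      · obtain ⟨⟨⟨-, e1⟩, e2⟩, e3⟩ := hx
        revert e1 e2 e3
        cases x.Ab.dm <;> simp
  refine (key 1 (by omega) le_rfl (by omega)).congr
    (le_pc h (pc_le h) ((pc_fr h).mono fun _ hx => hx.1)) (le_pc h (pc_le h) ?_)
  exact ((pc_fr h).and (fr_lo' h (pc_le h) u h0 le_rfl (by omega))).mono fun x hx =>
    ⟨hx.1, (hx.2.1.ad hx.1).2.2.2.2.1 (hx.2.2.trans (ty_f.2 rfl))⟩

theorem cov0 (h : Stage q c m f) (hm : 3 ≤ m) (h0 : 3 * m ∣ v0) (u : ℤ) :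
    Cov f fun p => (Fr q c p u (v0 + 1) fun x => x.adj = false) ∨
      ∃ j, 0 ≤ j ∧ j ≤ 2 * m ∧ PH q c m p u v0 j :=
  Cov.of_sum (pc_sum h u (v0 + 1) fun x => x.adj = true)
    ((cov_adj h hm h0 u).imp fun _ _ hp => Or.inr hp)
    (Cov.refl (Or.inl ((pc_fr h).mono fun x hx => by simpa using hx)))

theorem hh_range (hm : 3 ≤ m) {j : ℤ} (h1 : 0 ≤ j) (h2 : j ≤ 2 * m) :
    1 ≤ hh m j ∧ hh m j < 3 * m := by
  unfold hh; split_ifs <;> omega

theorem um_ne (hm : 3 ≤ m) {j j' : ℤ} (h1 : 0 ≤ j) (h2 : j ≤ 2 * m) (h3 : 0 ≤ j')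
    (h4 : j' ≤ 2 * m) (h : um m (hh m j) j = um m (hh m j) j') : j = j' := by
  have e : um m (hh m j) j = ms m j := by simp [um, ph_of_le h2]
  rw [e] at h
  unfold ms at h
  split_ifs at h
  all_goals
    simp only [um_up h4, um_dn h4, um_done hm h4, hh] at h
    try split_ifs at h
    all_goals omega

theorem nn_ph (h : Stage q c m f) (hm : 3 ≤ m) (h0 : 3 * m ∣ v0) (hg : Le g f) (hv : ¬ 3 * m ∣ v)
    (h1 : Fr q c g u v fun x => x.adj = false) : PH q c m g u v0 0 := by
  have a0 : ∀ r, 1 ≤ r → r < 3 * m → Fr q c g u (v0 + r) fun x => x.adj = false ∧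
      x.R.st = .s0 ∧ ((x.L.um = .no ∧ x.R.um = .no) ∨ (x.L.um = .done ∧ x.R.um = .up ∧ r = m)) :=
    fun r a b => ((s1 h hg hv h1 (blk h0 a b).1).and (fr_lo' h hg u h0 a b)).mono fun x hx => by
      obtain ⟨-, -, e1, e2⟩ := hx.2.1.gg hx.1
      refine ⟨hx.1, e1, e2.imp_right fun e3 => ⟨e3.1, e3.2, ?_⟩⟩
      have := hx.2.1.okL.2.2 e3.1
      rwa [hx.2.2, ty_z1 hm] at this
  have a1 : Fr q c g (u + 1) (v0 + m) fun x => x.L.um = .up := by
    refine fr_of_cov (cov0 h hm h0 (u + 1)) hg fun p hp hq => ?_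
    rcases hq with hq | ⟨j, b1, b2, hq⟩
    · refine Or.inl ((hq.and (fr_lo' h hp _ h0 le_rfl (by omega))).orth
        (Fr.rst (χ := fun s => s = .s0) h hg ((a0 1 le_rfl (by omega)).mono fun _ hx => hx.2.1))
        fun x a b => ?_)
      have := (a.2.1.gg a.1).2.1
      rw [b] at this
      cases this
    · have e0 := prv_spec m j
      by_cases hj : j = 1
      · refine Or.inr ((hq m (by omega) (by omega)).mono fun x hx => hx.2.1.trans ?_)
        exact ((um_up (by omega)).2 (by omega)).symm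
      · obtain ⟨r1, r2⟩ := hh_range hm (j := prv m j) (by omega) (by omega)
        refine Or.inl ((hq _ r1 r2).orth (Fr.rum
          (χ := fun s => s = .no ∨ (s = .up ∧ hh m (prv m j) = m)) h hg
          ((a0 _ r1 r2).mono fun x hx => hx.2.2.imp And.right And.right)) fun x a b => ?_)
        rw [a.2.1] at b
        rcases b with b | ⟨b, b'⟩
        · have := (um_no (by omega)).1 b.symm
          unfold hh at this
          split_ifs at this <;> omega
        · have := (um_up (by omega)).1 b.symm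
          omega
  intro r a b
  have e1 : prv m 0 = 2 * m := by simp [prv]
  by_cases hr : r = m
  · subst hr
    refine ((a0 r a b).and (Fr.lum (χ := fun s => s = .up) h hg a1)).mono fun x hx => ?_
    obtain ⟨⟨c1, -, c2⟩, c3⟩ := hx
    rcases c2 with c2 | c2
    · rw [c2.2] at c3; cases c3
    · exact ⟨c3.trans ((um_up (by omega)).2 (by omega)), c2.1.trans
        ((um_done hm (by omega)).2 (by omega)), Or.inl ⟨rfl, c1⟩⟩
  · refine (a0 r a b).mono fun x hx => ?_
    obtain ⟨c1, -, c2⟩ := hx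
    rcases c2 with c2 | c2
    · exact ⟨c2.2.trans ((um_no (by omega)).2 (by omega)), c2.1.trans
        ((um_no (by omega)).2 (by omega)), Or.inl ⟨rfl, c1⟩⟩
    · exact (hr c2.2.2).elim

theorem cov1 (h : Stage q c m f) (hm : 3 ≤ m) (h0 : 3 * m ∣ v0) (u : ℤ) :
    Cov f fun p => ∃ j, 0 ≤ j ∧ j ≤ 2 * m ∧ PH q c m p u v0 j :=
  (cov0 h hm h0 u).imp fun _ hp hq => hq.elim
    (fun h1 => ⟨0, le_rfl, by omega, nn_ph h hm h0 hp (blk h0 le_rfl (by omega)).1 h1⟩) id

theorem step_fwd (h : Stage q c m f) (hm : 3 ≤ m) (h0 : 3 * m ∣ v0) (hg : Le g f) {j : ℤ}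
    (h1 : 0 ≤ j) (h2 : j ≤ 2 * m) (hp : PH q c m g u v0 j) : PH q c m g (u + 1) v0 (nx m j) := by
  intro r a b
  refine fr_of_cov (cov1 h hm h0 (u + 1)) hg fun p _ ⟨j', b1, b2, hq⟩ => ?_
  by_cases hj : j' = nx m j
  · exact Or.inr (hj ▸ hq r a b)
  · obtain ⟨r1, r2⟩ := hh_range hm h1 h2
    refine Or.inl ((hq _ r1 r2).orth (Fr.rum (χ := fun s => s = um m (hh m j) j) h hg
      ((hp _ r1 r2).mono fun x hx => hx.1)) fun x a b => ?_)
    have e0 := prv_spec m j'
    have e1 := nx_spec m j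
    have := um_ne hm h1 h2 (by omega) (by omega) (b.symm.trans a.2.1)
    omega

theorem step_bwd (h : Stage q c m f) (hm : 3 ≤ m) (h0 : 3 * m ∣ v0) (hg : Le g f) {j : ℤ}
    (h1 : 0 ≤ j) (h2 : j ≤ 2 * m) (hp : PH q c m g (u + 1) v0 j) :
    PH q c m g u v0 (prv m j) := by
  intro r a b
  refine fr_of_cov (cov1 h hm h0 u) hg fun p hf ⟨j', b1, b2, hq⟩ => ?_
  by_cases hj : j' = prv m j
  · exact Or.inr (hj ▸ hq r a b)
  · obtain ⟨r1, r2⟩ := hh_range hm b1 b2
    refine Or.inl ((Fr.rum (χ := fun s => s = um m (hh m j') j') h hf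
      ((hq _ r1 r2).mono fun x hx => hx.1)).orth (hp _ r1 r2) fun x a b => ?_)
    have e0 := prv_spec m j
    exact hj (um_ne hm b1 b2 (by omega) (by omega) (a.symm.trans b.2.1))

theorem emod_succ {M : ℤ} (hM : 0 < M) (t : ℤ) :
    (t % M = M - 1 ∧ (t + 1) % M = 0) ∨ (t % M ≠ M - 1 ∧ (t + 1) % M = t % M + 1) := by
  have h1 := Int.emod_nonneg t hM.ne'
  have h2 := Int.emod_lt_of_pos t hM
  rw [← Int.emod_add_emod]
  by_cases h : t % M = M - 1
  · left; rw [h]; simp
  · right; exact ⟨h, Int.emod_eq_of_lt (by omega) (by omega)⟩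

theorem ph_shift (h : Stage q c m f) (hm : 3 ≤ m) (h0 : 3 * m ∣ v0) (hg : Le g f) {s : ℤ}
    (hp : PH q c m g u v0 (s % (2 * m + 1))) (t : ℤ) :
    PH q c m g (u + t) v0 ((s + t) % (2 * m + 1)) := by
  have hM : (0 : ℤ) < 2 * m + 1 := by omega
  have b : ∀ t, 0 ≤ t % (2 * m + 1) ∧ t % (2 * m + 1) ≤ 2 * m := fun t =>
    ⟨Int.emod_nonneg t hM.ne', by have := Int.emod_lt_of_pos t hM; omega⟩
  induction t using Int.induction_on with
  | zero => simpa using hp
  | succ t ih =>
    have := step_fwd h hm h0 hg (b _).1 (b _).2 ih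
    have e1 := emod_succ hM (s + t)
    have e2 := nx_spec m ((s + t) % (2 * m + 1))
    rw [← add_assoc, ← add_assoc]
    convert this using 1
    omega
  | pred t ih =>
    have := step_bwd (u := u + (-t - 1)) h hm h0 hg (b _).1 (b _).2 (by convert ih using 1; ring)
    have e1 := emod_succ hM (s + (-t - 1))
    have e2 := prv_spec m ((s + -t) % (2 * m + 1))
    have e3 := b (s + (-t - 1))
    rw [show s + (-t - 1) + 1 = s + -t by ring] at e1
    convert this using 1
    omega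

/-- the counter rules along a row, the phase being zero at the column `u` -/
def Row (q : ℤ → ℤ → PVM A Ω) (c : A → Core) (M : ℤ) (g : Ω) (u v : ℤ) : Prop :=
  ∀ t, Fr q c g (u + t) v fun x =>
    ((x.adj = false ∧ x.L.st = .e ∧ x.R.st = .s0) ∨ (x.adj = true ∧ stT x.L.st x.Bl.ty x.R.st)) ∧
    (t % M = 0 → x.adj = false ∨ Zone x.Bl.ty) ∧ (t % M ≠ 0 → x.adj = true ∧ ¬ Zone x.Bl.ty)

theorem row_of_ph (h : Stage q c m f) (hm : 3 ≤ m) (h0 : 3 * m ∣ v0) (hg : Le g f)
    (hp : PH q c m g u v0 0) {r : ℤ} (a : 1 ≤ r) (b : r < 3 * m) :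
    Row q c (2 * m + 1) g u (v0 + r) := by
  intro t
  have := ph_shift (s := 0) h hm h0 hg (by simpa using hp) t r a b
  rw [zero_add] at this
  refine (this.and (fr_lo' h hg _ h0 a b)).mono fun x hx => ⟨?_, fun e => ?_, fun e => ?_⟩
  · cases ha : x.adj
    · exact Or.inl ⟨rfl, (hx.2.1.gg ha).2.1, (hx.2.1.gg ha).2.2.1⟩
    · exact Or.inr ⟨rfl, (hx.2.1.ad ha).2.2.1⟩
  · exact hx.1.2.2.imp And.right fun e1 => e1.2.2.2.2 e
  · rcases hx.1.2.2 with e1 | e1
    · exact (e e1.1).elim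
    · exact ⟨e1.1, fun e2 => e (e1.2.2.2.1 e2)⟩

omit [Fintype A] in
theorem Row.shift {M : ℤ} (h : Row q c M g u v) (s : ℤ) : Row q c M g (u + M * s) v := by
  intro t
  have := h (t + M * s)
  rw [Int.add_mul_emod_self_left] at this
  exact this.cast (by ring) rfl

omit [Fintype A] in
theorem run_fwd (h : Stage q c m f) (hg : Le g f) {M : ℤ} (hr : Row q c M g u v) (χ : St → Prop)
    (hχ : ∀ s t s', χ s → stT s t s' → ¬ Zone t → χ s') (h1 : Fr q c g u v fun x => χ x.R.st)
    (t : ℤ) (a : 0 ≤ t) (b : t < M) : Fr q c g (u + t) v fun x => χ x.R.st := by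
  induction t, a using Int.leInduction with
  | base => simpa using h1
  | succ t ht ih =>
    have e : (t + 1) % M ≠ 0 := by rw [Int.emod_eq_of_lt (by omega) b]; omega
    refine (((Fr.rst h hg (ih (by omega))).cast (add_assoc _ _ _) rfl).and (hr (t + 1))).mono
      fun x hx => ?_
    obtain ⟨c1, c2, -, c3⟩ := hx
    obtain ⟨c4, c5⟩ := c3 e
    rcases c2 with c2 | c2
    · rw [c4] at c2; cases c2.1
    · exact hχ _ _ _ c1 c2.2 c5

omit [Fintype A] in
theorem run_bwd (h : Stage q c m f) (hg : Le g f) {M : ℤ} (hM : 0 < M) (hr : Row q c M g u v)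
    (χ : St → Prop) (hχ : ∀ s t s', χ s' → stT s t s' → ¬ Zone t → χ s)
    (h1 : Fr q c g (u + M) v fun x => χ x.L.st) : Fr q c g u v fun x => χ x.R.st := by
  have key : ∀ t, t ≤ M → 1 ≤ t → Fr q c g (u + t) v fun x => χ x.L.st := by
    intro t ht
    induction t, ht using Int.leInductionDown with
    | base => exact fun _ => h1
    | pred t ht ih =>
      intro a
      have e : (t - 1) % M ≠ 0 := by rw [Int.emod_eq_of_lt (by omega) (by omega)]; omega
      refine ((Fr.lst (u := u + (t - 1)) h hg ((ih (by omega)).cast (by ring) rfl)).and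
        (hr (t - 1))).mono fun x hx => ?_
      obtain ⟨c1, c2, -, c3⟩ := hx
      obtain ⟨c4, c5⟩ := c3 e
      rcases c2 with c2 | c2
      · rw [c4] at c2; cases c2.1
      · exact hχ _ _ _ c1 c2.2 c5
  exact Fr.lst h hg (key 1 (by omega) le_rfl)

omit [Fintype A] in
theorem Row.zero {M : ℤ} (hr : Row q c M g u v) : Fr q c g u v fun x =>
    (x.adj = false ∧ x.L.st = .e ∧ x.R.st = .s0) ∨
      (x.adj = true ∧ stT x.L.st x.Bl.ty x.R.st ∧ Zone x.Bl.ty) :=
  ((hr 0).cast (add_zero u) rfl).mono fun x hx => by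
    rcases hx.1 with e | e
    · exact Or.inl e
    · refine Or.inr ⟨e.1, e.2, (hx.2.1 (by simp)).resolve_left ?_⟩
      simp [e.1]

omit [Fintype A] in
theorem backA (h : Stage q c m f) (hg : Le g f) {M : ℤ} (hM : 0 < M) (hr : Row q c M g u v)
    (h1 : Fr q c g (u + M) v fun x => x.L.st = .a) : Fr q c g u v fun x => x.adj = false :=
  ((run_bwd h hg hM hr (fun s => s = .s0 ∨ s = .a) (by simp only [stT]; aesop)
    (h1.mono fun _ hx => Or.inr hx)).and hr.zero).mono fun x hx => by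
      simp only [stT, Zone] at hx; aesop

omit [Fintype A] in
theorem backB (h : Stage q c m f) (hg : Le g f) {M : ℤ} (hM : 0 < M) (hr : Row q c M g u v)
    (h1 : Fr q c g (u + M) v fun x => x.L.st = .b) : Fr q c g u v fun x => x.L.st = .a :=
  ((run_bwd h hg hM hr (fun s => s = .b) (by simp only [stT, Zone]; aesop) h1).and hr.zero).mono
    fun x hx => by simp only [stT, Zone] at hx; aesop

omit [Fintype A] in
theorem backC (h : Stage q c m f) (hg : Le g f) {M : ℤ} (hM : 0 < M) (hr : Row q c M g u v)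
    (h1 : Fr q c g (u + M) v fun x => x.L.st = .e) : Fr q c g u v fun x => x.L.st = .b :=
  ((run_bwd h hg hM hr (fun s => s = .c ∨ s = .e) (by simp only [stT, Zone]; aesop)
    (h1.mono fun _ hx => Or.inr hx)).and hr.zero).mono fun x hx => by
      simp only [stT, Zone] at hx; aesop

omit [Fintype A] in
theorem back3 (h : Stage q c m f) (hg : Le g f) {M : ℤ} (hM : 0 < M) (hr : Row q c M g u v)
    (h1 : Fr q c g u v fun x => x.adj = false) : Fr q c g (u - 3 * M) v fun x => x.adj = false := by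
  have a1 : Fr q c g u v fun x => x.L.st = .e := (h1.and hr.zero).mono fun x hx => by aesop
  have a2 := backC h hg hM (hr.shift (-1)) (a1.cast (by ring) rfl)
  have a3 := backB h hg hM (hr.shift (-2)) (a2.cast (by ring) rfl)
  exact (backA h hg hM (hr.shift (-3)) (a3.cast (by ring) rfl)).cast (by ring) rfl

omit [Fintype A] in
theorem fwd3 (h : Stage q c m f) (hg : Le g f) {M : ℤ} (hM : 2 ≤ M) (hr : Row q c M g u v)
    (h1 : Fr q c g u v fun x => x.adj = false) :
    (Fr q c g (u + 3 * M) v fun x => x.adj = false) ∧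
      ∀ t, 0 ≤ t → t < 3 * M → Fr q c g (u + t) v fun x => x.R.st = st M t := by
  have a0 : Fr q c g u v fun x => x.R.st = .s0 := (h1.and hr.zero).mono fun x hx => by aesop
  have a1 : ∀ t, 1 ≤ t → t < M → Fr q c g (u + t) v fun x => x.R.st = .a := fun t a b =>
    ((run_fwd h hg hr (fun s => s = .s0 ∨ s = .a) (by simp only [stT, Zone]; aesop)
      (a0.mono fun _ hx => Or.inl hx) t (by omega) b).and (hr t)).mono fun x hx => by
        have e : t % M ≠ 0 := by rw [Int.emod_eq_of_lt (by omega) b]; omega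
        obtain ⟨c1, c2, -, c3⟩ := hx
        have := (c3 e).1
        simp only [stT] at c2
        aesop
  have a2 : Fr q c g (u + M * 1) v fun x => x.R.st = .b :=
    (((Fr.rst (χ := fun s => s = .a) h hg (a1 (M - 1) (by omega) (by omega))).cast
      (by ring) rfl).and (hr.shift 1).zero).mono fun x hx => by
        simp only [stT, Zone] at hx; aesop
  have a3 := run_fwd h hg (hr.shift 1) (fun s => s = .b) (by simp only [stT, Zone]; aesop) a2
  have a4 : Fr q c g (u + M * 2) v fun x => x.R.st = .c :=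
    (((Fr.rst (χ := fun s => s = .b) h hg (a3 (M - 1) (by omega) (by omega))).cast
      (by ring) rfl).and (hr.shift 2).zero).mono fun x hx => by
        simp only [stT, Zone] at hx; aesop
  have a5 := run_fwd h hg (hr.shift 2) (fun s => s = .c ∨ s = .e)
    (by simp only [stT, Zone]; aesop) (a4.mono fun _ hx => Or.inl hx)
  have a6 : Fr q c g (u + M * 3) v fun x => x.adj = false ∧ x.L.st = .e :=
    (((Fr.rst (χ := fun s => s = .c ∨ s = .e) h hg (a5 (M - 1) (by omega) (by omega))).cast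
      (by ring) rfl).and (hr.shift 3).zero).mono fun x hx => by
        simp only [stT, Zone] at hx; aesop
  refine ⟨(a6.mono fun _ hx => hx.1).cast (by ring) rfl, fun t a b => ?_⟩
  unfold st
  split_ifs with c1 c2 c3 c4
  · simpa [c1] using a0
  · exact a1 t (by omega) c2
  · exact (a3 (t - M) (by omega) (by omega)).cast (by ring) rfl
  · refine Fr.lst (χ := fun s => s = .c) h hg ?_
    have e : (t + 1 - M * 2) % M ≠ 0 := by rw [Int.emod_eq_of_lt (by omega) (by omega)]; omega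
    refine ((((Fr.rst (χ := fun s => s = .c ∨ s = .e) h hg
      (a5 (t - M * 2) (by omega) (by omega))).cast (by ring) rfl).and
      (hr.shift 2 (t + 1 - M * 2))).mono fun x hx => ?_).cast (by ring) rfl
    obtain ⟨d1, d2, -, d3⟩ := hx
    have := (d3 e).1
    simp only [stT] at d2
    aesop
  · exact Fr.lst (χ := fun s => s = .e) h hg ((a6.mono fun _ hx => hx.2).cast (by omega) rfl)

theorem ty_of_stT {M t : ℤ} (hM : 3 ≤ M) (a : 1 ≤ t) {τ : Ty}
    (h : stT (st M (t - 1)) τ (st M t)) : τ = ty M t := by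
  unfold st at h
  unfold ty
  split_ifs at h ⊢ <;> first | omega | (simp only [stT] at h; aesop)

theorem ph_eq {t : ℤ} (a : 0 ≤ t) (b : t < 3 * (2 * m + 1)) : ph m t = t % (2 * m + 1) := by
  unfold ph
  split_ifs with h1 h2
  · exact (Int.emod_eq_of_lt a h1).symm
  · rw [← Int.sub_emod_right t, Int.emod_eq_of_lt (by omega) (by omega)]
  · rw [← Int.sub_mul_emod_self_right t 2, Int.emod_eq_of_lt (by omega) (by omega)]

theorem dm_last (hm : 3 ≤ m) {z : ℤ} (a : 0 ≤ z) (b : z < 3 * (2 * m + 1)) :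
    dm m (3 * m - 1) z = .A := by
  have : 0 ≤ ph m z ∧ ph m z ≤ 2 * m := by unfold ph; split_ifs <;> omega
  unfold dm
  split_ifs <;> first | rfl | omega

theorem dm_zero (hm : 3 ≤ m) {z : ℤ} (a : 0 ≤ z) (b : z < 3 * (2 * m + 1)) :
    dm m (1 - 1) z = .B := by
  have : 0 ≤ ph m z ∧ ph m z ≤ 2 * m := by unfold ph; split_ifs <;> omega
  unfold dm
  split_ifs <;> first | rfl | omega

theorem lowF_of (hm : 3 ≤ m) {r z z' j : ℤ} {x : Core} (b1 : 0 ≤ z) (b2 : z < 3 * (2 * m + 1))
    (b5 : (z' = 3 * (2 * m + 1) - 1 ∧ z = 0) ∨ (z' ≠ 3 * (2 * m + 1) - 1 ∧ z = z' + 1))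
    (b6 : ph m z = j) (b7 : ph m z' = prv m j) (b8 : ph m j = j)
    (b10 : ph m (prv m j) = prv m j) (c1 : x.R.st = st (2 * m + 1) z)
    (c2 : x.L.st = st (2 * m + 1) z') (c3 : CF m r j x) (c4 : Rule0 x.adj x.L x.R x.Bl x.Ab) :
    LowF m r z z' x := by
  have e1 : ∀ r, um m r z = um m r j := fun r => by simp only [um, b6, b8]
  have e2 : ∀ r, um m r z' = um m r (prv m j) := fun r => by simp only [um, b7, b10]
  have e3 : ∀ r, dm m r z = dm m r j := fun r => by simp only [dm, b6, b8]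
  have e4 : x.adj = true ↔ z ≠ 0 := by
    constructor
    · rintro ha rfl
      have := (c4.ad ha).2.2.1
      rw [c1] at this
      simp [st, stT] at this
    · intro hz
      by_contra ha
      have := (c4.gg (by simpa using ha)).2.2.1
      rw [c1] at this
      unfold st at this
      split_ifs at this
      omega
  refine ⟨e4, c1, c2, c3.1.trans (e1 r).symm, c3.2.1.trans (e2 r).symm, fun hz => ?_⟩
  have ha := e4.2 hz
  have e5 := (c4.ad ha).2.2.1
  rw [c1, c2, show z' = z - 1 by omega] at e5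
  rcases c3.2.2 with e6 | e6
  · rw [ha] at e6; cases e6.2
  · exact ⟨c4.ty2.symm.trans (ty_of_stT (by omega) (by omega) e5), e6.2.1.trans (e3 _).symm,
      e6.2.2.1.trans (e3 _).symm⟩

theorem out_of_nn (h : Stage q c m f) (hm : 3 ≤ m) (hg : Le g f) {w : ℤ}
    (h1 : Fr q c g (-w) 1 fun x => x.adj = false) : StageOut q c m w g := by
  have h1' : ¬ 3 * m ∣ (1 : ℤ) := by simpa using (blk (dvd_zero (3 * m)) le_rfl (by omega)).1
  have hN : (0 : ℤ) < 3 * (2 * m + 1) := by omega
  have low : ∀ u v, ¬ 3 * m ∣ v → Fr q c g u v (LowF m (v % (3 * m))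
      ((u + w) % (3 * (2 * m + 1))) ((u + w - 1) % (3 * (2 * m + 1)))) := by
    intro u v hv
    obtain ⟨v0, r, h0, a, b, rfl⟩ : ∃ v0 r, 3 * m ∣ v0 ∧ 1 ≤ r ∧ r < 3 * m ∧ v = v0 + r := by
      have e1 := Int.emod_nonneg v (by omega : 3 * m ≠ 0)
      have e2 : v % (3 * m) ≠ 0 := fun e => hv (Int.dvd_of_emod_eq_zero e)
      exact ⟨3 * m * (v / (3 * m)), v % (3 * m), dvd_mul_right _ _, by omega,
        Int.emod_lt_of_pos v (by omega), (Int.mul_ediv_add_emod _ _).symm⟩
    rw [(blk h0 a b).2]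
    have p0 := nn_ph h hm h0 hg h1' h1
    have hr := row_of_ph h hm h0 hg p0 a b
    have n1 : ∀ s : ℤ, Fr q c g (-w + (2 * m + 1) * (3 * s)) (v0 + r) fun x => x.adj = false := by
      intro s
      induction s using Int.induction_on with
      | zero => simpa using s1 h hg h1' h1 hv
      | succ s ih => exact (fwd3 h hg (by omega) (hr.shift _) ih).1.cast (by ring) rfl
      | pred s ih => exact (back3 h hg (by omega) (hr.shift _) ih).cast (by ring) rfl
    have n2 : ∀ u, Fr q c g u (v0 + r) fun x =>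
        x.R.st = st (2 * m + 1) ((u + w) % (3 * (2 * m + 1))) := fun u =>
      ((fwd3 h hg (by omega) (hr.shift _) (n1 ((u + w) / (3 * (2 * m + 1))))).2 _
        (Int.emod_nonneg (u + w) hN.ne') (Int.emod_lt_of_pos (u + w) hN)).cast (by
          have := Int.mul_ediv_add_emod (u + w) (3 * (2 * m + 1))
          linarith) rfl
    have n3 := (Fr.rst (χ := fun s => s = st (2 * m + 1) ((u + w - 1) % (3 * (2 * m + 1)))) h hg
      (by simpa [sub_add_eq_add_sub] using n2 (u - 1))).cast (sub_add_cancel u 1) rfl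
    have n4 := (ph_shift (s := 0) h hm h0 hg (by simpa using p0) (u + w) r a b).cast
      (by ring : _ = u) rfl
    rw [zero_add] at n4
    have b1 := Int.emod_nonneg (u + w) hN.ne'
    have b2 := Int.emod_lt_of_pos (u + w) hN
    have b3 := Int.emod_nonneg (u + w - 1) hN.ne'
    have b4 := Int.emod_lt_of_pos (u + w - 1) hN
    have b5 := emod_succ hN (u + w - 1)
    rw [sub_add_cancel] at b5
    have b6 : ph m ((u + w) % (3 * (2 * m + 1))) = (u + w) % (2 * m + 1) := by
      rw [ph_eq b1 b2, Int.emod_emod_of_dvd _ (dvd_mul_left _ _)]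
    have b9 := Int.emod_lt_of_pos (u + w) (by omega : 0 < 2 * m + 1)
    have b7 : ph m ((u + w - 1) % (3 * (2 * m + 1))) = prv m ((u + w) % (2 * m + 1)) := by
      rw [ph_eq b3 b4, Int.emod_emod_of_dvd _ (dvd_mul_left _ _)]
      have e1 := emod_succ (by omega : 0 < 2 * m + 1) (u + w - 1)
      have e3 := Int.emod_nonneg (u + w - 1) (by omega : 2 * m + 1 ≠ 0)
      rw [sub_add_cancel] at e1
      have e2 := prv_spec m ((u + w) % (2 * m + 1))
      omega
    have b8 : ph m ((u + w) % (2 * m + 1)) = (u + w) % (2 * m + 1) := ph_of_le (by omega)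
    have b10 : ph m (prv m ((u + w) % (2 * m + 1))) = prv m ((u + w) % (2 * m + 1)) :=
      ph_of_le (by have := prv_spec m ((u + w) % (2 * m + 1)); omega)
    refine ((((n2 u).and n3).and n4).and (fr_lo' h hg u h0 a b)).mono fun x hx => ?_
    exact lowF_of hm b1 b2 b5 b6 b7 b8 b10 hx.1.1.1 hx.1.1.2 hx.1.2 hx.2.1
  refine ⟨low, fun u v hv hu => ?_⟩
  have hz : (u + w) % (3 * (2 * m + 1)) ≠ 0 := fun e => hu (Int.dvd_of_emod_eq_zero e)
  have c1 := blk (dvd_sub hv (dvd_refl _)) (r := 3 * m - 1) (by omega) (by omega)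
  have c2 := blk hv (r := 1) le_rfl (by omega)
  have d1 := low u _ c1.1
  have d2 := low u _ c2.1
  rw [c1.2] at d1
  rw [c2.2] at d2
  have d3 := (Fr.up (χ := fun l => l.dm = .A) h hg (d1.mono fun x hx => (hx.col hz).2.1.trans
    (dm_last hm (Int.emod_nonneg _ hN.ne') (Int.emod_lt_of_pos _ hN)))).cast rfl (by ring : _ = v)
  have d4 := Fr.down (χ := fun l => l.dm = .B) h hg (d2.mono fun x hx => (hx.col hz).2.2.trans
    (dm_zero hm (Int.emod_nonneg _ hN.ne') (Int.emod_lt_of_pos _ hN)))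
  show Fr q c g u v fun x => x.cdom = false
  refine ((d3.and d4).and (fr_rule h g u v)).mono fun x hx => ?_
  obtain ⟨⟨e1, e2⟩, e3⟩ := hx
  cases hc : x.cdom
  · rfl
  · cases ha : x.adj
    · have := ((e3.1 hc).gg ha).1
      rw [this, e2] at e1
      cases e1
    · have := ((e3.1 hc).ad ha).2.2.2.1
      rw [e1, e2] at this
      simp [dmT] at this

end SA

variable {A Ω : Type} [QL Ω] [Fintype A] {q : ℤ → ℤ → PVM A Ω} {c : A → Core} {m : ℤ} {f : Ω}

theorem stageA (h : Stage q c m f) (hm : 3 ≤ m) :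
    ∃ X : ℤ → Ω, IsPart f (Finset.Ico 0 (3 * (2 * m + 1))) X ∧
      ∀ w ∈ Finset.Ico 0 (3 * (2 * m + 1)), StageOut q c m w (X w) := by
  have l1 := SA.blk (dvd_zero (3 * m)) (r := 1) le_rfl (by omega)
  have lm := SA.blk (dvd_zero (3 * m)) (r := m) (by omega) (by omega)
  have l1' : ¬ 3 * m ∣ (1 : ℤ) := by simpa using l1.1
  have ho : ∀ w, StageOut q c m w (SA.Pc h (-w) 1 fun x => x.adj = false) := fun w =>
    SA.out_of_nn h hm (SA.pc_le h) (SA.pc_fr h)
  refine ⟨fun w => SA.Pc h (-w) 1 fun x => x.adj = false, ⟨fun w hw w' hw' hne => ?_,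
    fun d => ⟨fun hd w _ => SA.pc_le h d hd, fun hd => ?_⟩⟩, fun w _ => ho w⟩
  · refine (SA.pc_fr h).orth (c := c) (ψ := LowF m _ _ _) ((ho w').low (-w) 1 l1')
      fun x a b => ?_
    have e := b.adj
    rw [a] at e
    have e1 : (-w + w') % (3 * (2 * m + 1)) = 0 := by simpa using e
    rw [Finset.mem_Ico] at hw hw'
    exact hne (by
      have := Int.eq_zero_of_abs_lt_dvd (Int.dvd_of_emod_eq_zero e1) (by rw [abs_lt]; omega)
      omega)
  · have hN : ∀ u p, -(3 * (2 * m + 1)) < u → u ≤ 0 → Le p f →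
        (SA.Fr q c p u (0 + m) fun x => x.adj = false) → perp d p := fun u p a b hp h1 =>
      SA.le_pc h hp ((SA.s1 h hp lm.1 h1 l1').cast (neg_neg u).symm rfl) d
        (hd (-u) (Finset.mem_Ico.2 ⟨by omega, by omega⟩))
    have hZ : ∀ u p, Le p f → (SA.Fr q c p u (0 + m) fun x => x.adj = true ∧ SA.Zone x.Bl.ty) →
        SA.Row q c (2 * m + 1) p u (0 + m) := fun u p hp h1 => by
      refine SA.row_of_ph h hm (dvd_zero _) hp (fun r a b => ?_) (by omega) (by omega)
      refine SA.fr_of_cov (SA.cov1 h hm (dvd_zero _) u) hp fun p' _ ⟨j, b1, b2, hq⟩ => ?_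
      by_cases hj : j = 0
      · exact Or.inr (hj ▸ hq r a b)
      · refine Or.inl ((hq m (by omega) (by omega)).orth h1 fun x a b => ?_)
        rcases a.2.2 with e | e
        · exact hj e.1
        · exact hj (e.2.2.2.1 b.2)
    refine perp_symm (Cov.perp_left ((SA.cov1 h hm (dvd_zero _) 0).imp
      fun p hp ⟨j, b1, b2, hq⟩ => perp_symm ?_))
    have a1 := SA.ph_shift (s := j) h hm (dvd_zero _) hp
      (by rwa [Int.emod_eq_of_lt b1 (by omega)]) (-j) m (by omega) (by omega)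
    rw [add_neg_cancel, Int.zero_emod, zero_add (-j)] at a1
    have a2 : Le p (SA.Pc h (-j) (0 + m) fun x => x.adj = false ∨ SA.Zone x.Bl.ty) :=
      SA.le_pc h hp (a1.mono fun x hx => hx.2.2.imp And.right fun e => e.2.2.2.2 rfl)
    refine a2 d (((SA.pc_split h _ _ _ fun x => x.adj = false).2 d).2 ⟨hN (-j) _ (by omega)
      (by omega) (SA.pc_le h) ((SA.pc_fr h).mono fun _ hx => hx.2),
      ((SA.pc_split h _ _ _ fun x => x.L.st = .a).2 d).2 ⟨?_, ?_⟩⟩)
    · have e1 := hZ (-j) _ (SA.pc_le h (u := -j) (v := 0 + m) (φ := fun x =>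
        ((x.adj = false ∨ SA.Zone x.Bl.ty) ∧ ¬ x.adj = false) ∧ x.L.st = .a))
        ((SA.pc_fr h).mono fun x hx => ⟨by simpa using hx.1.2, hx.1.1.resolve_left hx.1.2⟩)
      exact hN _ _ (by omega) (by omega) (SA.pc_le h) (SA.backA h (SA.pc_le h) (by omega)
        (e1.shift (-1)) (((SA.pc_fr h).mono fun _ hx => hx.2).cast (by ring) rfl))
    · have e1 := hZ (-j) _ (SA.pc_le h (u := -j) (v := 0 + m) (φ := fun x =>
        ((x.adj = false ∨ SA.Zone x.Bl.ty) ∧ ¬ x.adj = false) ∧ ¬ x.L.st = .a))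
        ((SA.pc_fr h).mono fun x hx => ⟨by simpa using hx.1.2, hx.1.1.resolve_left hx.1.2⟩)
      have e2 := ((SA.pc_fr h).and e1.zero).mono (ψ := fun x => x.L.st = .b) fun x hx => by
        simp only [stT, SA.Zone] at hx; aesop
      have e3 := SA.backB h (SA.pc_le h) (by omega) (e1.shift (-1)) (e2.cast (by ring) rfl)
      exact hN _ _ (by omega) (by omega) (SA.pc_le h) (SA.backA h (SA.pc_le h) (by omega)
        (e1.shift (-2)) (e3.cast (by ring) rfl))

end Vale.Agent.P196
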