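import Vale.Agent.P196.TilesBasic

/-! P196 task X2, auxiliary file: forcing calculus on a stage and the phases of the marker. -/

namespace Vale.Agent.P196

namespace SA

variable {A Ω : Type} [QL Ω] [Fintype A] {q : ℤ → ℤ → PVM A Ω} {c : A → Core} {m : ℤ} {f g : Ω}

/-- forcing a property of the core at a site -/
def Fr (q : ℤ → ℤ → PVM A Ω) (c : A → Core) (g : Ω) (u v : ℤ) (φ : Core → Prop) : Prop :=
  Frc g (q u v) fun a => φ (c a)

variable {u v : ℤ} {φ ψ : Core → Prop}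

omit [Fintype A] in
theorem Fr.mono (h : Fr q c g u v φ) (h' : ∀ x, φ x → ψ x) : Fr q c g u v ψ :=
  Frc.mono h fun _ ha => h' _ ha

omit [Fintype A] in
theorem Fr.le {g' : Ω} (h : Fr q c g u v φ) (h' : Le g' g) : Fr q c g' u v φ := Frc.of_le h h'

omit [Fintype A] in
theorem Fr.and (h : Fr q c g u v φ) (h' : Fr q c g u v ψ) : Fr q c g u v fun x => φ x ∧ ψ x :=
  Frc.and h h'

omit [Fintype A] in
theorem Fr.cast {u' v' : ℤ} (h : Fr q c g u v φ) (h1 : u = u') (h2 : v = v') :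
    Fr q c g u' v' φ := h1 ▸ h2 ▸ h

theorem Fr.orth {g' : Ω} (h : Fr q c g u v φ) (h' : Fr q c g' u v ψ)
    (h2 : ∀ x, φ x → ψ x → False) : perp g g' := Frc.orth h h' fun _ => h2 _

omit [Fintype A] in
theorem Fr.null (h : Fr q c g u v φ) (h2 : ∀ x, ¬ φ x) : perp g g := Frc.null h fun _ => h2 _

omit [Fintype A] in
theorem fr_of_null (h : perp g g) : Fr q c g u v φ := frc_of_null h

omit [Fintype A] in
theorem fr_rule (h : Stage q c m f) (g : Ω) (u v : ℤ) : Fr q c g u v Rule :=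
  frc_of_forall h.rule

/-- what holds on the lowest rows -/
def Lo (t : Ty) (x : Core) : Prop := Rule0 x.adj x.L x.R x.Bl x.Ab ∧ x.L.ty = t

omit [Fintype A] in
theorem fr_lo (h : Stage q c m f) (hg : Le g f) (u : ℤ) (hv : ¬ 3 * m ∣ v) :
    Fr q c g u v (Lo (ty m (v % (3 * m)))) :=
  ((fr_rule h g u v).and (ψ := fun x => x.cdom = true ∧ x.R.ty = ty m (v % (3 * m)))
    (Frc.of_le (h.low u v hv) hg)).mono fun x hx =>
    ⟨hx.1.1 hx.2.1, (hx.1.1 hx.2.1).ty1.trans hx.2.2⟩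

omit [Fintype A] in
theorem Fr.up (h : Stage q c m f) (hg : Le g f) {χ : Lab → Prop}
    (h1 : Fr q c g u v fun x => χ x.Ab) : Fr q c g u (v + 1) fun x => χ x.Bl :=
  (h.vert u v g hg χ).1 h1

omit [Fintype A] in
theorem Fr.down (h : Stage q c m f) (hg : Le g f) {χ : Lab → Prop}
    (h1 : Fr q c g u (v + 1) fun x => χ x.Bl) : Fr q c g u v fun x => χ x.Ab :=
  (h.vert u v g hg χ).2 h1

omit [Fintype A] in
theorem Fr.rst (h : Stage q c m f) (hg : Le g f) {χ : St → Prop}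
    (h1 : Fr q c g u v fun x => χ x.R.st) : Fr q c g (u + 1) v fun x => χ x.L.st :=
  (h.horU u v g hg fun _ s _ => χ s).1 h1

omit [Fintype A] in
theorem Fr.lst (h : Stage q c m f) (hg : Le g f) {χ : St → Prop}
    (h1 : Fr q c g (u + 1) v fun x => χ x.L.st) : Fr q c g u v fun x => χ x.R.st :=
  (h.horU u v g hg fun _ s _ => χ s).2 h1

omit [Fintype A] in
theorem Fr.rum (h : Stage q c m f) (hg : Le g f) {χ : Um → Prop}
    (h1 : Fr q c g u v fun x => χ x.R.um) : Fr q c g (u + 1) v fun x => χ x.L.um :=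
  (h.horU u v g hg fun _ _ s => χ s).1 h1

omit [Fintype A] in
theorem Fr.lum (h : Stage q c m f) (hg : Le g f) {χ : Um → Prop}
    (h1 : Fr q c g (u + 1) v fun x => χ x.L.um) : Fr q c g u v fun x => χ x.R.um :=
  (h.horU u v g hg fun _ _ s => χ s).2 h1

omit [Fintype A] in
/-- the type of a column is the same in all rows -/
theorem Fr.col (h : Stage q c m f) (hg : Le g f) {χ : Ty → Prop}
    (h1 : Fr q c g u v fun x => χ x.Bl.ty) (v' : ℤ) : Fr q c g u v' fun x => χ x.Bl.ty := by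
  have key : ∀ v, (Fr q c g u v fun x => χ x.Bl.ty) ↔ Fr q c g u (v + 1) fun x => χ x.Bl.ty := by
    intro v
    constructor
    · intro h2
      exact Fr.up (χ := fun l => χ l.ty) h hg
        ((h2.and (fr_rule h g u v)).mono fun x hx => hx.2.ty_col ▸ hx.1)
    · intro h2
      exact ((Fr.down (χ := fun l => χ l.ty) h hg h2).and (fr_rule h g u v)).mono
        fun x hx => hx.2.ty_col.symm ▸ hx.1
  obtain ⟨t, rfl⟩ : ∃ t, v' = v + t := ⟨v' - v, by ring⟩
  induction t using Int.induction_on with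
  | zero => simpa using h1
  | succ t ih => exact ((key _).1 ih).cast rfl (by ring)
  | pred t ih => exact (key _).2 (ih.cast rfl (by ring))

/-- the part of `f` cut out by a property of one tile -/
noncomputable def Pc (h : Stage q c m f) (u v : ℤ) (φ : Core → Prop) : Ω := (h.dec u v φ).choose

omit [Fintype A] in
theorem pc_spec (h : Stage q c m f) (u v : ℤ) (φ : Core → Prop) :
    ∃ g', IsSum f (Pc h u v φ) g' ∧ Fr q c (Pc h u v φ) u v φ ∧ Fr q c g' u v fun x => ¬ φ x :=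
  (h.dec u v φ).choose_spec

omit [Fintype A] in
theorem pc_le (h : Stage q c m f) : Le (Pc h u v φ) f :=
  let ⟨_, h1, _⟩ := pc_spec h u v φ; h1.left

omit [Fintype A] in
theorem pc_fr (h : Stage q c m f) : Fr q c (Pc h u v φ) u v φ :=
  let ⟨_, _, h1, _⟩ := pc_spec h u v φ; h1

theorem le_pc (h : Stage q c m f) (hg : Le g f) (h1 : Fr q c g u v φ) : Le g (Pc h u v φ) :=
  let ⟨_, h2, _, h3⟩ := pc_spec h u v φ; h2.cancel hg (h1.orth h3 fun _ a b => b a)

omit [Fintype A] in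
theorem fr_not_of_perp (h : Stage q c m f) (hg : Le g f) (h1 : perp g (Pc h u v φ)) :
    Fr q c g u v fun x => ¬ φ x :=
  let ⟨_, h2, _, h3⟩ := pc_spec h u v φ; h3.le (h2.symm.cancel hg h1)

theorem pc_split (h : Stage q c m f) (u v : ℤ) (φ ψ : Core → Prop) :
    IsSum (Pc h u v φ) (Pc h u v fun x => φ x ∧ ψ x) (Pc h u v fun x => φ x ∧ ¬ ψ x) := by
  have h1 : Le (Pc h u v fun x => φ x ∧ ψ x) (Pc h u v φ) :=
    le_pc h (pc_le h) ((pc_fr h).mono fun _ hx => hx.1)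
  obtain ⟨d, hd⟩ := QL.diff h1
  refine hd.congr (Le.refl _) (Le.refl _) (Le.refl _) (Le.refl _) ?_ ?_
  · have h2 : Le d f := hd.right.trans (pc_le h)
    exact le_pc h h2 (((pc_fr h).le hd.right |>.and
      (fr_not_of_perp h h2 (perp_symm hd.1))).mono fun x hx => ⟨hx.1, fun h3 => hx.2 ⟨hx.1, h3⟩⟩)
  · exact hd.symm.cancel (le_pc h (pc_le h) ((pc_fr h).mono fun _ hx => hx.1))
      ((pc_fr h).orth (pc_fr h) fun _ a b => a.2 b.2)

theorem pc_sum (h : Stage q c m f) (u v : ℤ) (φ : Core → Prop) :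
    IsSum f (Pc h u v φ) (Pc h u v fun x => ¬ φ x) := by
  obtain ⟨g', h1, _, h3⟩ := pc_spec h u v φ
  exact h1.congr (Le.refl _) (Le.refl _) (Le.refl _) (Le.refl _) (le_pc h h1.right h3)
    (h1.symm.cancel (pc_le h) ((pc_fr h).orth (pc_fr h) fun _ a b => a b))

omit [Fintype A] in
/-- forcing through a cover -/
theorem fr_of_cov {Q : Ω → Prop} (hc : Cov f Q) (hg : Le g f)
    (h1 : ∀ p, Le p f → Q p → perp p g ∨ Fr q c p u v φ) : Fr q c g u v φ := by
  obtain ⟨f1, f2, hs, h2, h3⟩ := Cov.split (hc.imp h1)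
  exact Fr.le (Cov.frc h3) (hs.symm.cancel hg (perp_symm h2.perp_left))

/-! step S1 -/

omit [Fintype A] in
theorem s1 (h : Stage q c m f) (hg : Le g f) (hv : ¬ 3 * m ∣ v)
    (h1 : Fr q c g u v fun x => x.adj = false) {v' : ℤ} (hv' : ¬ 3 * m ∣ v') :
    Fr q c g u v' fun x => x.adj = false := by
  obtain ⟨u, rfl⟩ : ∃ u', u = u' + 1 := ⟨u - 1, by ring⟩
  have a1 := (h1.and (fr_lo h hg _ hv)).mono (ψ := fun x => x.L.st = .e ∧ x.R.st = .s0)
    fun x hx => ⟨(hx.2.1.gg hx.1).2.1, (hx.2.1.gg hx.1).2.2.1⟩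
  have a2 : Fr q c g u v fun x => x.Bl.ty = .l :=
    ((Fr.lst (χ := fun s => s = .e) h hg (a1.mono fun _ hx => hx.1)).and (fr_lo h hg _ hv)).mono
      fun x hx => by
        cases ha : x.adj
        · have := (hx.2.1.gg ha).2.2.1; rw [hx.1] at this; cases this
        · have := (hx.2.1.ad ha).2.2.1; rw [hx.1] at this; simp only [stT] at this; aesop
  have a3 : Fr q c g (u + 1 + 1) v fun x => x.Bl.ty = .f :=
    ((Fr.rst (χ := fun s => s = .s0) h hg (a1.mono fun _ hx => hx.2)).and (fr_lo h hg _ hv)).mono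
      fun x hx => by
        cases ha : x.adj
        · have := (hx.2.1.gg ha).2.1; rw [hx.1] at this; cases this
        · have := (hx.2.1.ad ha).2.2.1; rw [hx.1] at this; simp only [stT] at this; aesop
  have a4 : Fr q c g u v' fun x => x.R.st = .e ∨ x.R.st = .s0 :=
    ((Fr.col (χ := fun t => t = .l) h hg a2 v').and (fr_lo h hg _ hv')).mono fun x hx => by
      cases ha : x.adj
      · exact Or.inr (hx.2.1.gg ha).2.2.1
      · have := (hx.2.1.ad ha).2.2.1; rw [hx.1] at this; simp only [stT] at this; aesop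
  have a5 : Fr q c g (u + 1 + 1) v' fun x => x.L.st = .e ∨ x.L.st = .s0 :=
    ((Fr.col (χ := fun t => t = .f) h hg a3 v').and (fr_lo h hg _ hv')).mono fun x hx => by
      cases ha : x.adj
      · exact Or.inl (hx.2.1.gg ha).2.1
      · have := (hx.2.1.ad ha).2.2.1; rw [hx.1] at this; simp only [stT] at this; aesop
  refine (((Fr.rst (χ := fun s => s = .e ∨ s = .s0) h hg a4).and
    (Fr.lst (χ := fun s => s = .e ∨ s = .s0) h hg a5)).and (fr_lo h hg _ hv')).mono fun x hx => ?_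
  cases ha : x.adj
  · rfl
  · have := (hx.2.1.ad ha).2.2.1
    obtain ⟨⟨h2, h3⟩, -⟩ := hx
    simp only [stT] at this
    rcases h2 with h2 | h2 <;> rcases h3 with h3 | h3 <;> simp [h2, h3] at this

theorem s1' (h : Stage q c m f) (hg : Le g f) (hv : ¬ 3 * m ∣ v)
    (h1 : Fr q c g u v fun x => x.adj = true) {v' : ℤ} (hv' : ¬ 3 * m ∣ v') :
    Fr q c g u v' fun x => x.adj = true :=
  (fr_not_of_perp (φ := fun x => x.adj = false) h hg
    (h1.orth (s1 h (pc_le h) hv' (pc_fr h) hv) fun x a b => by simp [a] at b)).mono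
    fun x hx => by simpa using hx

/-! phases -/

def prv (m j : ℤ) : ℤ := if j = 0 then 2 * m else j - 1

def nx (m j : ℤ) : ℤ := if j = 2 * m then 0 else j + 1

def Zone (t : Ty) : Prop := t = .z1 ∨ t = .z2

/-- the tile on the row `r` of a block in a column of phase `j` -/
def CF (m r j : ℤ) (x : Core) : Prop :=
  x.R.um = um m r j ∧ x.L.um = um m r (prv m j) ∧ ((j = 0 ∧ x.adj = false) ∨
    (x.adj = true ∧ x.Ab.dm = dm m r j ∧ x.Bl.dm = dm m (r - 1) j ∧ (Zone x.Bl.ty ↔ j = 0)))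

def PH (q : ℤ → ℤ → PVM A Ω) (c : A → Core) (m : ℤ) (g : Ω) (u v0 j : ℤ) : Prop :=
  ∀ r, 1 ≤ r → r < 3 * m → Fr q c g u (v0 + r) (CF m r j)

theorem blk {v0 r : ℤ} (h0 : 3 * m ∣ v0) (h1 : 1 ≤ r) (h2 : r < 3 * m) :
    ¬ 3 * m ∣ v0 + r ∧ (v0 + r) % (3 * m) = r := by
  have h3 : (v0 + r) % (3 * m) = r := by
    obtain ⟨t, rfl⟩ := h0
    rw [add_comm, Int.add_mul_emod_self_left]
    exact Int.emod_eq_of_lt (by omega) h2
  refine ⟨fun h4 => ?_, h3⟩
  rw [Int.emod_eq_zero_of_dvd h4] at h3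
  omega

omit [Fintype A] in
theorem fr_lo' (h : Stage q c m f) (hg : Le g f) (u : ℤ) {v0 r : ℤ} (h0 : 3 * m ∣ v0) (h1 : 1 ≤ r)
    (h2 : r < 3 * m) : Fr q c g u (v0 + r) (Lo (ty m r)) := by
  have := fr_lo h hg u (blk h0 h1 h2).1
  rwa [(blk h0 h1 h2).2] at this

theorem ph_of_le {j : ℤ} (h : j ≤ 2 * m) : ph m j = j := by
  unfold ph; rw [if_pos (by omega)]

theorem ty_z1 {r : ℤ} (hm : 3 ≤ m) : ty m r = .z1 ↔ r = m := by
  unfold ty; split_ifs <;> simp <;> omega

theorem ty_z2 {r : ℤ} (hm : 3 ≤ m) : ty m r = .z2 ↔ r = 2 * m := by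
  unfold ty; split_ifs <;> simp <;> omega

theorem ty_b {r : ℤ} (hm : 3 ≤ m) : ty m r = .b ↔ m < r ∧ r < 2 * m := by
  unfold ty; split_ifs <;> simp <;> omega

theorem ty_f {r : ℤ} : ty m r = .f ↔ r = 1 := by
  unfold ty; split_ifs <;> simp <;> omega

theorem ty_l {r : ℤ} (hm : 3 ≤ m) : ty m r = .l ↔ 3 * m - 1 ≤ r := by
  unfold ty; split_ifs <;> simp <;> omega

theorem dm_B {r j : ℤ} (h4 : j ≤ 2 * m) : dm m r j = .B ↔
    (j = 0 ∧ r < m) ∨ (j ≠ 0 ∧ j ≤ m ∧ r < m + j - 1) ∨ (j ≠ 0 ∧ m < j ∧ r < 3 * m - j) := by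
  simp only [dm, ph_of_le h4]; split_ifs <;> simp <;> omega

theorem dm_U {r j : ℤ} (h4 : j ≤ 2 * m) : dm m r j = .U ↔ j ≠ 0 ∧ j ≤ m ∧ r = m + j - 1 := by
  simp only [dm, ph_of_le h4]; split_ifs <;> simp <;> omega

theorem dm_D {r j : ℤ} (h4 : j ≤ 2 * m) : dm m r j = .D ↔ j ≠ 0 ∧ m < j ∧ r = 3 * m - j := by
  simp only [dm, ph_of_le h4]; split_ifs <;> simp <;> omega

theorem dm_A {r j : ℤ} (h4 : j ≤ 2 * m) : dm m r j = .A ↔
    (j = 0 ∧ m ≤ r) ∨ (j ≠ 0 ∧ j ≤ m ∧ m + j - 1 < r) ∨ (j ≠ 0 ∧ m < j ∧ 3 * m - j < r) := by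
  simp only [dm, ph_of_le h4]; split_ifs <;> simp <;> omega

theorem um_no {r j : ℤ} (h4 : j ≤ 2 * m) : .no = um m r j ↔
    (j ≤ m ∧ r ≠ m + j) ∨ (m < j ∧ r ≠ 3 * m - j) := by
  simp only [um, ph_of_le h4, hh, ms]; split_ifs <;> simp <;> omega

theorem um_up {r j : ℤ} (h4 : j ≤ 2 * m) : .up = um m r j ↔ j < m ∧ r = m + j := by
  simp only [um, ph_of_le h4, hh, ms]; split_ifs <;> simp <;> omega

theorem um_dn {r j : ℤ} (h4 : j ≤ 2 * m) : .dn = um m r j ↔
    m ≤ j ∧ j < 2 * m ∧ r = 3 * m - j := by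
  simp only [um, ph_of_le h4, hh, ms]; split_ifs <;> simp <;> omega

theorem um_done (hm : 3 ≤ m) {r j : ℤ} (h4 : j ≤ 2 * m) : .done = um m r j ↔
    j = 2 * m ∧ r = m := by
  simp only [um, ph_of_le h4, hh, ms]; split_ifs <;> simp <;> omega

theorem prv_spec (m j : ℤ) : (j = 0 ∧ prv m j = 2 * m) ∨ (j ≠ 0 ∧ prv m j = j - 1) := by
  unfold prv; split_ifs <;> omega

theorem nx_spec (m j : ℤ) : (j = 2 * m ∧ nx m j = 0) ∨ (j ≠ 2 * m ∧ nx m j = j + 1) := by
  unfold nx; split_ifs <;> omega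

theorem um_of_dmT (hm : 3 ≤ m) {r j : ℤ} (h3 : 0 ≤ j) (h4 : j ≤ 2 * m) {t' : Ty} {a a' : Um}
    (h : dmT (ty m r) t' (dm m (r - 1) j) (dm m r j) a a') :
    a' = um m r j ∧ a = um m r (prv m j) := by
  have e0 := prv_spec m j
  have e1 : prv m j ≤ 2 * m := by omega
  simp only [dmT, ty_z1 hm, ty_z2 hm, dm_B h4, dm_U h4, dm_D h4, dm_A h4] at h
  rcases h with ⟨h1, h2, rfl, rfl⟩ | ⟨h1, h2, rfl, rfl⟩ | ⟨h1, h2, rfl, rfl, -⟩ |
    ⟨h1, h2, rfl, rfl⟩ | ⟨h1, h2, rfl, rfl, -⟩ | ⟨h1, h2, rfl, rfl⟩ | ⟨h1, h2, rfl, rfl, -⟩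
  all_goals
    try split_ifs
    all_goals
      simp only [um_no h4, um_no e1, um_up h4, um_up e1, um_dn h4, um_dn e1, um_done hm h4,
        um_done hm e1]
      omega

omit [Fintype A] in
theorem col_of_tr (h : Stage q c m f) (hm : 3 ≤ m) (hg : Le g f) {v0 r0 : ℤ} (h0 : 3 * m ∣ v0)
    (h1 : 1 ≤ r0) (h2 : r0 < 3 * m)
    (ha : ∀ r, 1 ≤ r → r < 3 * m → Fr q c g u (v0 + r) fun x => x.adj = true)
    {d0 : Dm} (hd : d0 ≠ .B) (ht : Fr q c g u (v0 + r0) fun x => x.Bl.dm = .B ∧ x.Ab.dm = d0) :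
    perp g g ∨ ∃ j, 0 ≤ j ∧ j ≤ 2 * m ∧ PH q c m g u v0 j := by
  have hT : ∀ r, 1 ≤ r → r < 3 * m → Fr q c g u (v0 + r) fun x => x.adj = true ∧
      dmT (ty m r) x.Bl.ty x.Bl.dm x.Ab.dm x.L.um x.R.um ∧ okU x.L ∧ okU x.R ∧
      x.L.ty = ty m r ∧ x.R.ty = ty m r := fun r a b =>
    ((ha r a b).and (fr_lo' h hg u h0 a b)).mono fun x hx =>
      ⟨hx.1, hx.2.2 ▸ (hx.2.1.ad hx.1).2.2.2.1, hx.2.1.okL, hx.2.1.okR, hx.2.2,
        hx.2.1.ty1.symm.trans hx.2.2⟩
  have a1 : ∀ r, r ≤ r0 → 1 ≤ r → Fr q c g u (v0 + r) fun x => x.Bl.dm = .B := by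
    intro r hr
    induction r, hr using Int.leInductionDown with
    | base => exact fun _ => ht.mono fun _ hx => hx.1
    | pred r hr ih =>
      intro hr1
      have := Fr.down (χ := fun l => l.dm = .B) (v := v0 + (r - 1)) h hg
        ((ih (by omega)).cast rfl (by ring))
      refine (this.and (hT (r - 1) hr1 (by omega))).mono fun x hx => ?_
      have h5 := hx.2.2.1
      rw [hx.1] at h5
      simp only [dmT] at h5
      aesop
  have a2 : ∀ r, r0 ≤ r → r < 3 * m → Fr q c g u (v0 + r) fun x =>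
      x.Ab.dm = if r = r0 then d0 else .A := by
    intro r hr
    induction r, hr using Int.leInduction with
    | base => exact fun _ => ht.mono fun _ hx => by simp [hx.2]
    | succ r hr ih =>
      intro hr1
      have := Fr.up (χ := fun l => l.dm ≠ .B) (v := v0 + r) h hg
        ((ih (by omega)).mono fun x hx => by rw [hx]; split_ifs <;> simp [hd])
      refine ((this.cast rfl (by ring : _ = v0 + (r + 1))).and
        (hT (r + 1) (by omega) hr1)).mono fun x hx => ?_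
      have h5 := hx.2.2.1
      have h6 := hx.1
      rw [if_neg (by omega)]
      simp only [dmT] at h5
      aesop
  have a3 : ∀ r, 1 ≤ r → r < 3 * m → Fr q c g u (v0 + r) fun x =>
      x.Ab.dm = if r < r0 then .B else if r = r0 then d0 else .A := by
    intro r a b
    split_ifs with h5 h6
    · exact Fr.down (χ := fun l => l.dm = .B) h hg
        ((a1 (r + 1) (by omega) (by omega)).cast rfl (by ring))
    · simpa [h6] using a2 r (by omega) b
    · simpa [h6] using a2 r (by omega) b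
  have a4 : ∀ r, 1 ≤ r → r < 3 * m → Fr q c g u (v0 + r) fun x =>
      x.Bl.dm = if r - 1 < r0 then .B else if r - 1 = r0 then d0 else .A := by
    intro r a b
    by_cases h5 : r - 1 < r0
    · simpa [h5] using a1 r (by omega) a
    · exact (Fr.up (χ := fun l => l.dm = _) h hg (a3 (r - 1) (by omega) (by omega))).cast rfl
        (by ring)
  have a5 : Fr q c g u (v0 + r0) fun x => (Zone x.Bl.ty ↔ d0 = .A) :=
    (ht.and (hT r0 h1 h2)).mono fun x hx => by
      have h5 := hx.2.2.1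
      rw [hx.1.1, hx.1.2] at h5
      simp only [dmT] at h5
      unfold Zone
      cases d0 <;> aesop
  have fin : ∀ j, 0 ≤ j → j ≤ 2 * m → (d0 = .A ↔ j = 0) →
      (∀ r, dm m r j = if r < r0 then .B else if r = r0 then d0 else .A) →
      PH q c m g u v0 j := by
    intro j b1 b2 b3 b4 r a b
    refine ((((a3 r a b).and (a4 r a b)).and (hT r a b)).and
      (Fr.col (χ := fun t => Zone t ↔ d0 = .A) h hg a5 (v0 + r))).mono fun x hx => ?_
    obtain ⟨⟨⟨c1, c2⟩, c3, c4, -⟩, c5⟩ := hx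
    rw [← b4] at c1 c2
    rw [c1, c2] at c4
    have := um_of_dmT hm b1 b2 c4
    exact ⟨this.1, this.2, Or.inr ⟨c3, c1, c2, c5.trans b3⟩⟩
  have b0 := ht.and (hT r0 h1 h2)
  cases d0 with
  | B => exact (hd rfl).elim
  | U =>
    by_cases hr : m ≤ r0 ∧ r0 < 2 * m
    · refine Or.inr ⟨r0 - m + 1, by omega, by omega, fin _ (by omega) (by omega)
        (by simp; omega) fun r => ?_⟩
      simp only [dm, ph_of_le (by omega : r0 - m + 1 ≤ 2 * m)]
      split_ifs <;> first | rfl | omega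
    · refine Or.inl (b0.null fun x hx => hr ?_)
      obtain ⟨⟨c1, c2⟩, -, c4, c5, -, c7, -⟩ := hx
      rw [c1, c2] at c4
      have : x.L.um = .up := by simp only [dmT] at c4; aesop
      have := c5.1 this
      rw [c7, ty_z1 hm, ty_b hm] at this
      omega
  | D =>
    by_cases hr : m ≤ r0 ∧ r0 < 2 * m
    · refine Or.inr ⟨3 * m - r0, by omega, by omega, fin _ (by omega) (by omega)
        (by simp; omega) fun r => ?_⟩
      simp only [dm, ph_of_le (by omega : 3 * m - r0 ≤ 2 * m)]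
      split_ifs <;> first | rfl | omega
    · by_cases hr' : m ≤ r0 ∧ r0 ≤ 2 * m
      · refine Or.inl (((a4 (r0 + 1) (by omega) (by omega)).and
          (hT (r0 + 1) (by omega) (by omega))).null fun x hx => hr ?_)
        obtain ⟨c1, -, c4, c5, -, c7, -⟩ := hx
        rw [if_neg (by omega), if_pos (by omega)] at c1
        rw [c1] at c4
        have : x.L.um = .dn := by simp only [dmT] at c4; aesop
        have := c5.2.1 this
        rw [c7, ty_z2 hm, ty_b hm] at this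
        omega
      · refine Or.inl (b0.null fun x hx => hr' ?_)
        obtain ⟨⟨c1, c2⟩, -, c4, -, c6, -, c8⟩ := hx
        rw [c1, c2] at c4
        have : x.R.um = if ty m r0 = .z1 then .done else .dn := by simp only [dmT] at c4; aesop
        by_cases h9 : ty m r0 = .z1
        · rw [ty_z1 hm] at h9; omega
        · rw [if_neg h9] at this
          have := c6.2.1 this
          rw [c8, ty_z2 hm, ty_b hm] at this
          omega
  | A =>
    by_cases hr : r0 = m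
    · refine Or.inr ⟨0, le_rfl, by omega, fin _ le_rfl (by omega) (by simp) fun r => ?_⟩
      simp only [dm, ph_of_le (by omega : (0 : ℤ) ≤ 2 * m)]
      split_ifs <;> first | rfl | omega
    · refine Or.inl (b0.null fun x hx => hr ?_)
      obtain ⟨⟨c1, c2⟩, -, c4, c5, -, c7, -⟩ := hx
      rw [c1, c2] at c4
      have : x.L.um = .done := by simp only [dmT] at c4; aesop
      have := c5.2.2 this
      rwa [c7, ty_z1 hm] at this

end SA

end Vale.Agent.P196
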