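import Vale.Agent.P196.StepHAux

/-! P196 task V: the kernel is finitely generated when the lifts have order three. -/

namespace Vale.Agent.P196

variable {W : Wang} {K : ℕ} {P : Type} [Group P]

namespace StepH

variable {h : Hier W K} {A : Sys3 W P}

variable (h) in
/-- tilings with a corner at the origin -/
def X0 (k : ℕ) : Set W.X := {x | h.res x k = oo K 1 k ∧ h.res x (k + 1) = oo K 1 (k + 1)}

variable (K) in
/-- the base cell -/
def Sc (k : ℕ) (α β : ℤ) : Set B := {b | (0 ≤ b.1.1 ∧ b.1.1 < ss K k) ∧ α ≤ b.1.2 ∧ b.1.2 < β}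

theorem oo_lt (k : ℕ) : 0 ≤ oo K 1 k ∧ oo K 1 k < ss K k := by
  have h1 := oo_bound (K := K) k
  have h2 := ss_pos (K := K) k
  omega

variable {k : ℕ}

theorem vadd_mem (hk : (k + 1) % 2 = 0) {x : W.X} {z : Z2}
    (h1 : ss K k ∣ h.res x k + z.1 - oo K 1 k)
    (h2 : ss K (k + 1) ∣ h.res x (k + 1) + z.2 - oo K 1 (k + 1)) : z +ᵥ x ∈ X0 h k := by
  constructor
  · rw [h.res_vadd, co_odd hk, ← Int.emod_eq_of_lt (oo_lt k).1 (oo_lt k).2]
    exact (Int.emod_emod_of_dvd _ (dvd_refl _)).symm.trans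
      (by rw [Int.emod_emod_of_dvd _ (dvd_refl _)]; exact (Int.modEq_iff_dvd.2 h1).symm)
  · rw [h.res_vadd, co_even hk, ← Int.emod_eq_of_lt (oo_lt (k + 1)).1 (oo_lt (k + 1)).2]
    exact (Int.modEq_iff_dvd.2 h2).symm

theorem col_mem (hk : (k + 1) % 2 = 0) {x : W.X} (hx : x ∈ X0 h k) (q : ℤ) :
    ((q * ss K k, 0) : Z2) +ᵥ x ∈ X0 h k :=
  vadd_mem hk (by rw [hx.1]; simp) (by rw [hx.2]; simp)

theorem pt_dvd (hk : (k + 1) % 2 = 0) {x x' : W.X} (hx : x ∈ X0 h k) (hx' : x' ∈ X0 h k)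
    {b b' : B} (e : pt b x = pt b' x') :
    ss K k ∣ b.1.1 - b'.1.1 ∧ ss K (k + 1) ∣ b.1.2 - b'.1.2 ∧ b.2 = b'.2 := by
  have e1 : b.1 +ᵥ x = b'.1 +ᵥ x' := congrArg Prod.fst e
  refine ⟨?_, ?_, congrArg (fun p : W.Pt => p.2) e⟩
  · have h1 := (h.dvd_res_vadd x b.1 k).sub (h.dvd_res_vadd x' b'.1 k)
    rw [e1, hx.1, hx'.1, co_odd hk, co_odd hk] at h1
    simpa using h1
  · have h1 := (h.dvd_res_vadd x b.1 (k + 1)).sub (h.dvd_res_vadd x' b'.1 (k + 1))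
    rw [e1, hx.2, hx'.2, co_even hk, co_even hk] at h1
    simpa using h1

theorem eq_of_dvd {s a b : ℤ} (h1 : s ∣ a - b) (h2 : a - b < s) (h3 : b - a < s) : a = b := by
  have := Int.eq_zero_of_abs_lt_dvd h1 (abs_lt.2 ⟨by omega, h2⟩)
  omega

/-- the correction of the flux across one cut -/
theorem half (hk : (k + 1) % 2 = 0) {R α β ρ : ℤ} (hR : 2 * R ≤ ss K (k + 1)) (h1 : -R ≤ α)
    (h2 : β ≤ R) (hρ : 2 * ρ + 1 ≤ ss K k) {τ : Equiv.Perm B} (hτ : τ ∈ Alt (Box α β ρ)) :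
    ∃ g ∈ A.R (h.J (k + 1) (oo K 1 (k + 1)) α β),
      (∀ x ∈ X0 h k, ∀ b : B, α ≤ b.1.2 → b.1.2 < β →
        (0 ≤ (crd x (A.π g) b).1.1 ↔ 0 ≤ (τ b).1.1)) ∧
      ∀ x ∈ X0 h k, ∀ x' ∈ X0 h k, ∀ b : B, -R ≤ b.1.2 → b.1.2 < R →
        crd x (A.π g) b = crd x' (A.π g) b := by
  have hU : IsClopen (X0 h k) := (h.isClopen_res k fun t => t = oo K 1 k).inter
    (h.isClopen_res (k + 1) fun t => t = oo K 1 (k + 1))
  have hM : MS (X0 h k) (Box α β ρ) := by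
    intro b hb b' hb' x hx x' hx' e
    obtain ⟨e1, e2, e3⟩ := pt_dvd hk hx hx' e
    have h3 := abs_le.1 hb.1
    have h4 := abs_le.1 hb'.1
    have h5 := hb.2
    have h6 := hb'.2
    exact Prod.ext (Prod.ext (eq_of_dvd e1 (by omega) (by omega))
      (eq_of_dvd e2 (by omega) (by omega))) e3
  obtain ⟨g, hg, hg1, hg2⟩ := A.real_fix h.free hU hM
    (E := h.J (k + 1) (oo K 1 (k + 1)) α β ⊓ h.J k (oo K 1 k) (-ρ) (ρ + 1)) (by
      intro x hx b hb b' hb'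
      have h3 := abs_le.1 hb.1
      have h4 := abs_le.1 hb'.1
      have h5 := hb.2
      have h6 := hb'.2
      exact ⟨(J_row hk hx.2).2 ⟨0, by omega, by omega⟩, (J_col hk hx.1).2 ⟨0, by omega, by omega⟩⟩)
    hτ
  refine ⟨g, A.R_mono inf_le_left hg, fun x hx b h3 h4 => ?_, ?_⟩
  · by_cases hb : b ∈ Box α β ρ
    · rw [hg1 x hx b hb]
    · rw [Alt.fix hτ hb]
      have h5 := A.R_pres h.free (h.isPar_J k (oo K 1 k) (by omega)) (A.R_mono inf_le_right hg) x b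
      by_cases h6 : h.J k (oo K 1 k) (-ρ) (ρ + 1) x b b
      · obtain ⟨q, h7, h8⟩ := (J_col hk hx.1).1 (h5.1 h6)
        have h9 : q ≠ 0 := by
          rintro rfl
          exact hb ⟨abs_le.2 ⟨by omega, by omega⟩, h3, h4⟩
        have hs := ss_pos (K := K) k
        rcases lt_or_gt_of_ne h9 with h10 | h10
        · have : q * ss K k ≤ -ss K k := by nlinarith
          omega
        · have : ss K k ≤ q * ss K k := by nlinarith
          omega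
      · rw [h5.2 h6]
  · have key : ∀ b : B, -R ≤ b.1.2 → b.1.2 < R → ∃ b', ∀ x ∈ X0 h k, crd x (A.π g) b = b' := by
      intro b h3 h4
      by_cases hb : ∃ q : ℤ, ∃ b0 ∈ Box α β ρ, b = sh (q * ss K k, 0) b0
      · obtain ⟨q, b0, hb0, rfl⟩ := hb
        refine ⟨sh (q * ss K k, 0) (τ b0), fun x hx => ?_⟩
        rw [← crd_vadd h.free (A.π_mem_FG g), hg1 _ (col_mem hk hx q) b0 hb0]
      · refine ⟨b, fun x hx => crd_eq h.free (A.π_mem_FG g) (hg2 _ fun x' hx' b' hb' e => hb ?_)⟩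
        obtain ⟨⟨q, e1⟩, e2, e3⟩ := pt_dvd hk hx hx' e
        have h5 := hb'.2
        have h6 := eq_of_dvd e2 (by omega) (by omega)
        refine ⟨q, b', hb', Prod.ext (Prod.ext ?_ ?_) e3⟩
        · change b.1.1 = b'.1.1 + q * ss K k
          rw [mul_comm, ← e1]
          ring
        · change b.1.2 = b'.1.2 + 0
          omega
    intro x hx x' hx' b h3 h4
    obtain ⟨b', hb'⟩ := key b h3 h4
    rw [hb' x hx, hb' x' hx']

variable (h k) in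
/-- the cells -/
def Cl (α β : ℤ) : W.X → B → B → Prop :=
  h.J (k + 1) (oo K 1 (k + 1)) α β ⊓ h.J k (oo K 1 k) 0 (ss K k)

theorem cell_eq (hk : (k + 1) % 2 = 0) {α β : ℤ} (hl : β - α ≤ ss K (k + 1)) {x : W.X} {b : B}
    (hb : Cl h k α β x b b) :
    ∃ z : Z2, z +ᵥ x ∈ X0 h k ∧ {b' | Cl h k α β x b b'} = sh z '' Sc K k α β := by
  obtain ⟨⟨q, h1, -⟩, q0, h2, -⟩ := hb
  rw [co_even hk] at h1
  rw [co_odd hk] at h2
  refine ⟨(oo K 1 k + q0 * ss K k - h.res x k,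
    oo K 1 (k + 1) + q * ss K (k + 1) - h.res x (k + 1)), vadd_mem hk ⟨q0, by ring⟩ ⟨q, by ring⟩,
    Set.ext fun b' => ⟨?_, ?_⟩⟩
  · rintro ⟨⟨p, h3, h4⟩, p0, h5, h6⟩
    rw [co_even hk] at h3 h4
    rw [co_odd hk] at h5 h6
    have e1 : p - q = 0 := qz (a := h.res x (k + 1) + b.1.2 - oo K 1 (k + 1) - q * ss K (k + 1))
      (ss_pos (K := K) (k + 1)) (α := α) (β := β) (by rw [sub_mul]; omega)
      (by rw [sub_mul]; omega) h1.1 h1.2 hl hl
    have e2 : p0 - q0 = 0 := qz (a := h.res x k + b.1.1 - oo K 1 k - q0 * ss K k)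
      (ss_pos (K := K) k) (α := 0) (β := ss K k) (by rw [sub_mul]; omega)
      (by rw [sub_mul]; omega) h2.1 h2.2 (by omega) (by omega)
    obtain rfl : p = q := by omega
    obtain rfl : p0 = q0 := by omega
    refine ⟨((h.res x k + b'.1.1 - oo K 1 k - p0 * ss K k,
      h.res x (k + 1) + b'.1.2 - oo K 1 (k + 1) - p * ss K (k + 1)), b'.2), ⟨h6, h4⟩,
      Prod.ext (Prod.ext ?_ ?_) rfl⟩
    · simp only [sh, Prod.fst_add]
      ring
    · simp only [sh, Prod.snd_add]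
      ring
  · rintro ⟨b0, ⟨h3, h4⟩, rfl⟩
    refine ⟨⟨q, by rwa [co_even hk], ?_⟩, q0, by rwa [co_odd hk], ?_⟩
    · simp only [co_even hk, sh, Prod.snd_add]
      omega
    · simp only [co_odd hk, sh, Prod.fst_add]
      omega

theorem sc_finite (α β : ℤ) : (Sc K k α β).Finite :=
  (box_finite α β (ss K k)).subset fun b hb =>
    ⟨abs_le.2 ⟨by have := hb.1; omega, hb.1.2.le⟩, hb.2⟩

theorem J_self (k : ℕ) (o : ℤ) (x : W.X) (b : B) : h.J k o 0 (ss K k) x b b := by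
  have hs := ss_pos (K := K) k
  have h1 := Int.emod_nonneg (h.res x k + co k b.1 - o) hs.ne'
  have h2 := Int.emod_lt_of_pos (h.res x k + co k b.1 - o) hs
  have h3 := Int.emod_def (h.res x k + co k b.1 - o) (ss K k)
  rw [mul_comm] at h3
  exact ⟨(h.res x k + co k b.1 - o) / ss K k, by omega, by omega⟩

theorem J_split {k : ℕ} {o α β γ : ℤ} {x : W.X} {b : B} (hb : h.J k o α γ x b b) :
    h.J k o β γ x b b ∨ h.J k o α β x b b := by
  obtain ⟨q, h1, -⟩ := hb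
  by_cases h2 : β ≤ h.res x k + co k b.1 - o - q * ss K k
  · exact Or.inl ⟨q, by omega, by omega⟩
  · exact Or.inr ⟨q, by omega, by omega⟩

theorem J_disj {k : ℕ} {o R : ℤ} (hR : 2 * R ≤ ss K k) {x : W.X} {b : B}
    (h1 : h.J k o 0 R x b b) : ¬ h.J k o (-R) 0 x b b := by
  rintro ⟨p, h2, -⟩
  obtain ⟨q, h3, -⟩ := h1
  have e : p - q = 0 := qz (a := h.res x k + co k b.1 - o - q * ss K k)
    (ss_pos (K := K) k) (α := -R) (β := 0) (by rw [sub_mul]; omega)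
    (by rw [sub_mul]; omega) h3.1 h3.2 (by omega) (by omega)
  obtain rfl : p = q := by omega
  omega

theorem J_low {k : ℕ} {o R : ℤ} (hR : R ≤ ss K k) : h.J k o (-R) 0 ≤ h.J k o 0 (ss K k) := by
  rw [← J_neg]
  exact h.J_mono _ _ (by omega) le_rfl

variable (h A k) in
/-- a datum whose window part preserves the cells -/
structure Gd (n : P) (R : ℤ) (w : P) : Prop where
  dt : Dt h A n (k + 1) R w
  cut : ∀ x ∈ X0 h k, ∀ b : B, -R ≤ b.1.2 → b.1.2 < R →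
    (0 ≤ (crd x (A.π w) b).1.1 ↔ 0 ≤ b.1.1)
  det : ∀ x ∈ X0 h k, ∀ x' ∈ X0 h k,
    x.1 ((ss K k - oo K 1 k) • ac k) = x'.1 ((ss K k - oo K 1 k) • ac k) →
    ∀ b ∈ Sc K k (-R) R, crd x (A.π w) b = crd x' (A.π w) b

variable {n n' w w' : P} {R : ℤ}

theorem Gd.mem (d : Gd h A k n R w) {α β : ℤ} (hab : (α = 0 ∧ β = R) ∨ (α = -R ∧ β = 0))
    {x : W.X} (hx : x ∈ X0 h k) {b : B} (hb : b ∈ Sc K k α β) : crd x (A.π w) b ∈ Sc K k α β := by
  have h0 := d.dt.nn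
  have h1 := hb.1
  have h2 := hb.2
  refine ⟨⟨(d.cut x hx b (by omega) (by omega)).2 h1.1, ?_⟩, d.dt.rows hab hx.2 h2.1 h2.2⟩
  have h3 := d.cut _ (col_mem d.dt.even hx 1) ((b.1.1 - ss K k, b.1.2), b.2) (by simp only; omega)
    (by simp only; omega)
  have h4 := crd_vadd h.free (A.π_mem_FG w) x (1 * ss K k, 0) ((b.1.1 - ss K k, b.1.2), b.2)
  have h5 : sh (1 * ss K k, 0) ((b.1.1 - ss K k, b.1.2), b.2) = b := by simp [sh]
  rw [h5] at h4
  rw [← h4]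
  simp only [sh, Prod.fst_add] at h3 ⊢
  omega

theorem Gd.div (hR : R ≤ oo K 1 (k + 1)) (d : Gd h A k n R w) (d' : Gd h A k n' R w')
    (h1 : ∀ x ∈ X0 h k,
      EvenOn (crd x (A.π w)) (Sc K k 0 R) ↔ EvenOn (crd x (A.π w')) (Sc K k 0 R))
    (h2 : ∀ x ∈ X0 h k,
      EvenOn (crd x (A.π w)) (Sc K k (-R) 0) ↔ EvenOn (crd x (A.π w')) (Sc K k (-R) 0)) :
    ∃ a b, n⁻¹ * n' = a * b ∧ (A.π a = 1 ∧ a ∈ A.R (h.J (k + 1) (oo K 2 (k + 1)) 0 (ss K (k + 1))))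
      ∧ A.π b = 1 ∧ b ∈ A.R (h.J (k + 1) (oo K 1 (k + 1)) 0 (ss K (k + 1))) := by
  have hk := d.dt.even
  have h0 := d.dt.nn
  have hl := d.dt.le
  have hu := mul_mem (inv_mem d.dt.win) d'.dt.win
  have p1 : IsPar (Cl h k 0 R) := (h.isPar_J _ _ (by omega)).inf (h.isPar_J _ _ (by omega))
  have p2 : IsPar (Cl h k (-R) 0) := (h.isPar_J _ _ (by omega)).inf (h.isPar_J _ _ (by omega))
  have hd : ∀ x b, Cl h k 0 R x b b → ¬ Cl h k (-R) 0 x b b :=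
    fun x b h3 h4 => J_disj hl h3.1 h4.1
  have key : ∀ α β : ℤ, (α = 0 ∧ β = R) ∨ (α = -R ∧ β = 0) → (∀ x ∈ X0 h k,
      EvenOn (crd x (A.π w)) (Sc K k α β) ↔ EvenOn (crd x (A.π w')) (Sc K k α β)) →
      ∀ x b, Cl h k α β x b b → EvenOn (crd x (A.π (w⁻¹ * w'))) {b' | Cl h k α β x b b'} := by
    intro α β hab h3 x b hb
    obtain ⟨z, hz, e⟩ := cell_eq hk (by omega) hb
    rw [e, ← evenOn_shift z (crd_vadd h.free (A.π_mem_FG _) x z), c_mul (h := h), c_inv (h := h)]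
    exact evenOn_div (sc_finite α β) (fun b hb => d.mem hab hz hb) (fun b hb => d'.mem hab hz hb)
      (h3 _ hz)
  obtain ⟨g, hg, hg'⟩ := A.real h.free (p1.sup p2 hd)
    ((h.bdd_J (by omega) _ _ _ _ _ _).sup (h.bdd_J (by omega) _ _ _ _ _ _))
    (A.π_mem_FG (w⁻¹ * w')) (fun x b hb => (A.R_pres h.free (h.isPar_J _ _ (by omega)) hu x b).2
      fun hc => hb ((J_split hc).imp (fun h3 => ⟨h3, J_self _ _ x b⟩) fun h3 =>
        ⟨h3, J_self _ _ x b⟩)) (by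
      rintro x b (hb | hb)
      · have e : {b' | (Cl h k 0 R ⊔ Cl h k (-R) 0) x b b'} = {b' | Cl h k 0 R x b b'} :=
          Set.ext fun b' => ⟨fun h3 => h3.resolve_right fun h4 =>
            hd x b hb (p2.trans h4 (p2.symm h4)), Or.inl⟩
        rw [e]
        exact key 0 R (Or.inl ⟨rfl, rfl⟩) h1 x b hb
      · have e : {b' | (Cl h k 0 R ⊔ Cl h k (-R) 0) x b b'} = {b' | Cl h k (-R) 0 x b b'} :=
          Set.ext fun b' => ⟨fun h3 => h3.resolve_left fun h4 =>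
            hd x b (p1.trans h4 (p1.symm h4)) hb, Or.inr⟩
        rw [e]
        exact key (-R) 0 (Or.inr ⟨rfl, rfl⟩) h2 x b hb)
  have g1 : g ∈ A.R (h.J (k + 1) (oo K 1 (k + 1)) (-R) R) :=
    A.R_mono (sup_le (inf_le_left.trans (h.J_mono _ _ (by omega) le_rfl))
      (inf_le_left.trans (h.J_mono _ _ le_rfl h0))) hg
  have g2 : g ∈ A.R (h.J (k + 1) (oo K 1 (k + 1)) 0 (ss K (k + 1))) :=
    A.R_mono (sup_le (inf_le_left.trans (h.J_mono _ _ le_rfl (by omega)))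
      (inf_le_left.trans (J_low (by omega)))) hg
  have ha : A.π (w⁻¹ * w' * g⁻¹) = 1 := by rw [map_mul, map_inv, hg', mul_inv_cancel]
  refine ⟨w⁻¹ * w' * g⁻¹, (w⁻¹ * w' * g⁻¹)⁻¹ * (n⁻¹ * n'), (mul_inv_cancel_left _ _).symm,
    ⟨ha, A.R_mono ?_ (mul_mem hu (inv_mem g1))⟩, ?_, ?_⟩
  · have hb := oo_bound (K := K) (k + 1)
    rw [oo_eq 2, two_mul, h.J_offset, ← J_per h _ _ (0 + _) _ (-1)]
    exact h.J_mono _ _ (by omega) (by omega)
  · rw [map_mul, map_inv, ha, map_mul, map_inv, d.dt.ker, d'.dt.ker]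
    simp
  · have h3 := mul_mem g2 (mul_mem d'.dt.str d.dt.inv.str)
    have h4 := (A.central h.free d'.dt.ker (w⁻¹⁻¹ * n⁻¹)).eq
    rw [mul_assoc w'⁻¹, h4] at h3
    simpa only [mul_inv_rev, inv_inv, mul_assoc] using h3

theorem exists_gd {y : W.X} (hy : ∀ k, h.res y k = oo K 1 k) {k1 : ℕ} {R ρ : ℕ}
    (d : Dt h A n k1 R w) (hfl : fl A y R w = 0) (hrad : Rad (A.π w) ρ) (hk : (k + 1) % 2 = 0)
    (hk1 : k1 ≤ k + 1) (hρ : 2 * (ρ : ℤ) + 1 ≤ ss K k)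
    (hc : ∀ x ∈ X0 h k, Agree x y (ρ + (ρ + R)))
    (hs : ∀ x ∈ X0 h k, ∀ x' ∈ X0 h k,
      x.1 ((ss K k - oo K 1 k) • ac k) = x'.1 ((ss K k - oo K 1 k) • ac k) →
      ∀ z : Z2, |z.2| ≤ ρ + R → -(ρ + R : ℤ) ≤ z.1 → z.1 < ss K k + (ρ + R) → x.1 z = x'.1 z) :
    ∃ w', Gd h A k n R w' := by
  obtain ⟨v, e, hv⟩ := d.raise hk1 hk
  have hl := e.le
  have hv' : ∀ x ∈ X0 h k, ∀ b : B, -(R : ℤ) ≤ b.1.2 → b.1.2 < R →
      crd x (A.π v) b = crd x (A.π w) b := fun x hx b h1 h2 => hv x b (J_row_self hk hx.2 h1 h2)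
  have hdisp : ∀ x b, |(crd x (A.π v) b).1.1 - b.1.1| ≤ ρ := by
    intro x b
    by_cases hb : h.J (k + 1) (oo K 1 (k + 1)) (-R) R x b b
    · rw [hv x b hb]
      exact (crd_disp h.free (A.π_mem_FG w) hrad x b).1
    · rw [(A.R_pres h.free (h.isPar_J _ _ (by omega)) e.win x b).2 hb]
      simp
  have hy0 : y ∈ X0 h k := ⟨hy _, hy _⟩
  have hfl' : fl A y R v = 0 := (fl_congr (hv' y hy0)).trans hfl
  have key : ∀ α β : ℤ, (α = 0 ∧ β = R) ∨ (α = -R ∧ β = 0) → flux (crd y (A.π v)) α β = 0 →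
      ∃ g ∈ A.R (h.J (k + 1) (oo K 1 (k + 1)) α β),
      (∀ x ∈ X0 h k, ∀ b : B, α ≤ b.1.2 → b.1.2 < β →
        (0 ≤ (crd x (A.π g) (crd x (A.π v) b)).1.1 ↔ 0 ≤ b.1.1)) ∧
      ∀ x ∈ X0 h k, ∀ x' ∈ X0 h k, ∀ b : B, -(R : ℤ) ≤ b.1.2 → b.1.2 < R →
        crd x (A.π g) b = crd x' (A.π g) b := by
    intro α β hab h0
    obtain ⟨τ, hτ, hτ'⟩ := flux_zero (e.band hab hy0.2 (hdisp y)) h0
    obtain ⟨g, hg, g1, g2⟩ := half (A := A) (h := h) hk hl (α := α) (β := β) (by omega) (by omega)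
      hρ (inv_mem hτ)
    refine ⟨g, hg, fun x hx b h1 h2 => ?_, g2⟩
    have h3 := e.rows hab hx.2 h1 h2
    rw [g1 x hx _ h3.1 h3.2]
    have h4 : ∀ b ∈ Box α β ρ, crd x (A.π v) b = crd y (A.π v) b := by
      intro b hb
      have h5 := hb.2
      have h6 := abs_le.1 hb.1
      rw [hv' x hx b (by omega) (by omega), hv' y hy0 b (by omega) (by omega)]
      exact crd_congr h.free (A.π_mem_FG w) hrad ((hc x hx).vadd
        (abs_le.2 ⟨by push_cast; omega, by push_cast; omega⟩)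
        (abs_le.2 ⟨by push_cast; omega, by push_cast; omega⟩))
    have h5 : crd x (A.π v) '' Qd α β = τ '' Qd α β := by
      rw [hτ']
      exact (image_eq (e.band hab hx.2 (hdisp x)) (e.band hab hy0.2 (hdisp y)) h4).antisymm
        (image_eq (e.band hab hy0.2 (hdisp y)) (e.band hab hx.2 (hdisp x)) fun b hb =>
          (h4 b hb).symm)
    constructor
    · intro h6
      have h7 : α ≤ (τ⁻¹ (crd x (A.π v) b)).1.2 ∧ (τ⁻¹ (crd x (A.π v) b)).1.2 < β := by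
        by_cases h8 : crd x (A.π v) b ∈ Box α β ρ
        · exact ((Alt.mem_iff (inv_mem hτ) _).2 h8).2
        · rw [Alt.fix (inv_mem hτ) h8]
          exact h3
      have h9 : crd x (A.π v) b ∈ crd x (A.π v) '' Qd α β := by
        rw [h5]
        exact ⟨_, ⟨h6, h7⟩, ai _ _⟩
      exact ((crd x (A.π v)).injective.mem_set_image.1 h9).1
    · intro h6
      obtain ⟨b', h7, h8⟩ : crd x (A.π v) b ∈ τ '' Qd α β := h5 ▸ ⟨b, ⟨h6, h1, h2⟩, rfl⟩
      rw [← h8, basicAux_ia]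
      exact h7.1
  obtain ⟨g, hg, g1, g2⟩ := key 0 R (Or.inl ⟨rfl, rfl⟩) (congrArg Prod.fst hfl')
  obtain ⟨f, hf, f1, f2⟩ := key (-R) 0 (Or.inr ⟨rfl, rfl⟩) (congrArg Prod.snd hfl')
  have hgw := A.R_mono (h.J_mono (k + 1) _ (α' := -R) (by omega) le_rfl) hg
  have hfw := A.R_mono (h.J_mono (k + 1) _ (β' := R) le_rfl (by omega)) hf
  have e1 := e.left hgw (A.R_mono (h.J_mono _ _ le_rfl (by omega)) hg)
  refine ⟨f * (g * v), e1.left hfw (A.R_mono (J_low (by omega)) hf), fun x hx b h1 h2 => ?_,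
    fun x hx x' hx' hxx b hb => ?_⟩
  · rw [c_mul (h := h), Equiv.Perm.mul_apply]
    by_cases hb : 0 ≤ b.1.2
    · have h3 := e1.rows (Or.inl ⟨rfl, rfl⟩) hx.2 hb h2
      rw [rows_fix hk (by omega) hf hx.2 (by omega) (by omega) (by omega), c_mul (h := h)]
      exact g1 x hx b hb h2
    · have h3 := e.rows (Or.inr ⟨rfl, rfl⟩) hx.2 h1 (not_le.1 hb)
      rw [c_mul (h := h), Equiv.Perm.mul_apply,
        rows_fix hk (by omega) hg hx.2 (by omega) (by omega) (by omega)]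
      exact f1 x hx b h1 (not_le.1 hb)
  · have h1 := hb.1
    have h2 := hb.2
    have h3 : crd x (A.π v) b = crd x' (A.π v) b := by
      rw [hv' x hx b h2.1 h2.2, hv' x' hx' b h2.1 h2.2]
      refine crd_congr h.free (A.π_mem_FG w) hrad fun z h4 h5 => ?_
      have h6 := abs_le.1 h4
      have h7 := abs_le.1 h5
      exact hs x hx x' hx' hxx _ (abs_le.2 ⟨by rw [Prod.snd_add]; omega,
        by rw [Prod.snd_add]; omega⟩) (by rw [Prod.fst_add]; omega) (by rw [Prod.fst_add]; omega)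
    have h4 := rows_pres hk (by omega) e.win hx'.2 h2.1 h2.2
    have h5 := rows_pres hk (by omega) hgw hx'.2 h4.1 h4.2
    simp only [c_mul (h := h), Equiv.Perm.mul_apply]
    rw [h3, g2 x hx x' hx' _ h4.1 h4.2, f2 x hx x' hx' _ h5.1 h5.2]

theorem common {y : W.X} (hy : ∀ k, h.res y k = oo K 1 k) (T : Finset P)
    (hT : ∀ n ∈ T, Fl h A y n 0) :
    ∃ (k R : ℕ) (w : P → P), ∀ n ∈ T, Dt h A n k R (w n) ∧ fl A y R (w n) = 0 := by
  choose! k R w hd hf using hT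
  obtain ⟨R0, hR0⟩ := (T.image fun n => (R n).toNat).bddAbove
  obtain ⟨k0, hk0⟩ := (T.image k).bddAbove
  obtain ⟨i0, hi0⟩ := ss_large (K := K) (2 * R0)
  have key : ∀ n ∈ T, ∃ w', Dt h A n (2 * (k0 + i0)) R0 w' ∧ fl A y R0 w' = 0 := by
    intro n hn
    have h1 : (R n).toNat ≤ R0 := hR0 (Finset.mem_coe.2 (Finset.mem_image_of_mem _ hn))
    have h2 : k n ≤ k0 := hk0 (Finset.mem_coe.2 (Finset.mem_image_of_mem _ hn))
    rw [← hf n hn]
    exact (hd n hn).lift hy (by omega) (by omega) (by omega) (hi0 _ (by omega))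
  choose! w' hw' using key
  exact ⟨_, R0, w', hw'⟩

theorem finite_zero (h3 : A.Cube) {y : W.X} (hy : ∀ k, h.res y k = oo K 1 k) :
    {n | Fl h A y n 0}.Finite := by
  classical
  refine finite_of_sgn (Y := (W.A → Prop) × (W.A → Prop))
    ((stepS h A h3 (Or.inr rfl)).image2 (· * ·) (stepS h A h3 (Or.inl rfl))) fun T hT => ?_
  obtain ⟨k1, R, w, hw⟩ := common hy T fun n hn => hT hn
  obtain ⟨ρ, hρ⟩ := exists_rad (T.image fun n => A.π (w n)) fun g hg => by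
    obtain ⟨n, -, rfl⟩ := Finset.mem_image.1 hg
    exact A.π_mem_FG _
  obtain ⟨i1, hi1⟩ := h.det_corner (ρ + (ρ + R))
  obtain ⟨i2, hi2⟩ := h.det_strip 1 (Or.inl rfl) (ρ + R)
  obtain ⟨i3, hi3⟩ := ss_large (K := K) (2 * ρ + 1)
  obtain ⟨i4, hi4⟩ := oo_large (K := K) R
  obtain ⟨k, hk, k0, k1', k2, k3, k4⟩ : ∃ k, (k + 1) % 2 = 0 ∧ k1 ≤ k + 1 ∧ i1 ≤ k ∧ i2 ≤ k ∧
      i3 ≤ k ∧ i4 ≤ k + 1 := ⟨2 * (k1 + i1 + i2 + i3 + i4) + 1, by omega⟩
  have key : ∀ n ∈ T, ∃ w', Gd h A k n R w' := fun n hn =>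
    exists_gd hy (hw n hn).1 (hw n hn).2 (hρ _ (Finset.mem_image_of_mem _ hn)).1 hk k0 (hi3 k k3)
      (fun x hx => hi1 k k1' x y hx.1 hx.2 (hy _) (hy _)) fun x hx x' hx' e z h4 h5 h6 =>
        hi2 k k2 x x' hx.1 hx.2 hx'.1 hx'.2 e z (by rw [co_even hk]; exact_mod_cast h4)
          (by rw [co_odd hk]; exact_mod_cast h5) (by rw [co_odd hk]; exact_mod_cast h6)
  choose! v hv using key
  let sg : ℤ → ℤ → P → W.A → Prop := fun α β n a => ∃ x ∈ X0 h k,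
    x.1 ((ss K k - oo K 1 k) • ac k) = a ∧ EvenOn (crd x (A.π (v n))) (Sc K k α β)
  have hsg : ∀ α β : ℤ, -(R : ℤ) ≤ α → β ≤ R → ∀ n ∈ T, ∀ x ∈ X0 h k,
      EvenOn (crd x (A.π (v n))) (Sc K k α β) ↔ sg α β n (x.1 ((ss K k - oo K 1 k) • ac k)) := by
    refine fun α β h4 h5 n hn x hx => ⟨fun h6 => ⟨x, hx, rfl, h6⟩, ?_⟩
    rintro ⟨x', hx', e, h6⟩
    exact h6.congr fun b hb => (hv n hn).det x' hx' x hx e b
      ⟨hb.1, h4.trans hb.2.1, hb.2.2.trans_le h5⟩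
  refine ⟨fun n => (sg 0 R n, sg (-R) 0 n), fun n hn n' hn' e => ?_⟩
  have e1 : sg 0 R n = sg 0 R n' := congrArg Prod.fst e
  have e2 : sg (-R) 0 n = sg (-R) 0 n' := congrArg Prod.snd e
  obtain ⟨a, b, hab, ha, hb⟩ := (hv n hn).div (hi4 _ k4) (hv n' hn')
    (fun x hx => by
      rw [hsg 0 R (by omega) le_rfl n hn x hx, hsg 0 R (by omega) le_rfl n' hn' x hx, e1])
    fun x hx => by
      rw [hsg (-R) 0 le_rfl (by omega) n hn x hx, hsg (-R) 0 le_rfl (by omega) n' hn' x hx, e2]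
  exact ⟨a, ⟨ha.1, k + 1, hk, ha.2⟩, b, ⟨hb.1, k + 1, hk, hb.2⟩, hab.symm⟩

end StepH

theorem stepH (h : Hier W K) (A : Sys3 W P) (h3 : A.Cube) : A.π.ker.FG := by
  obtain ⟨y, hy⟩ := h.exists_star
  exact StepH.fg_of_rel (StepH.Fl h A y) (fun n hn => StepH.exists_fl y hn)
    (fun n φ ⟨_, _, _, d, _⟩ => d.ker) (fun n n' φ φ' h1 h2 => h1.mul hy h2)
    (fun n φ h1 => h1.inv hy) (StepH.finite_zero h3 hy)

end Vale.Agent.P196
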