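import Vale.Agent.P196.StepS

/-! P196 task V, first part: data of kernel elements and their fluxes. -/

namespace Vale.Agent.P196

namespace StepH

variable {W : Wang} {K : ℕ} {P : Type} [Group P]

theorem qz {a q s α β α' β' : ℤ} (hs : 0 < s) (h1 : α ≤ a - q * s) (h2 : a - q * s < β)
    (h3 : α' ≤ a) (h4 : a < β') (h5 : β' - α ≤ s) (h6 : β - α' ≤ s) : q = 0 := by
  rcases lt_trichotomy q 0 with h | h | h
  · nlinarith
  · exact h
  · nlinarith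

theorem co_even {k : ℕ} (hk : k % 2 = 0) (z : Z2) : co k z = z.2 := by rw [co, if_pos hk]

theorem co_odd {k : ℕ} (hk : (k + 1) % 2 = 0) (z : Z2) : co k z = z.1 := by
  rw [co, if_neg (by omega)]

theorem fg_of_rel {N : Subgroup P} (Fl : P → ℤ × ℤ → Prop) (h1 : ∀ n ∈ N, ∃ φ, Fl n φ)
    (h2 : ∀ n φ, Fl n φ → n ∈ N) (hm : ∀ n n' φ φ', Fl n φ → Fl n' φ' → Fl (n * n') (φ + φ'))
    (hi : ∀ n φ, Fl n φ → Fl n⁻¹ (-φ)) (h0 : {n | Fl n 0}.Finite) : N.FG := by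
  have hone : Fl 1 0 := by
    obtain ⟨φ, hφ⟩ := h1 1 N.one_mem
    simpa using hm _ _ _ _ hφ (hi _ _ hφ)
  let H : AddSubgroup (ℤ × ℤ) :=
    { carrier := {φ | ∃ n, Fl n φ}
      zero_mem' := ⟨1, hone⟩
      add_mem' := fun ⟨n, hn⟩ ⟨n', hn'⟩ => ⟨_, hm _ _ _ _ hn hn'⟩
      neg_mem' := fun ⟨n, hn⟩ => ⟨_, hi _ _ hn⟩ }
  have hH : H.FG := (Submodule.fg_iff_addSubgroup_fg H.toIntSubmodule).1
    (IsNoetherian.noetherian _)
  obtain ⟨S, hS, hSf⟩ := (AddSubgroup.fg_iff H).1 hH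
  have hSH : ∀ φ ∈ S, ∃ n, Fl n φ := fun φ hφ =>
    (hS ▸ AddSubgroup.subset_closure hφ : φ ∈ H)
  choose! m hm' using hSH
  refine (Subgroup.fg_iff N).2 ⟨{n | Fl n 0} ∪ m '' S, le_antisymm ?_ fun n hn => ?_,
    h0.union (hSf.image m)⟩
  · rw [Subgroup.closure_le]
    rintro n (hn | ⟨φ, hφ, rfl⟩)
    · exact h2 n 0 hn
    · exact h2 _ φ (hm' φ hφ)
  · have key : ∀ φ ∈ AddSubgroup.closure S,
        ∃ g ∈ Subgroup.closure ({n | Fl n 0} ∪ m '' S), Fl g φ := by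
      intro φ hφ
      induction hφ using AddSubgroup.closure_induction with
      | mem φ hφ => exact ⟨m φ, Subgroup.subset_closure (Or.inr ⟨φ, hφ, rfl⟩), hm' φ hφ⟩
      | zero => exact ⟨1, one_mem _, hone⟩
      | add φ φ' _ _ ih ih' =>
        obtain ⟨g, hg, hg'⟩ := ih
        obtain ⟨g', hg2, hg2'⟩ := ih'
        exact ⟨g * g', mul_mem hg hg2, hm _ _ _ _ hg' hg2'⟩
      | neg φ _ ih =>
        obtain ⟨g, hg, hg'⟩ := ih
        exact ⟨g⁻¹, inv_mem hg, hi _ _ hg'⟩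
    obtain ⟨φ, hφ⟩ := h1 n hn
    obtain ⟨g, hg, hg'⟩ := key φ (hS.symm ▸ (⟨n, hφ⟩ : φ ∈ H))
    have h3 := hm _ _ _ _ (hi _ _ hg') hφ
    rw [neg_add_cancel] at h3
    have h4 := mul_mem hg (Subgroup.subset_closure (k := {n | Fl n 0} ∪ m '' S) (Or.inl h3))
    rwa [mul_inv_cancel_left] at h4

theorem finite_of_sgn {Y : Type} [Finite Y] {N F : Set P} (hF : F.Finite)
    (hN : ∀ T : Finset P, (T : Set P) ⊆ N → ∃ sgn : P → Y,
      ∀ n ∈ T, ∀ n' ∈ T, sgn n = sgn n' → n⁻¹ * n' ∈ F) : N.Finite := by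
  classical
  have := Fintype.ofFinite Y
  by_contra hc
  obtain ⟨T, hT, hcard⟩ := Set.Infinite.exists_subset_card_eq hc
    (hF.toFinset.card * Fintype.card Y + 1)
  obtain ⟨sgn, hs⟩ := hN T hT
  have h1 := Finset.card_le_mul_card_image_of_maps_to (f := sgn) (s := T) (t := Finset.univ)
    (fun _ _ => Finset.mem_univ _) hF.toFinset.card fun y _ => by
      rcases (T.filter fun n => sgn n = y).eq_empty_or_nonempty with h | ⟨n, hn⟩
      · rw [h]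
        exact Nat.zero_le _
      · refine Finset.card_le_card_of_injOn (fun n' => n⁻¹ * n') (fun n' hn' => ?_)
          fun a _ b _ hab => mul_left_cancel hab
        rw [Finset.mem_coe, Finset.mem_filter] at hn'
        rw [Finset.mem_filter] at hn
        exact hF.mem_toFinset.2 (hs n hn.1 n' hn'.1 (hn.2.trans hn'.2.symm))
  rw [Finset.card_univ] at h1
  omega

theorem ai (σ : Equiv.Perm B) (b : B) : σ (σ⁻¹ b) = b := σ.apply_symm_apply b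

theorem image_eq {σ τ : Equiv.Perm B} {α β ρ : ℤ} (h : Band σ α β ρ) (h' : Band τ α β ρ)
    (he : ∀ b ∈ Box α β ρ, σ b = τ b) : σ '' Qd α β ⊆ τ '' Qd α β := by
  rintro _ ⟨b, hb, rfl⟩
  have h1 := h b
  have h2 := h' (τ⁻¹ (σ b))
  rw [ai] at h2
  have h3 := h2.1.1 (h1.1.2 hb.2)
  have h4 := abs_le.1 h1.2
  have h5 := abs_le.1 h2.2
  have h6 := hb.1
  by_cases hx : b.1.1 ≤ ρ
  · exact ⟨b, hb, (he b ⟨abs_le.2 ⟨by omega, hx⟩, hb.2⟩).symm⟩
  · refine ⟨τ⁻¹ (σ b), ⟨?_, h3⟩, ai _ _⟩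
    by_contra hc
    have h7 := he (τ⁻¹ (σ b)) ⟨abs_le.2 ⟨by omega, by omega⟩, h3⟩
    rw [ai] at h7
    rw [σ.injective h7] at hc
    exact hc h6

variable (h : Hier W K) (A : Sys3 W P)

theorem J_per (k : ℕ) (o α β t : ℤ) :
    h.J k o (α + t * ss K k) (β + t * ss K k) = h.J k o α β := by
  rw [← h.J_offset, h.J_period]

theorem J_neg (k : ℕ) (o : ℤ) : h.J k o (-ss K k) 0 = h.J k o 0 (ss K k) := by
  rw [← J_per h k o 0 (ss K k) (-1)]
  simp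

variable {h A}

include h in
theorem c_mul (x : W.X) (g g' : P) : crd x (A.π (g * g')) = crd x (A.π g) * crd x (A.π g') := by
  rw [map_mul, crd_mul h.free (A.π_mem_FG g) (A.π_mem_FG g')]

include h in
theorem c_inv (x : W.X) (g : P) : crd x (A.π g⁻¹) = (crd x (A.π g))⁻¹ := by
  rw [map_inv, crd_inv h.free (A.π_mem_FG g)]

theorem J_row {k : ℕ} (hk : k % 2 = 0) {o α β : ℤ} {x : W.X} (hx : h.res x k = o) {b b' : B} :
    h.J k o α β x b b' ↔ ∃ q : ℤ, (α ≤ b.1.2 - q * ss K k ∧ b.1.2 - q * ss K k < β) ∧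
      (α ≤ b'.1.2 - q * ss K k ∧ b'.1.2 - q * ss K k < β) := by
  simp only [Hier.J, co_even hk, hx, add_sub_cancel_left]

theorem J_col {k : ℕ} (hk : (k + 1) % 2 = 0) {o α β : ℤ} {x : W.X} (hx : h.res x k = o)
    {b b' : B} :
    h.J k o α β x b b' ↔ ∃ q : ℤ, (α ≤ b.1.1 - q * ss K k ∧ b.1.1 - q * ss K k < β) ∧
      (α ≤ b'.1.1 - q * ss K k ∧ b'.1.1 - q * ss K k < β) := by
  simp only [Hier.J, co_odd hk, hx, add_sub_cancel_left]

theorem J_row_self {k : ℕ} (hk : k % 2 = 0) {o α β : ℤ} {x : W.X} (hx : h.res x k = o) {b : B}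
    (h1 : α ≤ b.1.2) (h2 : b.1.2 < β) : h.J k o α β x b b :=
  (J_row hk hx).2 ⟨0, ⟨by omega, by omega⟩, by omega, by omega⟩

theorem rows_pres {k : ℕ} (hk : k % 2 = 0) {o α β : ℤ} (hl : β - α ≤ ss K k) {g : P}
    (hg : g ∈ A.R (h.J k o α β)) {x : W.X} (hx : h.res x k = o) {b : B} (h1 : α ≤ b.1.2)
    (h2 : b.1.2 < β) : α ≤ (crd x (A.π g) b).1.2 ∧ (crd x (A.π g) b).1.2 < β := by
  obtain ⟨q, h3, h4⟩ := (J_row hk hx).1
    ((A.R_pres h.free (h.isPar_J k o hl) hg x b).1 (J_row_self hk hx h1 h2))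
  obtain rfl := qz (ss_pos k) h3.1 h3.2 h1 h2 hl hl
  omega

theorem rows_fix {k : ℕ} (hk : k % 2 = 0) {o α β : ℤ} (hl : β - α ≤ ss K k) {g : P}
    (hg : g ∈ A.R (h.J k o α β)) {x : W.X} (hx : h.res x k = o) {b : B}
    (h1 : β - ss K k ≤ b.1.2) (h2 : b.1.2 < α + ss K k) (h3 : ¬ (α ≤ b.1.2 ∧ b.1.2 < β)) :
    crd x (A.π g) b = b := by
  refine (A.R_pres h.free (h.isPar_J k o hl) hg x b).2 fun hc => ?_
  obtain ⟨q, h4, -⟩ := (J_row hk hx).1 hc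
  obtain rfl := qz (ss_pos k) h4.1 h4.2 h1 h2 (by omega) (by omega)
  omega

variable (h A) in
/-- `n = w * s` with `w` near the cut lines and `s` between the cut lines -/
structure Dt (n : P) (k : ℕ) (R : ℤ) (w : P) : Prop where
  ker : A.π n = 1
  even : k % 2 = 0
  nn : 0 ≤ R
  le : 2 * R ≤ ss K k
  win : w ∈ A.R (h.J k (oo K 1 k) (-R) R)
  str : w⁻¹ * n ∈ A.R (h.J k (oo K 1 k) 0 (ss K k))

variable {n n' w w' : P} {k : ℕ} {R : ℤ}

theorem Dt.inv (d : Dt h A n k R w) : Dt h A n⁻¹ k R w⁻¹ := by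
  refine ⟨by rw [map_inv, d.ker, inv_one], d.even, d.nn, d.le, inv_mem d.win, ?_⟩
  have h1 := inv_mem d.str
  rwa [mul_inv_rev, (A.central h.free d.ker w⁻¹).inv_inv.eq] at h1

theorem Dt.mul (d : Dt h A n k R w) (d' : Dt h A n' k R w') : Dt h A (n * n') k R (w * w') := by
  refine ⟨by rw [map_mul, d.ker, d'.ker, mul_one], d.even, d.nn, d.le, mul_mem d.win d'.win, ?_⟩
  have h1 := mul_mem d'.str d.str
  rwa [mul_assoc, (A.central h.free d'.ker (w⁻¹ * n)).eq, ← mul_assoc, ← mul_assoc, ← mul_inv_rev,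
    mul_assoc] at h1

theorem Dt.left (d : Dt h A n k R w) {g : P} (h1 : g ∈ A.R (h.J k (oo K 1 k) (-R) R))
    (h2 : g ∈ A.R (h.J k (oo K 1 k) 0 (ss K k))) : Dt h A n k R (g * w) := by
  refine ⟨d.ker, d.even, d.nn, d.le, mul_mem h1 d.win, ?_⟩
  have h3 := mul_mem d.str (inv_mem h2)
  rwa [mul_assoc, (A.central h.free d.ker g⁻¹).eq, ← mul_assoc, ← mul_inv_rev] at h3

theorem Dt.rows (d : Dt h A n k R w) {α β : ℤ} (hab : (α = 0 ∧ β = R) ∨ (α = -R ∧ β = 0))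
    {x : W.X} (hx : h.res x k = oo K 1 k) {b : B} (h1 : α ≤ b.1.2) (h2 : b.1.2 < β) :
    α ≤ (crd x (A.π w) b).1.2 ∧ (crd x (A.π w) b).1.2 < β := by
  have e : A.π (w⁻¹ * n)⁻¹ = A.π w := by simp [d.ker]
  have h3 := d.nn
  have h4 := d.le
  have h5 := rows_pres d.even (by omega) d.win hx (b := b) (by omega) (by omega)
  rcases hab with ⟨rfl, rfl⟩ | ⟨rfl, rfl⟩
  · have h6 := rows_pres d.even (by omega) (inv_mem d.str) hx (b := b) (by omega) (by omega)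
    rw [e] at h6
    omega
  · have h7 := inv_mem d.str
    rw [← J_neg] at h7
    have h6 := rows_pres d.even (by omega) h7 hx (b := b) (by omega) (by omega)
    rw [e] at h6
    omega

theorem Dt.band (d : Dt h A n k R w) {α β ρ : ℤ} (hab : (α = 0 ∧ β = R) ∨ (α = -R ∧ β = 0))
    {x : W.X} (hx : h.res x k = oo K 1 k) (hρ : ∀ b, |(crd x (A.π w) b).1.1 - b.1.1| ≤ ρ) :
    Band (crd x (A.π w)) α β ρ := by
  refine fun b => ⟨⟨fun h1 => ?_, fun h1 => d.rows hab hx h1.1 h1.2⟩, hρ b⟩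
  have h2 := d.inv.rows hab hx h1.1 h1.2
  rwa [c_inv (h := h), basicAux_ia] at h2

theorem Dt.band' (d : Dt h A n k R w) {α β : ℤ} (hab : (α = 0 ∧ β = R) ∨ (α = -R ∧ β = 0))
    {x : W.X} (hx : h.res x k = oo K 1 k) : ∃ ρ, Band (crd x (A.π w)) α β ρ := by
  obtain ⟨r, hr, -⟩ := A.π_mem_FG w
  exact ⟨r, d.band hab hx fun b => (crd_disp h.free (A.π_mem_FG w) hr x b).1⟩

theorem Dt.raise (d : Dt h A n k R w) {k' : ℕ} (hk : k ≤ k') (he : k' % 2 = 0) :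
    ∃ w', Dt h A n k' R w' ∧
      ∀ x b, h.J k' (oo K 1 k') (-R) R x b b → crd x (A.π w') b = crd x (A.π w) b := by
  have hp : k % 2 = k' % 2 := d.even.trans he.symm
  obtain ⟨g1, h1, g2, h2, rfl, h3⟩ := A.raise h isPar_top hk hp (oo_dvd_sub 1 hk hp) d.nn d.le
    (g := w) (by rw [top_inf_eq]; exact d.win)
  rw [top_inf_eq] at h1 h2
  refine ⟨g1, ⟨d.ker, he, d.nn, d.le.trans (ss_mono hk), h1, ?_⟩, h3⟩
  have h4 := mul_mem h2 (A.R_mono (h.J_raise hk hp (oo_dvd_sub 1 hk hp)) d.str)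
  rwa [mul_inv_rev, mul_assoc, mul_inv_cancel_left] at h4

variable (A) in
/-- the two fluxes -/
noncomputable def fl (y : W.X) (R : ℤ) (w : P) : ℤ × ℤ :=
  (flux (crd y (A.π w)) 0 R, flux (crd y (A.π w)) (-R) 0)

theorem fl_congr {y : W.X}
    (he : ∀ b : B, -R ≤ b.1.2 → b.1.2 < R → crd y (A.π w') b = crd y (A.π w) b) :
    fl A y R w' = fl A y R w := by
  have h1 : crd y (A.π w') '' Qd 0 R = crd y (A.π w) '' Qd 0 R :=
    Set.image_congr fun b hb => he b (by have := hb.2; omega) hb.2.2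
  have h2 : crd y (A.π w') '' Qd (-R) 0 = crd y (A.π w) '' Qd (-R) 0 :=
    Set.image_congr fun b hb => he b hb.2.1 (by have := hb.2; omega)
  rw [fl, fl, flux, flux, flux, flux, h1, h2]

theorem Dt.lift (d : Dt h A n k R w) {y : W.X} (hy : ∀ k, h.res y k = oo K 1 k) {k' : ℕ}
    (hk : k ≤ k') (he : k' % 2 = 0) {R' : ℤ} (hR : R ≤ R') (hR' : 2 * R' ≤ ss K k') :
    ∃ w', Dt h A n k' R' w' ∧ fl A y R' w' = fl A y R w := by
  obtain ⟨w', d', h1⟩ := d.raise hk he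
  have h0 := d.nn
  refine ⟨w', ⟨d.ker, he, by omega, hR', A.R_mono (h.J_mono _ _ (by omega) hR) d'.win, d'.str⟩,
    Eq.trans (Prod.ext ?_ ?_) (fl_congr fun b h2 h3 => h1 y b (J_row_self he (hy k') h2 h3))⟩
  · exact flux_extend le_rfl hR (fun b h2 h3 => d'.rows (Or.inl ⟨rfl, rfl⟩) (hy k') h2 h3)
      fun b h2 h3 h4 => rows_fix he (by omega) d'.win (hy k') (by omega) (by omega) (by omega)
  · exact flux_extend (by omega) le_rfl
      (fun b h2 h3 => d'.rows (Or.inr ⟨rfl, rfl⟩) (hy k') h2 h3)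
      fun b h2 h3 h4 => rows_fix he (by omega) d'.win (hy k') (by omega) (by omega) (by omega)

variable (h A) in
/-- `φ` is a flux of the kernel element `n` -/
def Fl (y : W.X) (n : P) (φ : ℤ × ℤ) : Prop := ∃ k R w, Dt h A n k R w ∧ fl A y R w = φ

theorem exists_fl (y : W.X) (hn : A.π n = 1) : ∃ φ, Fl h A y n φ := by
  obtain ⟨R0, hR0⟩ := A.split h (E := ⊤) (g := n) (by rw [A.R_top]; trivial)
  obtain ⟨i0, hi0⟩ := ss_large (K := K) (2 * R0)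
  have h1 := hi0 (2 * i0) (by omega)
  obtain ⟨g1, h2, g2, h3, rfl⟩ := hR0 (2 * i0) (oo K 1 (2 * i0)) h1
  rw [top_inf_eq] at h2 h3
  exact ⟨_, 2 * i0, R0, g1, ⟨hn, by omega, by omega, h1, h2, by rwa [inv_mul_cancel_left]⟩, rfl⟩

theorem Fl.mul {y : W.X} (hy : ∀ k, h.res y k = oo K 1 k) {φ φ' : ℤ × ℤ} (h1 : Fl h A y n φ)
    (h2 : Fl h A y n' φ') : Fl h A y (n * n') (φ + φ') := by
  obtain ⟨k, R, w, d, rfl⟩ := h1
  obtain ⟨k', R', w', d', rfl⟩ := h2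
  have he : max k k' % 2 = 0 := by have := d.even; have := d'.even; omega
  have hR : 2 * max R R' ≤ ss K (max k k') := by
    have h3 := d.le.trans (ss_mono (le_max_left k k'))
    have h4 := d'.le.trans (ss_mono (le_max_right k k'))
    omega
  obtain ⟨v, e, h3⟩ := d.lift hy (le_max_left k k') he (le_max_left R R') hR
  obtain ⟨v', e', h4⟩ := d'.lift hy (le_max_right k k') he (le_max_right R R') hR
  refine ⟨_, _, _, e.mul e', ?_⟩
  rw [← h3, ← h4, fl, c_mul (h := h)]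
  obtain ⟨_, b1⟩ := e.band' (Or.inl ⟨rfl, rfl⟩) (hy _)
  obtain ⟨_, b2⟩ := e.band' (Or.inr ⟨rfl, rfl⟩) (hy _)
  obtain ⟨_, b3⟩ := e'.band' (Or.inl ⟨rfl, rfl⟩) (hy _)
  obtain ⟨_, b4⟩ := e'.band' (Or.inr ⟨rfl, rfl⟩) (hy _)
  rw [flux_mul b1 b3, flux_mul b2 b4]
  rfl

theorem Fl.inv {y : W.X} (hy : ∀ k, h.res y k = oo K 1 k) {φ : ℤ × ℤ} (h1 : Fl h A y n φ) :
    Fl h A y n⁻¹ (-φ) := by
  obtain ⟨k, R, w, d, rfl⟩ := h1
  refine ⟨_, _, _, d.inv, ?_⟩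
  obtain ⟨_, b1⟩ := d.band' (Or.inl ⟨rfl, rfl⟩) (hy _)
  obtain ⟨_, b2⟩ := d.band' (Or.inr ⟨rfl, rfl⟩) (hy _)
  rw [fl, c_inv (h := h), flux_inv b1, flux_inv b2]
  rfl

end StepH

end Vale.Agent.P196
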