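import Vale.Agent.P196.Conj
import Vale.Agent.P196.Cell
import Vale.Agent.P196.Flux

/-! P196 task U: the kernel meets the strip groups in a finite set. -/

namespace Vale.Agent.P196

variable {W : Wang} {K : ℕ} {P : Type} [Group P]

theorem stepSAux_q {s α t q q' : ℤ} (h1 : α ≤ t - q * s) (h2 : t - q * s < α + s)
    (h3 : α ≤ t - q' * s) (h4 : t - q' * s < α + s) : q = q' := by
  have hs : 0 < s := by omega
  rcases lt_trichotomy q q' with h | h | h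
  · have := mul_le_mul_of_nonneg_right (show q + 1 ≤ q' from h) hs.le
    rw [add_mul] at this
    omega
  · exact h
  · have := mul_le_mul_of_nonneg_right (show q' + 1 ≤ q from h) hs.le
    rw [add_mul] at this
    omega

/-- the model parcel -/
def stepSAux_S (K k : ℕ) (α R : ℤ) : Set B :=
  {b | (0 ≤ co k b.1 ∧ co k b.1 < ss K k) ∧ α ≤ co (k + 1) b.1 ∧ co (k + 1) b.1 < α + R}

theorem stepSAux_finite (K k : ℕ) (α R : ℤ) : (stepSAux_S K k α R).Finite := by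
  refine (box_finite (-(ss K k + |α| + |R|)) (ss K k + |α| + |R| + 1)
    (ss K k + |α| + |R|)).subset fun b hb => ?_
  obtain ⟨⟨h1, h2⟩, h3, h4⟩ := hb
  have a1 := le_abs_self α
  have a2 := neg_abs_le α
  have a3 := le_abs_self R
  have a4 := abs_nonneg R
  have a5 := abs_nonneg α
  obtain ⟨h5, h6⟩ := abs_le_of_co (i := k) (z := b.1) (r := ss K k + |α| + |R|)
    (abs_le.2 ⟨by omega, by omega⟩) (abs_le.2 ⟨by omega, by omega⟩)
  have h7 := abs_le.1 h6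
  exact ⟨h5, h7.1, by omega⟩

/-- the parcels of a half window -/
def stepSAux_E (h : Hier W K) (k : ℕ) (o o' α R : ℤ) : W.X → B → B → Prop :=
  h.J k o 0 (ss K k) ⊓ h.J (k + 1) o' α (α + R)

theorem stepSAux_in (h : Hier W K) {k : ℕ} {o o' α R : ℤ} {x : W.X} (h1 : h.res x k = o)
    (h2 : h.res x (k + 1) = o') {b b' : B} (hb : b ∈ stepSAux_S K k α R)
    (hb' : b' ∈ stepSAux_S K k α R) : stepSAux_E h k o o' α R x b b' := by
  obtain ⟨⟨a1, a2⟩, a3, a4⟩ := hb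
  obtain ⟨⟨b1, b2⟩, b3, b4⟩ := hb'
  exact ⟨⟨0, by omega, by omega⟩, ⟨0, by omega, by omega⟩⟩

theorem stepSAux_out (h : Hier W K) {k : ℕ} {o o' α R : ℤ} (hR : R ≤ ss K (k + 1)) {x : W.X}
    (h1 : h.res x k = o) (h2 : h.res x (k + 1) = o') {b b' : B} (hb : b ∈ stepSAux_S K k α R)
    (hE : stepSAux_E h k o o' α R x b b') : b' ∈ stepSAux_S K k α R := by
  obtain ⟨⟨a1, a2⟩, a3, a4⟩ := hb
  obtain ⟨⟨q, ⟨b1, b2⟩, b3, b4⟩, q', ⟨c1, c2⟩, c3, c4⟩ := hE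
  obtain rfl : q = 0 := stepSAux_q (α := 0) b1 (by omega) (by omega) (by omega)
  obtain rfl : q' = 0 := stepSAux_q (α := α) c1 (by omega) (by omega) (by omega)
  exact ⟨⟨by omega, by omega⟩, by omega, by omega⟩

/-- every parcel is a translate of the model parcel -/
theorem stepSAux_parcel (h : Hier W K) {k : ℕ} {o o' α R : ℤ} (hR : R ≤ ss K (k + 1))
    (o1 : 0 ≤ o) (o2 : o < ss K k) (o3 : 0 ≤ o') (o4 : o' < ss K (k + 1)) {x : W.X} {b : B}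
    (hE : stepSAux_E h k o o' α R x b b) : ∃ z : Z2, h.res (z +ᵥ x) k = o ∧
      h.res (z +ᵥ x) (k + 1) = o' ∧
      {b' | stepSAux_E h k o o' α R x b b'} = sh z '' stepSAux_S K k α R := by
  obtain ⟨⟨q, ⟨b1, b2⟩, -⟩, q', ⟨c1, c2⟩, -⟩ := hE
  obtain ⟨z, z1, z2⟩ : ∃ z : Z2, co k z = o + q * ss K k - h.res x k ∧
      co (k + 1) z = o' + q' * ss K (k + 1) - h.res x (k + 1) := by
    refine ⟨(o + q * ss K k - h.res x k) • ac k +
      (o' + q' * ss K (k + 1) - h.res x (k + 1)) • ac (k + 1), ?_, ?_⟩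
    · rw [co_add, co_smul, co_smul, co_ac rfl, co_ac_ne (by omega)]
      ring
    · rw [co_add, co_smul, co_smul, co_ac rfl, co_ac_ne (by omega)]
      ring
  refine ⟨z, ?_, ?_, Set.ext fun b' => ⟨?_, ?_⟩⟩
  · rw [h.res_vadd, z1, add_sub_cancel, Int.add_mul_emod_self_right, Int.emod_eq_of_lt o1 o2]
  · rw [h.res_vadd, z2, add_sub_cancel, Int.add_mul_emod_self_right, Int.emod_eq_of_lt o3 o4]
  · rintro ⟨⟨p, ⟨d1, d2⟩, d3, d4⟩, p', ⟨e1, e2⟩, e3, e4⟩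
    obtain rfl : p = q := stepSAux_q (α := 0) d1 (by omega) b1 (by omega)
    obtain rfl : p' = q' := stepSAux_q (α := α) e1 (by omega) c1 (by omega)
    refine ⟨sh (-z) b', ?_, by simp [sh]⟩
    simp only [stepSAux_S, sh, Set.mem_ofPred_eq, co_add, co_neg]
    omega
  · rintro ⟨e, ⟨⟨a1, a2⟩, a3, a4⟩, rfl⟩
    refine ⟨⟨q, ⟨b1, b2⟩, ?_⟩, q', ⟨c1, c2⟩, ?_⟩ <;> simp only [sh, co_add] <;> omega

/-- an element that preserves windows and strips preserves half windows -/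
theorem stepSAux_half (h : Hier W K) {k : ℕ} {o' α R : ℤ} (hR : 2 * R ≤ ss K (k + 1))
    (hα : α = 0 ∨ α = -R) {x : W.X} {b b' : B} (h1 : h.J (k + 1) o' α (α + R) x b b)
    (h2 : h.J (k + 1) o' (-R) R x b b') (h3 : h.J (k + 1) o' 0 (ss K (k + 1)) x b b') :
    h.J (k + 1) o' α (α + R) x b b' := by
  obtain ⟨q, ⟨a1, a2⟩, -⟩ := h1
  obtain ⟨p, ⟨b1, b2⟩, b3, b4⟩ := h2
  obtain ⟨p', ⟨c1, c2⟩, c3, c4⟩ := h3
  obtain rfl : p = q := stepSAux_q (α := -R) b1 (by omega) (by omega) (by omega)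
  rcases hα with rfl | rfl
  · obtain rfl : p' = p := stepSAux_q (α := 0) c1 (by omega) (by omega) (by omega)
    exact ⟨p', ⟨a1, a2⟩, by omega, by omega⟩
  · obtain rfl : p' = p - 1 := stepSAux_q (α := 0) c1 (by omega) (by rw [sub_mul]; omega)
      (by rw [sub_mul]; omega)
    rw [sub_mul] at c4
    exact ⟨p, ⟨a1, a2⟩, by omega, by omega⟩

theorem stepSAux_le_w (h : Hier W K) {k : ℕ} {o o' α R : ℤ} (hR : 0 ≤ R) (hα : α = 0 ∨ α = -R) :
    stepSAux_E h k o o' α R ≤ h.J k o 0 (ss K k) ⊓ h.J (k + 1) o' (-R) R :=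
  inf_le_inf le_rfl (h.J_mono _ _ (by omega) (by omega))

theorem stepSAux_le_s (h : Hier W K) {k : ℕ} {o o' α R : ℤ} (hR : 2 * R ≤ ss K (k + 1))
    (hα : α = 0 ∨ α = -R) :
    stepSAux_E h k o o' α R ≤ h.J k o 0 (ss K k) ⊓ h.J (k + 1) o' 0 (ss K (k + 1)) := by
  refine inf_le_inf le_rfl ?_
  rintro x b b' ⟨q, ⟨a1, a2⟩, a3, a4⟩
  rcases hα with rfl | rfl
  · exact ⟨q, ⟨by omega, by omega⟩, by omega, by omega⟩
  · refine ⟨q - 1, ?_⟩
    rw [sub_mul]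
    omega

/-- the main step: two kernel elements with the same parities are equal -/
theorem stepSAux_main (h : Hier W K) (A : Sys3 W P) (h3 : A.Cube) {k : ℕ} {o o' R : ℤ}
    (h0 : 0 ≤ R) (hR : 2 * R ≤ ss K (k + 1)) (o1 : 0 ≤ o) (o2 : o < ss K k) (o3 : 0 ≤ o')
    (o4 : o' < ss K (k + 1)) {w s w' s' : P}
    (hw : w ∈ A.R (h.J k o 0 (ss K k) ⊓ h.J (k + 1) o' (-R) R))
    (hs : s ∈ A.R (h.J k o 0 (ss K k) ⊓ h.J (k + 1) o' 0 (ss K (k + 1))))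
    (hw' : w' ∈ A.R (h.J k o 0 (ss K k) ⊓ h.J (k + 1) o' (-R) R))
    (hs' : s' ∈ A.R (h.J k o 0 (ss K k) ⊓ h.J (k + 1) o' 0 (ss K (k + 1))))
    (hn : A.π (w * s) = 1) (hn' : A.π (w' * s') = 1)
    (hsg : ∀ α, α = 0 ∨ α = -R → ∀ x, h.res x k = o → h.res x (k + 1) = o' →
      (EvenOn (crd x (A.π w)) (stepSAux_S K k α R) ↔
        EvenOn (crd x (A.π w')) (stepSAux_S K k α R))) : w * s = w' * s' := by
  have hF := h.free
  have pE : IsPar (h.J k o 0 (ss K k)) := h.isPar_J k o (by omega)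
  have pw : IsPar (h.J k o 0 (ss K k) ⊓ h.J (k + 1) o' (-R) R) :=
    pE.inf (h.isPar_J _ _ (by omega))
  have ps : IsPar (h.J k o 0 (ss K k) ⊓ h.J (k + 1) o' 0 (ss K (k + 1))) :=
    pE.inf (h.isPar_J _ _ (by omega))
  have pα : ∀ α, IsPar (stepSAux_E h k o o' α R) := fun α => pE.inf (h.isPar_J _ _ (by omega))
  have hpar : k % 2 ≠ (k + 1) % 2 := by omega
  -- the model parcels are preserved
  have hmap : ∀ {u v : P}, u ∈ A.R (h.J k o 0 (ss K k) ⊓ h.J (k + 1) o' (-R) R) →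
      v ∈ A.R (h.J k o 0 (ss K k) ⊓ h.J (k + 1) o' 0 (ss K (k + 1))) → A.π (u * v) = 1 →
      ∀ α, α = 0 ∨ α = -R → ∀ x, h.res x k = o → h.res x (k + 1) = o' →
      ∀ b ∈ stepSAux_S K k α R, crd x (A.π u) b ∈ stepSAux_S K k α R := by
    intro u v hu hv huv α hα x x1 x2 b hb
    have e1 := stepSAux_in h x1 x2 hb hb
    have e2 := (A.R_pres hF pw hu x b).1 (stepSAux_le_w h h0 hα x b b e1)
    have e3 := (A.R_pres hF ps ((A.R _).inv_mem hv) x b).1 (stepSAux_le_s h hR hα x b b e1)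
    have e4 : A.π v⁻¹ = A.π u := by
      rw [map_inv]
      exact inv_eq_of_mul_eq_one_left (by rw [← map_mul, huv])
    rw [e4] at e3
    exact stepSAux_out h (by omega) x1 x2 hb ⟨e2.1, stepSAux_half h hR hα e1.2 e2.2 e3.2⟩
  have hu : w⁻¹ * w' ∈ A.R (h.J k o 0 (ss K k) ⊓ h.J (k + 1) o' (-R) R) :=
    (A.R _).mul_mem ((A.R _).inv_mem hw) hw'
  have hev : ∀ α, α = 0 ∨ α = -R → ∀ x b, stepSAux_E h k o o' α R x b b →
      EvenOn (crd x (A.π (w⁻¹ * w'))) {b' | stepSAux_E h k o o' α R x b b'} := by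
    intro α hα x b hb
    obtain ⟨z, z1, z2, z3⟩ := stepSAux_parcel h (by omega) o1 o2 o3 o4 hb
    rw [z3, ← evenOn_shift z (crd_vadd hF (A.π_mem_FG _) x z), map_mul, map_inv,
      crd_mul hF ((FG W).inv_mem (A.π_mem_FG _)) (A.π_mem_FG _), crd_inv hF (A.π_mem_FG _)]
    exact evenOn_div (stepSAux_finite K k α R) (hmap hw hs hn α hα _ z1 z2)
      (hmap hw' hs' hn' α hα _ z1 z2) (hsg α hα _ z1 z2)
  have hd : ∀ x b, stepSAux_E h k o o' 0 R x b b → ¬ stepSAux_E h k o o' (-R) R x b b := by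
    rintro x b ⟨-, q, ⟨a1, a2⟩, -⟩ ⟨-, q', ⟨b1, b2⟩, -⟩
    obtain rfl : q = q' := stepSAux_q (α := -R) (by omega) (by omega) b1 (by omega)
    omega
  obtain ⟨g, hg, hg'⟩ := A.real hF ((pα 0).sup (pα (-R)) hd)
    (Bdd.sup (h.bdd_J hpar _ _ _ _ _ _) (h.bdd_J hpar _ _ _ _ _ _)) (A.π_mem_FG (w⁻¹ * w'))
    (fun x b hb => (A.R_pres hF pw hu x b).2 (by
      rintro ⟨e1, q, ⟨a1, a2⟩, -⟩
      rcases lt_or_ge (h.res x (k + 1) + co (k + 1) b.1 - o' - q * ss K (k + 1)) 0 with h1 | h1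
      · exact hb (Or.inr ⟨e1, q, ⟨a1, by omega⟩, a1, by omega⟩)
      · exact hb (Or.inl ⟨e1, q, ⟨h1, by omega⟩, h1, by omega⟩)))
    (fun x b hb => by
      rcases hb with hb | hb
      · have e : {b' | (stepSAux_E h k o o' 0 R ⊔ stepSAux_E h k o o' (-R) R) x b b'} =
            {b' | stepSAux_E h k o o' 0 R x b b'} := Set.ext fun b' =>
          ⟨fun h1 => h1.elim id fun h2 =>
            (hd x b hb ((pα _).trans h2 ((pα _).symm h2))).elim, Or.inl⟩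
        rw [e]
        exact hev 0 (Or.inl rfl) x b hb
      · have e : {b' | (stepSAux_E h k o o' 0 R ⊔ stepSAux_E h k o o' (-R) R) x b b'} =
            {b' | stepSAux_E h k o o' (-R) R x b b'} := Set.ext fun b' =>
          ⟨fun h1 => h1.elim (fun h2 =>
            (hd x b ((pα _).trans h2 ((pα _).symm h2)) hb).elim) id, Or.inr⟩
        rw [e]
        exact hev (-R) (Or.inr rfl) x b hb)
  have e1 : g⁻¹ * (w⁻¹ * w') = 1 := A.inj hF h3 pw (h.bdd_J hpar _ _ _ _ _ _)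
    ((A.R _).mul_mem ((A.R _).inv_mem (A.R_mono (sup_le (stepSAux_le_w h h0 (Or.inl rfl))
      (stepSAux_le_w h h0 (Or.inr rfl))) hg)) hu) (by rw [map_mul, map_inv, hg', inv_mul_cancel])
  have e2 : w⁻¹ * w' ∈ A.R (h.J k o 0 (ss K k) ⊓ h.J (k + 1) o' 0 (ss K (k + 1))) := by
    rw [← inv_mul_eq_one.1 e1]
    exact A.R_mono (sup_le (stepSAux_le_s h hR (Or.inl rfl)) (stepSAux_le_s h hR (Or.inr rfl))) hg
  have e3 : (w * s)⁻¹ * (w' * s') = s⁻¹ * (w⁻¹ * w') * s' := by group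
  refine inv_mul_eq_one.1 (A.inj hF h3 ps (h.bdd_J hpar _ _ _ _ _ _) ?_ ?_)
  · rw [e3]
    exact (A.R _).mul_mem ((A.R _).mul_mem ((A.R _).inv_mem hs) e2) hs'
  · rw [map_mul, map_inv, hn, hn', inv_mul_cancel]

/-- uniform decomposition of finitely many elements -/
theorem stepSAux_dec (h : Hier W K) (A : Sys3 W P) (δ : ℤ) (T : Finset P)
    (hT : ∀ n ∈ T, ∃ k, k % 2 = 0 ∧ n ∈ A.R (h.J k (oo K δ k) 0 (ss K k))) :
    ∃ R ρ k0 : ℕ, ∀ k, k0 ≤ k → k % 2 = 0 → 2 * (R : ℤ) ≤ ss K (k + 1) ∧ ∀ n ∈ T,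
      ∃ w ∈ A.R (h.J k (oo K δ k) 0 (ss K k) ⊓ h.J (k + 1) (oo K 1 (k + 1)) (-R) R),
      ∃ s ∈ A.R (h.J k (oo K δ k) 0 (ss K k) ⊓ h.J (k + 1) (oo K 1 (k + 1)) 0 (ss K (k + 1))),
        n = w * s ∧ ∃ g ∈ FG W, Rad g ρ ∧ ∀ x b, h.J (k + 1) (oo K 1 (k + 1)) (-R) R x b b →
          crd x (A.π w) b = crd x g b := by
  classical
  choose! kn kn1 kn2 using hT
  have h1 : ∀ n ∈ T, n ∈ A.R (h.J (2 * T.sup kn) (oo K δ (2 * T.sup kn)) 0
      (ss K (2 * T.sup kn))) := by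
    intro n hn
    have a1 : kn n ≤ T.sup kn := Finset.le_sup hn
    have a2 := kn1 n hn
    exact A.R_mono (h.J_raise (by omega) (by omega) (oo_dvd_sub δ (by omega) (by omega)))
      (kn2 n hn)
  generalize hk1 : 2 * T.sup kn = k1 at h1
  choose! R0 hR0 using fun n hn => A.split h (h1 n hn)
  obtain ⟨i0, hi0⟩ := ss_large (K := K) (2 * (T.sup R0 : ℕ))
  have hR := hi0 (2 * i0 + 1) (by omega)
  have hle : ∀ n ∈ T, (R0 n : ℤ) ≤ (T.sup R0 : ℕ) := fun n hn => by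
    exact_mod_cast Finset.le_sup (f := R0) hn
  choose! g1 hg1 g2 hg2 hg using fun n hn =>
    hR0 n hn (2 * i0 + 1) (oo K 1 (2 * i0 + 1)) (by have := hle n hn; omega)
  obtain ⟨ρ, hρ⟩ := exists_rad (T.image fun n => A.π (g1 n)) fun g hg => by
    obtain ⟨n, -, rfl⟩ := Finset.mem_image.1 hg
    exact A.π_mem_FG _
  refine ⟨T.sup R0, ρ, k1 + 2 * i0, fun k hk hk2 => ⟨hR.trans (ss_mono (by omega)), fun n hn => ?_⟩⟩
  have hE : h.J k1 (oo K δ k1) 0 (ss K k1) ≤ h.J k (oo K δ k) 0 (ss K k) :=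
    h.J_raise (by omega) (by omega) (oo_dvd_sub δ (by omega) (by omega))
  have hdv := oo_dvd_sub (K := K) 1 (i := 2 * i0 + 1) (j := k + 1) (by omega) (by omega)
  obtain ⟨w, hw, s, hs, e, hc⟩ := A.raise h (h.isPar_J k (oo K δ k) (α := 0) (β := ss K k)
    (by omega)) (k1 := 2 * i0 + 1) (k := k + 1) (by omega) (by omega) hdv (by omega) hR
    (A.R_mono (inf_le_inf hE (h.J_mono _ _ (neg_le_neg (hle n hn)) (hle n hn))) (hg1 n hn))
  refine ⟨w, hw, s * g2 n, (A.R _).mul_mem hs (A.R_mono (inf_le_inf hE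
    (h.J_raise (by omega) (by omega) hdv)) (hg2 n hn)), ?_, A.π (g1 n), A.π_mem_FG _,
    (hρ _ (Finset.mem_image_of_mem _ hn)).1, hc⟩
  rw [← mul_assoc, ← e]
  exact hg n hn

theorem stepS (h : Hier W K) (A : Sys3 W P) (h3 : A.Cube) {δ : ℤ} (hδ : δ = 1 ∨ δ = 2) :
    {n : P | A.π n = 1 ∧ ∃ k, k % 2 = 0 ∧ n ∈ A.R (h.J k (oo K δ k) 0 (ss K k))}.Finite := by
  classical
  by_contra hinf
  obtain ⟨T, hT, hcard⟩ := Set.Infinite.exists_subset_card_eq hinf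
    (Fintype.card (W.A × Bool → Prop) + 1)
  obtain ⟨R, ρ, k0, hk0⟩ := stepSAux_dec h A δ T fun n hn => (hT hn).2
  obtain ⟨i0, hi0⟩ := h.det_strip δ hδ (ρ + R)
  obtain ⟨k, hk1, hk2, hk3⟩ : ∃ k, k0 ≤ k ∧ i0 ≤ k ∧ k % 2 = 0 :=
    ⟨2 * (k0 + i0), by omega, by omega, by omega⟩
  obtain ⟨hR, hdec⟩ := hk0 k hk1 hk3
  choose! w hw s hs e g hg hρ hc using hdec
  have hdet : ∀ n ∈ T, ∀ α : ℤ, α = 0 ∨ α = -R → ∀ x y, h.res x k = oo K δ k →
      h.res x (k + 1) = oo K 1 (k + 1) → h.res y k = oo K δ k →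
      h.res y (k + 1) = oo K 1 (k + 1) →
      x.1 ((ss K k - oo K δ k) • ac k) = y.1 ((ss K k - oo K δ k) • ac k) →
      ∀ b ∈ stepSAux_S K k α R, crd x (A.π (w n)) b = crd y (A.π (w n)) b := by
    intro n hn α hα x y x1 x2 y1 y2 hxy b hb
    obtain ⟨⟨a1, a2⟩, a3, a4⟩ := hb
    rw [hc n hn x b ⟨0, by omega, by omega⟩, hc n hn y b ⟨0, by omega, by omega⟩]
    refine crd_congr h.free (hg n hn) (hρ n hn) fun v v1 v2 => ?_
    have b1 := abs_le.1 (abs_co_le k v1 v2)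
    have b2 := abs_le.1 (abs_co_le (k + 1) v1 v2)
    rw [vadd_val, vadd_val]
    refine hi0 k hk2 x y x1 x2 y1 y2 hxy _ (abs_le.2 ?_) ?_ ?_ <;> rw [co_add] <;> push_cast <;>
      omega
  let sgn : P → W.A × Bool → Prop := fun n p => ∃ x, h.res x k = oo K δ k ∧
    h.res x (k + 1) = oo K 1 (k + 1) ∧ x.1 ((ss K k - oo K δ k) • ac k) = p.1 ∧
    EvenOn (crd x (A.π (w n))) (stepSAux_S K k (if p.2 then 0 else -R) R)
  have hone : ∀ n ∈ T, ∀ n' ∈ T, sgn n = sgn n' → ∀ α : ℤ, α = 0 ∨ α = -R → ∀ x,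
      h.res x k = oo K δ k → h.res x (k + 1) = oo K 1 (k + 1) →
      EvenOn (crd x (A.π (w n))) (stepSAux_S K k α R) →
      EvenOn (crd x (A.π (w n'))) (stepSAux_S K k α R) := by
    intro n _ n' hn' hsg α hα x x1 x2 hx
    obtain ⟨c, rfl⟩ : ∃ c : Bool, α = if c then 0 else -(R : ℤ) :=
      hα.elim (fun h => ⟨true, h⟩) fun h => ⟨false, h⟩
    have h1 : sgn n (x.1 ((ss K k - oo K δ k) • ac k), c) := ⟨x, x1, x2, rfl, hx⟩
    rw [hsg] at h1
    obtain ⟨y, y1, y2, y3, y4⟩ := h1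
    exact y4.congr (hdet n' hn' _ hα y x y1 y2 x1 x2 y3)
  have b1 := oo_bound (K := K) k
  have b2 := oo_bound (K := K) (k + 1)
  have b3 := ss_pos (K := K) k
  have b4 := ss_pos (K := K) (k + 1)
  have b5 := oo_eq (K := K) δ k
  have hinj : Set.InjOn sgn T := by
    intro n hn n' hn' hsg
    rw [e n hn, e n' hn']
    refine stepSAux_main h A h3 (by omega) hR (by rcases hδ with rfl | rfl <;> omega)
      (by rcases hδ with rfl | rfl <;> omega) (by omega) (by omega) (hw n hn) (hs n hn)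
      (hw n' hn') (hs n' hn') (e n hn ▸ (hT hn).1) (e n' hn' ▸ (hT hn').1)
      fun α hα x x1 x2 => ⟨hone n hn n' hn' hsg α hα x x1 x2,
        hone n' hn' n hn hsg.symm α hα x x1 x2⟩
  have := Finset.card_le_card_of_injOn (t := Finset.univ) sgn (fun _ _ => Finset.mem_univ _) hinj
  rw [hcard, Finset.card_univ] at this
  omega

end Vale.Agent.P196
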