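import Vale.Agent.P196.Idem

/-! P196: the relations that hold in the finitely presented cover. -/

namespace Vale.Agent.P196

/-- A group with a torus and lifts of the three-cycles over the one-site cylinders. -/
structure Sys1 (W : Wang) (P : Type) [Group P] where
  b : Base P
  θ : (I → Z2) → P
  lam : W.A → b.Om
  π : P →* Equiv.Perm W.Pt
  θ_add : ∀ {y y'}, ∑ i, y i = 0 → ∑ i, y' i = 0 → θ (y + y') = θ y * θ y'
  θ_gen : ∀ {y} {J : Finset I}, ∑ i, y i = 0 → (∀ i, i ∉ J → y i = 0) → θ y ∈ b.Gen J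
  θ_κ : ∀ {y i j k}, ∑ i, y i = 0 → D3 i j k → y i = y j → y i = y k →
    Commute (θ y) (b.κ i j k)
  π_θ : ∀ {y}, ∑ i, y i = 0 → ∀ x i, π (θ y) (x, i) = (y i +ᵥ x, i)
  π_κ : ∀ {i j k}, D3 i j k → π (b.κ i j k) = cyc Set.univ (0, i) (0, j) (0, k)
  π_lam : ∀ a {i j k}, D3 i j k →
    π ((lam a).1 i j k) = cyc {x | x.1 0 = a} (0, i) (0, j) (0, k)
  orth : ∀ {a a'}, a ≠ a' → perp (lam a) (lam a')
  cover : ∀ i j k, b.κ i j k ∈ Subgroup.closure (Set.range fun a => (lam a).1 i j k)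
  edge : ∀ {d a a' y i' j' k'}, W.out d a ≠ W.inn d a' → ∑ i, y i = 0 → D3 i' j' k' →
    y i' = -ev d → y j' = -ev d → y k' = -ev d → ∀ i j k,
    Commute ((lam a).1 i j k) (θ y * (lam a').1 i' j' k' * (θ y)⁻¹)
  gen : Subgroup.closure {g | ∃ y a i j k, ∑ i, y i = 0 ∧ D3 i j k ∧
    g = θ y * (lam a).1 i j k * (θ y)⁻¹} = ⊤

end Vale.Agent.P196
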