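import Vale.Agent.P196.Scales
import Vale.Agent.P196.QL

/-! P196: the tile set. Every line carries a type, a counter state for the next scale, a marker
and the trace of the marker of the previous scale. -/

namespace Vale.Agent.P196

inductive Ty | f | a | z1 | b | z2 | c | l
  deriving DecidableEq

instance : Fintype Ty := ⟨{.f, .a, .z1, .b, .z2, .c, .l}, fun x => by cases x <;> simp⟩

inductive St | s0 | a | b | c | e
  deriving DecidableEq

instance : Fintype St := ⟨{.s0, .a, .b, .c, .e}, fun x => by cases x <;> simp⟩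

inductive Um | no | up | dn | done
  deriving DecidableEq

instance : Fintype Um := ⟨{.no, .up, .dn, .done}, fun x => by cases x <;> simp⟩

inductive Dm | B | U | D | A
  deriving DecidableEq

instance : Fintype Dm := ⟨{.B, .U, .D, .A}, fun x => by cases x <;> simp⟩

/-- edge labels -/
@[ext] structure Lab where
  ty : Ty
  st : St
  um : Um
  dm : Dm
  deriving DecidableEq

instance : Finite Lab :=
  Finite.of_injective (fun c : Lab => (c.ty, c.st, c.um, c.dm)) fun c c' h => by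
    simp only [Prod.mk.injEq] at h
    exact Lab.ext h.1 h.2.1 h.2.2.1 h.2.2.2

noncomputable instance : Fintype Lab := Fintype.ofFinite Lab

/-- a crossing of a row (labels `L`, `R`) and a column (labels `Bl`, `Ab`) -/
@[ext] structure Core where
  cdom : Bool
  adj : Bool
  L : Lab
  R : Lab
  Bl : Lab
  Ab : Lab

instance : Finite Core :=
  Finite.of_injective (fun c : Core => (c.cdom, c.adj, c.L, c.R, c.Bl, c.Ab)) fun c c' h => by
    simp only [Prod.mk.injEq] at h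
    exact Core.ext h.1 h.2.1 h.2.2.1 h.2.2.2.1 h.2.2.2.2.1 h.2.2.2.2.2

noncomputable instance : Fintype Core := Fintype.ofFinite Core

/-- transposition -/
def Core.tr (c : Core) : Core := ⟨!c.cdom, c.adj, c.Bl, c.Ab, c.L, c.R⟩

/-- the view in which the lines of the parity of `i` are the rows -/
def vw (i : ℕ) (c : Core) : Core := if i % 2 = 0 then c else c.tr

def ty (m y : ℤ) : Ty :=
  if y = 1 then .f else if y < m then .a else if y = m then .z1 else if y < 2 * m then .b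
  else if y = 2 * m then .z2 else if y < 3 * m - 1 then .c else .l

def st (m z : ℤ) : St :=
  if z = 0 then .s0 else if z < m then .a else if z < 2 * m then .b
  else if z < 3 * m - 1 then .c else .e

/-- the phase of the marker -/
def ph (m z : ℤ) : ℤ :=
  if z < 2 * m + 1 then z else if z < 2 * (2 * m + 1) then z - (2 * m + 1) else z - 2 * (2 * m + 1)

/-- the height of the marker -/
def hh (m j : ℤ) : ℤ := if j ≤ m then m + j else 3 * m - j

/-- the state of the marker -/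
def ms (m j : ℤ) : Um := if j < m then .up else if j < 2 * m then .dn else .done

def um (m r z : ℤ) : Um := if r = hh m (ph m z) then ms m (ph m z) else .no

def dm (m r z : ℤ) : Dm :=
  if ph m z = 0 then (if r < m then .B else .A)
  else if ph m z ≤ m then
    (if r < m + ph m z - 1 then .B else if r = m + ph m z - 1 then .U else .A)
  else (if r < 3 * m - ph m z then .B else if r = 3 * m - ph m z then .D else .A)

/-- the label of a line of index `i` with digits `x, y, z` of the levels `i - 1, i, i + 1` -/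
def lab (i : ℕ) (x y z : ℤ) : Lab :=
  ⟨ty (mm i) y, st (mm (i + 1)) z, um (mm i) y z, dm (mm (i - 1)) x y⟩

def okU (Λ : Lab) : Prop :=
  (Λ.um = .up → Λ.ty = .z1 ∨ Λ.ty = .b) ∧ (Λ.um = .dn → Λ.ty = .b ∨ Λ.ty = .z2) ∧
    (Λ.um = .done → Λ.ty = .z1)

/-- counter transitions when crossing a line of the next index with type `t` -/
def stT (s : St) (t : Ty) (s' : St) : Prop :=
  (s = .s0 ∧ t = .f ∧ s' = .a) ∨ (s = .a ∧ t = .a ∧ s' = .a) ∨ (s = .a ∧ t = .z1 ∧ s' = .b) ∨
  (s = .b ∧ t = .b ∧ s' = .b) ∨ (s = .b ∧ t = .z2 ∧ s' = .c) ∨ (s = .c ∧ t = .c ∧ s' = .c) ∨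
  (s = .c ∧ t = .l ∧ s' = .e)

/-- marker transitions: `t` is the type of the lower line, `t'` the type of the higher line -/
def dmT (t t' : Ty) (d d' : Dm) (u u' : Um) : Prop :=
  (d = .B ∧ d' = .B ∧ u = .no ∧ u' = .no) ∨ (d = .A ∧ d' = .A ∧ u = .no ∧ u' = .no) ∨
  (d = .B ∧ d' = .U ∧ u = .up ∧ u' = .no ∧ t' ≠ .z1 ∧ t' ≠ .z2) ∨
  (d = .U ∧ d' = .A ∧ u = .no ∧ u' = if t = .z2 then .dn else .up) ∨
  (d = .B ∧ d' = .D ∧ u = .no ∧ (u' = if t = .z1 then .done else .dn) ∧ t' ≠ .z1 ∧ t' ≠ .z2) ∨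
  (d = .D ∧ d' = .A ∧ u = .dn ∧ u' = .no) ∨
  (d = .B ∧ d' = .A ∧ u = .done ∧ u' = .up ∧ (t' = .z1 ∨ t' = .z2))

/-- the rule at a crossing: `L, R` are the labels of the lower line, `Bl, Ab` of the higher line -/
structure Rule0 (adj : Bool) (L R Bl Ab : Lab) : Prop where
  ty1 : L.ty = R.ty
  ty2 : Bl.ty = Ab.ty
  okL : okU L
  okR : okU R
  gg : adj = false → Bl = Ab ∧ L.st = .e ∧ R.st = .s0 ∧
    ((L.um = .no ∧ R.um = .no) ∨ (L.um = .done ∧ R.um = .up))
  ad : adj = true → Bl.st = Ab.st ∧ Bl.um = Ab.um ∧ stT L.st Bl.ty R.st ∧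
    dmT L.ty Bl.ty Bl.dm Ab.dm L.um R.um ∧ (L.ty = .f → Bl.dm = .B) ∧ (L.ty = .l → Ab.dm = .A)

def Rule (c : Core) : Prop :=
  (c.cdom = true → Rule0 c.adj c.L c.R c.Bl c.Ab) ∧ (c.cdom = false → Rule0 c.adj c.Bl c.Ab c.L c.R)

def tAdj (i : ℕ) (x0 y z w : ℤ) : Core :=
  vw i ⟨true, true, lab i x0 y (z - 1), lab i 0 y z, lab (i + 1) (y - 1) z w, lab (i + 1) y z w⟩

def tGg (i : ℕ) (x0 y : ℤ) (j : ℕ) (x' y' z' : ℤ) : Core :=
  vw i ⟨true, false, lab i x0 y (nn (i + 1) - 1), lab i 0 y 0, lab j x' y' z', lab j x' y' z'⟩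

/-- the crossings of a line of index `i` and digit `y` with the higher lines -/
def TAt (i : ℕ) (x0 y : ℤ) (c : Core) : Prop :=
  (∃ z w, 1 ≤ z ∧ z < nn (i + 1) ∧ 0 ≤ w ∧ w < nn (i + 2) ∧ c = tAdj i x0 y z w) ∨
  (∃ j x' y' z', i + 3 ≤ j ∧ j % 2 ≠ i % 2 ∧ 0 ≤ x' ∧ x' < nn (j - 1) ∧ 1 ≤ y' ∧ y' < nn j ∧
    0 ≤ z' ∧ z' < nn (j + 1) ∧ c = tGg i x0 y j x' y' z')

/-- the crossings of two lines of index at least `k` -/
def TT (k : ℕ) (c : Core) : Prop :=
  ∃ i y, k ≤ i ∧ 1 ≤ y ∧ y < nn i ∧ TAt i (nn (i - 1) - 1) y c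

/-- the starting level is even and the tile sets are stable from it on -/
def Stab (K : ℕ) : Prop := K % 2 = 0 ∧ 2 ≤ K ∧ ∀ k, ∀ c, TT (K + 1) c → TT k c

def Allowed (K : ℕ) (p : Core × ℤ) : Prop :=
  0 ≤ p.2 ∧ p.2 < nn K ∧ (p.2 = 0 → TT (K + 1) p.1) ∧ (p.2 ≠ 0 → TAt K 0 p.2 p.1)

instance (K : ℕ) : Finite {p : Core × ℤ // Allowed K p} :=
  (((Set.finite_univ (α := Core)).prod (Set.finite_Ico 0 (nn K))).subset
    (t := {p | Allowed K p}) fun _ hp => ⟨trivial, hp.1, hp.2.1⟩).to_subtype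

/-- the Wang system -/
noncomputable def Wst (K : ℕ) : Wang where
  A := {p : Core × ℤ // Allowed K p}
  fin := Fintype.ofFinite _
  L := Lab × ℤ
  out d a := if d then (a.1.1.Ab, (a.1.2 + 1) % nn K) else (a.1.1.R, a.1.2)
  inn d a := if d then (a.1.1.Bl, a.1.2) else (a.1.1.L, a.1.2)

/-- the underlying pair of a tile -/
def tl {K : ℕ} (a : (Wst K).A) : Core × ℤ := a.1

/-- the core of a tile -/
def cr {K : ℕ} (a : (Wst K).A) : Core := a.1.1

/-- the digit of level `j` of an absolute position -/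
def dg (K j : ℕ) (Z : Z2) : ℤ := co j Z % ss K (j + 2) / ss K j

def LabAt (K j : ℕ) (Z : Z2) : Lab := lab j (dg K (j - 1) Z) (dg K j Z) (dg K (j + 1) Z)

/-- the line of the parity of `j` through `Z` has index exactly `j` -/
def IsIdx (K j : ℕ) (Z : Z2) : Prop := ss K j ∣ co j Z ∧ ¬ ss K (j + 2) ∣ co j Z

/-- what is known on the tile at the absolute position `Z` from the digits of level `≤ k` -/
structure Known (K k : ℕ) (Z : Z2) (p : Core × ℤ) : Prop where
  cnt : p.2 = dg K K Z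
  full : ∀ j, j < k → IsIdx K j Z →
    (vw j p.1).R = LabAt K j Z ∧ (vw j p.1).L = LabAt K j (Z - ac (j + 1))
  part : IsIdx K k Z → (vw k p.1).R.ty = (LabAt K k Z).ty ∧ (vw k p.1).R.dm = (LabAt K k Z).dm ∧
    (vw k p.1).L.dm = (LabAt K k (Z - ac (k + 1))).dm
  dom : ∀ j, j ≤ k → IsIdx K j Z → ss K (j + 1) ∣ co (j + 1) Z → (vw j p.1).cdom = true
  adj : ∀ j, j < k → IsIdx K j Z → ss K (j + 1) ∣ co (j + 1) Z →
    (p.1.adj = true ↔ ¬ ss K (j + 3) ∣ co (j + 1) Z)

/-- the tile at a crossing of lines of indices `i < j` -/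
def tileAt (K i j : ℕ) (Z : Z2) : Core :=
  vw i ⟨true, decide (j = i + 1), LabAt K i (Z - ac (i + 1)), LabAt K i Z, LabAt K j (Z - ac i),
    LabAt K j Z⟩

/-- the origin of `x` is at the absolute position `Z`, up to level `k` -/
def At {K : ℕ} (x : (Wst K).X) (k : ℕ) (Z : Z2) : Prop := ∀ z, Known K k (Z + z) (tl (x.1 z))

open Classical in
noncomputable def resW {K : ℕ} (x : (Wst K).X) (i : ℕ) : ℤ :=
  if h : ∃ Z, At x (max K i) Z then co i h.choose % ss K i else 0

noncomputable def sigW {K : ℕ} (i : ℕ) (x : (Wst K).X) : St :=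
  st (mm (i + 1)) (resW x (i + 3) / ss K (i + 1))

section
variable {A Ω : Type} [QL Ω]

/-- the invariant of the rigidity proof -/
def Inv {K : ℕ} (R : Rep (Wst K) Ω) (k : ℕ) (Z : Z2) (f : Ω) : Prop :=
  (∀ z, Frc f (R.q z) fun a => Known K k (Z + z) (tl a)) ∧
    ∀ z, ss K k ∣ co k (Z + z) → ss K (k + 1) ∣ co (k + 1) (Z + z) →
      ∀ φ : Core → Prop, Dec f (R.q z) fun a => φ (cr a)

/-- One stage of the hierarchy: the sites `(u, v)` are crossings of the column `u` and the row `v`;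
the rows `v` not divisible by `3 * m` are the lowest lines. -/
structure Stage (q : ℤ → ℤ → PVM A Ω) (c : A → Core) (m : ℤ) (f : Ω) : Prop where
  rule : ∀ a, Rule (c a)
  dec : ∀ u v (φ : Core → Prop), Dec f (q u v) fun a => φ (c a)
  vert : ∀ u v g, Le g f → ∀ φ : Lab → Prop,
    (Frc g (q u v) fun a => φ (c a).Ab) ↔ Frc g (q u (v + 1)) fun a => φ (c a).Bl
  horU : ∀ u v g, Le g f → ∀ φ : Ty → St → Um → Prop,
    (Frc g (q u v) fun a => φ (c a).R.ty (c a).R.st (c a).R.um) ↔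
      Frc g (q (u + 1) v) fun a => φ (c a).L.ty (c a).L.st (c a).L.um
  horF : ∀ u v, 3 * m ∣ v → ∀ g, Le g f → ∀ φ : Lab → Prop,
    (Frc g (q u v) fun a => φ (c a).R) ↔ Frc g (q (u + 1) v) fun a => φ (c a).L
  low : ∀ u v, ¬ 3 * m ∣ v →
    Frc f (q u v) fun a => (c a).cdom = true ∧ (c a).R.ty = ty m (v % (3 * m))

/-- the tile on a lowest row with digit `r`; `z` is the digit of the column, `z'` of the previous
column -/
structure LowF (m r z z' : ℤ) (c : Core) : Prop where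
  adj : c.adj = true ↔ z ≠ 0
  stR : c.R.st = st (2 * m + 1) z
  stL : c.L.st = st (2 * m + 1) z'
  umR : c.R.um = um m r z
  umL : c.L.um = um m r z'
  col : z ≠ 0 → c.Ab.ty = ty (2 * m + 1) z ∧ c.Ab.dm = dm m r z ∧ c.Bl.dm = dm m (r - 1) z

/-- the piece `X` fixes the digit `w` of the column `0` -/
structure StageOut (q : ℤ → ℤ → PVM A Ω) (c : A → Core) (m w : ℤ) (X : Ω) : Prop where
  low : ∀ u v, ¬ 3 * m ∣ v → Frc X (q u v) fun a => LowF m (v % (3 * m))
    ((u + w) % (3 * (2 * m + 1))) ((u + w - 1) % (3 * (2 * m + 1))) (c a)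
  high : ∀ u v, 3 * m ∣ v → ¬ 3 * (2 * m + 1) ∣ u + w → Frc X (q u v) fun a => (c a).cdom = false

end

end Vale.Agent.P196
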