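import Vale.Agent.P196.Tiles
import Vale.Agent.P196.QLBasic

/-! P196 task X1: the rule holds on all tiles; digits and indices. -/

namespace Vale.Agent.P196

variable {K : ℕ}

@[simp] theorem Core.tr_tr (c : Core) : c.tr.tr = c := by
  cases c; simp [Core.tr]

theorem vw_vw (i : ℕ) (c : Core) : vw i (vw i c) = c := by
  unfold vw; split_ifs <;> simp

theorem vw_congr {i j : ℕ} (h : i % 2 = j % 2) : vw i = vw j := by
  funext c; unfold vw; rw [h]

theorem vw_ne {i j : ℕ} (h : i % 2 ≠ j % 2) (c : Core) : vw i c = (vw j c).tr := by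
  unfold vw
  split_ifs with h1 h2 h2
  · omega
  · simp
  · rfl
  · omega

theorem vw_adj (i : ℕ) (c : Core) : (vw i c).adj = c.adj := by
  unfold vw; split_ifs <;> rfl

theorem vw_inj {i : ℕ} {c c' : Core} (h : vw i c = vw i c') : c = c' := by
  rw [← vw_vw i c, h, vw_vw]

theorem rule_tr {c : Core} : Rule c.tr ↔ Rule c := by
  obtain ⟨d, a, L, R, B, A⟩ := c
  cases d <;> simp [Rule, Core.tr]

theorem rule_vw {i : ℕ} {c : Core} : Rule (vw i c) ↔ Rule c := by
  unfold vw; split_ifs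
  · rfl
  · exact rule_tr

theorem Rule.ty_row {c : Core} (h : Rule c) : c.L.ty = c.R.ty := by
  cases hd : c.cdom
  · exact (h.2 hd).ty2
  · exact (h.1 hd).ty1

theorem Rule.ty_col {c : Core} (h : Rule c) : c.Bl.ty = c.Ab.ty := by
  cases hd : c.cdom
  · exact (h.2 hd).ty1
  · exact (h.1 hd).ty2

/-- a dominating row keeps type, counter and marker -/
theorem Rule.up_row {c : Core} (h : Rule c) (hd : c.cdom = false) :
    c.L.ty = c.R.ty ∧ c.L.st = c.R.st ∧ c.L.um = c.R.um := by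
  have h0 := h.2 hd
  cases ha : c.adj
  · rw [(h0.gg ha).1]; exact ⟨rfl, rfl, rfl⟩
  · exact ⟨h0.ty2, (h0.ad ha).1, (h0.ad ha).2.1⟩

theorem Rule.full_row {c : Core} (h : Rule c) (hd : c.cdom = false) (ha : c.adj = false) :
    c.L = c.R := by
  exact ((h.2 hd).gg ha).1

theorem Rule.up_col {c : Core} (h : Rule c) (hd : c.cdom = true) :
    c.Bl.ty = c.Ab.ty ∧ c.Bl.st = c.Ab.st ∧ c.Bl.um = c.Ab.um := by
  have h0 := h.1 hd
  cases ha : c.adj
  · rw [(h0.gg ha).1]; exact ⟨rfl, rfl, rfl⟩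
  · exact ⟨h0.ty2, (h0.ad ha).1, (h0.ad ha).2.1⟩

theorem Rule.full_col {c : Core} (h : Rule c) (hd : c.cdom = true) (ha : c.adj = false) :
    c.Bl = c.Ab := by
  exact ((h.1 hd).gg ha).1

theorem tilesBasicAux_ph {m z : ℤ} (h1 : 0 ≤ z) (h2 : z < 3 * (2 * m + 1)) :
    0 ≤ ph m z ∧ ph m z ≤ 2 * m := by
  unfold ph; split_ifs <;> omega

theorem tilesBasicAux_ok {m z : ℤ} (hm : 3 ≤ m) (h1 : 0 ≤ z) (h2 : z < 3 * (2 * m + 1)) (y : ℤ)
    (s : St) (d : Dm) : okU ⟨ty m y, s, um m y z, d⟩ := by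
  obtain ⟨h3, h4⟩ := tilesBasicAux_ph h1 h2
  unfold okU um
  generalize ph m z = j at h3 h4
  unfold hh ms ty
  dsimp only
  split_ifs <;> first | omega | simp

theorem tilesBasicAux_st {m z : ℤ} (hm : 3 ≤ m) (h1 : 1 ≤ z) (h2 : z < 3 * m) :
    stT (st m (z - 1)) (ty m z) (st m z) := by
  unfold stT st ty
  split_ifs <;> first | omega | simp

theorem tilesBasicAux_ty {m y : ℤ} (hm : 3 ≤ m) :
    (ty m y = .z1 ↔ y = m) ∧ (ty m y = .z2 ↔ y = 2 * m) ∧ (ty m y = .f ↔ y = 1) ∧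
      (ty m y = .l ↔ 3 * m - 1 ≤ y) := by
  unfold ty
  split_ifs <;> simp <;> omega

theorem tilesBasicAux_dm {m z : ℤ} (hm : 3 ≤ m) (h1 : 1 ≤ z) (h2 : z < 3 * (2 * m + 1)) (y : ℤ) :
    dmT (ty m y) (ty (2 * m + 1) z) (dm m (y - 1) z) (dm m y z) (um m y (z - 1)) (um m y z) := by
  obtain ⟨h3, h4⟩ := tilesBasicAux_ph (by omega : 0 ≤ z) h2
  obtain ⟨a1, a2, -, -⟩ := tilesBasicAux_ty (y := y) hm
  obtain ⟨b1, b2, -, -⟩ := tilesBasicAux_ty (y := z) (by omega : 3 ≤ 2 * m + 1)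
  have e1 : ph m (z - 1) = if ph m z = 0 then 2 * m else ph m z - 1 := by
    unfold ph; split_ifs <;> omega
  have e2 : ph m z = 0 ↔ (z = 2 * m + 1 ∨ z = 2 * (2 * m + 1)) := by
    unfold ph; split_ifs <;> omega
  unfold dmT um dm
  simp only [ne_eq, a1, a2, b1, b2, e1]
  generalize ph m z = j at h3 h4 e2
  clear e1 a1 a2 b1 b2
  by_cases c0 : j = 0
  · have e3 : hh m (2 * m) = m := by unfold hh; split_ifs <;> omega
    have e4 : hh m 0 = m := by unfold hh; split_ifs <;> omega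
    have e5 : ms m (2 * m) = .done := by unfold ms; rw [if_neg (by omega), if_neg (by omega)]
    have e6 : ms m 0 = .up := by unfold ms; rw [if_pos (by omega)]
    have e7 := e2.1 c0
    subst c0
    simp only [if_true, e3, e4, e5, e6, e7]
    split_ifs <;> first | omega | simp
  · have e7 : ¬ z = 2 * m + 1 ∧ ¬ z = 2 * (2 * m + 1) := not_or.1 fun h => c0 (e2.2 h)
    simp only [if_neg c0, e7.1, e7.2]
    clear e7 e2
    by_cases c1 : j ≤ m
    · have e3 : hh m (j - 1) = m + j - 1 := by unfold hh; split_ifs <;> omega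
      have e4 : hh m j = m + j := by unfold hh; split_ifs <;> omega
      have e5 : ms m (j - 1) = .up := by unfold ms; rw [if_pos (by omega)]
      have e6 : ms m j = if j = m then .dn else .up := by
        unfold ms; split_ifs <;> first | rfl | omega
      simp only [if_pos c1, e3, e4, e5, e6]
      split_ifs <;> first | omega | simp
    · have e3 : hh m (j - 1) = 3 * m - j + 1 := by unfold hh; split_ifs <;> omega
      have e4 : hh m j = 3 * m - j := by unfold hh; split_ifs <;> omega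
      have e5 : ms m (j - 1) = .dn := by unfold ms; rw [if_neg (by omega), if_pos (by omega)]
      have e6 : ms m j = if j = 2 * m then .done else .dn := by
        unfold ms; split_ifs <;> first | rfl | omega
      simp only [if_neg c1, e3, e4, e5, e6]
      split_ifs <;> first | omega | simp

theorem tilesBasicAux_f {m y z : ℤ} (hm : 3 ≤ m) (h1 : 0 ≤ z) (h2 : z < 3 * (2 * m + 1))
    (h : ty m y = .f) : dm m (y - 1) z = .B := by
  obtain ⟨h3, h4⟩ := tilesBasicAux_ph h1 h2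
  have h5 := (tilesBasicAux_ty (y := y) hm).2.2.1.1 h
  unfold dm
  split_ifs <;> first | rfl | omega

theorem tilesBasicAux_l {m y z : ℤ} (hm : 3 ≤ m) (h1 : 0 ≤ z) (h2 : z < 3 * (2 * m + 1))
    (h : ty m y = .l) : dm m y z = .A := by
  obtain ⟨h3, h4⟩ := tilesBasicAux_ph h1 h2
  have h5 := (tilesBasicAux_ty (y := y) hm).2.2.2.1 h
  unfold dm
  split_ifs <;> first | rfl | omega

theorem rule_of_TAt {i : ℕ} {x0 y : ℤ} {c : Core} (h1 : 1 ≤ y) (h2 : y < nn i)
    (h : TAt i x0 y c) : Rule c := by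
  have hm := three_le_mm i
  have hM := mm_succ i
  unfold nn at h2
  rcases h with ⟨z, w, hz1, hz2, -, -, rfl⟩ | ⟨j, x', y', z', -, -, -, -, -, -, -, -, rfl⟩
  · unfold nn at hz2
    unfold tAdj
    rw [rule_vw]
    refine ⟨fun _ => ⟨rfl, rfl, ?_, ?_, fun h => (Bool.noConfusion h), fun _ =>
      ⟨rfl, rfl, ?_, ?_, ?_, ?_⟩⟩, fun h => Bool.noConfusion h⟩
    · exact tilesBasicAux_ok hm (by omega) (by omega) _ _ _
    · exact tilesBasicAux_ok hm (by omega) (by omega) _ _ _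
    · exact tilesBasicAux_st (three_le_mm _) hz1 hz2
    · show dmT (ty (mm i) y) (ty (mm (i + 1)) z) (dm (mm i) (y - 1) z) (dm (mm i) y z)
        (um (mm i) y (z - 1)) (um (mm i) y z)
      rw [hM] at hz2 ⊢
      exact tilesBasicAux_dm hm hz1 hz2 y
    · exact fun h => tilesBasicAux_f (m := mm i) hm (by omega) (by omega) h
    · exact fun h => tilesBasicAux_l (m := mm i) hm (by omega) (by omega) h
  · unfold tGg nn
    rw [rule_vw]
    refine ⟨fun _ => ⟨rfl, rfl, ?_, ?_, fun _ => ⟨rfl, ?_, ?_, ?_⟩, fun h => Bool.noConfusion h⟩,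
      fun h => Bool.noConfusion h⟩
    · exact tilesBasicAux_ok hm (by omega) (by omega) _ _ _
    · exact tilesBasicAux_ok hm (by omega) (by omega) _ _ _
    · show st _ _ = _
      unfold st
      rw [if_neg (by omega), if_neg (by omega), if_neg (by omega), if_neg (by omega)]
    · show st (mm (i + 1)) 0 = St.s0
      unfold st
      rw [if_pos rfl]
    · show (um _ _ _ = _ ∧ um _ _ _ = _) ∨ (um _ _ _ = _ ∧ um _ _ _ = _)
      have e1 : ph (mm i) (3 * mm (i + 1) - 1) = 2 * mm i := by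
        unfold ph; split_ifs <;> omega
      have e2 : ph (mm i) 0 = 0 := by
        unfold ph; split_ifs <;> omega
      have e3 : hh (mm i) (2 * mm i) = mm i := by
        unfold hh; split_ifs <;> omega
      have e4 : hh (mm i) 0 = mm i := by
        unfold hh; split_ifs <;> omega
      have e5 : ms (mm i) (2 * mm i) = .done := by
        unfold ms; rw [if_neg (by omega), if_neg (by omega)]
      have e6 : ms (mm i) 0 = .up := by
        unfold ms; rw [if_pos (by omega)]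
      unfold um
      rw [e1, e2, e3, e4, e5, e6]
      split_ifs
      · exact Or.inr ⟨rfl, rfl⟩
      · exact Or.inl ⟨rfl, rfl⟩

theorem rule_cr (a : (Wst K).A) : Rule (cr a) := by
  obtain ⟨⟨c, y⟩, h0, h1, h2, h3⟩ := a
  show Rule c
  by_cases hy : y = 0
  · obtain ⟨i, y', -, h4, h5, h6⟩ := h2 hy
    exact rule_of_TAt h4 h5 h6
  · exact rule_of_TAt (y := y) (by have : 0 ≤ y := h0; omega) h1 (h3 hy)

theorem exists_stab : ∃ K, Stab K := by
  have anti : ∀ {k k' : ℕ}, k ≤ k' → {c | TT k' c} ⊆ {c | TT k c} := by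
    rintro k k' hk c ⟨i, y, h1, h2⟩
    exact ⟨i, y, hk.trans h1, h2⟩
  obtain ⟨_, ⟨k0, rfl⟩, hmin⟩ := (wellFounded_lt (α := Set Core)).has_min
    (Set.range fun k => {c | TT k c}) (Set.range_nonempty _)
  refine ⟨2 * k0 + 2, by omega, by omega, fun k c hc => ?_⟩
  have h1 : {c | TT (max k k0) c} = {c | TT k0 c} :=
    eq_of_le_of_not_lt (anti (le_max_right _ _)) (hmin _ ⟨_, rfl⟩)
  have h2 : c ∈ {c | TT k0 c} := anti (by omega) hc
  rw [← h1] at h2
  exact anti (le_max_left _ _) h2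

theorem tile_ext {a a' : (Wst K).A} (h : tl a = tl a') : a = a' := by
  exact Subtype.ext h

/-! edges along the lines of the parity of `i` -/

theorem tilesBasicAux_dir (i : ℕ) : ∃ d, ev d = ac (i + 1) ∧ ∀ a a' : (Wst K).A,
    (Wst K).out d a = (Wst K).inn d a' → (vw i (cr a)).R = (vw i (cr a')).L := by
  unfold ac vw
  by_cases h : i % 2 = 0
  · refine ⟨false, by rw [if_neg (by omega)]; rfl, fun a a' e => ?_⟩
    rw [if_pos h, if_pos h]
    exact congrArg Prod.fst e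
  · refine ⟨true, by rw [if_pos (by omega)]; rfl, fun a a' e => ?_⟩
    rw [if_neg h, if_neg h]
    exact congrArg Prod.fst e

theorem X_edge (x : (Wst K).X) (i : ℕ) (z : Z2) :
    (vw i (cr (x.1 z))).R = (vw i (cr (x.1 (z + ac (i + 1))))).L := by
  obtain ⟨d, hd, h⟩ := tilesBasicAux_dir (K := K) i
  rw [← hd]
  exact h _ _ (x.2 z d)

section
variable {Ω : Type} [QL Ω] (R : Rep (Wst K) Ω) {g : Ω}

theorem Rep.edge_iff (i : ℕ) (z : Z2) (φ : Lab → Prop) :
    (Frc g (R.q z) fun a => φ (vw i (cr a)).R) ↔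
      Frc g (R.q (z + ac (i + 1))) fun a => φ (vw i (cr a)).L := by
  obtain ⟨d, hd, h⟩ := tilesBasicAux_dir (K := K) i
  rw [← hd]
  exact ⟨fun h1 => R.fwd h1 fun a a' h2 h3 => h a a' h3 ▸ h2,
    fun h1 => R.bwd h1 fun a a' h2 h3 => (h a a' h3).symm ▸ h2⟩

/-- transfer of an invariant of labels along a segment of a line -/
theorem Rep.run_iff (i : ℕ) (z : Z2) (n : ℕ) (φ : Lab → Prop)
    (h : ∀ t : ℕ, 1 ≤ t → t ≤ n → Frc g (R.q (z + (t : ℤ) • ac (i + 1))) fun a =>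
      (φ (vw i (cr a)).L ↔ φ (vw i (cr a)).R)) :
    (Frc g (R.q z) fun a => φ (vw i (cr a)).R) ↔
      Frc g (R.q (z + (n : ℤ) • ac (i + 1))) fun a => φ (vw i (cr a)).R := by
  induction n with
  | zero => simp
  | succ n ih =>
    rw [ih fun t h1 h2 => h t h1 (by omega), R.edge_iff]
    have h1 := h (n + 1) (by omega) le_rfl
    have e : z + (n : ℤ) • ac (i + 1) + ac (i + 1) = z + ((n + 1 : ℕ) : ℤ) • ac (i + 1) := by
      push_cast; rw [add_smul, one_smul, add_assoc]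
    rw [e]
    exact ⟨fun h2 => (h1.and h2).mono fun a ha => ha.1.1 ha.2,
      fun h2 => (h1.and h2).mono fun a ha => ha.1.2 ha.2⟩

end

/-! indices and digits -/

theorem tilesBasicAux_div (a : ℤ) {n s : ℤ} (hn : 0 < n) (hs : 0 < s) :
    a % (n * s) / s = a / s % n := by
  have h1 := Int.emod_add_mul_ediv a s
  have h2 := Int.emod_add_mul_ediv (a / s) n
  have h3 := Int.emod_nonneg a hs.ne'
  have h4 := Int.emod_lt_of_pos a hs
  have h5 := Int.emod_nonneg (a / s) hn.ne'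
  have h6 := Int.emod_lt_of_pos (a / s) hn
  generalize a / s % n = r' at *
  generalize a / s / n = q' at *
  generalize a % s = r at *
  have e : a = r + s * r' + n * s * q' := by rw [← h1, ← h2]; ring
  rw [e, Int.add_mul_emod_self_left, Int.emod_eq_of_lt (by positivity) (by nlinarith),
    Int.add_mul_ediv_left _ _ hs.ne', Int.ediv_eq_zero_of_lt h3 h4, zero_add]

theorem tilesBasicAux_sub1 {a s : ℤ} (hs : 0 < s) (h : ¬ s ∣ a) : (a - 1) / s = a / s := by
  have h1 := Int.emod_add_mul_ediv a s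
  have h3 := Int.emod_nonneg a hs.ne'
  have h4 := Int.emod_lt_of_pos a hs
  have h5 : a % s ≠ 0 := fun h6 => h (Int.dvd_of_emod_eq_zero h6)
  rw [show a - 1 = a % s - 1 + s * (a / s) by omega, Int.add_mul_ediv_left _ _ hs.ne',
    Int.ediv_eq_zero_of_lt (by omega) (by omega), zero_add]

theorem tilesBasicAux_sub2 {q s : ℤ} (hs : 0 < s) : (s * q - 1) / s = q - 1 := by
  rw [show s * q - 1 = s - 1 + s * (q - 1) by ring, Int.add_mul_ediv_left _ _ hs.ne',
    Int.ediv_eq_zero_of_lt (by omega) (by omega), zero_add]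

theorem IsIdx.le {j : ℕ} {Z : Z2} (h : IsIdx K j Z) : K ≤ j := by
  by_contra h1
  exact h.2 (by rw [ss_of_le (by omega)]; exact one_dvd _)

theorem exists_idx {k : ℕ} {Z : Z2} (h : ¬ ss K k ∣ co k Z) :
    ∃ j, j + 2 ≤ k ∧ j % 2 = k % 2 ∧ IsIdx K j Z := by
  induction k using Nat.strong_induction_on with
  | _ k ih =>
    by_cases h1 : k ≤ K + 1
    · exact (h (by rw [ss_of_le h1]; exact one_dvd _)).elim
    · obtain ⟨j, rfl⟩ : ∃ j, k = j + 2 := ⟨k - 2, by omega⟩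
      rw [co_congr (by omega : (j + 2) % 2 = j % 2)] at h
      by_cases h2 : ss K j ∣ co j Z
      · exact ⟨j, le_rfl, by omega, h2, h⟩
      · obtain ⟨j', h3, h4, h5⟩ := ih j (by omega) h2
        exact ⟨j', by omega, by omega, h5⟩

theorem IsIdx.unique {i j : ℕ} {Z : Z2} (h : IsIdx K i Z) (h' : IsIdx K j Z)
    (hp : i % 2 = j % 2) : i = j := by
  rcases lt_trichotomy i j with h1 | h1 | h1
  · exact (h.2 (co_congr hp ▸ (ss_dvd (by omega) (by omega)).trans h'.1)).elim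
  · exact h1
  · exact (h'.2 (co_congr hp ▸ (ss_dvd (by omega) (by omega)).trans h.1)).elim

theorem IsIdx.congr {j : ℕ} {Z Z' : Z2} (h : IsIdx K j Z) (h' : ss K (j + 2) ∣ co j Z - co j Z') :
    IsIdx K j Z' := by
  exact ⟨(dvd_sub_right h.1).1 ((ss_dvd_add_two j).trans h'),
    fun h1 => h.2 ((dvd_sub_left h1).1 h')⟩

theorem dg_nonneg (j : ℕ) (Z : Z2) : 0 ≤ dg K j Z := by
  exact Int.ediv_nonneg (Int.emod_nonneg _ (ss_pos _).ne') (ss_pos _).le

theorem dg_lt (j : ℕ) (Z : Z2) : dg K j Z < nn j := by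
  have h0 := Int.emod_lt_of_pos (co j Z) (ss_pos (K := K) (j + 2))
  have h1 := three_le_mm j
  have h2 := ss_pos (K := K) j
  refine Int.ediv_lt_of_lt_mul h2 (h0.trans_le ?_)
  unfold nn
  by_cases h : K ≤ j
  · rw [ss_add_two h]
  · rw [ss_of_le (by omega : j + 2 ≤ K + 1)]; nlinarith

theorem dg_of_lt {j : ℕ} (h : j < K) (Z : Z2) : dg K j Z = 0 := by
  unfold dg
  rw [ss_of_le (by omega : j + 2 ≤ K + 1), Int.emod_one, Int.zero_ediv]

theorem dg_eq {j : ℕ} (h : K ≤ j) (Z : Z2) : dg K j Z = co j Z / ss K j % (3 * mm j) := by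
  unfold dg
  rw [ss_add_two h]
  exact tilesBasicAux_div _ (by have := three_le_mm j; omega) (ss_pos j)

theorem dg_congr {j : ℕ} {Z Z' : Z2} (h : ss K (j + 2) ∣ co j Z - co j Z') :
    dg K j Z = dg K j Z' := by
  unfold dg
  rw [(Int.modEq_iff_dvd.2 h : co j Z' % _ = co j Z % _)]

theorem dg_eq_zero {j : ℕ} {Z : Z2} (h : ss K (j + 2) ∣ co j Z) : dg K j Z = 0 := by
  unfold dg
  rw [Int.emod_eq_zero_of_dvd h, Int.zero_ediv]

theorem IsIdx.one_le {j : ℕ} {Z : Z2} (h : IsIdx K j Z) : 1 ≤ dg K j Z := by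
  have h0 := dg_nonneg (K := K) j Z
  obtain ⟨⟨q, hq⟩, h2⟩ := id h
  have h3 : dg K j Z ≠ 0 := by
    rw [dg_eq h.le, hq, Int.mul_ediv_cancel_left _ (ss_pos j).ne']
    intro h4
    apply h2
    rw [ss_add_two h.le, hq, mul_comm (ss K j)]
    exact mul_dvd_mul_right (Int.dvd_of_emod_eq_zero h4) _
  omega

theorem dg_sub_of_not_dvd {i j : ℕ} {Z : Z2} (hp : i % 2 = j % 2) (h : ¬ ss K j ∣ co j Z) :
    dg K j (Z - ac i) = dg K j Z := by
  by_cases hj : K ≤ j
  · rw [dg_eq hj, dg_eq hj, co_sub, co_ac hp.symm, tilesBasicAux_sub1 (ss_pos j) h]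
  · rw [dg_of_lt (by omega), dg_of_lt (by omega)]

theorem IsIdx.dg_sub {i j : ℕ} {Z : Z2} (hp : i % 2 = j % 2) (h : IsIdx K j Z) :
    dg K j (Z - ac i) = dg K j Z - 1 := by
  have h1 := h.one_le
  have h2 := dg_lt (K := K) j Z
  obtain ⟨q, hq⟩ := h.1
  rw [dg_eq h.le] at h1 h2
  rw [dg_eq h.le, dg_eq h.le, co_sub, co_ac hp.symm]
  rw [hq, Int.mul_ediv_cancel_left _ (ss_pos j).ne'] at h1 h2 ⊢
  rw [tilesBasicAux_sub2 (ss_pos j)]
  unfold nn at h2
  have h3 := Int.emod_add_mul_ediv q (3 * mm j)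
  rw [show q - 1 = q % (3 * mm j) - 1 + 3 * mm j * (q / (3 * mm j)) by omega,
    Int.add_mul_emod_self_left, Int.emod_eq_of_lt (by omega) (by omega)]

theorem dg_sub_of_dvd {i j : ℕ} {Z : Z2} (hp : i % 2 = j % 2) (hj : K ≤ j)
    (h : ss K (j + 2) ∣ co j Z) : dg K j (Z - ac i) = nn j - 1 := by
  obtain ⟨q, hq⟩ := h
  have h1 := three_le_mm j
  rw [dg_eq hj, co_sub, co_ac hp.symm, hq, ss_add_two hj,
    show 3 * mm j * ss K j * q = ss K j * (3 * mm j * q) by ring, tilesBasicAux_sub2 (ss_pos j),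
    show 3 * mm j * q - 1 = 3 * mm j - 1 + 3 * mm j * (q - 1) by ring,
    Int.add_mul_emod_self_left, Int.emod_eq_of_lt (by omega) (by omega)]
  rfl

theorem dg_sub_ne {i j : ℕ} (hp : i % 2 ≠ j % 2) (Z : Z2) : dg K j (Z - ac i) = dg K j Z := by
  unfold dg
  rw [co_sub, co_ac_ne (Ne.symm hp), sub_zero]

theorem LabAt_congr {j : ℕ} (hj : 1 ≤ j) {Z Z' : Z2} (h1 : ss K (j + 2) ∣ co j Z - co j Z')
    (h2 : ss K (j + 3) ∣ co (j + 1) Z - co (j + 1) Z') : LabAt K j Z = LabAt K j Z' := by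
  unfold LabAt
  rw [dg_congr h1, dg_congr (j := j + 1) h2, dg_congr (j := j - 1) (Z := Z) (Z' := Z')]
  rw [co_congr (by omega : (j - 1) % 2 = (j + 1) % 2)]
  exact (ss_dvd (by omega) (by omega)).trans h2

/-! what is known -/

theorem Known.mono {k k' : ℕ} {Z : Z2} {p : Core × ℤ} (h : Known K k' Z p) (hk : k ≤ k') :
    Known K k Z p := by
  refine ⟨h.cnt, fun j hj => h.full j (by omega), fun hi => ?_, fun j hj => h.dom j (by omega),
    fun j hj => h.adj j (by omega)⟩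
  rcases hk.eq_or_lt with rfl | hk
  · exact h.part hi
  · obtain ⟨h1, h2⟩ := h.full k hk hi
    rw [h1, h2]
    exact ⟨rfl, rfl, rfl⟩

theorem Known.congr (hK : Stab K) {k : ℕ} (hk : K ≤ k) {Z Z' : Z2} {p : Core × ℤ}
    (h : Known K k Z p) (h1 : ss K (k + 1) ∣ co (k + 1) Z - co (k + 1) Z')
    (h2 : ss K (k + 2) ∣ co k Z - co k Z') : Known K k Z' p := by
  have hK2 := hK.2.1
  have H : ∀ j, j ≤ k → ss K (j + 2) ∣ co j Z - co j Z' := by
    intro j hj
    by_cases hp : j % 2 = k % 2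
    · rw [co_congr hp]
      exact (ss_dvd (by omega) (by omega)).trans h2
    · rw [co_congr (by omega : j % 2 = (k + 1) % 2)]
      exact (ss_dvd (by omega) (by omega)).trans h1
  have H' : ∀ (w : Z2) j, j ≤ k → ss K (j + 2) ∣ co j (Z - w) - co j (Z' - w) := by
    intro w j hj
    rw [co_sub, co_sub, sub_sub_sub_cancel_right]
    exact H j hj
  have HI : ∀ j, j ≤ k → IsIdx K j Z' → IsIdx K j Z := fun j hj hi =>
    hi.congr (dvd_sub_comm.1 (H j hj))
  have HD : ∀ j, j ≤ k → IsIdx K j Z' → ss K (j + 1) ∣ co (j + 1) Z' →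
      ss K (j + 1) ∣ co (j + 1) Z := by
    intro j hj hi hd
    have h3 := hi.le
    have h4 := H (j - 1) (by omega)
    rw [co_congr (by omega : (j - 1) % 2 = (j + 1) % 2),
      show j - 1 + 2 = j + 1 by omega] at h4
    exact (dvd_sub_left hd).1 h4
  refine ⟨h.cnt.trans (dg_congr (H K hk)), fun j hj hi => ?_, fun hi => ?_,
    fun j hj hi hd => h.dom j hj (HI j hj hi) (HD j hj hi hd), fun j hj hi hd => ?_⟩
  · have h3 := hi.le
    obtain ⟨h4, h5⟩ := h.full j hj (HI j hj.le hi)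
    exact ⟨h4.trans (LabAt_congr (by omega) (H j hj.le) (H (j + 1) hj)),
      h5.trans (LabAt_congr (by omega) (H' _ j hj.le) (H' _ (j + 1) hj))⟩
  · obtain ⟨h4, h5, h6⟩ := h.part (HI k le_rfl hi)
    rw [h4, h5, h6]
    unfold LabAt lab
    dsimp only
    rw [dg_congr (H k le_rfl), dg_congr (H (k - 1) (by omega)), dg_congr (H' _ k le_rfl),
      dg_congr (H' _ (k - 1) (by omega))]
    exact ⟨rfl, rfl, rfl⟩
  · rw [h.adj j hj (HI j hj.le hi) (HD j hj.le hi hd)]
    have h4 := H (j + 1) hj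
    exact not_congr ⟨fun h5 => (dvd_sub_right h5).1 h4, fun h5 => (dvd_sub_left h5).1 h4⟩

/-- a crossing of two low lines -/
theorem Known.eq_tileAt {k i j : ℕ} {Z : Z2} {p : Core × ℤ} (h : Known K k Z p) (hi : IsIdx K i Z)
    (hj : IsIdx K j Z) (hij : i < j) (hjk : j < k) (hp : i % 2 ≠ j % 2) :
    p.1 = tileAt K i j Z := by
  have hc : co (i + 1) = co j := co_congr (by omega)
  have hd : ss K (i + 1) ∣ co (i + 1) Z := hc ▸ (ss_dvd (by omega) (by omega)).trans hj.1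
  obtain ⟨h1, h2⟩ := h.full i (by omega) hi
  obtain ⟨h3, h4⟩ := h.full j hjk hj
  refine vw_inj (i := i) ?_
  unfold tileAt
  rw [vw_vw]
  refine Core.ext (h.dom i (by omega) hi hd) ?_ h2 h1 ?_ ?_
  · rw [vw_adj, Bool.eq_iff_iff, h.adj i (by omega) hi hd]
    simp only [decide_eq_true_eq]
    constructor
    · intro h5
      by_contra h6
      exact h5 (hc ▸ (ss_dvd (by omega) (by omega)).trans hj.1)
    · rintro rfl
      exact hj.2
  · rw [vw_ne hp, ac_congr (by omega : i % 2 = (j + 1) % 2)]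
    exact h4
  · rw [vw_ne hp]
    exact h3

/-- a low line crossed by a much higher line -/
theorem Known.high {k j : ℕ} {Z : Z2} {p : Core × ℤ} (h : Known K k Z p) (hr : Rule p.1)
    (hj : IsIdx K j Z) (hjk : j < k) (hh : ss K (j + 3) ∣ co (j + 1) Z) :
    vw j p.1 = ⟨true, false, LabAt K j (Z - ac (j + 1)), LabAt K j Z, (vw j p.1).Ab,
      (vw j p.1).Ab⟩ := by
  have hd : ss K (j + 1) ∣ co (j + 1) Z := (ss_dvd_add_two (j + 1)).trans hh
  obtain ⟨h1, h2⟩ := h.full j hjk hj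
  have h3 := h.dom j hjk.le hj hd
  have h4 : (vw j p.1).adj = false := by
    rw [vw_adj, ← Bool.not_eq_true, h.adj j hjk hj hd, not_not]
    exact hh
  exact Core.ext h3 h4 h2 h1 ((rule_vw.2 hr).full_col h3 h4) rfl

theorem tilesBasicAux_low (hK : Stab K) {i : ℕ} {Z : Z2} (hi : IsIdx K i Z)
    (hd : ss K (i + 1) ∣ co (i + 1) Z) :
    dg K (i - 1) (Z - ac (i + 1)) = (if i = K then 0 else nn (i - 1) - 1) ∧ dg K (i - 1) Z = 0 := by
  have h1 := hi.le
  have h2 := hK.2.1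
  have h3 : ss K (i - 1 + 2) ∣ co (i - 1) Z := by
    rw [co_congr (by omega : (i - 1) % 2 = (i + 1) % 2), show i - 1 + 2 = i + 1 by omega]
    exact hd
  refine ⟨?_, dg_eq_zero h3⟩
  split_ifs with h4
  · exact dg_of_lt (by omega) _
  · exact dg_sub_of_dvd (by omega) (by omega) h3

theorem tileAt_adj (hK : Stab K) {i : ℕ} {Z : Z2} (hi : IsIdx K i Z) (hj : IsIdx K (i + 1) Z) :
    tileAt K i (i + 1) Z = tAdj i (if i = K then 0 else nn (i - 1) - 1) (dg K i Z)
      (dg K (i + 1) Z) (dg K (i + 2) Z) := by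
  obtain ⟨h1, h2⟩ := tilesBasicAux_low hK hi hj.1
  have h3 : ¬ ss K (i + 2) ∣ co (i + 2) Z := by
    rw [co_congr (by omega : (i + 2) % 2 = i % 2)]; exact hi.2
  unfold tileAt tAdj LabAt
  rw [h1, h2, Nat.add_sub_cancel, dg_sub_ne (j := i) (by omega), hj.dg_sub rfl, hi.dg_sub rfl,
    dg_sub_ne (j := i + 1) (by omega), dg_sub_of_not_dvd (j := i + 1 + 1) (by omega) h3]
  simp only [decide_true]

theorem tileAt_gg (hK : Stab K) {i j : ℕ} {Z : Z2} (hi : IsIdx K i Z) (hj : IsIdx K j Z)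
    (hij : i + 3 ≤ j) (hp : i % 2 ≠ j % 2) :
    tileAt K i j Z = tGg i (if i = K then 0 else nn (i - 1) - 1) (dg K i Z) j
      (dg K (j - 1) Z) (dg K j Z) (dg K (j + 1) Z) := by
  have hc : co (i + 1) = co j := co_congr (by omega)
  have hd : ss K (i + 3) ∣ co (i + 1) Z := hc ▸ (ss_dvd (by omega) (by omega)).trans hj.1
  obtain ⟨h1, h2⟩ := tilesBasicAux_low hK hi ((ss_dvd_add_two (i + 1)).trans hd)
  have h3 : ∀ l, i + 2 ≤ l → l % 2 = i % 2 → ¬ ss K l ∣ co l Z := fun l h4 h5 h6 =>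
    hi.2 (co_congr h5 ▸ (ss_dvd h4 (by omega)).trans h6)
  have h4 := hi.le
  unfold tileAt tGg LabAt
  rw [h1, h2, dg_sub_ne (j := i) (by omega), dg_sub_of_dvd (j := i + 1) rfl (by omega) hd,
    dg_eq_zero (j := i + 1) hd, dg_sub_ne hp,
    dg_sub_of_not_dvd (j := j - 1) (by omega) (h3 _ (by omega) (by omega)),
    dg_sub_of_not_dvd (j := j + 1) (by omega) (h3 _ (by omega) (by omega)),
    decide_eq_false (by omega : ¬ j = i + 1)]

end Vale.Agent.P196
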